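import Vale.Agent.Helper22.SimpMoments

/-!
Behaviour of volume, moments, covariance and `det (Cov) / vol^2` under invertible affine maps
`t ↦ a + U t` of `Fin n → ℝ` (P254).
-/

namespace Vale.Agent.Helper22

open MeasureTheory Set

noncomputable section

variable {n : ℕ}

/-- The affine map `t ↦ a + U t`. -/
def affMap (a : Fin n → ℝ) (U : Matrix (Fin n) (Fin n) ℝ) : (Fin n → ℝ) → (Fin n → ℝ) :=
  fun t => a + U.mulVec t

lemma affMap_apply (a : Fin n → ℝ) (U : Matrix (Fin n) (Fin n) ℝ) (t : Fin n → ℝ) (i : Fin n) :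
    affMap a U t i = a i + ∑ k, U i k * t k := by
  simp [affMap, Matrix.mulVec, dotProduct]

lemma affMap_injective (a : Fin n → ℝ) {U : Matrix (Fin n) (Fin n) ℝ} (hU : U.det ≠ 0) :
    Function.Injective (affMap a U) := by
  intro s t h
  have h2 : U.mulVec s = U.mulVec t := add_left_cancel h
  have hinj : Function.Injective U.mulVec :=
    Matrix.mulVec_injective_iff_isUnit.2
      ((Matrix.isUnit_iff_isUnit_det U).2 (isUnit_iff_ne_zero.2 hU))
  exact hinj h2

lemma continuous_affMap (a : Fin n → ℝ) (U : Matrix (Fin n) (Fin n) ℝ) :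
    Continuous (affMap a U) := by
  refine continuous_pi fun i => ?_
  have e : (fun t => affMap a U t i) = fun t => a i + ∑ k, U i k * t k :=
    funext fun t => affMap_apply a U t i
  rw [e]
  exact continuous_const.add
    (continuous_finsetSum _ fun k _ => continuous_const.mul (continuous_apply k))

lemma integral_affImage (a : Fin n → ℝ) (U : Matrix (Fin n) (Fin n) ℝ) (hU : U.det ≠ 0)
    {S : Set (Fin n → ℝ)} (hS : MeasurableSet S) (G : (Fin n → ℝ) → ℝ) :
    ∫ x in affMap a U '' S, G x = |U.det| * ∫ t in S, G (affMap a U t) := by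
  have hd : ∀ x ∈ S, HasFDerivWithinAt (affMap a U)
      (LinearMap.toContinuousLinearMap (Matrix.toLin' U)) S x := by
    intro x _
    exact ((LinearMap.toContinuousLinearMap (Matrix.toLin' U)).hasFDerivWithinAt).const_add a
  rw [integral_image_eq_integral_abs_det_fderiv_smul volume hS hd (affMap_injective a hU).injOn G]
  have hdet : (LinearMap.toContinuousLinearMap (Matrix.toLin' U)).det = U.det := by
    simp [ContinuousLinearMap.det]
  simp only [hdet, smul_eq_mul]
  rw [integral_const_mul]

lemma intOn {S : Set (Fin n → ℝ)} (hS : IsCompact S) {f : (Fin n → ℝ) → ℝ} (hf : Continuous f) :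
    IntegrableOn f S := hf.continuousOn.integrableOn_compact hS

lemma vol_affImage (a : Fin n → ℝ) (U : Matrix (Fin n) (Fin n) ℝ) (hU : U.det ≠ 0)
    {S : Set (Fin n → ℝ)} (hS : MeasurableSet S) :
    vol (affMap a U '' S) = |U.det| * vol S := by
  rw [vol_eq_integral, vol_eq_integral, integral_affImage a U hU hS]

lemma integral_const_vol (S : Set (Fin n → ℝ)) (c : ℝ) : ∫ _t in S, c = c * vol S := by
  rw [vol_eq_integral, ← integral_const_mul]
  simp

lemma mom1_affImage (a : Fin n → ℝ) (U : Matrix (Fin n) (Fin n) ℝ) (hU : U.det ≠ 0)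
    {S : Set (Fin n → ℝ)} (hS : IsCompact S) (i : Fin n) :
    mom1 (affMap a U '' S) i = |U.det| * (a i * vol S + ∑ k, U i k * mom1 S k) := by
  unfold mom1
  rw [integral_affImage a U hU hS.measurableSet]
  congr 1
  simp_rw [affMap_apply]
  have i0 : IntegrableOn (fun _ : Fin n → ℝ => a i) S := intOn hS (by fun_prop)
  have i1 : IntegrableOn (fun t : Fin n → ℝ => ∑ k, U i k * t k) S := intOn hS (by fun_prop)
  have i2 : ∀ k : Fin n, IntegrableOn (fun t : Fin n → ℝ => U i k * t k) S :=
    fun k => intOn hS (by fun_prop)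
  rw [integral_add i0 i1, integral_finsetSum _ fun k _ => i2 k]
  simp_rw [integral_const_mul]
  rw [integral_const_vol]

lemma mom2_affImage (a : Fin n → ℝ) (U : Matrix (Fin n) (Fin n) ℝ) (hU : U.det ≠ 0)
    {S : Set (Fin n → ℝ)} (hS : IsCompact S) (i j : Fin n) :
    mom2 (affMap a U '' S) i j = |U.det| * (a i * a j * vol S + a i * ∑ l, U j l * mom1 S l +
      a j * ∑ k, U i k * mom1 S k + ∑ k, ∑ l, U i k * U j l * mom2 S k l) := by
  unfold mom2 mom1
  rw [integral_affImage a U hU hS.measurableSet]
  congr 1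
  have hpt : ∀ t : Fin n → ℝ, affMap a U t i * affMap a U t j =
      a i * a j + ∑ l, a i * (U j l * t l) + ∑ k, a j * (U i k * t k) +
        ∑ k, ∑ l, U i k * U j l * (t k * t l) := by
    intro t
    rw [affMap_apply, affMap_apply]
    have e : (∑ k, U i k * t k) * (∑ l, U j l * t l) =
        ∑ k, ∑ l, U i k * U j l * (t k * t l) := by
      rw [Finset.sum_mul_sum]
      exact Finset.sum_congr rfl fun k _ => Finset.sum_congr rfl fun l _ => by ring
    rw [← Finset.mul_sum, ← Finset.mul_sum, ← e]
    ring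
  simp_rw [hpt]
  have j0 : IntegrableOn (fun _ : Fin n → ℝ => a i * a j) S := intOn hS (by fun_prop)
  have j1 : IntegrableOn (fun t : Fin n → ℝ => ∑ l, a i * (U j l * t l)) S :=
    intOn hS (by fun_prop)
  have j2 : IntegrableOn (fun t : Fin n → ℝ => ∑ k, a j * (U i k * t k)) S :=
    intOn hS (by fun_prop)
  have j3 : IntegrableOn (fun t : Fin n → ℝ => ∑ k, ∑ l, U i k * U j l * (t k * t l)) S :=
    intOn hS (by fun_prop)
  have j01 : IntegrableOn (fun t : Fin n → ℝ => a i * a j + ∑ l, a i * (U j l * t l)) S :=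
    intOn hS (by fun_prop)
  have j012 : IntegrableOn (fun t : Fin n → ℝ => a i * a j + ∑ l, a i * (U j l * t l) +
      ∑ k, a j * (U i k * t k)) S := intOn hS (by fun_prop)
  have k1 : ∀ l : Fin n, IntegrableOn (fun t : Fin n → ℝ => a i * (U j l * t l)) S :=
    fun l => intOn hS (by fun_prop)
  have k2 : ∀ k : Fin n, IntegrableOn (fun t : Fin n → ℝ => a j * (U i k * t k)) S :=
    fun k => intOn hS (by fun_prop)
  have k3 : ∀ k : Fin n, IntegrableOn (fun t : Fin n → ℝ => ∑ l, U i k * U j l * (t k * t l)) S :=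
    fun k => intOn hS (by fun_prop)
  have k4 : ∀ k l : Fin n, IntegrableOn (fun t : Fin n → ℝ => U i k * U j l * (t k * t l)) S :=
    fun k l => intOn hS (by fun_prop)
  rw [integral_add j012 j3, integral_add j01 j2, integral_add j0 j1]
  rw [integral_finsetSum _ fun l _ => k1 l, integral_finsetSum _ fun k _ => k2 k,
    integral_finsetSum _ fun k _ => k3 k]
  have h3 : ∀ k : Fin n, ∫ t in S, ∑ l, U i k * U j l * (t k * t l) =
      ∑ l, U i k * U j l * ∫ t in S, t k * t l := by
    intro k
    rw [integral_finsetSum _ fun l _ => k4 k l]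
    exact Finset.sum_congr rfl fun l _ => integral_const_mul _ _
  simp_rw [h3, integral_const_mul]
  rw [integral_const_vol, ← Finset.mul_sum, ← Finset.mul_sum]
  ring

/-- `det (Cov) / vol^2` is invariant under invertible affine maps. -/
theorem isoRatio_affImage (a : Fin n → ℝ) (U : Matrix (Fin n) (Fin n) ℝ) (hU : U.det ≠ 0)
    {S : Set (Fin n → ℝ)} (hS : IsCompact S) :
    isoRatio (affMap a U '' S) = isoRatio S := by
  by_cases hv : vol S = 0
  · simp [isoRatio, vol_affImage a U hU hS.measurableSet, hv]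
  have hd : |U.det| ≠ 0 := abs_ne_zero.2 hU
  have hc : cov (affMap a U '' S) = U * cov S * U.transpose := by
    ext i j
    simp only [cov, centroid, mom1_affImage a U hU hS, mom2_affImage a U hU hS,
      vol_affImage a U hU hS.measurableSet, Matrix.mul_apply, Matrix.transpose_apply]
    set v := vol S with hvdef
    set X := ∑ k, U i k * mom1 S k with hX
    set Y := ∑ l, U j l * mom1 S l with hY
    set Z := ∑ k, ∑ l, U i k * U j l * mom2 S k l with hZ
    have hR : ∑ l, (∑ k, U i k * (mom2 S k l / v - mom1 S k / v * (mom1 S l / v))) * U j l =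
        Z / v - X / v * (Y / v) := by
      have h1 : ∀ l : Fin n, (∑ k, U i k * (mom2 S k l / v - mom1 S k / v * (mom1 S l / v))) * U j l =
          (∑ k, U i k * U j l * mom2 S k l) / v - X / v * (U j l * mom1 S l / v) := by
        intro l
        rw [hX, Finset.sum_mul, Finset.sum_div, Finset.sum_div, Finset.sum_mul, ← Finset.sum_sub_distrib]
        exact Finset.sum_congr rfl fun k _ => by ring
      simp_rw [h1]
      rw [Finset.sum_sub_distrib, ← Finset.sum_div, ← Finset.mul_sum, ← Finset.sum_div, hZ, hY,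
        Finset.sum_comm]
    rw [hR]
    field_simp
    ring
  unfold isoRatio
  rw [hc, Matrix.det_mul, Matrix.det_mul, Matrix.det_transpose, vol_affImage a U hU hS.measurableSet,
    mul_pow, sq_abs]
  field_simp

end

end Vale.Agent.Helper22
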