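import Vale.Agent.Helper22.InfHarm

/-!
Axially symmetric functions on a real Hilbert space: geometry of the meridian plane and the
transfer of viscosity subsolution inequalities to the planar profile (P080).
-/

open scoped Topology

namespace Vale.Agent.Helper22.InfHarm

/-- the Euclidean plane -/
abbrev E2 : Type := EuclideanSpace ℝ (Fin 2)

/-- first standard basis vector of the plane -/
noncomputable def b0 : E2 := EuclideanSpace.single (0 : Fin 2) (1 : ℝ)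

/-- second standard basis vector of the plane -/
noncomputable def b1 : E2 := EuclideanSpace.single (1 : Fin 2) (1 : ℝ)

theorem e2_decomp (q : E2) : q = q 0 • b0 + q 1 • b1 := by
  ext i
  fin_cases i <;> simp [b0, b1]

theorem e2_mk (x y : ℝ) : (!₂[x, y] : E2) = x • b0 + y • b1 := by
  ext i
  fin_cases i <;> simp [b0, b1]

theorem e2_coord0 (x y : ℝ) : (x • b0 + y • b1) 0 = x := by simp [b0, b1]

theorem e2_coord1 (x y : ℝ) : (x • b0 + y • b1) 1 = y := by simp [b0, b1]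

theorem e2_inner (q : E2) (x y : ℝ) : inner ℝ q (x • b0 + y • b1) = q 0 * x + q 1 * y := by
  simp [b0, b1, inner_add_right, inner_smul_right, EuclideanSpace.inner_single_right]
  ring

theorem b0_norm : ‖b0‖ = 1 := by simp [b0]

theorem b1_norm : ‖b1‖ = 1 := by simp [b1]

section Axial

variable {F : Type*} [NormedAddCommGroup F] [InnerProductSpace ℝ F]

/-- component of `x` orthogonal to the axis `ℝ a` -/
noncomputable def perp (a x : F) : F := x - inner ℝ a x • a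

/-- component of `x` orthogonal to the plane spanned by `a` and `e` -/
noncomputable def perp2 (a e x : F) : F := x - inner ℝ e x • e - inner ℝ a x • a

/-- the point of the meridian plane with planar coordinates `q` -/
noncomputable def lift (a e : F) (q : E2) : F := q 0 • e + q 1 • a

/-- planar coordinates of the projection to the meridian plane -/
noncomputable def Lc (a e : F) : F →L[ℝ] E2 :=
  (innerSL ℝ e).smulRight b0 + (innerSL ℝ a).smulRight b1

/-- projection to the axis, in planar coordinates -/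
noncomputable def La (a : F) : F →L[ℝ] E2 := (innerSL ℝ a).smulRight b1

theorem Lc_apply (a e x : F) : Lc a e x = inner ℝ e x • b0 + inner ℝ a x • b1 := by
  simp [Lc]

theorem La_apply (a x : F) : La a x = inner ℝ a x • b1 := by
  simp [La]

variable {a e : F}

theorem inner_self_one {v : F} (hv : ‖v‖ = 1) : inner ℝ v v = 1 := by
  rw [real_inner_self_eq_norm_sq, hv]; norm_num

theorem inner_a_perp (ha : ‖a‖ = 1) (x : F) : inner ℝ a (perp a x) = 0 := by
  unfold perp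
  rw [inner_sub_right, inner_smul_right, inner_self_one ha]
  ring

theorem inner_e_perp2 (he : ‖e‖ = 1) (hae : inner ℝ a e = 0) (x : F) :
    inner ℝ e (perp2 a e x) = 0 := by
  have hea : inner ℝ e a = 0 := by rw [real_inner_comm]; exact hae
  unfold perp2
  rw [inner_sub_right, inner_sub_right, inner_smul_right, inner_smul_right, inner_self_one he,
    hea]
  ring

theorem perp_eq (a e x : F) : perp a x = inner ℝ e x • e + perp2 a e x := by
  unfold perp perp2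
  abel

theorem perp_sq (he : ‖e‖ = 1) (hae : inner ℝ a e = 0) (x : F) :
    ‖perp a x‖ ^ 2 = (inner ℝ e x) ^ 2 + ‖perp2 a e x‖ ^ 2 := by
  rw [perp_eq a e x, norm_add_sq_real, inner_smul_left, inner_e_perp2 he hae, norm_smul, he]
  simp

theorem abs_inner_e_le (he : ‖e‖ = 1) (hae : inner ℝ a e = 0) (x : F) :
    |inner ℝ e x| ≤ ‖perp a x‖ := by
  apply abs_le_of_sq_le_sq _ (norm_nonneg _)
  rw [perp_sq he hae x]
  nlinarith [sq_nonneg ‖perp2 a e x‖]

theorem norm_sub_axis_sq (ha : ‖a‖ = 1) (x : F) (z₀ : ℝ) :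
    ‖x - z₀ • a‖ ^ 2 = (inner ℝ a x - z₀) ^ 2 + ‖perp a x‖ ^ 2 := by
  have h : x - z₀ • a = (inner ℝ a x - z₀) • a + perp a x := by
    unfold perp
    rw [sub_smul]
    abel
  rw [h, norm_add_sq_real, inner_smul_left, inner_a_perp ha, norm_smul, ha]
  simp

theorem inner_a_lift (ha : ‖a‖ = 1) (hae : inner ℝ a e = 0) (q : E2) :
    inner ℝ a (lift a e q) = q 1 := by
  unfold lift
  rw [inner_add_right, inner_smul_right, inner_smul_right, inner_self_one ha, hae]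
  ring

theorem inner_e_lift (he : ‖e‖ = 1) (hae : inner ℝ a e = 0) (q : E2) :
    inner ℝ e (lift a e q) = q 0 := by
  have hea : inner ℝ e a = 0 := by rw [real_inner_comm]; exact hae
  unfold lift
  rw [inner_add_right, inner_smul_right, inner_smul_right, inner_self_one he, hea]
  ring

theorem perp_lift (ha : ‖a‖ = 1) (hae : inner ℝ a e = 0) (q : E2) :
    perp a (lift a e q) = q 0 • e := by
  unfold perp
  rw [inner_a_lift ha hae]
  unfold lift
  abel

theorem perp2_lift (ha : ‖a‖ = 1) (he : ‖e‖ = 1) (hae : inner ℝ a e = 0) (q : E2) :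
    perp2 a e (lift a e q) = 0 := by
  unfold perp2
  rw [inner_a_lift ha hae, inner_e_lift he hae]
  unfold lift
  abel

theorem Lc_lift (ha : ‖a‖ = 1) (he : ‖e‖ = 1) (hae : inner ℝ a e = 0) (q : E2) :
    Lc a e (lift a e q) = q := by
  rw [Lc_apply, inner_a_lift ha hae, inner_e_lift he hae]
  exact (e2_decomp q).symm

theorem lift_add_smul (a e : F) (p q : E2) (t : ℝ) :
    lift a e (p + t • q) = lift a e p + t • lift a e q := by
  unfold lift
  simp only [PiLp.add_apply, PiLp.smul_apply, smul_eq_mul, add_smul, mul_smul, smul_add]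
  abel

theorem inner_lift (a e : F) (q : E2) (v : F) :
    inner ℝ (lift a e q) v = inner ℝ q (Lc a e v) := by
  rw [Lc_apply, e2_inner]
  unfold lift
  rw [inner_add_left, inner_smul_left, inner_smul_left]
  simp

theorem continuous_perp (a : F) : Continuous (perp a) := by
  unfold perp
  fun_prop

theorem continuous_perp2 (a e : F) : Continuous (perp2 a e) := by
  unfold perp2
  fun_prop

end Axial

section Transfer

variable {F : Type*} [NormedAddCommGroup F] [InnerProductSpace ℝ F]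
variable {a e : F}

/-- the planar point with coordinates `(σ ρ(x), z(x))` -/
noncomputable def npt (a : F) (σ : ℝ) (x : F) : E2 :=
  (σ * ‖perp a x‖) • b0 + inner ℝ a x • b1

theorem continuous_npt (a : F) (σ : ℝ) : Continuous (npt a σ) := by
  unfold npt perp
  fun_prop

theorem eventually_npt {σ : ℝ} {x₀ : F} {p : E2} (hx : npt a σ x₀ = p) {S : Set E2}
    (hS : S ∈ 𝓝 p) : ∀ᶠ x in 𝓝 x₀, npt a σ x ∈ S := by
  have h : Filter.Tendsto (npt a σ) (𝓝 x₀) (𝓝 p) := hx ▸ (continuous_npt a σ).tendsto x₀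
  exact h hS

theorem contDiff_perp (a : F) : ContDiff ℝ 2 (perp a) := by
  unfold perp
  exact contDiff_id.sub ((contDiff_const.inner ℝ contDiff_id).smul contDiff_const)

theorem contDiff_perp2 (a e : F) : ContDiff ℝ 2 (perp2 a e) := by
  unfold perp2
  exact (contDiff_id.sub ((contDiff_const.inner ℝ contDiff_id).smul contDiff_const)).sub
    ((contDiff_const.inner ℝ contDiff_id).smul contDiff_const)

theorem perp_axis (ha : ‖a‖ = 1) (c : ℝ) : perp a (c • a) = 0 := by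
  unfold perp
  rw [inner_smul_right, inner_self_one ha]
  simp

theorem inner_axis (ha : ‖a‖ = 1) (c : ℝ) : inner ℝ a (c • a) = c := by
  rw [inner_smul_right, inner_self_one ha]
  ring

theorem npt_axis (ha : ‖a‖ = 1) (p : E2) (hp0 : p 0 = 0) (σ : ℝ) : npt a σ (p 1 • a) = p := by
  unfold npt
  rw [perp_axis ha, inner_axis ha]
  conv_rhs => rw [e2_decomp p, hp0]
  simp

theorem axis_bound (ha : ‖a‖ = 1)
    (U : Set E2) (hU : IsOpen U) (w : ℝ → ℝ → ℝ) (hw : ∀ r z, w (-r) z = w r z)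
    (u : F → ℝ) (hu : ∀ x, !₂[‖perp a x‖, inner ℝ a x] ∈ U → u x = w ‖perp a x‖ (inner ℝ a x))
    (φ : E2 → ℝ) (p : E2) (hp : p ∈ U) (hp0 : p 0 = 0)
    (hmax : IsLocalMax (fun q : E2 => w (q 0) (q 1) - φ q) p)
    (δ K : ℝ) (hδ : 0 < δ)
    (htay : ∀ q₁ ∈ Metric.ball p δ, ∀ q₂ ∈ Metric.ball p δ,
        |φ q₂ - φ q₁ - fderiv ℝ φ q₁ (q₂ - q₁)| ≤ K * ‖q₂ - q₁‖ ^ 2) :
    ∀ᶠ x in 𝓝 (p 1 • a), u x ≤ (w (p 0) (p 1) - φ p) + φ (inner ℝ a x • b1)
      - ‖perp a x‖ * |fderiv ℝ φ (inner ℝ a x • b1) b0| + K * ‖perp a x‖ ^ 2 := by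
  have hn : ∀ σ : ℝ, npt a σ (p 1 • a) = p := npt_axis ha p hp0
  have hball : Metric.ball p δ ∈ 𝓝 p := Metric.ball_mem_nhds p hδ
  have hUn : U ∈ 𝓝 p := hU.mem_nhds hp
  have hmax' : {q : E2 | w (q 0) (q 1) - φ q ≤ w (p 0) (p 1) - φ p} ∈ 𝓝 p := hmax
  filter_upwards [eventually_npt (hn 1) hUn, eventually_npt (hn 1) hmax',
    eventually_npt (hn (-1)) hmax', eventually_npt (hn 1) hball, eventually_npt (hn (-1)) hball,
    eventually_npt (hn 0) hball] with x h1 h2 h3 h4 h5 h6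
  have hρ : 0 ≤ ‖perp a x‖ := norm_nonneg _
  have hmem : !₂[‖perp a x‖, inner ℝ a x] ∈ U := by
    rw [e2_mk]
    simpa [npt] using h1
  have hux : u x = w ‖perp a x‖ (inner ℝ a x) := hu x hmem
  have h2' : w ‖perp a x‖ (inner ℝ a x) - φ (npt a 1 x) ≤ w (p 0) (p 1) - φ p := by
    have := h2
    simp only [npt, e2_coord0, e2_coord1, one_mul] at this
    simpa [npt] using this
  have h3' : w ‖perp a x‖ (inner ℝ a x) - φ (npt a (-1) x) ≤ w (p 0) (p 1) - φ p := by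
    have := h3
    simp only [npt, e2_coord0, e2_coord1, neg_mul, one_mul] at this
    rw [hw] at this
    simpa [npt] using this
  have hn0 : npt a 0 x = inner ℝ a x • b1 := by simp [npt]
  have hd1 : npt a 1 x - npt a 0 x = ‖perp a x‖ • b0 := by simp [npt]
  have hd2 : npt a (-1) x - npt a 0 x = (-‖perp a x‖) • b0 := by simp [npt]
  have hnorm1 : ‖‖perp a x‖ • b0‖ = ‖perp a x‖ := by
    rw [norm_smul, b0_norm, Real.norm_eq_abs, abs_of_nonneg hρ, mul_one]
  have hnorm2 : ‖(-‖perp a x‖) • b0‖ = ‖perp a x‖ := by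
    rw [norm_smul, b0_norm, Real.norm_eq_abs, abs_neg, abs_of_nonneg hρ, mul_one]
  have t1 := htay (npt a 0 x) h6 (npt a 1 x) h4
  have t2 := htay (npt a 0 x) h6 (npt a (-1) x) h5
  rw [hd1, hnorm1, hn0, map_smul, smul_eq_mul] at t1
  rw [hd2, hnorm2, hn0, map_smul, smul_eq_mul] at t2
  have t1' := (abs_le.mp t1).2
  have t2' := (abs_le.mp t2).2
  rw [hux]
  rcases abs_cases (fderiv ℝ φ (inner ℝ a x • b1) b0) with ⟨hd, _⟩ | ⟨hd, _⟩
  · rw [hd]; linarith
  · rw [hd]; linarith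

theorem mem_axis (ha : ‖a‖ = 1) (U : Set E2) (p : E2) (hp : p ∈ U) (hp0 : p 0 = 0) :
    !₂[‖perp a (p 1 • a)‖, inner ℝ a (p 1 • a)] ∈ U := by
  rw [perp_axis ha, inner_axis ha, e2_mk]
  have : (‖(0 : F)‖ • b0 + p 1 • b1 : E2) = p := by
    conv_rhs => rw [e2_decomp p, hp0]
    simp
  rw [this]
  exact hp

variable [CompleteSpace F]

theorem axis_case (ha : ‖a‖ = 1) (hae : inner ℝ a e = 0)
    (U : Set E2) (hU : IsOpen U) (w : ℝ → ℝ → ℝ) (hw : ∀ r z, w (-r) z = w r z)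
    (u : F → ℝ) (hu : ∀ x, !₂[‖perp a x‖, inner ℝ a x] ∈ U → u x = w ‖perp a x‖ (inner ℝ a x))
    (hsub : ∀ (Ψ : F → ℝ) (x : F), !₂[‖perp a x‖, inner ℝ a x] ∈ U → ContDiffAt ℝ 2 Ψ x →
      IsLocalMax (fun y => u y - Ψ y) x → 0 ≤ infLap Ψ x)
    (φ : E2 → ℝ) (p : E2) (hp : p ∈ U) (hp0 : p 0 = 0) (hφ : ContDiffAt ℝ 2 φ p)
    (hmax : IsLocalMax (fun q : E2 => w (q 0) (q 1) - φ q) p)
    (hg0 : gradient φ p 0 = 0) : 0 ≤ infLap φ p := by
  obtain ⟨δ, hδ, K, hK, -, -, htay⟩ := exists_taylor_ball hφ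
  have hLa : La a (p 1 • a) = p := by
    rw [La_apply, inner_axis ha]
    conv_rhs => rw [e2_decomp p, hp0]
    simp
  have hx₀ : p 1 • a = lift a e p := by
    unfold lift
    rw [hp0]
    simp
  have hφ' : ContDiffAt ℝ 2 φ (La a (p 1 • a)) := by rw [hLa]; exact hφ
  have hR : ContDiffAt ℝ 2 (fun x : F => K * ‖perp a x‖ ^ 2) (p 1 • a) := by
    exact (contDiff_const.mul ((contDiff_perp a).norm_sq ℝ)).contDiffAt
  have hR0 : ∀ y : F, 0 ≤ K * ‖perp a y‖ ^ 2 := fun y => by positivity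
  have hgq : gradient φ p = gradient φ p 1 • b1 := by
    conv_lhs => rw [e2_decomp (gradient φ p), hg0]
    simp
  have hg1 : ∀ v, inner ℝ (lift a e (gradient φ p)) v
      = inner ℝ (gradient φ (La a (p 1 • a))) (La a v) := by
    intro v
    rw [hLa, inner_lift, Lc_apply, La_apply, e2_inner]
    have : (inner ℝ a v • b1 : E2) = (0 : ℝ) • b0 + inner ℝ a v • b1 := by simp
    rw [this, e2_inner, hg0]
    ring
  have hg2 : La a (lift a e (gradient φ p)) = gradient φ (La a (p 1 • a)) := by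
    rw [hLa, La_apply, inner_a_lift ha hae]
    exact hgq.symm
  have hg3 : ∀ t : ℝ, K * ‖perp a (p 1 • a + t • lift a e (gradient φ p))‖ ^ 2 = 0 := by
    intro t
    rw [hx₀, ← lift_add_smul, perp_lift ha hae]
    simp [hp0, hg0]
  obtain ⟨hΨC, hΨL⟩ := comp_test (La a) (fun x : F => K * ‖perp a x‖ ^ 2) (p 1 • a) φ hφ' hR hR0
    (lift a e (gradient φ p)) hg1 hg2 hg3
  rw [hLa] at hΨL
  rw [← hΨL]
  apply hsub _ (p 1 • a) (mem_axis ha U p hp hp0) hΨC
  have hux₀ : u (p 1 • a) = w (p 0) (p 1) := by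
    rw [hu _ (mem_axis ha U p hp hp0), perp_axis ha, inner_axis ha, hp0]
    simp
  filter_upwards [axis_bound ha U hU w hw u hu φ p hp hp0 hmax δ K hδ htay] with x hx
  show u x - (φ (La a x) + K * ‖perp a x‖ ^ 2)
    ≤ u (p 1 • a) - (φ (La a (p 1 • a)) + K * ‖perp a (p 1 • a)‖ ^ 2)
  rw [hux₀, hLa, perp_axis ha, La_apply]
  have h1 : 0 ≤ ‖perp a x‖ * |fderiv ℝ φ (inner ℝ a x • b1) b0| := by positivity
  simp only [norm_zero]
  linarith

theorem axis_arith (ux β φp φq ρ D K ζ φz lam s M c : ℝ)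
    (h1 : ux ≤ (β - φp) + φq - ρ * D + K * ρ ^ 2)
    (h2 : φq - φp - ζ * φz ≤ K * ζ ^ 2)
    (h3 : M * lam ^ 2 * s ^ 2 ≤ c / 4 * ρ)
    (h4 : - (c / 4 * ρ) ≤ lam * s)
    (h5 : ρ * (3 * c / 4) ≤ ρ * D)
    (h6 : 0 ≤ ρ * c) :
    ux - (β + (φz * ζ + lam * s) - M * lam ^ 2 * s ^ 2 + K * (ζ ^ 2 + ρ ^ 2)) ≤ β - β := by
  linarith

theorem axis_grad_zero (ha : ‖a‖ = 1) (he : ‖e‖ = 1) (hae : inner ℝ a e = 0)
    (U : Set E2) (hU : IsOpen U) (w : ℝ → ℝ → ℝ) (hw : ∀ r z, w (-r) z = w r z)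
    (u : F → ℝ) (hu : ∀ x, !₂[‖perp a x‖, inner ℝ a x] ∈ U → u x = w ‖perp a x‖ (inner ℝ a x))
    (hsub : ∀ (Ψ : F → ℝ) (x : F), !₂[‖perp a x‖, inner ℝ a x] ∈ U → ContDiffAt ℝ 2 Ψ x →
      IsLocalMax (fun y => u y - Ψ y) x → 0 ≤ infLap Ψ x)
    (φ : E2 → ℝ) (p : E2) (hp : p ∈ U) (hp0 : p 0 = 0) (hφ : ContDiffAt ℝ 2 φ p)
    (hmax : IsLocalMax (fun q : E2 => w (q 0) (q 1) - φ q) p) :
    gradient φ p 0 = 0 := by
  by_contra hc
  obtain ⟨δ, hδ, K, hK, -, hlip, htay⟩ := exists_taylor_ball hφ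
  have hea : inner ℝ e a = 0 := by rw [real_inner_comm]; exact hae
  have hφd : DifferentiableAt ℝ φ p := hφ.differentiableAt (by norm_num)
  have hfb0 : fderiv ℝ φ p b0 = gradient φ p 0 := by
    rw [← inner_gradient_eq_fderiv hφd]
    have : (b0 : E2) = (1 : ℝ) • b0 + (0 : ℝ) • b1 := by simp
    rw [this, e2_inner]
    ring
  have hfb1 : fderiv ℝ φ p b1 = gradient φ p 1 := by
    rw [← inner_gradient_eq_fderiv hφd]
    have : (b1 : E2) = (0 : ℝ) • b0 + (1 : ℝ) • b1 := by simp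
    rw [this, e2_inner]
    ring
  have hc₀pos : 0 < |gradient φ p 0| := abs_pos.mpr hc
  obtain ⟨lam, hlam⟩ : ∃ lam : ℝ, lam = |gradient φ p 0| / 4 := ⟨_, rfl⟩
  have hlampos : 0 < lam := by rw [hlam]; positivity
  obtain ⟨M, hM⟩ : ∃ M : ℝ, M = (K * ((gradient φ p 1) ^ 2 + lam ^ 2) + 1) / lam ^ 4 := ⟨_, rfl⟩
  have hMpos : 0 < M := by rw [hM]; positivity
  have hMl : M * lam ^ 4 = K * ((gradient φ p 1) ^ 2 + lam ^ 2) + 1 := by
    rw [hM]; field_simp
  obtain ⟨g, hg⟩ : ∃ g : F, g = gradient φ p 1 • a + lam • e := ⟨_, rfl⟩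
  have hinner_eg : inner ℝ e g = lam := by
    rw [hg, inner_add_right, inner_smul_right, inner_smul_right, hea, inner_self_one he]
    ring
  have hnormg : ‖g‖ ^ 2 = (gradient φ p 1) ^ 2 + lam ^ 2 := by
    rw [hg, norm_add_sq_real, inner_smul_left, inner_smul_right, hae, norm_smul, norm_smul, ha, he]
    simp
  obtain ⟨hC, hβ, hL⟩ := quad_test (w (p 0) (p 1)) (M * lam ^ 2) K g e (p 1 • a)
  have hneg : infLap (qtest (w (p 0) (p 1)) (M * lam ^ 2) K g e (p 1 • a)) (p 1 • a) < 0 := by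
    rw [hL, hinner_eg, hnormg]
    nlinarith
  have hnn := hsub _ (p 1 • a) (mem_axis ha U p hp hp0) hC.contDiffAt ?_
  · linarith
  have hux₀ : u (p 1 • a) = w (p 0) (p 1) := by
    rw [hu _ (mem_axis ha U p hp hp0), perp_axis ha, inner_axis ha, hp0]
    simp
  have hball : Metric.ball p δ ∈ 𝓝 p := Metric.ball_mem_nhds p hδ
  have e3 : ∀ᶠ x in 𝓝 (p 1 • a), K * |inner ℝ a x - p 1| < |gradient φ p 0| / 4 := by
    have hcont : ContinuousAt (fun x : F => K * |inner ℝ a x - p 1|) (p 1 • a) := by fun_prop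
    have hval : K * |inner ℝ a (p 1 • a) - p 1| < |gradient φ p 0| / 4 := by
      rw [inner_axis ha]
      simp
      positivity
    exact hcont.eventually_lt continuousAt_const hval
  have e4 : ∀ᶠ x in 𝓝 (p 1 • a), M * lam ^ 2 * ‖perp a x‖ < |gradient φ p 0| / 4 := by
    have hcont : ContinuousAt (fun x : F => M * lam ^ 2 * ‖perp a x‖) (p 1 • a) := by
      have := continuous_perp a
      fun_prop
    have hval : M * lam ^ 2 * ‖perp a (p 1 • a)‖ < |gradient φ p 0| / 4 := by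
      rw [perp_axis ha]
      simp
      positivity
    exact hcont.eventually_lt continuousAt_const hval
  filter_upwards [axis_bound ha U hU w hw u hu φ p hp hp0 hmax δ K hδ htay,
    eventually_npt (npt_axis ha p hp0 0) hball, e3, e4] with x hx h6 h7 h8
  show u x - qtest (w (p 0) (p 1)) (M * lam ^ 2) K g e (p 1 • a) x
    ≤ u (p 1 • a) - qtest (w (p 0) (p 1)) (M * lam ^ 2) K g e (p 1 • a) (p 1 • a)
  rw [hux₀, hβ]
  have hn0 : npt a 0 x = inner ℝ a x • b1 := by simp [npt]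
  rw [hn0] at h6
  have hpmem : p ∈ Metric.ball p δ := Metric.mem_ball_self hδ
  have hsub1 : inner ℝ a x • b1 - p = (inner ℝ a x - p 1) • b1 := by
    conv_lhs => rw [e2_decomp p, hp0]
    simp [sub_smul]
  have hnormζ : ‖(inner ℝ a x - p 1) • b1‖ = |inner ℝ a x - p 1| := by
    rw [norm_smul, b1_norm, Real.norm_eq_abs, mul_one]
  have t3 := htay p hpmem (inner ℝ a x • b1) h6
  rw [hsub1, hnormζ, map_smul, smul_eq_mul, hfb1, sq_abs] at t3
  have t4 := hlip p hpmem (inner ℝ a x • b1) h6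
  rw [hsub1, hnormζ] at t4
  have t5 : |fderiv ℝ φ (inner ℝ a x • b1) b0 - gradient φ p 0| ≤ K * |inner ℝ a x - p 1| := by
    have := (fderiv ℝ φ (inner ℝ a x • b1) - fderiv ℝ φ p).le_opNorm b0
    rw [b0_norm, mul_one, sub_apply, hfb0, Real.norm_eq_abs] at this
    exact this.trans t4
  have hd : 3 * |gradient φ p 0| / 4 ≤ |fderiv ℝ φ (inner ℝ a x • b1) b0| := by
    have := abs_sub_abs_le_abs_sub (gradient φ p 0) (fderiv ℝ φ (inner ℝ a x • b1) b0)
    rw [abs_sub_comm] at this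
    linarith
  have hs : |inner ℝ e x| ≤ ‖perp a x‖ := abs_inner_e_le he hae x
  have hρ : 0 ≤ ‖perp a x‖ := norm_nonneg _
  have hq : qtest (w (p 0) (p 1)) (M * lam ^ 2) K g e (p 1 • a) x
      = w (p 0) (p 1) + (gradient φ p 1 * (inner ℝ a x - p 1) + lam * inner ℝ e x)
        - M * lam ^ 2 * (inner ℝ e x) ^ 2
        + K * ((inner ℝ a x - p 1) ^ 2 + ‖perp a x‖ ^ 2) := by
    unfold qtest
    rw [norm_sub_axis_sq ha, hg, inner_add_left, inner_smul_left, inner_smul_left,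
      inner_sub_right, inner_sub_right, inner_axis ha, inner_smul_right, hea]
    simp
  rw [hq]
  have h9 : M * lam ^ 2 * (inner ℝ e x) ^ 2 ≤ |gradient φ p 0| / 4 * ‖perp a x‖ := by
    have h : (inner ℝ e x) ^ 2 ≤ ‖perp a x‖ ^ 2 := by
      rw [← sq_abs (inner ℝ e x)]
      exact pow_le_pow_left₀ (abs_nonneg _) hs 2
    calc M * lam ^ 2 * (inner ℝ e x) ^ 2 ≤ M * lam ^ 2 * ‖perp a x‖ ^ 2 := by gcongr
      _ = (M * lam ^ 2 * ‖perp a x‖) * ‖perp a x‖ := by ring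
      _ ≤ |gradient φ p 0| / 4 * ‖perp a x‖ := by gcongr
  have h10 : - (lam * ‖perp a x‖) ≤ lam * inner ℝ e x := by
    have := neg_abs_le (inner ℝ e x)
    nlinarith
  have h11 : ‖perp a x‖ * (3 * |gradient φ p 0| / 4)
      ≤ ‖perp a x‖ * |fderiv ℝ φ (inner ℝ a x • b1) b0| := by gcongr
  have t3' := (abs_le.mp t3).2
  have h12 : 0 ≤ ‖perp a x‖ * |gradient φ p 0| := by positivity
  have h10' : - (|gradient φ p 0| / 4 * ‖perp a x‖) ≤ lam * inner ℝ e x := by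
    rw [← hlam]; exact h10
  exact axis_arith _ _ _ _ _ _ _ _ _ _ _ _ _ hx t3' h9 h10' h11 h12

theorem offaxis_arith (σ ρ s κ P : ℝ) (hσ : σ = 1 ∨ σ = -1) (hρ : 0 ≤ ρ) (hP : 0 < P)
    (hsq : ρ ^ 2 = s ^ 2 + κ ^ 2) (h : P / 2 ≤ σ * s) : |σ * ρ - s| * (P / 2) ≤ κ ^ 2 := by
  rcases hσ with rfl | rfl
  · have h1 : 0 ≤ ρ - s := by
      by_contra hneg
      have : (ρ - s) * (ρ + s) < 0 := mul_neg_of_neg_of_pos (not_le.mp hneg) (by linarith)
      nlinarith [sq_nonneg κ]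
    rw [one_mul, abs_of_nonneg h1]
    nlinarith
  · have h1 : 0 ≤ ρ + s := by
      by_contra hneg
      have : (ρ + s) * (ρ - s) < 0 := mul_neg_of_neg_of_pos (not_le.mp hneg) (by linarith)
      nlinarith [sq_nonneg κ]
    have h2 : -1 * ρ - s = -(ρ + s) := by ring
    rw [h2, abs_neg, abs_of_nonneg h1]
    nlinarith

theorem offaxis_arith2 (K₁ A P κ2 C : ℝ) (hK : 0 ≤ K₁) (hP : 0 < P) (hC : C = 2 * K₁ / P)
    (key : A * (P / 2) ≤ κ2) : K₁ * A ≤ C * κ2 := by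
  rw [hC]
  have h : K₁ * A = 2 * K₁ / P * (A * (P / 2)) := by field_simp
  rw [h]
  gcongr

theorem offaxis_arith3 (ux W φn φL Cκ KA c φp : ℝ) (h1 : ux = W) (h2 : W - φn ≤ c - φp)
    (h3 : φn - φL ≤ KA) (h4 : KA ≤ Cκ) : ux - (φL + Cκ) ≤ c - (φp + 0) := by
  linarith

theorem offaxis_case (ha : ‖a‖ = 1) (he : ‖e‖ = 1) (hae : inner ℝ a e = 0)
    (U : Set E2) (hU : IsOpen U) (hUsym : ∀ p ∈ U, !₂[-(p 0), p 1] ∈ U)
    (w : ℝ → ℝ → ℝ) (hw : ∀ r z, w (-r) z = w r z)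
    (u : F → ℝ) (hu : ∀ x, !₂[‖perp a x‖, inner ℝ a x] ∈ U → u x = w ‖perp a x‖ (inner ℝ a x))
    (hsub : ∀ (Ψ : F → ℝ) (x : F), !₂[‖perp a x‖, inner ℝ a x] ∈ U → ContDiffAt ℝ 2 Ψ x →
      IsLocalMax (fun y => u y - Ψ y) x → 0 ≤ infLap Ψ x)
    (φ : E2 → ℝ) (p : E2) (hp : p ∈ U) (hp0 : p 0 ≠ 0) (hφ : ContDiffAt ℝ 2 φ p)
    (hmax : IsLocalMax (fun q : E2 => w (q 0) (q 1) - φ q) p) : 0 ≤ infLap φ p := by
  obtain ⟨K₁, t, ht, hLip⟩ :=
    (hφ.of_le (by norm_num) : ContDiffAt ℝ 1 φ p).exists_lipschitzOnWith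
  have hp0pos : 0 < |p 0| := abs_pos.mpr hp0
  obtain ⟨C, hCdef⟩ : ∃ C : ℝ, C = 2 * (K₁ : ℝ) / |p 0| := ⟨_, rfl⟩
  have hCnn : 0 ≤ C := by rw [hCdef]; positivity
  have hLc : Lc a e (lift a e p) = p := Lc_lift ha he hae p
  have hφ' : ContDiffAt ℝ 2 φ (Lc a e (lift a e p)) := by rw [hLc]; exact hφ
  have hR : ContDiffAt ℝ 2 (fun x : F => C * ‖perp2 a e x‖ ^ 2) (lift a e p) :=
    (contDiff_const.mul ((contDiff_perp2 a e).norm_sq ℝ)).contDiffAt
  have hR0 : ∀ y : F, 0 ≤ C * ‖perp2 a e y‖ ^ 2 := fun y => by positivity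
  have hg1 : ∀ v, inner ℝ (lift a e (gradient φ p)) v
      = inner ℝ (gradient φ (Lc a e (lift a e p))) (Lc a e v) := by
    intro v
    rw [hLc, inner_lift]
  have hg2 : Lc a e (lift a e (gradient φ p)) = gradient φ (Lc a e (lift a e p)) := by
    rw [hLc, Lc_lift ha he hae]
  have hg3 : ∀ t : ℝ, C * ‖perp2 a e (lift a e p + t • lift a e (gradient φ p))‖ ^ 2 = 0 := by
    intro t
    rw [← lift_add_smul, perp2_lift ha he hae]
    simp
  obtain ⟨hΨC, hΨL⟩ := comp_test (Lc a e) (fun x : F => C * ‖perp2 a e x‖ ^ 2) (lift a e p) φ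
    hφ' hR hR0 (lift a e (gradient φ p)) hg1 hg2 hg3
  rw [hLc] at hΨL
  rw [← hΨL]
  obtain ⟨σ, hσ, hσp⟩ : ∃ σ : ℝ, (σ = 1 ∨ σ = -1) ∧ σ * p 0 = |p 0| := by
    rcases lt_or_gt_of_ne hp0 with h | h
    · exact ⟨-1, Or.inr rfl, by rw [abs_of_neg h]; ring⟩
    · exact ⟨1, Or.inl rfl, by rw [abs_of_pos h]; ring⟩
  have hσ2 : σ * σ = 1 := by rcases hσ with h | h <;> rw [h] <;> norm_num
  have hσabs : σ * |p 0| = p 0 := by
    rw [← hσp, ← mul_assoc, hσ2, one_mul]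
  have hperp₀ : ‖perp a (lift a e p)‖ = |p 0| := by
    rw [perp_lift ha hae, norm_smul, he, Real.norm_eq_abs, mul_one]
  have hin₀ : inner ℝ a (lift a e p) = p 1 := inner_a_lift ha hae p
  have hnσ : npt a σ (lift a e p) = p := by
    unfold npt
    rw [hperp₀, hin₀, hσabs]
    exact (e2_decomp p).symm
  have hmem₀ : !₂[‖perp a (lift a e p)‖, inner ℝ a (lift a e p)] ∈ U := by
    rw [hperp₀, hin₀]
    rcases lt_or_gt_of_ne hp0 with h | h
    · rw [abs_of_neg h]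
      exact hUsym p hp
    · rw [abs_of_pos h]
      have : (!₂[p 0, p 1] : E2) = p := by
        rw [e2_mk]
        exact (e2_decomp p).symm
      rw [this]
      exact hp
  have hn1 : npt a 1 (lift a e p) = !₂[‖perp a (lift a e p)‖, inner ℝ a (lift a e p)] := by
    rw [e2_mk]
    simp [npt]
  apply hsub _ (lift a e p) hmem₀ hΨC
  have hux₀ : u (lift a e p) = w (p 0) (p 1) := by
    rw [hu _ hmem₀, hperp₀, hin₀]
    rcases lt_or_gt_of_ne hp0 with h | h
    · rw [abs_of_neg h, hw]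
    · rw [abs_of_pos h]
  have hmax' : {q : E2 | w (q 0) (q 1) - φ q ≤ w (p 0) (p 1) - φ p} ∈ 𝓝 p := hmax
  have hUn : U ∈ 𝓝 (npt a 1 (lift a e p)) := by
    rw [hn1]
    exact hU.mem_nhds hmem₀
  have eLc : ∀ᶠ x in 𝓝 (lift a e p), Lc a e x ∈ t := by
    have h : Filter.Tendsto (Lc a e) (𝓝 (lift a e p)) (𝓝 (Lc a e (lift a e p))) :=
      (Lc a e).continuous.tendsto _
    rw [hLc] at h
    exact h ht
  have es : ∀ᶠ x in 𝓝 (lift a e p), |p 0| / 2 < σ * inner ℝ e x := by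
    have hcont : ContinuousAt (fun x : F => σ * inner ℝ e x) (lift a e p) := by fun_prop
    have hval : |p 0| / 2 < σ * inner ℝ e (lift a e p) := by
      rw [inner_e_lift he hae, hσp]
      linarith
    exact continuousAt_const.eventually_lt hcont hval
  filter_upwards [eventually_npt rfl hUn, eventually_npt hnσ hmax', eventually_npt hnσ ht,
    eLc, es] with x h1 h2 h3 h4 h5
  show u x - (φ (Lc a e x) + C * ‖perp2 a e x‖ ^ 2)
    ≤ u (lift a e p) - (φ (Lc a e (lift a e p)) + C * ‖perp2 a e (lift a e p)‖ ^ 2)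
  rw [hux₀, hLc, perp2_lift ha he hae]
  have hmem : !₂[‖perp a x‖, inner ℝ a x] ∈ U := by
    rw [e2_mk]
    simpa [npt] using h1
  have hux : u x = w (σ * ‖perp a x‖) (inner ℝ a x) := by
    rw [hu x hmem]
    rcases hσ with h | h
    · rw [h, one_mul]
    · rw [h, neg_one_mul, hw]
  have h2' : w (σ * ‖perp a x‖) (inner ℝ a x) - φ (npt a σ x) ≤ w (p 0) (p 1) - φ p := by
    have := h2
    simp only [npt, e2_coord0, e2_coord1] at this
    simpa [npt] using this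
  have hdist : dist (npt a σ x) (Lc a e x) = |σ * ‖perp a x‖ - inner ℝ e x| := by
    rw [dist_eq_norm, Lc_apply]
    have : npt a σ x - (inner ℝ e x • b0 + inner ℝ a x • b1)
        = (σ * ‖perp a x‖ - inner ℝ e x) • b0 := by
      unfold npt
      rw [sub_smul]
      abel
    rw [this, norm_smul, b0_norm, Real.norm_eq_abs, mul_one]
  have hl := hLip.dist_le_mul _ h3 _ h4
  rw [hdist, Real.dist_eq] at hl
  have hl' := (abs_le.mp hl).2
  have key : |σ * ‖perp a x‖ - inner ℝ e x| * (|p 0| / 2) ≤ ‖perp2 a e x‖ ^ 2 :=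
    offaxis_arith σ ‖perp a x‖ (inner ℝ e x) ‖perp2 a e x‖ (|p 0|) hσ (norm_nonneg _) hp0pos
      (perp_sq he hae x) h5.le
  have hfin : (K₁ : ℝ) * |σ * ‖perp a x‖ - inner ℝ e x| ≤ C * ‖perp2 a e x‖ ^ 2 :=
    offaxis_arith2 _ _ _ _ _ K₁.coe_nonneg hp0pos hCdef key
  have hz : C * ‖(0 : F)‖ ^ 2 = 0 := by simp
  rw [hz]
  exact offaxis_arith3 _ _ _ _ _ _ _ _ hux h2' hl' hfin

theorem lift_mem (ha : ‖a‖ = 1) (he : ‖e‖ = 1) (hae : inner ℝ a e = 0)
    (U : Set E2) (hUsym : ∀ p ∈ U, !₂[-(p 0), p 1] ∈ U) (p : E2) (hp : p ∈ U) :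
    !₂[‖perp a (lift a e p)‖, inner ℝ a (lift a e p)] ∈ U := by
  have hperp₀ : ‖perp a (lift a e p)‖ = |p 0| := by
    rw [perp_lift ha hae, norm_smul, he, Real.norm_eq_abs, mul_one]
  rw [hperp₀, inner_a_lift ha hae]
  rcases lt_or_ge (p 0) 0 with h | h
  · rw [abs_of_neg h]
    exact hUsym p hp
  · rw [abs_of_nonneg h]
    have : (!₂[p 0, p 1] : E2) = p := by
      rw [e2_mk]
      exact (e2_decomp p).symm
    rw [this]
    exact hp

theorem u_lift (ha : ‖a‖ = 1) (he : ‖e‖ = 1) (hae : inner ℝ a e = 0)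
    (U : Set E2) (hUsym : ∀ p ∈ U, !₂[-(p 0), p 1] ∈ U)
    (w : ℝ → ℝ → ℝ) (hw : ∀ r z, w (-r) z = w r z)
    (u : F → ℝ) (hu : ∀ x, !₂[‖perp a x‖, inner ℝ a x] ∈ U → u x = w ‖perp a x‖ (inner ℝ a x))
    (p : E2) (hp : p ∈ U) : u (lift a e p) = w (p 0) (p 1) := by
  have hperp₀ : ‖perp a (lift a e p)‖ = |p 0| := by
    rw [perp_lift ha hae, norm_smul, he, Real.norm_eq_abs, mul_one]
  rw [hu _ (lift_mem ha he hae U hUsym p hp), hperp₀, inner_a_lift ha hae]
  rcases lt_or_ge (p 0) 0 with h | h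
  · rw [abs_of_neg h, hw]
  · rw [abs_of_nonneg h]

theorem continuous_lift (a e : F) : Continuous (lift a e) := by
  unfold lift
  fun_prop

/-- transfer of the viscosity subsolution inequality from an axially symmetric function to its
planar profile -/
theorem sub_transfer (ha : ‖a‖ = 1) (he : ‖e‖ = 1) (hae : inner ℝ a e = 0)
    (U : Set E2) (hU : IsOpen U) (hUsym : ∀ p ∈ U, !₂[-(p 0), p 1] ∈ U)
    (w : ℝ → ℝ → ℝ) (hw : ∀ r z, w (-r) z = w r z)
    (u : F → ℝ) (hu : ∀ x, !₂[‖perp a x‖, inner ℝ a x] ∈ U → u x = w ‖perp a x‖ (inner ℝ a x))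
    (hsub : ∀ (Ψ : F → ℝ) (x : F), !₂[‖perp a x‖, inner ℝ a x] ∈ U → ContDiffAt ℝ 2 Ψ x →
      IsLocalMax (fun y => u y - Ψ y) x → 0 ≤ infLap Ψ x)
    (φ : E2 → ℝ) (p : E2) (hp : p ∈ U) (hφ : ContDiffAt ℝ 2 φ p)
    (hmax : IsLocalMax (fun q : E2 => w (q 0) (q 1) - φ q) p) : 0 ≤ infLap φ p := by
  by_cases hp0 : p 0 = 0
  · exact axis_case ha hae U hU w hw u hu hsub φ p hp hp0 hφ hmax
      (axis_grad_zero ha he hae U hU w hw u hu hsub φ p hp hp0 hφ hmax)
  · exact offaxis_case ha he hae U hU hUsym w hw u hu hsub φ p hp hp0 hφ hmax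

end Transfer


end Vale.Agent.Helper22.InfHarm
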