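import Mathlib

/-!
Real-number inequalities used for the sharp profile theorem: a numerical inequality, the
comparison of `p ^ (1 + 2 / m)` with a linear function on `[1/2, (m + 1) / (m + 2)]` (in
polynomial form), and a weighted arithmetic-geometric mean inequality.
-/

namespace Vale.Agent.Helper22

noncomputable section

lemma exp_four_thirds_lt : Real.exp (4 / 3) < 3.8 := by
  by_contra hcon
  have hge : (3.8 : ℝ) ≤ Real.exp (4 / 3) := not_lt.1 hcon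
  have h3 : (3.8 : ℝ) ^ 3 ≤ Real.exp (4 / 3) ^ 3 := pow_le_pow_left₀ (by norm_num) hge 3
  have e3 : Real.exp (4 / 3) ^ 3 = Real.exp 1 ^ 4 := by
    rw [← Real.exp_nat_mul, ← Real.exp_nat_mul]
    congr 1
    norm_num
  rw [e3] at h3
  have h1 := Real.exp_one_lt_d9
  have h0 : 0 < Real.exp 1 := Real.exp_pos 1
  have h4 : Real.exp 1 ^ 4 < (2.7182818286 : ℝ) ^ 4 := pow_lt_pow_left₀ h1 h0.le (by norm_num)
  norm_num at h3 h4
  linarith

lemma K_ineq (m : ℕ) :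
    ((m : ℝ) + 2) ^ 2 * (3 * (m : ℝ) + 9) ^ m ≤ 4 * ((m : ℝ) + 1) ^ 2 * (3 * (m : ℝ) + 5) ^ m := by
  rcases lt_or_ge m 40 with hlt | hge
  · interval_cases m <;> norm_num
  · have hm : (40 : ℝ) ≤ (m : ℝ) := by exact_mod_cast hge
    have hx : (0 : ℝ) < 3 * (m : ℝ) + 5 := by positivity
    have h1 : (3 * (m : ℝ) + 9) / (3 * (m : ℝ) + 5) ≤ Real.exp (4 / (3 * (m : ℝ) + 5)) := by
      have := Real.add_one_le_exp (4 / (3 * (m : ℝ) + 5))
      have e : (3 * (m : ℝ) + 9) / (3 * (m : ℝ) + 5) = 4 / (3 * (m : ℝ) + 5) + 1 := by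
        field_simp
        ring
      rw [e]; exact this
    have h2 : ((3 * (m : ℝ) + 9) / (3 * (m : ℝ) + 5)) ^ m ≤
        Real.exp (4 / (3 * (m : ℝ) + 5)) ^ m := pow_le_pow_left₀ (by positivity) h1 m
    have h3 : Real.exp (4 / (3 * (m : ℝ) + 5)) ^ m ≤ Real.exp (4 / 3) := by
      rw [← Real.exp_nat_mul]
      apply Real.exp_le_exp.2
      rw [mul_div_assoc', div_le_div_iff₀ hx (by norm_num)]
      nlinarith
    have h4 : ((3 * (m : ℝ) + 9) / (3 * (m : ℝ) + 5)) ^ m ≤ 3.8 :=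
      le_trans (le_trans h2 h3) exp_four_thirds_lt.le
    have h5 : (3 * (m : ℝ) + 9) ^ m ≤ 3.8 * (3 * (m : ℝ) + 5) ^ m := by
      rw [div_pow, div_le_iff₀ (pow_pos hx m)] at h4
      exact h4
    have h6 : 3.8 * ((m : ℝ) + 2) ^ 2 ≤ 4 * ((m : ℝ) + 1) ^ 2 := by nlinarith
    have hp : (0 : ℝ) ≤ (3 * (m : ℝ) + 5) ^ m := by positivity
    calc ((m : ℝ) + 2) ^ 2 * (3 * (m : ℝ) + 9) ^ m
        ≤ ((m : ℝ) + 2) ^ 2 * (3.8 * (3 * (m : ℝ) + 5) ^ m) :=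
          mul_le_mul_of_nonneg_left h5 (by positivity)
      _ = (3.8 * ((m : ℝ) + 2) ^ 2) * (3 * (m : ℝ) + 5) ^ m := by ring
      _ ≤ (4 * ((m : ℝ) + 1) ^ 2) * (3 * (m : ℝ) + 5) ^ m := mul_le_mul_of_nonneg_right h6 hp

/-- Weighted arithmetic-geometric mean inequality `a b^m ≤ ((a + m b) / (m + 1))^(m + 1)`. -/
lemma amgm_weighted (a b : ℝ) (ha : 0 ≤ a) (hb : 0 ≤ b) (m : ℕ) :
    a * b ^ m ≤ ((a + (m : ℝ) * b) / ((m : ℝ) + 1)) ^ (m + 1) := by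
  have hm1 : (0 : ℝ) < (m : ℝ) + 1 := by positivity
  set c : ℝ := (a + (m : ℝ) * b) / ((m : ℝ) + 1) with hc
  have hc0 : 0 ≤ c := div_nonneg (add_nonneg ha (mul_nonneg (Nat.cast_nonneg m) hb)) hm1.le
  have hac : a = ((m : ℝ) + 1) * c - (m : ℝ) * b := by
    rw [hc]; field_simp; ring
  rcases hb.eq_or_lt with hb0 | hbpos
  · rw [← hb0]
    rcases Nat.eq_zero_or_pos m with hm0 | hmpos
    · subst hm0
      simp [hc, ← hb0]
    · rw [zero_pow (by omega), mul_zero]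
      exact pow_nonneg hc0 _
  · have hB := one_add_mul_le_pow (a := c / b - 1)
      (by have : 0 ≤ c / b := div_nonneg hc0 hbpos.le; linarith) (m + 1)
    have e1 : 1 + (c / b - 1) = c / b := by ring
    rw [e1, div_pow] at hB
    have hbp : 0 < b ^ (m + 1) := pow_pos hbpos _
    rw [le_div_iff₀ hbp] at hB
    have e2 : (1 + ((m + 1 : ℕ) : ℝ) * (c / b - 1)) * b ^ (m + 1) =
        (((m : ℝ) + 1) * c - (m : ℝ) * b) * b ^ m := by
      push_cast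
      rw [pow_succ]
      field_simp
      ring
    rw [e2, ← hac] at hB
    exact hB

/-- Polynomial form of the comparison of the convex function `p ^ (1 + 2 / m)` with a linear
function on `[1/2, (m + 1) / (m + 2)]`. -/
lemma key_poly (m : ℕ) (hm : 1 ≤ m) (p : ℝ) (hp1 : 1 / 2 ≤ p)
    (hp2 : p ≤ ((m : ℝ) + 1) / ((m : ℝ) + 2)) :
    (m : ℝ) ^ m * p ^ (m + 2) ≤ (((m : ℝ) + 1) / ((m : ℝ) + 2)) ^ 2 *
      (((3 * (m : ℝ) ^ 2 + 13 * (m : ℝ) + 8) * p - 4 * ((m : ℝ) + 1)) / (3 * ((m : ℝ) + 3))) ^ m := by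
  have hm0 : m ≠ 0 := by omega
  have hmR : (1 : ℝ) ≤ (m : ℝ) := by exact_mod_cast hm
  have hmpos : (0 : ℝ) < (m : ℝ) := by linarith
  set pc : ℝ := ((m : ℝ) + 1) / ((m : ℝ) + 2) with hpc
  have hpc0 : 0 < pc := by positivity
  have hpc_half : 1 / 2 < pc := by
    rw [hpc, lt_div_iff₀ (by positivity)]
    linarith
  set κ : ℝ := ((m : ℝ) + 2) / (m : ℝ) with hκ
  have hκ1 : 1 ≤ κ := by
    rw [hκ, le_div_iff₀ hmpos]
    linarith
  set c₀ : ℝ := (pc ^ 2) ^ ((m : ℝ)⁻¹) with hc₀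
  have hc₀pow : c₀ ^ m = pc ^ 2 := Real.rpow_inv_natCast_pow (by positivity) hm0
  have hc₀nn : 0 ≤ c₀ := Real.rpow_nonneg (by positivity) _
  set E : ℝ → ℝ := fun q =>
    ((3 * (m : ℝ) ^ 2 + 13 * (m : ℝ) + 8) * q - 4 * ((m : ℝ) + 1)) / (3 * ((m : ℝ) + 3)) with hE
  set ℓ : ℝ → ℝ := fun q => c₀ * (E q / (m : ℝ)) with hℓ
  have hφpow : ∀ q : ℝ, 0 ≤ q → (q ^ κ) ^ m = q ^ (m + 2) := by
    intro q hq
    rw [← Real.rpow_natCast, ← Real.rpow_mul hq]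
    have e : κ * (m : ℝ) = ((m + 2 : ℕ) : ℝ) := by
      rw [hκ]; push_cast; field_simp
    rw [e, Real.rpow_natCast]
  have hEhalf : E (1 / 2) / (m : ℝ) = (3 * (m : ℝ) + 5) / (2 * (3 * (m : ℝ) + 9)) := by
    simp only [hE]
    field_simp
    ring
  have hEpc : E pc / (m : ℝ) = pc := by
    simp only [hE, hpc]
    field_simp
    ring
  -- endpoint `pc`
  have hend2 : pc ^ κ ≤ ℓ pc := by
    have hl0 : 0 ≤ ℓ pc := by
      simp only [hℓ]; rw [hEpc]; exact mul_nonneg hc₀nn hpc0.le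
    rw [← pow_le_pow_iff_left₀ (Real.rpow_nonneg hpc0.le _) hl0 hm0, hφpow pc hpc0.le]
    simp only [hℓ]
    rw [hEpc, mul_pow, hc₀pow]
    exact le_of_eq (by ring)
  -- endpoint `1/2`
  have hend1 : (1 / 2 : ℝ) ^ κ ≤ ℓ (1 / 2) := by
    have hl0 : 0 ≤ ℓ (1 / 2) := by
      simp only [hℓ]; rw [hEhalf]; exact mul_nonneg hc₀nn (by positivity)
    rw [← pow_le_pow_iff_left₀ (Real.rpow_nonneg (by norm_num) _) hl0 hm0,
      hφpow (1 / 2) (by norm_num)]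
    simp only [hℓ]
    rw [hEhalf, mul_pow, hc₀pow]
    have hK := K_ineq m
    have h2m : (0 : ℝ) < 2 ^ m := by positivity
    have h9 : (0 : ℝ) < (3 * (m : ℝ) + 9) ^ m := by positivity
    have hm2 : (0 : ℝ) < ((m : ℝ) + 2) ^ 2 := by positivity
    have e1 : pc ^ 2 * ((3 * (m : ℝ) + 5) / (2 * (3 * (m : ℝ) + 9))) ^ m =
        (((m : ℝ) + 1) ^ 2 * (3 * (m : ℝ) + 5) ^ m) /
          (((m : ℝ) + 2) ^ 2 * (2 ^ m * (3 * (m : ℝ) + 9) ^ m)) := by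
      rw [hpc, div_pow ((m : ℝ) + 1), div_pow (3 * (m : ℝ) + 5), mul_pow, div_mul_div_comm]
    have e2 : (1 / 2 : ℝ) ^ (m + 2) = 1 / (4 * 2 ^ m) := by
      rw [div_pow, one_pow, pow_add]
      norm_num
      ring
    rw [e1, e2, div_le_div_iff₀ (by positivity) (by positivity)]
    calc 1 * (((m : ℝ) + 2) ^ 2 * (2 ^ m * (3 * (m : ℝ) + 9) ^ m))
        = 2 ^ m * (((m : ℝ) + 2) ^ 2 * (3 * (m : ℝ) + 9) ^ m) := by ring
      _ ≤ 2 ^ m * (4 * ((m : ℝ) + 1) ^ 2 * (3 * (m : ℝ) + 5) ^ m) :=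
          mul_le_mul_of_nonneg_left hK h2m.le
      _ = ((m : ℝ) + 1) ^ 2 * (3 * (m : ℝ) + 5) ^ m * (4 * 2 ^ m) := by ring
  -- convexity
  have hconv : ConvexOn ℝ (Set.Ici 0) fun x : ℝ => x ^ κ := convexOn_rpow hκ1
  have hd : 0 < pc - 1 / 2 := by linarith
  set θ : ℝ := (p - 1 / 2) / (pc - 1 / 2) with hθ
  have hθ0 : 0 ≤ θ := div_nonneg (by linarith) hd.le
  have hθ1 : θ ≤ 1 := (div_le_one hd).2 (by linarith)
  have hd' : pc - 1 / 2 ≠ 0 := hd.ne'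
  have hθm : θ * (pc - 1 / 2) = p - 1 / 2 := by
    rw [hθ]; exact div_mul_cancel₀ _ hd'
  have hpθ : (1 - θ) * (1 / 2) + θ * pc = p := by
    have e : (1 - θ) * (1 / 2) + θ * pc = 1 / 2 + θ * (pc - 1 / 2) := by ring
    rw [e, hθm]; ring
  have hcv := hconv.2 (x := 1 / 2) (y := pc) (by norm_num : (0 : ℝ) ≤ 1 / 2) hpc0.le
    (sub_nonneg.2 hθ1) hθ0 (by ring)
  simp only [smul_eq_mul] at hcv
  rw [hpθ] at hcv
  have hlin : ℓ p = (1 - θ) * ℓ (1 / 2) + θ * ℓ pc := by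
    have : ℓ ((1 - θ) * (1 / 2) + θ * pc) = (1 - θ) * ℓ (1 / 2) + θ * ℓ pc := by
      simp only [hℓ, hE]
      field_simp
      ring
    rw [hpθ] at this
    exact this
  have hmain : p ^ κ ≤ ℓ p := by
    rw [hlin]
    calc p ^ κ ≤ (1 - θ) * (1 / 2 : ℝ) ^ κ + θ * pc ^ κ := hcv
      _ ≤ (1 - θ) * ℓ (1 / 2) + θ * ℓ pc :=
          add_le_add (mul_le_mul_of_nonneg_left hend1 (sub_nonneg.2 hθ1))
            (mul_le_mul_of_nonneg_left hend2 hθ0)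
  have hp0 : 0 ≤ p := by linarith
  have hpow := pow_le_pow_left₀ (Real.rpow_nonneg hp0 κ) hmain m
  rw [hφpow p hp0] at hpow
  simp only [hℓ] at hpow
  rw [mul_pow, hc₀pow] at hpow
  have e3 : (E p / (m : ℝ)) ^ m = E p ^ m / (m : ℝ) ^ m := div_pow _ _ _
  rw [e3] at hpow
  have hmm : (0 : ℝ) < (m : ℝ) ^ m := by positivity
  have e : pc ^ 2 * (E p ^ m / (m : ℝ) ^ m) = (pc ^ 2 * E p ^ m) / (m : ℝ) ^ m := by ring
  rw [e, le_div_iff₀ hmm] at hpow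
  linarith

end

end Vale.Agent.Helper22
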