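import Vale.Agent.Helper22.SharpTail
import Vale.Agent.Helper22.SharpPoly
import Vale.Agent.Helper22.Pyramid

/-!
The sharp one-dimensional inequality for a continuous, concave, nonincreasing, nonnegative
profile `f` on `[0, L]` and the weight `f ^ m`, `m ≥ 1`:
`(∫ f^m ∫ t^2 f^m - (∫ t f^m)^2) (∫ f^(m+2))^m ≤ pyrConst m (∫ f^m)^(m+4)`,
proved by a monotonicity argument for the tails of the weight.
-/

namespace Vale.Agent.Helper22

open MeasureTheory Set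

noncomputable section

/-- The real-number inequality behind the monotonicity of the flow function. -/
lemma flow_core (m : ℕ) (hm : 1 ≤ m) (W Φ P1 P2 φ B : ℝ) (hΦ : 0 < Φ) (hP1 : 0 < P1)
    (hB : 0 ≤ B) (hφ : 0 ≤ φ) (hW : W = φ ^ m)
    (hBm : B ^ m = (((m : ℝ) + 1) / ((m : ℝ) + 2)) ^ 2 * Φ ^ (m + 4) / P1 ^ 2)
    (hz1 : Φ ^ 2 ≤ 2 * W * P1) (hz2 : ((m : ℝ) + 2) * W * P1 ≤ ((m : ℝ) + 1) * Φ ^ 2)
    (hu : 2 * P1 ^ 2 ≤ 3 * Φ * P2) :
    φ ^ (m + 2) ≤ (B / (m : ℝ)) * (Φ / P1) *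
      (4 * (Φ * P2 / P1 ^ 2) - 2 * (W * P1 / Φ ^ 2) * (Φ * P2 / P1 ^ 2) - 2 +
        (((m : ℝ) ^ 2 + 3 * (m : ℝ) + 4) / ((m : ℝ) + 3) - 2 * (Φ * P2 / P1 ^ 2)) *
          (((m : ℝ) + 4) * (W * P1 / Φ ^ 2) - 2) / (m : ℝ)) := by
  have hm0 : m ≠ 0 := by omega
  have hmR : (1 : ℝ) ≤ (m : ℝ) := by exact_mod_cast hm
  have hmpos : (0 : ℝ) < (m : ℝ) := by linarith
  set p : ℝ := W * P1 / Φ ^ 2 with hp
  set X : ℝ := Φ * P2 / P1 ^ 2 with hX
  have hΦ2 : 0 < Φ ^ 2 := by positivity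
  have hP12 : 0 < P1 ^ 2 := by positivity
  have hp1 : 1 / 2 ≤ p := by
    rw [hp, le_div_iff₀ hΦ2]; linarith
  have hp2 : p ≤ ((m : ℝ) + 1) / ((m : ℝ) + 2) := by
    rw [hp, div_le_div_iff₀ hΦ2 (by positivity)]; linarith
  have hp2' : ((m : ℝ) + 2) * p ≤ (m : ℝ) + 1 := by
    have h := (le_div_iff₀ (by positivity : (0 : ℝ) < (m : ℝ) + 2)).1 hp2
    linarith
  have hX1 : 2 / 3 ≤ X := by
    rw [hX, le_div_iff₀ hP12]; linarith
  set E₀ : ℝ := ((3 * (m : ℝ) ^ 2 + 13 * (m : ℝ) + 8) * p - 4 * ((m : ℝ) + 1)) /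
    (3 * ((m : ℝ) + 3)) with hE₀
  set E : ℝ := 4 * X - 2 * p * X - 2 +
    (((m : ℝ) ^ 2 + 3 * (m : ℝ) + 4) / ((m : ℝ) + 3) - 2 * X) *
      (((m : ℝ) + 4) * p - 2) / (m : ℝ) with hE
  have hdiff : E - E₀ = 4 / (m : ℝ) * (X - 2 / 3) * (((m : ℝ) + 1) - ((m : ℝ) + 2) * p) := by
    rw [hE, hE₀]
    field_simp
    ring
  have hEE : E₀ ≤ E := by
    have : 0 ≤ 4 / (m : ℝ) * (X - 2 / 3) * (((m : ℝ) + 1) - ((m : ℝ) + 2) * p) :=
      mul_nonneg (mul_nonneg (by positivity) (by linarith)) (by linarith)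
    linarith
  have hE₀pos : 0 < E₀ := by
    rw [hE₀]
    apply div_pos _ (by positivity)
    nlinarith
  have hEpos : 0 < E := lt_of_lt_of_le hE₀pos hEE
  have hkey := key_poly m hm p hp1 hp2
  have hkey2 : (m : ℝ) ^ m * p ^ (m + 2) ≤ (((m : ℝ) + 1) / ((m : ℝ) + 2)) ^ 2 * E ^ m :=
    le_trans hkey (mul_le_mul_of_nonneg_left (pow_le_pow_left₀ hE₀pos.le hEE m) (by positivity))
  have hWp : W = p * (Φ ^ 2 / P1) := by
    rw [hp]; field_simp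
  have hWpow : (φ ^ (m + 2)) ^ m = W ^ (m + 2) := by
    rw [hW, ← pow_mul, ← pow_mul, mul_comm]
  have hquot : (Φ ^ 2 / P1) ^ (m + 2) * (P1 / Φ) ^ m = Φ ^ (m + 4) / P1 ^ 2 := by
    have e : (Φ ^ 2 / P1) ^ (m + 2) * (P1 / Φ) ^ m =
        ((Φ ^ 2 / P1) * (P1 / Φ)) ^ m * (Φ ^ 2 / P1) ^ 2 := by
      rw [pow_add, mul_pow]; ring
    have e2 : (Φ ^ 2 / P1) * (P1 / Φ) = Φ := by field_simp
    rw [e, e2, div_pow, pow_add]
    ring
  have hL : ((m : ℝ) * φ ^ (m + 2) * (P1 / Φ)) ^ m =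
      (m : ℝ) ^ m * p ^ (m + 2) * (Φ ^ (m + 4) / P1 ^ 2) := by
    rw [mul_pow, mul_pow, hWpow, hWp, mul_pow, ← hquot]
    ring
  have hR : (B * E) ^ m = (((m : ℝ) + 1) / ((m : ℝ) + 2)) ^ 2 * E ^ m * (Φ ^ (m + 4) / P1 ^ 2) := by
    rw [mul_pow, hBm]
    ring
  have hpow : ((m : ℝ) * φ ^ (m + 2) * (P1 / Φ)) ^ m ≤ (B * E) ^ m := by
    rw [hL, hR]
    exact mul_le_mul_of_nonneg_right hkey2 (by positivity)
  have hle : (m : ℝ) * φ ^ (m + 2) * (P1 / Φ) ≤ B * E :=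
    (pow_le_pow_iff_left₀ (by positivity) (mul_nonneg hB hEpos.le) hm0).1 hpow
  have hfin : φ ^ (m + 2) = ((m : ℝ) * φ ^ (m + 2) * (P1 / Φ)) * (Φ / P1 / (m : ℝ)) := by
    field_simp
  have hfin2 : (B / (m : ℝ)) * (Φ / P1) * E = (B * E) * (Φ / P1 / (m : ℝ)) := by
    field_simp
  rw [hfin2, hfin]
  exact mul_le_mul_of_nonneg_right hle (by positivity)

/-- First factor of the flow function. -/
def flowA (f : ℝ → ℝ) (m : ℕ) (L s : ℝ) : ℝ :=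
  ((m : ℝ) ^ 2 + 3 * (m : ℝ) + 4) / ((m : ℝ) + 3) -
    2 * (tailInt f m L s * tail2 f m L s / tail1 f m L s ^ 2)

/-- The quantity whose `m`-th root is the second factor of the flow function. -/
def flowR (f : ℝ → ℝ) (m : ℕ) (L s : ℝ) : ℝ :=
  (((m : ℝ) + 1) / ((m : ℝ) + 2)) ^ 2 * tailInt f m L s ^ (m + 4) / tail1 f m L s ^ 2

/-- Second factor of the flow function. -/
def flowB (f : ℝ → ℝ) (m : ℕ) (L s : ℝ) : ℝ := flowR f m L s ^ ((m : ℝ)⁻¹)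

/-- The flow function. -/
def flowG (f : ℝ → ℝ) (m : ℕ) (L s : ℝ) : ℝ :=
  flowA f m L s * flowB f m L s / (m : ℝ) - tailInt f (m + 2) L s

variable {f : ℝ → ℝ} {L : ℝ}

lemma hasDerivAt_flowA (hc : Continuous f) (m : ℕ) {s : ℝ} (hP1 : tail1 f m L s ≠ 0) :
    HasDerivAt (flowA f m L)
      (2 * f s ^ m * tail2 f m L s / tail1 f m L s ^ 2 + 2 * tailInt f m L s / tail1 f m L s
        - 4 * tailInt f m L s ^ 2 * tail2 f m L s / tail1 f m L s ^ 3) s := by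
  have hΦ := hasDerivAt_tailInt (L := L) hc m s
  have h1 := hasDerivAt_tail1 (L := L) hc m s
  have h2 := hasDerivAt_tail2 (L := L) hc m s
  have h := ((((hΦ.mul h2).div (h1.pow 2) (pow_ne_zero 2 hP1)).const_mul 2).const_sub
    (((m : ℝ) ^ 2 + 3 * (m : ℝ) + 4) / ((m : ℝ) + 3)))
  have h' : HasDerivAt (flowA f m L) _ s := h
  refine h'.congr_deriv ?_
  have e21 : (2 - 1 : ℕ) = 1 := rfl
  simp only [e21, Pi.mul_apply, Pi.pow_apply]
  push_cast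
  field_simp
  ring

lemma hasDerivAt_flowR (hc : Continuous f) (m : ℕ) {s : ℝ} (hΦ0 : tailInt f m L s ≠ 0)
    (hP1 : tail1 f m L s ≠ 0) :
    HasDerivAt (flowR f m L)
      (flowR f m L s * (-((m : ℝ) + 4) * f s ^ m / tailInt f m L s
        + 2 * tailInt f m L s / tail1 f m L s)) s := by
  have hΦ := hasDerivAt_tailInt (L := L) hc m s
  have h1 := hasDerivAt_tail1 (L := L) hc m s
  have h := (((hΦ.pow (m + 4)).const_mul ((((m : ℝ) + 1) / ((m : ℝ) + 2)) ^ 2)).div (h1.pow 2)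
    (pow_ne_zero 2 hP1))
  have h' : HasDerivAt (flowR f m L) _ s := h
  refine h'.congr_deriv ?_
  have e21 : (2 - 1 : ℕ) = 1 := rfl
  have e43 : (m + 4 - 1 : ℕ) = m + 3 := rfl
  simp only [e21, e43, Pi.pow_apply, flowR]
  push_cast
  field_simp
  ring

lemma hasDerivAt_flowB (hc : Continuous f) (m : ℕ) {s : ℝ} (hΦ0 : tailInt f m L s ≠ 0)
    (hP1 : tail1 f m L s ≠ 0) (hR : flowR f m L s ≠ 0) :
    HasDerivAt (flowB f m L)
      (flowB f m L s / (m : ℝ) * (-((m : ℝ) + 4) * f s ^ m / tailInt f m L s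
        + 2 * tailInt f m L s / tail1 f m L s)) s := by
  have h := (hasDerivAt_flowR hc m hΦ0 hP1).rpow_const (p := ((m : ℝ)⁻¹)) (Or.inl hR)
  have h' : HasDerivAt (flowB f m L) _ s := h
  refine h'.congr_deriv ?_
  rw [Real.rpow_sub_one hR]
  simp only [flowB]
  field_simp

lemma hasDerivAt_flowG (hc : Continuous f) (m : ℕ) {s : ℝ} (hΦ0 : tailInt f m L s ≠ 0)
    (hP1 : tail1 f m L s ≠ 0) (hR : flowR f m L s ≠ 0) :
    HasDerivAt (flowG f m L)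
      (((2 * f s ^ m * tail2 f m L s / tail1 f m L s ^ 2 + 2 * tailInt f m L s / tail1 f m L s
          - 4 * tailInt f m L s ^ 2 * tail2 f m L s / tail1 f m L s ^ 3) * flowB f m L s
        + flowA f m L s * (flowB f m L s / (m : ℝ) * (-((m : ℝ) + 4) * f s ^ m / tailInt f m L s
          + 2 * tailInt f m L s / tail1 f m L s))) / (m : ℝ) + f s ^ (m + 2)) s := by
  have hA := hasDerivAt_flowA (L := L) hc m hP1
  have hB := hasDerivAt_flowB (L := L) hc m hΦ0 hP1 hR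
  have hS := hasDerivAt_tailInt (L := L) hc (m + 2) s
  have h := ((hA.mul hB).div_const (m : ℝ)).sub hS
  have h' : HasDerivAt (flowG f m L) _ s := h
  refine h'.congr_deriv ?_
  ring

lemma flowR_pos (hc : Continuous f) (hpos : ∀ x ∈ Ico 0 L, 0 < f x) (m : ℕ) {s : ℝ}
    (hs : 0 ≤ s) (hsL : s < L) : 0 < flowR f m L s := by
  have h1 := tailInt_pos hc hpos m hs hsL
  have h2 := tail1_pos hc hpos m hs hsL
  unfold flowR
  positivity

lemma flowB_nonneg (hc : Continuous f) (hpos : ∀ x ∈ Ico 0 L, 0 < f x) (m : ℕ) {s : ℝ}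
    (hs : 0 ≤ s) (hsL : s < L) : 0 ≤ flowB f m L s :=
  Real.rpow_nonneg (flowR_pos hc hpos m hs hsL).le _

lemma flowB_pow (hc : Continuous f) (hpos : ∀ x ∈ Ico 0 L, 0 < f x) (m : ℕ) (hm : m ≠ 0)
    {s : ℝ} (hs : 0 ≤ s) (hsL : s < L) : flowB f m L s ^ m = flowR f m L s :=
  Real.rpow_inv_natCast_pow (flowR_pos hc hpos m hs hsL).le hm

lemma flowA_nonneg (hc : Continuous f) (hconc : ConcaveOn ℝ (Icc 0 L) f)
    (hanti : AntitoneOn f (Icc 0 L)) (hnn : ∀ x ∈ Icc 0 L, 0 ≤ f x)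
    (hpos : ∀ x ∈ Ico 0 L, 0 < f x) (m : ℕ) {s : ℝ} (hs : 0 ≤ s) (hsL : s < L) :
    0 ≤ flowA f m L s := by
  have h1 := tail1_pos hc hpos m hs hsL
  have hi2 := tail_i2 hc hconc hanti hnn m hs hsL.le
  have hX : tailInt f m L s * tail2 f m L s / tail1 f m L s ^ 2 ≤
      ((m : ℝ) + 2) / ((m : ℝ) + 3) := by
    rw [div_le_div_iff₀ (by positivity) (by positivity)]
    linarith
  have hm0 : (0 : ℝ) ≤ (m : ℝ) := Nat.cast_nonneg m
  have e : ((m : ℝ) ^ 2 + 3 * (m : ℝ) + 4) / ((m : ℝ) + 3) - 2 * (((m : ℝ) + 2) / ((m : ℝ) + 3)) =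
      (m : ℝ) * ((m : ℝ) + 1) / ((m : ℝ) + 3) := by
    field_simp
    ring
  have h0 : 0 ≤ (m : ℝ) * ((m : ℝ) + 1) / ((m : ℝ) + 3) := by positivity
  unfold flowA
  linarith

lemma flowG_deriv_nonpos (hc : Continuous f) (hconc : ConcaveOn ℝ (Icc 0 L) f)
    (hanti : AntitoneOn f (Icc 0 L)) (hnn : ∀ x ∈ Icc 0 L, 0 ≤ f x)
    (hpos : ∀ x ∈ Ico 0 L, 0 < f x) (m : ℕ) (hm : 1 ≤ m) {s : ℝ} (hs : 0 ≤ s) (hsL : s < L) :
    ((2 * f s ^ m * tail2 f m L s / tail1 f m L s ^ 2 + 2 * tailInt f m L s / tail1 f m L s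
          - 4 * tailInt f m L s ^ 2 * tail2 f m L s / tail1 f m L s ^ 3) * flowB f m L s
        + flowA f m L s * (flowB f m L s / (m : ℝ) * (-((m : ℝ) + 4) * f s ^ m / tailInt f m L s
          + 2 * tailInt f m L s / tail1 f m L s))) / (m : ℝ) + f s ^ (m + 2) ≤ 0 := by
  have hm0 : m ≠ 0 := by omega
  have hmR : (1 : ℝ) ≤ (m : ℝ) := by exact_mod_cast hm
  have hmpos : (0 : ℝ) < (m : ℝ) := by linarith
  have hΦ := tailInt_pos hc hpos m hs hsL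
  have h1 := tail1_pos hc hpos m hs hsL
  have hB := flowB_nonneg hc hpos m hs hsL
  have hBm : flowB f m L s ^ m =
      (((m : ℝ) + 1) / ((m : ℝ) + 2)) ^ 2 * tailInt f m L s ^ (m + 4) / tail1 f m L s ^ 2 :=
    flowB_pow hc hpos m hm0 hs hsL
  have hcore := flow_core m hm (f s ^ m) (tailInt f m L s) (tail1 f m L s) (tail2 f m L s) (f s)
    (flowB f m L s) hΦ h1 hB (hnn s ⟨hs, hsL.le⟩) rfl hBm
    (tail_z1 hc hanti hnn m hs hsL.le) (tail_z2 hc hconc hanti hnn m hs hsL.le)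
    (tail_u hc hanti hnn m hs hsL.le)
  have hid : ((2 * f s ^ m * tail2 f m L s / tail1 f m L s ^ 2
          + 2 * tailInt f m L s / tail1 f m L s
          - 4 * tailInt f m L s ^ 2 * tail2 f m L s / tail1 f m L s ^ 3) * flowB f m L s
        + flowA f m L s * (flowB f m L s / (m : ℝ) * (-((m : ℝ) + 4) * f s ^ m / tailInt f m L s
          + 2 * tailInt f m L s / tail1 f m L s))) / (m : ℝ) =
      -((flowB f m L s / (m : ℝ)) * (tailInt f m L s / tail1 f m L s) *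
      (4 * (tailInt f m L s * tail2 f m L s / tail1 f m L s ^ 2)
        - 2 * (f s ^ m * tail1 f m L s / tailInt f m L s ^ 2) *
          (tailInt f m L s * tail2 f m L s / tail1 f m L s ^ 2) - 2 +
        (((m : ℝ) ^ 2 + 3 * (m : ℝ) + 4) / ((m : ℝ) + 3)
          - 2 * (tailInt f m L s * tail2 f m L s / tail1 f m L s ^ 2)) *
          (((m : ℝ) + 4) * (f s ^ m * tail1 f m L s / tailInt f m L s ^ 2) - 2) / (m : ℝ))) := by
    simp only [flowA]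
    field_simp
    ring
  rw [hid]
  linarith

lemma flowG_antitone (hc : Continuous f) (hconc : ConcaveOn ℝ (Icc 0 L) f)
    (hanti : AntitoneOn f (Icc 0 L)) (hnn : ∀ x ∈ Icc 0 L, 0 ≤ f x)
    (hpos : ∀ x ∈ Ico 0 L, 0 < f x) (m : ℕ) (hm : 1 ≤ m) :
    AntitoneOn (flowG f m L) (Ico 0 L) := by
  have hder : ∀ s ∈ Ico 0 L, HasDerivAt (flowG f m L) _ s := fun s hs =>
    hasDerivAt_flowG hc m (tailInt_pos hc hpos m hs.1 hs.2).ne'
      (tail1_pos hc hpos m hs.1 hs.2).ne' (flowR_pos hc hpos m hs.1 hs.2).ne'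
  apply antitoneOn_of_deriv_nonpos (convex_Ico 0 L)
  · intro s hs
    exact (hder s hs).continuousAt.continuousWithinAt
  · intro s hs
    rw [interior_Ico] at hs
    exact (hder s ⟨hs.1.le, hs.2⟩).differentiableAt.differentiableWithinAt
  · intro s hs
    rw [interior_Ico] at hs
    rw [(hder s ⟨hs.1.le, hs.2⟩).deriv]
    exact flowG_deriv_nonpos hc hconc hanti hnn hpos m hm hs.1.le hs.2

lemma flowG_zero_nonneg (hc : Continuous f) (hconc : ConcaveOn ℝ (Icc 0 L) f)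
    (hanti : AntitoneOn f (Icc 0 L)) (hnn : ∀ x ∈ Icc 0 L, 0 ≤ f x)
    (hpos : ∀ x ∈ Ico 0 L, 0 < f x) (hL : 0 < L) (m : ℕ) (hm : 1 ≤ m) :
    0 ≤ flowG f m L 0 := by
  have hmR : (1 : ℝ) ≤ (m : ℝ) := by exact_mod_cast hm
  have hlim : Filter.Tendsto (fun s => -tailInt f (m + 2) L s) (nhdsWithin L (Iio L))
      (nhds 0) := by
    have h1 : Filter.Tendsto (fun s => -tailInt f (m + 2) L s) (nhds L)
        (nhds (-tailInt f (m + 2) L L)) := (continuous_tailInt hc (m + 2)).neg.tendsto L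
    rw [tailInt_self, neg_zero] at h1
    exact h1.mono_left nhdsWithin_le_nhds
  have hev : ∀ᶠ s in nhdsWithin L (Iio L), -tailInt f (m + 2) L s ≤ flowG f m L 0 := by
    filter_upwards [Ioo_mem_nhdsLT hL] with s hs
    have h1 : flowG f m L s ≤ flowG f m L 0 :=
      flowG_antitone hc hconc hanti hnn hpos m hm ⟨le_refl _, hL⟩ ⟨hs.1.le, hs.2⟩ hs.1.le
    have h2 : 0 ≤ flowA f m L s * flowB f m L s / (m : ℝ) :=
      div_nonneg (mul_nonneg (flowA_nonneg hc hconc hanti hnn hpos m hs.1.le hs.2)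
        (flowB_nonneg hc hpos m hs.1.le hs.2)) (by linarith)
    unfold flowG at h1 ⊢
    linarith
  exact le_of_tendsto hlim hev

/-- The sharp one-dimensional inequality for concave nonincreasing profiles. -/
theorem sharp_bound (hc : Continuous f) (hconc : ConcaveOn ℝ (Icc 0 L) f)
    (hanti : AntitoneOn f (Icc 0 L)) (hnn : ∀ x ∈ Icc 0 L, 0 ≤ f x) (hf0 : 0 < f 0)
    (hL : 0 < L) (m : ℕ) (hm : 1 ≤ m) :
    ((∫ t in (0:ℝ)..L, f t ^ m) * (∫ t in (0:ℝ)..L, t ^ 2 * f t ^ m)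
        - (∫ t in (0:ℝ)..L, t * f t ^ m) ^ 2) * (∫ t in (0:ℝ)..L, f t ^ (m + 2)) ^ m ≤
      pyrConst m * (∫ t in (0:ℝ)..L, f t ^ m) ^ (m + 4) := by
  have hm0 : m ≠ 0 := by omega
  have hmR : (1 : ℝ) ≤ (m : ℝ) := by exact_mod_cast hm
  have hmpos : (0 : ℝ) < (m : ℝ) := by linarith
  have hpos : ∀ x ∈ Ico 0 L, 0 < f x := fun x hx => pos_of_concave hconc hnn hf0 hx
  have h0L : (0 : ℝ) ≤ 0 := le_refl _
  obtain ⟨e1, -, -, -, e5⟩ := tail_cheb_ids (L := L) hc m 0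
  simp only [sub_zero] at e1 e5
  have eI : ∫ t in (0:ℝ)..L, f t ^ m = tailInt f m L 0 := rfl
  have eS : ∫ t in (0:ℝ)..L, f t ^ (m + 2) = tailInt f (m + 2) L 0 := rfl
  rw [e1, e5, eI, eS]
  set I : ℝ := tailInt f m L 0 with hI
  set P1 : ℝ := tail1 f m L 0 with hP1
  set P2 : ℝ := tail2 f m L 0 with hP2
  set S : ℝ := tailInt f (m + 2) L 0 with hS
  have hIpos : 0 < I := tailInt_pos hc hpos m h0L hL
  have hP1pos : 0 < P1 := tail1_pos hc hpos m h0L hL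
  have hSnn : 0 ≤ S := tailInt_nonneg hc hnn (m + 2) h0L hL.le
  have hG := flowG_zero_nonneg hc hconc hanti hnn hpos hL m hm
  have hA0 := flowA_nonneg hc hconc hanti hnn hpos m h0L hL
  have hB0 := flowB_nonneg hc hpos m h0L hL
  have hBm : flowB f m L 0 ^ m = flowR f m L 0 := flowB_pow hc hpos m hm0 h0L hL
  have hU := tail_u hc hanti hnn m h0L hL.le
  set A : ℝ := flowA f m L 0 with hA
  set B : ℝ := flowB f m L 0 with hB
  have hAdef : A = ((m : ℝ) ^ 2 + 3 * (m : ℝ) + 4) / ((m : ℝ) + 3) - 2 * (I * P2 / P1 ^ 2) := rfl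
  have hRdef : flowR f m L 0 = (((m : ℝ) + 1) / ((m : ℝ) + 2)) ^ 2 * I ^ (m + 4) / P1 ^ 2 := rfl
  have hmS : (m : ℝ) * S ≤ A * B := by
    have h : 0 ≤ A * B / (m : ℝ) - S := hG
    have h2 : S ≤ A * B / (m : ℝ) := by linarith
    rw [le_div_iff₀ hmpos] at h2
    linarith
  have hpow : ((m : ℝ) * S) ^ m ≤ (A * B) ^ m :=
    pow_le_pow_left₀ (mul_nonneg hmpos.le hSnn) hmS m
  rw [mul_pow, mul_pow, hBm, hRdef] at hpow
  set x : ℝ := 2 * I * P2 / P1 ^ 2 - 1 with hx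
  have hP12 : 0 < P1 ^ 2 := by positivity
  have hx0 : 0 ≤ x := by
    have : 4 / 3 ≤ 2 * I * P2 / P1 ^ 2 := by
      rw [le_div_iff₀ hP12]; linarith
    rw [hx]; linarith
  have hAx : x + (m : ℝ) * (A / (m : ℝ)) = ((m : ℝ) + 1) * (((m : ℝ) + 1) / ((m : ℝ) + 3)) := by
    rw [hAdef, hx]
    field_simp
    ring
  have hamgm := amgm_weighted x (A / (m : ℝ)) hx0 (div_nonneg hA0 hmpos.le) m
  rw [hAx] at hamgm
  have e2 : ((m : ℝ) + 1) * (((m : ℝ) + 1) / ((m : ℝ) + 3)) / ((m : ℝ) + 1) =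
      ((m : ℝ) + 1) / ((m : ℝ) + 3) := by
    field_simp
  rw [e2] at hamgm
  have hmm : (0 : ℝ) < (m : ℝ) ^ m := by positivity
  have hLHS : (I * (2 * P2) - P1 ^ 2) * S ^ m = P1 ^ 2 * x * S ^ m := by
    rw [hx]; field_simp
  have hSm : S ^ m ≤ A ^ m * ((((m : ℝ) + 1) / ((m : ℝ) + 2)) ^ 2 * I ^ (m + 4) / P1 ^ 2) /
      (m : ℝ) ^ m := by
    rw [le_div_iff₀ hmm]
    linarith
  have hI4 : (0 : ℝ) ≤ I ^ (m + 4) := by positivity
  calc (I * (2 * P2) - P1 ^ 2) * S ^ m = P1 ^ 2 * x * S ^ m := hLHS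
    _ ≤ P1 ^ 2 * x * (A ^ m * ((((m : ℝ) + 1) / ((m : ℝ) + 2)) ^ 2 * I ^ (m + 4) / P1 ^ 2) /
          (m : ℝ) ^ m) := mul_le_mul_of_nonneg_left hSm (by positivity)
    _ = (x * (A / (m : ℝ)) ^ m) * ((((m : ℝ) + 1) / ((m : ℝ) + 2)) ^ 2 * I ^ (m + 4)) := by
        have eAm : (A / (m : ℝ)) ^ m = A ^ m / (m : ℝ) ^ m := div_pow _ _ _
        rw [eAm]
        field_simp
    _ ≤ ((((m : ℝ) + 1) / ((m : ℝ) + 3)) ^ (m + 1)) *
          ((((m : ℝ) + 1) / ((m : ℝ) + 2)) ^ 2 * I ^ (m + 4)) :=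
        mul_le_mul_of_nonneg_right hamgm (by positivity)
    _ = pyrConst m * I ^ (m + 4) := by
        unfold pyrConst
        rw [div_pow, div_pow]
        field_simp
        ring

end

end Vale.Agent.Helper22
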