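import Vale.Agent.Helper22.RearrMoments
import Vale.Agent.Helper22.SharpFlow

/-!
The sharp one-dimensional inequality for arbitrary continuous concave nonnegative profiles on an
interval `[a, b]`, obtained from the nonincreasing case by monotone rearrangement.
-/

namespace Vale.Agent.Helper22

open MeasureTheory Set

noncomputable section

section Halves

variable {f₁ f₂ G : ℝ → ℝ} {L₁ L₂ : ℝ}

lemma layer_cake3 {q : ℝ → ℝ} {Lq : ℝ} (hq : Continuous q) (hLq : 0 ≤ Lq)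
    (hanti : AntitoneOn q (Icc 0 Lq)) (hnn : ∀ t ∈ Icc 0 Lq, 0 ≤ q t) {M : ℝ}
    (hM : ∀ t ∈ Icc 0 Lq, q t ≤ M) (hM0 : 0 ≤ M) :
    (∫ t in (0:ℝ)..Lq, q t) = (∫ l in (0:ℝ)..M, lev q Lq l) ∧
    (∫ t in (0:ℝ)..Lq, t * q t) = (∫ l in (0:ℝ)..M, lev q Lq l ^ 2 / 2) ∧
    (∫ t in (0:ℝ)..Lq, t ^ 2 * q t) = (∫ l in (0:ℝ)..M, lev q Lq l ^ 3 / 3) := by
  have c0 := layer_cake hq hLq hanti hnn hM hM0 0
  have c1 := layer_cake hq hLq hanti hnn hM hM0 1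
  have c2 := layer_cake hq hLq hanti hnn hM hM0 2
  refine ⟨?_, ?_, ?_⟩
  · simpa using c0
  · have e : ∀ l, lev q Lq l ^ (1 + 1) / (((1 : ℕ) : ℝ) + 1) = lev q Lq l ^ 2 / 2 := by
      intro l; norm_num
    simp_rw [e] at c1
    simpa using c1
  · have e : ∀ l, lev q Lq l ^ (2 + 1) / (((2 : ℕ) : ℝ) + 1) = lev q Lq l ^ 3 / 3 := by
      intro l; norm_num
    simp_rw [e] at c2
    exact c2

lemma pow_antitoneOn {q : ℝ → ℝ} {Lq : ℝ} (hanti : AntitoneOn q (Icc 0 Lq))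
    (hnn : ∀ t ∈ Icc 0 Lq, 0 ≤ q t) (k : ℕ) : AntitoneOn (fun t => q t ^ k) (Icc 0 Lq) :=
  fun _ hx _ hy hxy => pow_le_pow_left₀ (hnn _ hy) (hanti hx hy hxy) k

/-- The level function of a power of the rearrangement is the sum of those of the halves. -/
lemma lev_rearr (h₁ : Continuous f₁) (h₂ : Continuous f₂) (hL₁ : 0 ≤ L₁) (hL₂ : 0 ≤ L₂)
    (ha₁ : AntitoneOn f₁ (Icc 0 L₁)) (ha₂ : AntitoneOn f₂ (Icc 0 L₂))
    (hn₁ : ∀ t ∈ Icc 0 L₁, 0 ≤ f₁ t) (hn₂ : ∀ t ∈ Icc 0 L₂, 0 ≤ f₂ t) (h0 : f₁ 0 = f₂ 0)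
    (hG : ∀ x ∈ Icc 0 (L₁ + L₂), G x = rearr f₁ f₂ L₁ L₂ x) (k : ℕ) (l : ℝ) :
    lev (fun x => G x ^ k) (L₁ + L₂) l =
      lev (fun t => f₁ t ^ k) L₁ l + lev (fun t => f₂ t ^ k) L₂ l := by
  have h0₁ : (0 : ℝ) ∈ Icc 0 L₁ := ⟨le_refl _, hL₁⟩
  have h0₂ : (0 : ℝ) ∈ Icc 0 L₂ := ⟨le_refl _, hL₂⟩
  unfold lev
  apply initSeg_add (lev_sub l) (lev_sub l) (lev_init (pow_antitoneOn ha₁ hn₁ k) l)
    (lev_init (pow_antitoneOn ha₂ hn₂ k) l)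
  · constructor
    · rintro ⟨t, ht, hl⟩
      refine ⟨0, h0₂, le_trans hl ?_⟩
      rw [← h0]
      exact pow_le_pow_left₀ (hn₁ t ht) (ha₁ h0₁ ht ht.1) k
    · rintro ⟨t, ht, hl⟩
      refine ⟨0, h0₁, le_trans hl ?_⟩
      rw [h0]
      exact pow_le_pow_left₀ (hn₂ t ht) (ha₂ h0₂ ht ht.1) k
  · intro x
    constructor
    · rintro ⟨hx, hl⟩
      have hl' : l ≤ G x ^ k := hl
      rw [hG x hx] at hl'
      exact (rearr_level h₁ h₂ hL₁ hL₂ hn₁ hn₂ k l x).1 ⟨hx, hl'⟩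
    · intro h
      obtain ⟨hx, hl⟩ := (rearr_level h₁ h₂ hL₁ hL₂ hn₁ hn₂ k l x).2 h
      refine ⟨hx, ?_⟩
      show l ≤ G x ^ k
      rw [hG x hx]
      exact hl

/-- Moments of the rearrangement compared with those of the two halves. -/
lemma rearr_moments (h₁ : Continuous f₁) (h₂ : Continuous f₂) (hL₁ : 0 ≤ L₁) (hL₂ : 0 ≤ L₂)
    (ha₁ : AntitoneOn f₁ (Icc 0 L₁)) (ha₂ : AntitoneOn f₂ (Icc 0 L₂))
    (hn₁ : ∀ t ∈ Icc 0 L₁, 0 ≤ f₁ t) (hn₂ : ∀ t ∈ Icc 0 L₂, 0 ≤ f₂ t) (h0 : f₁ 0 = f₂ 0)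
    (hGc : Continuous G) (hG : ∀ x ∈ Icc 0 (L₁ + L₂), G x = rearr f₁ f₂ L₁ L₂ x) (k : ℕ) :
    (∫ x in (0:ℝ)..(L₁ + L₂), G x ^ k) =
        (∫ t in (0:ℝ)..L₁, f₁ t ^ k) + (∫ t in (0:ℝ)..L₂, f₂ t ^ k) ∧
    ((∫ t in (0:ℝ)..L₁, f₁ t ^ k) + (∫ t in (0:ℝ)..L₂, f₂ t ^ k)) *
        ((∫ t in (0:ℝ)..L₁, t ^ 2 * f₁ t ^ k) + (∫ t in (0:ℝ)..L₂, t ^ 2 * f₂ t ^ k))
      - ((∫ t in (0:ℝ)..L₂, t * f₂ t ^ k) - (∫ t in (0:ℝ)..L₁, t * f₁ t ^ k)) ^ 2 ≤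
    (∫ x in (0:ℝ)..(L₁ + L₂), G x ^ k) * (∫ x in (0:ℝ)..(L₁ + L₂), x ^ 2 * G x ^ k)
      - (∫ x in (0:ℝ)..(L₁ + L₂), x * G x ^ k) ^ 2 := by
  have h0₁ : (0 : ℝ) ∈ Icc 0 L₁ := ⟨le_refl _, hL₁⟩
  have h0₂ : (0 : ℝ) ∈ Icc 0 L₂ := ⟨le_refl _, hL₂⟩
  have hL : 0 ≤ L₁ + L₂ := add_nonneg hL₁ hL₂
  have h0L : (0 : ℝ) ∈ Icc 0 (L₁ + L₂) := ⟨le_refl _, hL⟩
  set M : ℝ := f₁ 0 ^ k with hMdef
  have hM0 : 0 ≤ M := pow_nonneg (hn₁ 0 h0₁) k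
  have hq₁ : Continuous fun t => f₁ t ^ k := by fun_prop
  have hq₂ : Continuous fun t => f₂ t ^ k := by fun_prop
  have hqg : Continuous fun x => G x ^ k := by fun_prop
  have hM₁ : ∀ t ∈ Icc 0 L₁, f₁ t ^ k ≤ M := fun t ht =>
    pow_le_pow_left₀ (hn₁ t ht) (ha₁ h0₁ ht ht.1) k
  have hM₂ : ∀ t ∈ Icc 0 L₂, f₂ t ^ k ≤ M := fun t ht => by
    rw [hMdef, h0]
    exact pow_le_pow_left₀ (hn₂ t ht) (ha₂ h0₂ ht ht.1) k
  have hGanti : AntitoneOn G (Icc 0 (L₁ + L₂)) := by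
    intro x hx y hy hxy
    rw [hG x hx, hG y hy]
    exact rearr_antitone h₁ h₂ hL₁ hL₂ ha₁ ha₂ hx hy hxy
  have hGnn : ∀ x ∈ Icc 0 (L₁ + L₂), 0 ≤ G x := fun x hx => by
    rw [hG x hx]
    exact rearr_nonneg h₁ h₂ hL₁ hL₂ hn₁ hn₂ hx
  have hG0 : G 0 = f₁ 0 := by
    rw [hG 0 h0L, rearr_zero h₁ h₂ hL₁ hL₂, ← h0, min_self]
  have hMg : ∀ x ∈ Icc 0 (L₁ + L₂), G x ^ k ≤ M := fun x hx => by
    rw [hMdef, ← hG0]
    exact pow_le_pow_left₀ (hGnn x hx) (hGanti h0L hx hx.1) k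
  obtain ⟨a1, b1, c1⟩ := layer_cake3 hq₁ hL₁ (pow_antitoneOn ha₁ hn₁ k)
    (fun t ht => pow_nonneg (hn₁ t ht) k) hM₁ hM0
  obtain ⟨a2, b2, c2⟩ := layer_cake3 hq₂ hL₂ (pow_antitoneOn ha₂ hn₂ k)
    (fun t ht => pow_nonneg (hn₂ t ht) k) hM₂ hM0
  obtain ⟨ag, bg, cg⟩ := layer_cake3 hqg hL (pow_antitoneOn hGanti hGnn k)
    (fun x hx => pow_nonneg (hGnn x hx) k) hMg hM0
  have hlev : ∀ l, lev (fun x => G x ^ k) (L₁ + L₂) l =
      lev (fun t => f₁ t ^ k) L₁ l + lev (fun t => f₂ t ^ k) L₂ l :=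
    fun l => lev_rearr h₁ h₂ hL₁ hL₂ ha₁ ha₂ hn₁ hn₂ h0 hG k l
  simp_rw [hlev] at ag bg cg
  obtain ⟨eN, hvar⟩ := level_var (r₁ := lev (fun t => f₁ t ^ k) L₁)
    (r₂ := lev (fun t => f₂ t ^ k) L₂) lev_antitone lev_antitone lev_nonneg lev_nonneg hM0
  rw [ag, bg, cg, a1, a2, b1, b2, c1, c2]
  exact ⟨eN, hvar⟩

end Halves

section TwoHalves

variable {f₁ f₂ : ℝ → ℝ} {L₁ L₂ : ℝ}

/-- The sharp inequality for a profile made of two nonincreasing halves glued at their common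
maximum. -/
theorem sharp_two_halves (h₁ : Continuous f₁) (h₂ : Continuous f₂) (hL₁ : 0 ≤ L₁) (hL₂ : 0 ≤ L₂)
    (hL : 0 < L₁ + L₂) (hc₁ : ConcaveOn ℝ (Icc 0 L₁) f₁) (hc₂ : ConcaveOn ℝ (Icc 0 L₂) f₂)
    (ha₁ : AntitoneOn f₁ (Icc 0 L₁)) (ha₂ : AntitoneOn f₂ (Icc 0 L₂))
    (hn₁ : ∀ t ∈ Icc 0 L₁, 0 ≤ f₁ t) (hn₂ : ∀ t ∈ Icc 0 L₂, 0 ≤ f₂ t) (h0 : f₁ 0 = f₂ 0)
    (hpos : 0 < f₁ 0) (m : ℕ) (hm : 1 ≤ m) :
    (((∫ t in (0:ℝ)..L₁, f₁ t ^ m) + (∫ t in (0:ℝ)..L₂, f₂ t ^ m)) *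
        ((∫ t in (0:ℝ)..L₁, t ^ 2 * f₁ t ^ m) + (∫ t in (0:ℝ)..L₂, t ^ 2 * f₂ t ^ m))
      - ((∫ t in (0:ℝ)..L₂, t * f₂ t ^ m) - (∫ t in (0:ℝ)..L₁, t * f₁ t ^ m)) ^ 2) *
      ((∫ t in (0:ℝ)..L₁, f₁ t ^ (m + 2)) + (∫ t in (0:ℝ)..L₂, f₂ t ^ (m + 2))) ^ m ≤
    pyrConst m * ((∫ t in (0:ℝ)..L₁, f₁ t ^ m) + (∫ t in (0:ℝ)..L₂, f₂ t ^ m)) ^ (m + 4) := by
  set L : ℝ := L₁ + L₂ with hLdef
  set G : ℝ → ℝ := fun x => rearr f₁ f₂ L₁ L₂ (max 0 (min L x)) with hGdef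
  have hclamp : ∀ x : ℝ, max 0 (min L x) ∈ Icc 0 L := fun x =>
    ⟨le_max_left _ _, max_le hL.le (min_le_left _ _)⟩
  have hG : ∀ x ∈ Icc 0 L, G x = rearr f₁ f₂ L₁ L₂ x := by
    intro x hx
    simp only [hGdef]
    rw [min_eq_right hx.2, max_eq_right hx.1]
  have hGc : Continuous G :=
    (rearr_continuousOn h₁ h₂ hL₁ hL₂ ha₁ ha₂).comp_continuous
      (continuous_const.max (continuous_const.min continuous_id)) hclamp
  have hGconc : ConcaveOn ℝ (Icc 0 L) G :=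
    (rearr_concave h₁ h₂ hL₁ hL₂ hc₁ hc₂).congr fun x hx => (hG x hx).symm
  have hGanti : AntitoneOn G (Icc 0 L) := by
    intro x hx y hy hxy
    rw [hG x hx, hG y hy]
    exact rearr_antitone h₁ h₂ hL₁ hL₂ ha₁ ha₂ hx hy hxy
  have hGnn : ∀ x ∈ Icc 0 L, 0 ≤ G x := fun x hx => by
    rw [hG x hx]
    exact rearr_nonneg h₁ h₂ hL₁ hL₂ hn₁ hn₂ hx
  have h0L : (0 : ℝ) ∈ Icc 0 L := ⟨le_refl _, hL.le⟩
  have hG0 : 0 < G 0 := by
    rw [hG 0 h0L, rearr_zero h₁ h₂ hL₁ hL₂, ← h0, min_self]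
    exact hpos
  have hsharp := sharp_bound hGc hGconc hGanti hGnn hG0 hL m hm
  obtain ⟨eI, hvar⟩ := rearr_moments h₁ h₂ hL₁ hL₂ ha₁ ha₂ hn₁ hn₂ h0 hGc hG m
  obtain ⟨eS, -⟩ := rearr_moments h₁ h₂ hL₁ hL₂ ha₁ ha₂ hn₁ hn₂ h0 hGc hG (m + 2)
  rw [eS] at hsharp
  have hS0 : 0 ≤ (∫ t in (0:ℝ)..L₁, f₁ t ^ (m + 2)) + (∫ t in (0:ℝ)..L₂, f₂ t ^ (m + 2)) := by
    apply add_nonneg
    · exact intervalIntegral.integral_nonneg hL₁ fun t ht => pow_nonneg (hn₁ t ht) _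
    · exact intervalIntegral.integral_nonneg hL₂ fun t ht => pow_nonneg (hn₂ t ht) _
  have hstep := mul_le_mul_of_nonneg_right hvar (pow_nonneg hS0 m)
  refine le_trans hstep (le_trans hsharp (le_of_eq ?_))
  rw [eI]

end TwoHalves

section General

variable {f : ℝ → ℝ}

lemma split_int (ψ : ℝ → ℝ) (hψ : Continuous ψ) (a b c : ℝ) :
    ∫ t in a..b, ψ t =
      (∫ u in (0:ℝ)..(c - a), ψ (c - u)) + ∫ u in (0:ℝ)..(b - c), ψ (c + u) := by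
  rw [intervalIntegral.integral_comp_sub_left, intervalIntegral.integral_comp_add_left]
  simp only [sub_zero, add_zero, sub_sub_cancel, add_sub_cancel]
  exact (intervalIntegral.integral_add_adjacent_intervals (hψ.intervalIntegrable _ _)
    (hψ.intervalIntegrable _ _)).symm

lemma antitone_of_concave_max {g : ℝ → ℝ} {Lg : ℝ} (hconc : ConcaveOn ℝ (Icc 0 Lg) g)
    (hmax : ∀ x ∈ Icc 0 Lg, g x ≤ g 0) : AntitoneOn g (Icc 0 Lg) := by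
  intro u hu v hv huv
  rcases hv.1.eq_or_lt with h0 | hpos
  · have : u = v := le_antisymm huv (by rw [← h0]; exact hu.1)
    rw [this]
  · have h0m : (0 : ℝ) ∈ Icc 0 Lg := ⟨le_refl _, le_trans hv.1 hv.2⟩
    have hθ0 : 0 ≤ u / v := div_nonneg hu.1 hpos.le
    have hθ1 : u / v ≤ 1 := (div_le_one hpos).2 huv
    have h := hconc.2 h0m hv (sub_nonneg.2 hθ1) hθ0 (by ring)
    simp only [smul_eq_mul, mul_zero, zero_add] at h
    have e : u / v * v = u := by field_simp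
    rw [e] at h
    have h2 := hmax v hv
    nlinarith

/-- The sharp one-dimensional inequality for a continuous concave nonnegative profile on
`[a, b]`. -/
theorem sharp_bound_general (hc : Continuous f) {a b : ℝ} (hab : a < b)
    (hconc : ConcaveOn ℝ (Icc a b) f) (hnn : ∀ x ∈ Icc a b, 0 ≤ f x)
    (hpos : ∃ x ∈ Icc a b, 0 < f x) (m : ℕ) (hm : 1 ≤ m) :
    ((∫ t in a..b, f t ^ m) * (∫ t in a..b, t ^ 2 * f t ^ m)
        - (∫ t in a..b, t * f t ^ m) ^ 2) * (∫ t in a..b, f t ^ (m + 2)) ^ m ≤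
      pyrConst m * (∫ t in a..b, f t ^ m) ^ (m + 4) := by
  obtain ⟨c, hcm, hcmax⟩ := isCompact_Icc.exists_isMaxOn (nonempty_Icc.2 hab.le)
    (hc.continuousOn (s := Icc a b))
  have hmax : ∀ x ∈ Icc a b, f x ≤ f c := fun x hx => hcmax hx
  obtain ⟨x₀, hx₀, hfx₀⟩ := hpos
  have hfc : 0 < f c := lt_of_lt_of_le hfx₀ (hmax x₀ hx₀)
  set f₁ : ℝ → ℝ := fun u => f (c - u) with hf₁
  set f₂ : ℝ → ℝ := fun u => f (c + u) with hf₂
  have hL₁ : 0 ≤ c - a := by linarith [hcm.1]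
  have hL₂ : 0 ≤ b - c := by linarith [hcm.2]
  have hL : 0 < (c - a) + (b - c) := by linarith
  have h₁ : Continuous f₁ := by fun_prop
  have h₂ : Continuous f₂ := by fun_prop
  have hm₁ : ∀ u ∈ Icc 0 (c - a), c - u ∈ Icc a b := fun u hu =>
    ⟨by linarith [hu.2], by linarith [hu.1, hcm.2]⟩
  have hm₂ : ∀ u ∈ Icc 0 (b - c), c + u ∈ Icc a b := fun u hu =>
    ⟨by linarith [hu.1, hcm.1], by linarith [hu.2]⟩
  have hc₁ : ConcaveOn ℝ (Icc 0 (c - a)) f₁ := by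
    refine ⟨convex_Icc _ _, ?_⟩
    intro x hx y hy α β hα hβ hαβ
    have h := hconc.2 (hm₁ x hx) (hm₁ y hy) hα hβ hαβ
    simp only [smul_eq_mul] at h ⊢
    have e : c - (α * x + β * y) = α * (c - x) + β * (c - y) := by
      have : c = (α + β) * c := by rw [hαβ, one_mul]
      nlinarith
    simp only [hf₁]
    rw [e]
    exact h
  have hc₂ : ConcaveOn ℝ (Icc 0 (b - c)) f₂ := by
    refine ⟨convex_Icc _ _, ?_⟩
    intro x hx y hy α β hα hβ hαβ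
    have h := hconc.2 (hm₂ x hx) (hm₂ y hy) hα hβ hαβ
    simp only [smul_eq_mul] at h ⊢
    have e : c + (α * x + β * y) = α * (c + x) + β * (c + y) := by
      have : c = (α + β) * c := by rw [hαβ, one_mul]
      nlinarith
    simp only [hf₂]
    rw [e]
    exact h
  have e₁0 : f₁ 0 = f c := by simp [hf₁]
  have e₂0 : f₂ 0 = f c := by simp [hf₂]
  have ha₁ : AntitoneOn f₁ (Icc 0 (c - a)) :=
    antitone_of_concave_max hc₁ fun x hx => by rw [e₁0]; exact hmax _ (hm₁ x hx)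
  have ha₂ : AntitoneOn f₂ (Icc 0 (b - c)) :=
    antitone_of_concave_max hc₂ fun x hx => by rw [e₂0]; exact hmax _ (hm₂ x hx)
  have hn₁ : ∀ t ∈ Icc 0 (c - a), 0 ≤ f₁ t := fun t ht => hnn _ (hm₁ t ht)
  have hn₂ : ∀ t ∈ Icc 0 (b - c), 0 ≤ f₂ t := fun t ht => hnn _ (hm₂ t ht)
  have hmain := sharp_two_halves h₁ h₂ hL₁ hL₂ hL hc₁ hc₂ ha₁ ha₂ hn₁ hn₂ (by rw [e₁0, e₂0])
    (by rw [e₁0]; exact hfc) m hm
  -- integrals of the two-sided profile in terms of the halves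
  have sI : ∫ t in a..b, f t ^ m =
      (∫ t in (0:ℝ)..(c - a), f₁ t ^ m) + (∫ t in (0:ℝ)..(b - c), f₂ t ^ m) :=
    split_int (fun t => f t ^ m) (by fun_prop) a b c
  have sS : ∫ t in a..b, f t ^ (m + 2) =
      (∫ t in (0:ℝ)..(c - a), f₁ t ^ (m + 2)) + (∫ t in (0:ℝ)..(b - c), f₂ t ^ (m + 2)) :=
    split_int (fun t => f t ^ (m + 2)) (by fun_prop) a b c
  have s1 : ∫ t in a..b, (t - c) * f t ^ m =
      (∫ t in (0:ℝ)..(b - c), t * f₂ t ^ m) - (∫ t in (0:ℝ)..(c - a), t * f₁ t ^ m) := by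
    rw [split_int (fun t => (t - c) * f t ^ m) (by fun_prop) a b c]
    have e1 : ∫ u in (0:ℝ)..(c - a), (c - u - c) * f (c - u) ^ m =
        -∫ t in (0:ℝ)..(c - a), t * f₁ t ^ m := by
      rw [← intervalIntegral.integral_neg]
      congr 1
      funext u
      simp only [hf₁]
      ring
    have e2 : ∫ u in (0:ℝ)..(b - c), (c + u - c) * f (c + u) ^ m =
        ∫ t in (0:ℝ)..(b - c), t * f₂ t ^ m := by
      congr 1
      funext u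
      simp only [hf₂]
      ring
    rw [e1, e2]
    ring
  have s2 : ∫ t in a..b, (t - c) ^ 2 * f t ^ m =
      (∫ t in (0:ℝ)..(c - a), t ^ 2 * f₁ t ^ m) + (∫ t in (0:ℝ)..(b - c), t ^ 2 * f₂ t ^ m) := by
    rw [split_int (fun t => (t - c) ^ 2 * f t ^ m) (by fun_prop) a b c]
    have e1 : ∫ u in (0:ℝ)..(c - a), (c - u - c) ^ 2 * f (c - u) ^ m =
        ∫ t in (0:ℝ)..(c - a), t ^ 2 * f₁ t ^ m := by
      congr 1
      funext u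
      simp only [hf₁]
      ring
    have e2 : ∫ u in (0:ℝ)..(b - c), (c + u - c) ^ 2 * f (c + u) ^ m =
        ∫ t in (0:ℝ)..(b - c), t ^ 2 * f₂ t ^ m := by
      congr 1
      funext u
      simp only [hf₂]
      ring
    rw [e1, e2]
  -- shift invariance of the variance-type functional
  have hw : Continuous fun t => f t ^ m := by fun_prop
  have t1 : ∫ t in a..b, (t - c) * f t ^ m =
      (∫ t in a..b, t * f t ^ m) - c * ∫ t in a..b, f t ^ m := by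
    rw [← intervalIntegral.integral_const_mul, ← intervalIntegral.integral_sub]
    · congr 1
      funext t
      ring
    · exact Continuous.intervalIntegrable (by fun_prop) _ _
    · exact Continuous.intervalIntegrable (by fun_prop) _ _
  have t2 : ∫ t in a..b, (t - c) ^ 2 * f t ^ m =
      (∫ t in a..b, t ^ 2 * f t ^ m) - 2 * c * (∫ t in a..b, t * f t ^ m)
        + c ^ 2 * ∫ t in a..b, f t ^ m := by
    rw [← intervalIntegral.integral_const_mul, ← intervalIntegral.integral_const_mul,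
      ← intervalIntegral.integral_sub, ← intervalIntegral.integral_add]
    · congr 1
      funext t
      ring
    · exact Continuous.intervalIntegrable (by fun_prop) _ _
    · exact Continuous.intervalIntegrable (by fun_prop) _ _
    · exact Continuous.intervalIntegrable (by fun_prop) _ _
    · exact Continuous.intervalIntegrable (by fun_prop) _ _
  rw [← sI, ← sS, ← s1, ← s2, t1, t2] at hmain
  have e : (∫ t in a..b, f t ^ m) * ((∫ t in a..b, t ^ 2 * f t ^ m)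
        - 2 * c * (∫ t in a..b, t * f t ^ m) + c ^ 2 * ∫ t in a..b, f t ^ m)
      - ((∫ t in a..b, t * f t ^ m) - c * ∫ t in a..b, f t ^ m) ^ 2 =
      (∫ t in a..b, f t ^ m) * (∫ t in a..b, t ^ 2 * f t ^ m)
        - (∫ t in a..b, t * f t ^ m) ^ 2 := by ring
  rw [e] at hmain
  exact hmain

end General

end

end Vale.Agent.Helper22
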