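import Vale.Agent.Helper22.Pyramid

/-!
Auxiliary facts for the tower theorem: the numerical comparison of the tower constant with the
pyramid constant, invariance of `det (Cov) / vol^2` of the standard simplex under relabelling of
coordinates, and its positivity.
-/

namespace Vale.Agent.Helper22

open MeasureTheory Set

noncomputable section

lemma exp_two_lt : Real.exp 2 < 7.39 := by
  have h1 := Real.exp_one_lt_d9
  have h2 : Real.exp 2 = Real.exp 1 * Real.exp 1 := by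
    rw [← Real.exp_add]; norm_num
  rw [h2]
  have h0 : 0 < Real.exp 1 := Real.exp_pos 1
  nlinarith

lemma pow_le_exp_two (m : ℕ) :
    ((m : ℝ) + 3) ^ (m + 1) ≤ Real.exp 2 * ((m : ℝ) + 1) ^ (m + 1) := by
  have hx : (0:ℝ) < (m : ℝ) + 1 := by positivity
  have h1 : 1 + 2 / ((m : ℝ) + 1) ≤ Real.exp (2 / ((m : ℝ) + 1)) := by
    have := Real.add_one_le_exp (2 / ((m : ℝ) + 1))
    linarith
  have h2 : (1 + 2 / ((m : ℝ) + 1)) ^ (m + 1) ≤ Real.exp (2 / ((m : ℝ) + 1)) ^ (m + 1) :=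
    pow_le_pow_left₀ (by positivity) h1 _
  have h3 : Real.exp (2 / ((m : ℝ) + 1)) ^ (m + 1) = Real.exp 2 := by
    rw [← Real.exp_nat_mul]
    congr 1
    push_cast
    field_simp
  have h4 : ((m : ℝ) + 3) ^ (m + 1) = (1 + 2 / ((m : ℝ) + 1)) ^ (m + 1) * ((m : ℝ) + 1) ^ (m + 1) := by
    rw [← mul_pow]
    congr 1
    field_simp
    ring
  rw [h4, ← h3]
  exact mul_le_mul_of_nonneg_right h2 (by positivity)

lemma tower_key (m : ℕ) (hm : 2 ≤ m) :
    ((m : ℝ) + 2) ^ 3 * ((m : ℝ) + 3) ^ m < 8 * ((m : ℝ) + 1) ^ (m + 3) := by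
  rcases lt_or_ge m 12 with hlt | hge
  · interval_cases m <;> norm_num
  · have hx : (13:ℝ) ≤ (m : ℝ) + 1 := by
      have : (12:ℝ) ≤ (m : ℝ) := by exact_mod_cast hge
      linarith
    set x : ℝ := (m : ℝ) + 1 with hxdef
    have e2 : (m : ℝ) + 2 = x + 1 := by rw [hxdef]; ring
    have e3 : (m : ℝ) + 3 = x + 2 := by rw [hxdef]; ring
    have hp := pow_le_exp_two m
    rw [e3, ← hxdef] at hp
    rw [e2, e3]
    have hxp : 0 < x ^ (m + 1) := by positivity
    have hpoly : 7.39 * (x + 1) ^ 3 ≤ 8 * x ^ 2 * (x + 2) := by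
      nlinarith [mul_nonneg (sub_nonneg.2 hx) (sub_nonneg.2 hx),
        mul_nonneg (mul_nonneg (sub_nonneg.2 hx) (sub_nonneg.2 hx)) (sub_nonneg.2 hx)]
    have hx2 : 0 < x + 2 := by linarith
    have h1 : (x + 1) ^ 3 * (x + 2) ^ (m + 1) < 8 * x ^ 2 * (x + 2) * x ^ (m + 1) := by
      calc (x + 1) ^ 3 * (x + 2) ^ (m + 1) ≤ (x + 1) ^ 3 * (Real.exp 2 * x ^ (m + 1)) :=
            mul_le_mul_of_nonneg_left hp (by positivity)
        _ = Real.exp 2 * ((x + 1) ^ 3 * x ^ (m + 1)) := by ring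
        _ < 7.39 * ((x + 1) ^ 3 * x ^ (m + 1)) :=
            mul_lt_mul_of_pos_right exp_two_lt (by positivity)
        _ = 7.39 * (x + 1) ^ 3 * x ^ (m + 1) := by ring
        _ ≤ 8 * x ^ 2 * (x + 2) * x ^ (m + 1) := mul_le_mul_of_nonneg_right hpoly hxp.le
    have h2 : ((x + 1) ^ 3 * (x + 2) ^ m) * (x + 2) < (8 * x ^ (m + 3)) * (x + 2) := by
      calc ((x + 1) ^ 3 * (x + 2) ^ m) * (x + 2) = (x + 1) ^ 3 * (x + 2) ^ (m + 1) := by ring
        _ < 8 * x ^ 2 * (x + 2) * x ^ (m + 1) := h1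
        _ = (8 * x ^ (m + 3)) * (x + 2) := by ring
    exact lt_of_mul_lt_mul_right h2 hx2.le

/-- The tower constant is strictly smaller than the pyramid constant. -/
lemma tower_const_lt (m : ℕ) (hm : 2 ≤ m) :
    ((m : ℝ) + 2) / (8 * ((m : ℝ) + 3)) < pyrConst m := by
  unfold pyrConst
  have hm3 : (0:ℝ) < (m : ℝ) + 3 := by positivity
  rw [div_lt_div_iff₀ (by positivity) (by positivity)]
  have key := tower_key m hm
  have e1 : ((m : ℝ) + 2) * (((m : ℝ) + 3) ^ (m + 1) * ((m : ℝ) + 2) ^ 2) =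
      (((m : ℝ) + 2) ^ 3 * ((m : ℝ) + 3) ^ m) * ((m : ℝ) + 3) := by ring
  have e2 : ((m : ℝ) + 1) ^ (m + 3) * (8 * ((m : ℝ) + 3)) =
      (8 * ((m : ℝ) + 1) ^ (m + 3)) * ((m : ℝ) + 3) := by ring
  rw [e1, e2]
  exact mul_lt_mul_of_pos_right key hm3

variable {ι : Type*} [Fintype ι] {κ : Type*} [Fintype κ]

/-- Relabelling of coordinates along an equivalence of index types. -/
def relabel (e : ι ≃ κ) : (ι → ℝ) ≃ᵐ (κ → ℝ) :=
  MeasurableEquiv.arrowCongr' e (MeasurableEquiv.refl ℝ)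

omit [Fintype ι] [Fintype κ] in
lemma relabel_apply (e : ι ≃ κ) (x : ι → ℝ) (k : κ) : relabel e x k = x (e.symm k) := rfl

lemma relabel_mp (e : ι ≃ κ) : MeasurePreserving (relabel e) volume volume :=
  volume_preserving_arrowCongr' e (MeasurableEquiv.refl ℝ) (MeasurePreserving.id volume)

lemma relabel_preimage (e : ι ≃ κ) : relabel e ⁻¹' (stdSimp κ) = stdSimp ι := by
  ext x
  simp only [mem_preimage, stdSimp, mem_ofPred_eq, relabel_apply]
  rw [Equiv.sum_comp e.symm x]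
  constructor
  · rintro ⟨h0, h1⟩
    refine ⟨fun i => ?_, h1⟩
    simpa using h0 (e i)
  · rintro ⟨h0, h1⟩
    exact ⟨fun k => h0 _, h1⟩

lemma vol_stdSimp_relabel (e : ι ≃ κ) : vol (stdSimp κ) = vol (stdSimp ι) := by
  unfold vol
  rw [← relabel_preimage e, (relabel_mp e).measure_preimage_emb (relabel e).measurableEmbedding]

lemma mom1_stdSimp_relabel (e : ι ≃ κ) (k : κ) :
    mom1 (stdSimp κ) k = mom1 (stdSimp ι) (e.symm k) := by
  unfold mom1
  rw [← relabel_preimage e,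
    ← (relabel_mp e).setIntegral_preimage_emb (relabel e).measurableEmbedding]
  rfl

lemma mom2_stdSimp_relabel (e : ι ≃ κ) (k l : κ) :
    mom2 (stdSimp κ) k l = mom2 (stdSimp ι) (e.symm k) (e.symm l) := by
  unfold mom2
  rw [← relabel_preimage e,
    ← (relabel_mp e).setIntegral_preimage_emb (relabel e).measurableEmbedding]
  rfl

lemma cov_stdSimp_relabel (e : ι ≃ κ) :
    cov (stdSimp κ) = Matrix.reindex e e (cov (stdSimp ι)) := by
  ext k l
  simp [cov, centroid, mom1_stdSimp_relabel e, mom2_stdSimp_relabel e, vol_stdSimp_relabel e]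

theorem isoRatio_stdSimp_relabel [DecidableEq ι] [DecidableEq κ] (e : ι ≃ κ) :
    isoRatio (stdSimp κ) = isoRatio (stdSimp ι) := by
  unfold isoRatio
  rw [cov_stdSimp_relabel e, Matrix.det_reindex_self, vol_stdSimp_relabel e]

lemma isoRatio_stdSimp_empty [DecidableEq ι] [IsEmpty ι] : isoRatio (stdSimp ι) = 1 := by
  have hu : stdSimp ι = univ := by
    ext y
    simp [stdSimp]
  unfold isoRatio
  rw [Matrix.det_isEmpty]
  have hv : vol (stdSimp ι) = 1 := by
    unfold vol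
    rw [hu, volume_pi]
    simp
  rw [hv]
  norm_num

theorem isoRatio_stdSimp_fin_pos : ∀ n : ℕ, 0 < isoRatio (stdSimp (Fin n))
  | 0 => by
    rw [isoRatio_stdSimp_empty]
    exact one_pos
  | n + 1 => by
    have e : Fin n ⊕ Unit ≃ Fin (n + 1) := Fintype.equivOfCardEq (by simp)
    rw [isoRatio_stdSimp_relabel e, isoRatio_stdSimp_succ]
    exact mul_pos (pyrConst_pos _) (isoRatio_stdSimp_fin_pos n)

theorem isoRatio_stdSimp_pos [DecidableEq ι] : 0 < isoRatio (stdSimp ι) := by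
  rw [isoRatio_stdSimp_relabel (Fintype.equivFin ι).symm]
  exact isoRatio_stdSimp_fin_pos _

end

end Vale.Agent.Helper22
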