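import Vale.Agent.Helper22.SharpGeom
import Vale.Agent.Helper22.RearrSharp
import Vale.Agent.Helper22.TowerAux

/-!
The sharp tower theorem for arbitrary concave profiles: for a centred bounded measurable base `M`
in any dimension `m` and a continuous, concave, nonnegative profile `f` on `[a, b]`, the tower
`{(f(t) y, t) : y ∈ M, a ≤ t ≤ b}` has `det (Cov) / vol^2` equal to an explicit factor times that
of `M`, and the factor is at most the value `pyrConst m` attained by cones.
-/

namespace Vale.Agent.Helper22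

open MeasureTheory Set

noncomputable section

/-- The case `m = 0` of the one-dimensional inequality (an identity for the uniform weight). -/
lemma sharp_bound_zero (f : ℝ → ℝ) (a b : ℝ) :
    ((∫ t in a..b, f t ^ 0) * (∫ t in a..b, t ^ 2 * f t ^ 0)
        - (∫ t in a..b, t * f t ^ 0) ^ 2) * (∫ t in a..b, f t ^ (0 + 2)) ^ 0 ≤
      pyrConst 0 * (∫ t in a..b, f t ^ 0) ^ (0 + 4) := by
  have e2 : ∫ t in a..b, t ^ 2 = (b ^ 3 - a ^ 3) / 3 := by
    rw [integral_pow]; norm_num
  simp only [pow_zero, mul_one, intervalIntegral.integral_const, smul_eq_mul, integral_id, e2]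
  unfold pyrConst
  norm_num
  apply le_of_eq
  ring

/-- The sharp one-dimensional inequality for every exponent `m`. -/
theorem sharp_bound_all {f : ℝ → ℝ} (hc : Continuous f) {a b : ℝ} (hab : a < b)
    (hconc : ConcaveOn ℝ (Icc a b) f) (hnn : ∀ x ∈ Icc a b, 0 ≤ f x)
    (hpos : ∃ x ∈ Icc a b, 0 < f x) (m : ℕ) :
    ((∫ t in a..b, f t ^ m) * (∫ t in a..b, t ^ 2 * f t ^ m)
        - (∫ t in a..b, t * f t ^ m) ^ 2) * (∫ t in a..b, f t ^ (m + 2)) ^ m ≤
      pyrConst m * (∫ t in a..b, f t ^ m) ^ (m + 4) := by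
  rcases Nat.eq_zero_or_pos m with h0 | hpos'
  · subst h0
    exact sharp_bound_zero f a b
  · exact sharp_bound_general hc hab hconc hnn hpos m hpos'

/-- Cauchy–Schwarz for the first moment of a nonnegative continuous weight. -/
lemma var_nonneg {w : ℝ → ℝ} (hw : Continuous w) {a b : ℝ} (hab : a ≤ b)
    (hnn : ∀ t ∈ Icc a b, 0 ≤ w t) :
    (∫ t in a..b, t * w t) ^ 2 ≤ (∫ t in a..b, w t) * (∫ t in a..b, t ^ 2 * w t) := by
  have hq : ∀ x : ℝ, 0 ≤ (∫ t in a..b, w t) * (x * x) +
      (-2 * ∫ t in a..b, t * w t) * x + ∫ t in a..b, t ^ 2 * w t := by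
    intro x
    have h0 : 0 ≤ ∫ t in a..b, w t * (x - t) ^ 2 := by
      apply intervalIntegral.integral_nonneg hab
      intro t ht
      exact mul_nonneg (hnn t ht) (sq_nonneg _)
    have e : ∀ t, w t * (x - t) ^ 2 = (x * x) * w t - (2 * x) * (t * w t) + t ^ 2 * w t := by
      intro t; ring
    simp_rw [e] at h0
    rw [intervalIntegral.integral_add, intervalIntegral.integral_sub,
      intervalIntegral.integral_const_mul, intervalIntegral.integral_const_mul] at h0
    · linarith
    all_goals exact Continuous.intervalIntegrable (by fun_prop) _ _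
  have hd := discrim_le_zero hq
  unfold discrim at hd
  nlinarith

lemma pos_of_concave_general {f : ℝ → ℝ} {a b : ℝ} (hconc : ConcaveOn ℝ (Icc a b) f)
    (hnn : ∀ x ∈ Icc a b, 0 ≤ f x) (hpos : ∃ x ∈ Icc a b, 0 < f x) {t : ℝ}
    (ht : t ∈ Ioo a b) : 0 < f t := by
  obtain ⟨x₀, hx₀, hfx₀⟩ := hpos
  have ham : a ∈ Icc a b := ⟨le_refl _, le_trans hx₀.1 hx₀.2⟩
  have hbm : b ∈ Icc a b := ⟨le_trans hx₀.1 hx₀.2, le_refl _⟩
  rcases le_total t x₀ with hle | hle
  · have hd : 0 < x₀ - a := by linarith [ht.1]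
    set θ : ℝ := (t - a) / (x₀ - a) with hθ
    have hθ0 : 0 < θ := div_pos (by linarith [ht.1]) hd
    have hθ1 : θ ≤ 1 := (div_le_one hd).2 (by linarith)
    have h := hconc.2 ham hx₀ (sub_nonneg.2 hθ1) hθ0.le (by ring)
    simp only [smul_eq_mul] at h
    have e : (1 - θ) * a + θ * x₀ = t := by
      rw [hθ]; field_simp; ring
    rw [e] at h
    have h1 : 0 ≤ (1 - θ) * f a := mul_nonneg (sub_nonneg.2 hθ1) (hnn a ham)
    have h2 : 0 < θ * f x₀ := mul_pos hθ0 hfx₀
    linarith
  · have hd : 0 < b - x₀ := by linarith [ht.2]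
    set θ : ℝ := (b - t) / (b - x₀) with hθ
    have hθ0 : 0 < θ := div_pos (by linarith [ht.2]) hd
    have hθ1 : θ ≤ 1 := (div_le_one hd).2 (by linarith)
    have h := hconc.2 hx₀ hbm hθ0.le (sub_nonneg.2 hθ1) (by ring)
    simp only [smul_eq_mul] at h
    have e : θ * x₀ + (1 - θ) * b = t := by
      rw [hθ]; field_simp; ring
    rw [e] at h
    have h1 : 0 ≤ (1 - θ) * f b := mul_nonneg (sub_nonneg.2 hθ1) (hnn b hbm)
    have h2 : 0 < θ * f x₀ := mul_pos hθ0 hfx₀
    linarith

variable {ι : Type*} [Fintype ι]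

theorem concave_tower_main [DecidableEq ι]
    (M : Set (ι → ℝ)) (hM : MeasurableSet M) (hb : Bornology.IsBounded M)
    (hcen : ∀ i, mom1 M i = 0)
    (f : ℝ → ℝ) (a b : ℝ) (hab : a < b)
    (hcont : ContinuousOn f (Icc a b)) (hconc : ConcaveOn ℝ (Icc a b) f)
    (hnn : ∀ t ∈ Icc a b, 0 ≤ f t) (hpos : ∃ t ∈ Icc a b, 0 < f t) :
    isoRatio (ctower M f a b) = profileFactor (Fintype.card ι) f a b * isoRatio M ∧
    0 ≤ profileFactor (Fintype.card ι) f a b ∧
    profileFactor (Fintype.card ι) f a b ≤ pyrConst (Fintype.card ι) ∧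
    (isoRatio M ≤ isoRatio (stdSimp ι) →
      isoRatio (ctower M f a b) ≤ isoRatio (stdSimp (ι ⊕ Unit))) ∧
    (MeasurableSet (ctower M f a b) ∧ Bornology.IsBounded (ctower M f a b)) ∧
    ((∀ i, mom1 (ctower M f a b) (Sum.inl i) = 0) ∧
      mom1 (ctower M f a b) (Sum.inr ()) = vol M * ∫ t in a..b, t * f t ^ Fintype.card ι) ∧
    (Convex ℝ M → (0 : ι → ℝ) ∈ M → Convex ℝ (ctower M f a b)) := by
  set g : ℝ → ℝ := fun t => f (max a (min b t)) with hg
  have hclamp : ∀ t : ℝ, max a (min b t) ∈ Icc a b := fun t =>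
    ⟨le_max_left _ _, max_le hab.le (min_le_left _ _)⟩
  have hgeq : ∀ t ∈ Icc a b, g t = f t := by
    intro t ht
    simp only [hg]
    rw [min_eq_right ht.2, max_eq_right ht.1]
  have hgc : Continuous g :=
    hcont.comp_continuous (continuous_const.max (continuous_const.min continuous_id)) hclamp
  have hgconc : ConcaveOn ℝ (Icc a b) g := hconc.congr fun t ht => (hgeq t ht).symm
  have hgnn : ∀ t ∈ Icc a b, 0 ≤ g t := fun t ht => by rw [hgeq t ht]; exact hnn t ht
  have hgpos : ∃ t ∈ Icc a b, 0 < g t := by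
    obtain ⟨t, ht, hft⟩ := hpos
    exact ⟨t, ht, by rw [hgeq t ht]; exact hft⟩
  have htow : ctower M f a b = ctower M g a b := ctower_congr M hgeq
  have hfac : profileFactor (Fintype.card ι) f a b = profileFactor (Fintype.card ι) g a b :=
    profileFactor_congr _ hab.le hgeq
  have hT1 : ∫ t in a..b, t * f t ^ Fintype.card ι = ∫ t in a..b, t * g t ^ Fintype.card ι := by
    apply intervalIntegral.integral_congr
    intro t ht
    rw [uIcc_of_le hab.le] at ht
    simp only
    rw [hgeq t ht]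
  have hpos' : ∀ t ∈ Ioo a b, 0 < g t := fun t ht => pos_of_concave_general hgconc hgnn hgpos ht
  obtain ⟨c, hcm, hcmax⟩ := isCompact_Icc.exists_isMaxOn (nonempty_Icc.2 hab.le)
    (hgc.continuousOn (s := Icc a b))
  have hB : ∀ t ∈ Ioo a b, g t ≤ g c := fun t ht => hcmax ⟨ht.1.le, ht.2.le⟩
  have hB' : ∀ t ∈ Icc a b, abs (g t) ≤ g c := fun t ht => by
    rw [abs_of_nonneg (hgnn t ht)]
    exact hcmax ht
  have hIk : ∀ k : ℕ, 0 < ∫ t in a..b, g t ^ k := by
    intro k
    apply intervalIntegral.intervalIntegral_pos_of_pos_on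
    · exact Continuous.intervalIntegrable (by fun_prop) _ _
    · intro x hx
      exact pow_pos (hpos' x hx) k
    · exact hab
  have hI := hIk (Fintype.card ι)
  have hform : isoRatio (ctower M g a b) = profileFactor (Fintype.card ι) g a b * isoRatio M :=
    isoRatio_ctower hM hb hgc hab.le hpos' hB hcen hI
  have hsharp := sharp_bound_all hgc hab hgconc hgnn hgpos (Fintype.card ι)
  have hI4 : 0 < (∫ t in a..b, g t ^ Fintype.card ι) ^ (Fintype.card ι + 4) := pow_pos hI _
  have hbound : profileFactor (Fintype.card ι) g a b ≤ pyrConst (Fintype.card ι) := by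
    unfold profileFactor
    rw [div_le_iff₀ hI4]
    exact hsharp
  have hnonneg : 0 ≤ profileFactor (Fintype.card ι) g a b := by
    unfold profileFactor
    apply div_nonneg _ hI4.le
    apply mul_nonneg
    · have hv := var_nonneg (w := fun t => g t ^ Fintype.card ι) (by fun_prop) hab.le
        (fun t ht => pow_nonneg (hgnn t ht) _)
      linarith
    · exact pow_nonneg (hIk _).le _
  rw [htow, hfac, hT1]
  refine ⟨hform, hnonneg, hbound, ?_, ⟨measurableSet_ctower hM hgc a b, isBounded_ctower hb hB'⟩,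
    ⟨fun i => ?_, mom1_ctower_inr hM hb hgc hab.le hpos' hB⟩, ?_⟩
  · intro hle
    have hsp : 0 < isoRatio (stdSimp ι) := isoRatio_stdSimp_pos
    rw [hform, isoRatio_stdSimp_succ]
    calc profileFactor (Fintype.card ι) g a b * isoRatio M
        ≤ profileFactor (Fintype.card ι) g a b * isoRatio (stdSimp ι) :=
          mul_le_mul_of_nonneg_left hle hnonneg
      _ ≤ pyrConst (Fintype.card ι) * isoRatio (stdSimp ι) :=
          mul_le_mul_of_nonneg_right hbound hsp.le
  · rw [mom1_ctower_inl hM hb hgc hab.le hpos' hB, hcen i, zero_mul]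
  · intro hMc h0M
    exact convex_ctower hgconc hgnn hMc h0M

end

end Vale.Agent.Helper22
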