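import Vale.Agent.Helper22.FsDet

/-!
Algebraic identities behind the free-sum formula, and the formula itself.
-/

namespace Vale.Agent.Helper22

open MeasureTheory Set Matrix
open scoped Pointwise

noncomputable section

/-- The value `(m!)^2 / ((m+1)^(m+1) (m+2)^m)` of `det Σ / vol^2` for an `m`-simplex. -/
def simpD (m : ℕ) : ℝ := (m.factorial : ℝ) ^ 2 / (((m:ℝ) + 1) ^ (m + 1) * ((m:ℝ) + 2) ^ m)

lemma simpD_pos (m : ℕ) : 0 < simpD m := by
  unfold simpD
  positivity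

lemma theta_eq (k l qA qB : ℝ) (hk : 0 ≤ k) (hl : 0 ≤ l) :
    (1 + fsα k l / fsκ k l * qA) * (1 + fsα l k / fsκ l k * qB) -
        fsγ k l ^ 2 / (fsκ k l * fsκ l k) * qA * qB =
      ((k + 1) * (l + 1) / (k + l + 1)) *
        ((k + 2 + qA) / ((k + 1) * (k + 2)) + (l + 2 + qB) / ((l + 1) * (l + 2)) -
          (k + 2 + qA) / ((k + 1) * (k + 2)) * ((l + 2 + qB) / ((l + 1) * (l + 2)))) := by
  unfold fsα fsκ fsγ
  have h1 : k + 1 ≠ 0 := by positivity
  have h2 : k + 2 ≠ 0 := by positivity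
  have h3 : l + 1 ≠ 0 := by positivity
  have h4 : l + 2 ≠ 0 := by positivity
  have h5 : k + l + 1 ≠ 0 := by positivity
  have h6 : k + l + 2 ≠ 0 := by positivity
  have h7 : l + k + 1 ≠ 0 := by positivity
  have h8 : l + k + 2 ≠ 0 := by positivity
  field_simp
  ring

lemma theta'_eq (k l qA qB : ℝ) (hk : 0 ≤ k) (hl : 0 ≤ l) :
    (1 + qA) * (1 + qB) - (k + 1) * (l + 1) / ((k + 2) * (l + 2)) * qA * qB =
      (k + 1) * (l + 1) *
        ((k + l + 3) * ((k + 2 + qA) / ((k + 1) * (k + 2)) * ((l + 2 + qB) / ((l + 1) * (l + 2)))) -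
          (k + 2 + qA) / ((k + 1) * (k + 2)) - (l + 2 + qB) / ((l + 1) * (l + 2))) := by
  have h1 : k + 1 ≠ 0 := by positivity
  have h2 : k + 2 ≠ 0 := by positivity
  have h3 : l + 1 ≠ 0 := by positivity
  have h4 : l + 2 ≠ 0 := by positivity
  field_simp
  ring

lemma simp_coeff_aux (a1 a2 b1 b2 n1 n2 fk fl fn : ℝ) (_ha1 : a1 ≠ 0) (ha2 : a2 ≠ 0)
    (_hb1 : b1 ≠ 0) (hb2 : b2 ≠ 0) (hn1 : n1 ≠ 0) (hn2 : n2 ≠ 0) (hfk : fk ≠ 0) (hfl : fl ≠ 0)
    (hfn : fn ≠ 0) (k l : ℕ) :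
    (a1 * a2 / (n1 * n2)) ^ k * (b1 * b2 / (n1 * n2)) ^ l / (fk * fl / fn) ^ 2 *
        (a1 * b1 / n1) =
      (fn ^ 2 / (n1 ^ (k + l + 1) * n2 ^ (k + l))) /
        ((fk ^ 2 / (a1 ^ (k + 1) * a2 ^ k)) * (fl ^ 2 / (b1 ^ (l + 1) * b2 ^ l))) := by
  rw [div_pow, div_pow, div_pow, mul_pow, mul_pow, mul_pow, mul_pow, pow_succ, pow_succ, pow_succ,
    pow_add, pow_add]
  field_simp
  ring

lemma simp_coeff (k l : ℕ) :
    fsκ k l ^ k * fsκ l k ^ l / fsC k l ^ 2 * (((k:ℝ) + 1) * ((l:ℝ) + 1) / ((k:ℝ) + l + 1)) =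
      simpD (k + l) / (simpD k * simpD l) := by
  unfold fsκ fsC simpD
  have h1 : (k:ℝ) + 1 ≠ 0 := by positivity
  have h2 : (k:ℝ) + 2 ≠ 0 := by positivity
  have h3 : (l:ℝ) + 1 ≠ 0 := by positivity
  have h4 : (l:ℝ) + 2 ≠ 0 := by positivity
  have h5 : (k:ℝ) + l + 1 ≠ 0 := by positivity
  have h6 : (k:ℝ) + l + 2 ≠ 0 := by positivity
  have hk : (k.factorial : ℝ) ≠ 0 := by positivity
  have hl : (l.factorial : ℝ) ≠ 0 := by positivity
  have hn : ((k + l).factorial : ℝ) ≠ 0 := by positivity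
  have h := simp_coeff_aux _ _ _ _ _ _ _ _ _ h1 h2 h3 h4 h5 h6 hk hl hn k l
  push_cast
  rw [show (l:ℝ) + k + 1 = (k:ℝ) + l + 1 from by ring, show (l:ℝ) + k + 2 = (k:ℝ) + l + 2 from by ring]
  exact h

variable {ι κ : Type*} [Fintype ι] [Fintype κ] [DecidableEq ι] [DecidableEq κ]
  [Nonempty ι] [Nonempty κ] {A : Set (ι → ℝ)} {B : Set (κ → ℝ)}

/-- The free-sum formula for `det Σ / vol^2`. -/
theorem isoRatio_fsum (hA : IsCompact A) (hAs : StarO A) (hB : IsCompact B) (hBs : StarO B)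
    (hVA : vol A ≠ 0) (hVB : vol B ≠ 0) (hdA : (cov A).det ≠ 0) (hdB : (cov B).det ≠ 0) :
    isoRatio (fsum A B) = simpD (Fintype.card ι + Fintype.card κ) *
      (isoRatio A / simpD (Fintype.card ι)) * (isoRatio B / simpD (Fintype.card κ)) *
      (originParam A + originParam B - originParam A * originParam B) := by
  have key : ∀ (X Y c T dA dB W VA VB sn sk sl : ℝ), c ≠ 0 → VA ≠ 0 → VB ≠ 0 → sk ≠ 0 → sl ≠ 0 →
      X * Y / c ^ 2 * T = sn / (sk * sl) →
      X * Y * dA * dB * (T * W) / (VA * VB * c) ^ 2 =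
        sn * (dA / VA ^ 2 / sk) * (dB / VB ^ 2 / sl) * W := by
    intro X Y c T dA dB W VA VB sn sk sl hc hVA hVB hsk hsl h
    have e : X * Y * dA * dB * (T * W) / (VA * VB * c) ^ 2 =
        (X * Y / c ^ 2 * T) * (dA * dB * W / (VA ^ 2 * VB ^ 2)) := by
      field_simp
    rw [e, h]
    field_simp
  unfold isoRatio
  rw [det_cov_fsum hA hAs hB hBs hVA hVB hdA hdB, vol_fsum hA hAs hB hBs,
    theta_eq _ _ _ _ (Nat.cast_nonneg _) (Nat.cast_nonneg _)]
  exact key _ _ _ _ _ _ _ _ _ _ _ _ (fsC_pos _ _).ne' hVA hVB (simpD_pos _).ne' (simpD_pos _).ne'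
    (simp_coeff (Fintype.card ι) (Fintype.card κ))

/-- The origin parameters `a` of a free sum satisfy `1/a_E = 1/a_A + 1/a_B - 1`. -/
theorem originParam_fsum (hA : IsCompact A) (hAs : StarO A) (hB : IsCompact B) (hBs : StarO B)
    (hVA : vol A ≠ 0) (hVB : vol B ≠ 0) (hdA : (cov A).det ≠ 0) (hdB : (cov B).det ≠ 0)
    (hdE : (cov (fsum A B)).det ≠ 0) :
    originParam (fsum A B) *
      (originParam A + originParam B - originParam A * originParam B) =
      originParam A * originParam B := by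
  have hE1 := det_add_vecMulVec (cov (fsum A B)) hdE (centroid (fsum A B))
  have hdE' := hdE
  rw [det_mom_fsum hA hAs hB hBs hVA hVB hdA hdB, det_cov_fsum hA hAs hB hBs hVA hVB hdA hdB,
    theta_eq _ _ _ _ (Nat.cast_nonneg _) (Nat.cast_nonneg _),
    theta'_eq _ _ _ _ (Nat.cast_nonneg _) (Nat.cast_nonneg _)] at hE1
  rw [det_cov_fsum hA hAs hB hBs hVA hVB hdA hdB] at hdE'
  have hP : fsκ (Fintype.card ι) (Fintype.card κ) ^ Fintype.card ι *
        fsκ (Fintype.card κ) (Fintype.card ι) ^ Fintype.card κ * (cov A).det * (cov B).det ≠ 0 :=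
    left_ne_zero_of_mul hdE'
  have hq : mahal (fsum A B) =
      centroid (fsum A B) ⬝ᵥ (cov (fsum A B))⁻¹ *ᵥ centroid (fsum A B) := rfl
  rw [← hq] at hE1
  have hE2 := mul_left_cancel₀ hP (hE1.trans (mul_assoc _ _ _))
  have ha : originParam A = ((Fintype.card ι : ℝ) + 2 + mahal A) /
      (((Fintype.card ι : ℝ) + 1) * ((Fintype.card ι : ℝ) + 2)) := rfl
  have hb : originParam B = ((Fintype.card κ : ℝ) + 2 + mahal B) /
      (((Fintype.card κ : ℝ) + 1) * ((Fintype.card κ : ℝ) + 2)) := rfl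
  rw [← ha, ← hb] at hE2
  have hE : originParam (fsum A B) = ((Fintype.card ι : ℝ) + Fintype.card κ + 2 +
      mahal (fsum A B)) / (((Fintype.card ι : ℝ) + Fintype.card κ + 1) *
        ((Fintype.card ι : ℝ) + Fintype.card κ + 2)) := by
    unfold originParam
    rw [Fintype.card_sum]
    push_cast
    rfl
  rw [hE]
  have h1 : (Fintype.card ι : ℝ) + Fintype.card κ + 1 ≠ 0 := by positivity
  have h2 : (Fintype.card ι : ℝ) + Fintype.card κ + 2 ≠ 0 := by positivity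
  have hk1 : (Fintype.card ι : ℝ) + 1 ≠ 0 := by positivity
  have hl1 : (Fintype.card κ : ℝ) + 1 ≠ 0 := by positivity
  generalize originParam A = a at *
  generalize originParam B = b at *
  generalize mahal (fsum A B) = qE at *
  generalize (Fintype.card ι : ℝ) = k at *
  generalize (Fintype.card κ : ℝ) = l at *
  have hE3 : (k + l + 1) * ((k + l + 3) * (a * b) - a - b) = (a + b - a * b) * (1 + qE) := by
    field_simp at hE2
    linear_combination hE2
  rw [div_mul_eq_mul_div, div_eq_iff (mul_ne_zero h1 h2)]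
  linear_combination -hE3

end

end Vale.Agent.Helper22
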