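import Vale.Agent.Helper22.RevBody

/-!
The simplex bound for bodies of revolution (P254), together with convexity, compactness and
positivity of the volume of such bodies, and the closed form of `det (Cov) / vol^2` for the
standard simplex.
-/

namespace Vale.Agent.Helper22

open MeasureTheory Set

noncomputable section

lemma convex_revBody (n : ℕ) (f : ℝ → ℝ) (a b : ℝ) (hconc : ConcaveOn ℝ (Icc a b) f)
    (hnn : ∀ t ∈ Icc a b, 0 ≤ f t) : Convex ℝ (revBody n f a b) := by
  have hct : Convex ℝ (ctower (eball n) f a b) :=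
    convex_ctower hconc hnn (convex_eball n) (zero_mem_eball n)
  have hset : revBody n f a b =
      (fun x : Fin (n + 1) → ℝ => fun j : Fin n ⊕ Unit => x (lastEquiv n j)) ⁻¹'
        ctower (eball n) f a b := by
    rw [← relabel_revBody n f a b hnn]
    ext x
    simp only [mem_preimage]
    have e : relabel (lastEquiv n) (fun j => x (lastEquiv n j)) = x := by
      ext k
      simp [relabel_apply]
    rw [e]
  rw [hset]
  exact hct.is_linear_preimage ⟨fun x y => rfl, fun c x => rfl⟩

lemma revBody_congr (n : ℕ) {f g : ℝ → ℝ} {a b : ℝ} (hfg : ∀ t ∈ Icc a b, g t = f t) :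
    revBody n f a b = revBody n g a b := by
  ext x
  constructor
  · rintro ⟨h1, h2, h3⟩
    exact ⟨h1, h2, by rw [hfg _ ⟨h1, h2⟩]; exact h3⟩
  · rintro ⟨h1, h2, h3⟩
    exact ⟨h1, h2, by rw [← hfg _ ⟨h1, h2⟩]; exact h3⟩

lemma isClosed_revBody (n : ℕ) {g : ℝ → ℝ} (hg : Continuous g) (a b : ℝ) :
    IsClosed (revBody n g a b) := by
  have h1 : IsClosed {x : Fin (n + 1) → ℝ | a ≤ x (Fin.last n)} :=
    isClosed_le continuous_const (continuous_apply _)
  have h2 : IsClosed {x : Fin (n + 1) → ℝ | x (Fin.last n) ≤ b} :=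
    isClosed_le (continuous_apply _) continuous_const
  have h3 : IsClosed {x : Fin (n + 1) → ℝ |
      ∑ i : Fin n, x (Fin.castSucc i) ^ 2 ≤ g (x (Fin.last n)) ^ 2} := by
    apply isClosed_le
    · exact continuous_finsetSum _ fun i _ => (continuous_apply _).pow 2
    · exact (hg.comp (continuous_apply _)).pow 2
  have hset : revBody n g a b = {x : Fin (n + 1) → ℝ | a ≤ x (Fin.last n)} ∩
      ({x : Fin (n + 1) → ℝ | x (Fin.last n) ≤ b} ∩ {x : Fin (n + 1) → ℝ |
        ∑ i : Fin n, x (Fin.castSucc i) ^ 2 ≤ g (x (Fin.last n)) ^ 2}) := by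
    ext x
    rfl
  rw [hset]
  exact h1.inter (h2.inter h3)

lemma isBounded_revBody (n : ℕ) {g : ℝ → ℝ} {a b B : ℝ} (hB : ∀ t ∈ Icc a b, |g t| ≤ B) :
    Bornology.IsBounded (revBody n g a b) := by
  rw [isBounded_iff_forall_norm_le]
  refine ⟨max |B| (max |a| |b|), fun x hx => ?_⟩
  obtain ⟨h1, h2, h3⟩ := hx
  rw [pi_norm_le_iff_of_nonneg (le_trans (abs_nonneg _) (le_max_left _ _))]
  intro k
  rw [Real.norm_eq_abs]
  refine Fin.lastCases ?_ (fun i => ?_) k
  · exact le_trans (abs_le_max_abs_abs h1 h2) (le_max_right _ _)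
  · have hi : x (Fin.castSucc i) ^ 2 ≤ ∑ j : Fin n, x (Fin.castSucc j) ^ 2 :=
      Finset.single_le_sum (f := fun j => x (Fin.castSucc j) ^ 2) (fun j _ => sq_nonneg _)
        (Finset.mem_univ i)
    have h4 : |x (Fin.castSucc i)| ≤ |g (x (Fin.last n))| := sq_le_sq.1 (le_trans hi h3)
    exact le_trans h4 (le_trans (le_trans (hB _ ⟨h1, h2⟩) (le_abs_self B)) (le_max_left _ _))

lemma isCompact_revBody (n : ℕ) (f : ℝ → ℝ) (a b : ℝ) (hab : a ≤ b)
    (hcont : ContinuousOn f (Icc a b)) : IsCompact (revBody n f a b) := by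
  set g : ℝ → ℝ := fun t => f (max a (min b t)) with hg
  have hclamp : ∀ t : ℝ, max a (min b t) ∈ Icc a b := fun t =>
    ⟨le_max_left _ _, max_le hab (min_le_left _ _)⟩
  have hgeq : ∀ t ∈ Icc a b, g t = f t := by
    intro t ht
    simp only [hg]
    rw [min_eq_right ht.2, max_eq_right ht.1]
  have hgc : Continuous g :=
    hcont.comp_continuous (continuous_const.max (continuous_const.min continuous_id)) hclamp
  rw [revBody_congr n hgeq]
  obtain ⟨c, hcm, hcmax⟩ := isCompact_Icc.exists_isMaxOn (nonempty_Icc.2 hab)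
    (hgc.abs.continuousOn (s := Icc a b))
  exact Metric.isCompact_of_isClosed_isBounded (isClosed_revBody n hgc a b)
    (isBounded_revBody n (B := |g c|) fun t ht => hcmax ht)

/-- The simplex bound for bodies of revolution with concave profile. -/
theorem revBody_main (n : ℕ) (f : ℝ → ℝ) (a b : ℝ) (hab : a < b)
    (hcont : ContinuousOn f (Icc a b)) (hconc : ConcaveOn ℝ (Icc a b) f)
    (hnn : ∀ t ∈ Icc a b, 0 ≤ f t) (hpos : ∃ t ∈ Icc a b, 0 < f t) :
    Convex ℝ (revBody n f a b) ∧ IsCompact (revBody n f a b) ∧ 0 < vol (revBody n f a b) ∧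
    isoRatio (revBody n f a b) ≤ isoRatio (stdSimp (Fin (n + 1))) ∧
    (2 ≤ n → isoRatio (revBody n f a b) < isoRatio (stdSimp (Fin (n + 1)))) := by
  obtain ⟨hcen, hvol, hle, hlt⟩ := eball_props n
  obtain ⟨h1, h2, h3, h4, -, -, -⟩ :=
    concave_tower_main (eball n) (measurableSet_eball n) (isBounded_eball n) hcen f a b hab
      hcont hconc hnn hpos
  obtain ⟨hv1, hv2⟩ := vol_ctower_concave (eball n) (measurableSet_eball n) (isBounded_eball n)
    f a b hab hcont hconc hnn hpos
  have hpre := relabel_revBody n f a b hnn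
  have hD : isoRatio (revBody n f a b) = isoRatio (ctower (eball n) f a b) := by
    rw [isoRatio_relabel (lastEquiv n), hpre]
  have hS : isoRatio (stdSimp (Fin (n + 1))) = isoRatio (stdSimp (Fin n ⊕ Unit)) :=
    isoRatio_stdSimp_relabel (lastEquiv n)
  refine ⟨convex_revBody n f a b hconc hnn, isCompact_revBody n f a b hab.le hcont, ?_, ?_,
    fun hn => ?_⟩
  · rw [← vol_relabel (lastEquiv n), hpre, hv1]
    exact mul_pos hvol hv2
  · rw [hD, hS]
    exact h4 hle
  · rw [hD, hS, h1, isoRatio_stdSimp_succ]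
    exact strict_aux h2 h3 (pyrConst_pos _) isoRatio_stdSimp_pos hle (Or.inr (hlt hn))

/-- Closed form of `det (Cov) / vol^2` for the standard simplex of dimension `n`. -/
theorem isoRatio_stdSimp_fin : ∀ n : ℕ, isoRatio (stdSimp (Fin n)) =
    (n.factorial : ℝ) ^ 2 / (((n : ℝ) + 1) ^ (n + 1) * ((n : ℝ) + 2) ^ n)
  | 0 => by
    rw [isoRatio_stdSimp_empty]
    norm_num
  | n + 1 => by
    rw [isoRatio_stdSimp_relabel (lastEquiv n), isoRatio_stdSimp_succ, isoRatio_stdSimp_fin n,
      Fintype.card_fin]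
    unfold pyrConst
    rw [Nat.factorial_succ]
    push_cast
    have h1 : (0:ℝ) < (n:ℝ) + 1 := by positivity
    field_simp
    ring

end

end Vale.Agent.Helper22
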