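import Vale.Agent.Helper22.FsMoments
import Vale.Agent.Helper22.RevMain

/-!
Determinant of the covariance matrix of a free sum and the resulting formula for
`det Σ / vol^2`.
-/

namespace Vale.Agent.Helper22

open MeasureTheory Set Matrix
open scoped Pointwise

noncomputable section

variable {ι κ : Type*} [Fintype ι] [Fintype κ] [DecidableEq ι] [DecidableEq κ]

/-- Determinant of a rank-two perturbation of a block-diagonal matrix. -/
lemma det_block_rank2 (SA SAi : Matrix ι ι ℝ) (hA : SA * SAi = 1) (SB SBi : Matrix κ κ ℝ)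
    (hB : SB * SBi = 1) (a : ι → ℝ) (b : κ → ℝ) (α β γ : ℝ) :
    (fromBlocks (SA + α • vecMulVec a a) (-γ • vecMulVec a b) (-γ • vecMulVec b a)
      (SB + β • vecMulVec b b)).det =
      SA.det * SB.det * ((1 + α * (a ⬝ᵥ SAi *ᵥ a)) * (1 + β * (b ⬝ᵥ SBi *ᵥ b)) -
        γ ^ 2 * (a ⬝ᵥ SAi *ᵥ a) * (b ⬝ᵥ SBi *ᵥ b)) := by
  set D : Matrix (ι ⊕ κ) (ι ⊕ κ) ℝ := fromBlocks SA 0 0 SB with hD
  set Di : Matrix (ι ⊕ κ) (ι ⊕ κ) ℝ := fromBlocks SAi 0 0 SBi with hDi
  have hDDi : D * Di = 1 := by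
    rw [hD, hDi, fromBlocks_multiply]
    simp [hA, hB]
  set P0 : Matrix (ι ⊕ κ) (Fin 2) ℝ := Matrix.of fun s j =>
    Sum.elim (fun i => if j = 0 then a i else 0) (fun i => if j = 1 then b i else 0) s with hP0
  set Q : Matrix (Fin 2) (ι ⊕ κ) ℝ := Matrix.of fun j s =>
    Sum.elim (fun i => (if j = 0 then α else -γ) * a i)
      (fun i => (if j = 0 then -γ else β) * b i) s with hQ
  have hM : fromBlocks (SA + α • vecMulVec a a) (-γ • vecMulVec a b) (-γ • vecMulVec b a)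
      (SB + β • vecMulVec b b) = D * (1 + (Di * P0) * Q) := by
    rw [Matrix.mul_add, Matrix.mul_one, ← Matrix.mul_assoc, ← Matrix.mul_assoc, hDDi,
      Matrix.one_mul]
    ext (i | j) (i' | j')
    · simp [hD, hP0, hQ, Matrix.mul_apply, Matrix.vecMulVec_apply, Fin.sum_univ_two]
      ring
    · simp [hD, hP0, hQ, Matrix.mul_apply, Matrix.vecMulVec_apply, Fin.sum_univ_two]
      ring
    · simp [hD, hP0, hQ, Matrix.mul_apply, Matrix.vecMulVec_apply, Fin.sum_univ_two]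
      ring
    · simp [hD, hP0, hQ, Matrix.mul_apply, Matrix.vecMulVec_apply, Fin.sum_univ_two]
      ring
  have hDP : ∀ j : Fin 2, (∀ i : ι, (Di * P0) (Sum.inl i) j = if j = 0 then (SAi *ᵥ a) i else 0) ∧
      (∀ i : κ, (Di * P0) (Sum.inr i) j = if j = 1 then (SBi *ᵥ b) i else 0) := by
    intro j
    constructor
    · intro i
      fin_cases j <;>
        simp [hDi, hP0, Matrix.mul_apply, Fintype.sum_sum_type, Matrix.mulVec, dotProduct]
    · intro i
      fin_cases j <;>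
        simp [hDi, hP0, Matrix.mul_apply, Fintype.sum_sum_type, Matrix.mulVec, dotProduct]
  have e00 : (Q * (Di * P0)) 0 0 = α * (a ⬝ᵥ SAi *ᵥ a) := by
    rw [Matrix.mul_apply, Fintype.sum_sum_type]
    simp only [(hDP 0).1, (hDP 0).2]
    simp [hQ, dotProduct, Finset.mul_sum, mul_assoc]
  have e01 : (Q * (Di * P0)) 0 1 = -γ * (b ⬝ᵥ SBi *ᵥ b) := by
    rw [Matrix.mul_apply, Fintype.sum_sum_type]
    simp only [(hDP 1).1, (hDP 1).2]
    simp [hQ, dotProduct, Finset.mul_sum, mul_assoc]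
  have e10 : (Q * (Di * P0)) 1 0 = -γ * (a ⬝ᵥ SAi *ᵥ a) := by
    rw [Matrix.mul_apply, Fintype.sum_sum_type]
    simp only [(hDP 0).1, (hDP 0).2]
    simp [hQ, dotProduct, Finset.mul_sum, mul_assoc]
  have e11 : (Q * (Di * P0)) 1 1 = β * (b ⬝ᵥ SBi *ᵥ b) := by
    rw [Matrix.mul_apply, Fintype.sum_sum_type]
    simp only [(hDP 1).1, (hDP 1).2]
    simp [hQ, dotProduct, Finset.mul_sum, mul_assoc]
  rw [hM, det_mul, det_one_add_mul_comm, hD, det_fromBlocks_zero₁₂, det_fin_two]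
  simp only [Matrix.add_apply, e00, e01, e10, e11]
  have h00 : (1 : Matrix (Fin 2) (Fin 2) ℝ) 0 0 = 1 := by simp
  have h01 : (1 : Matrix (Fin 2) (Fin 2) ℝ) 0 1 = 0 := by simp
  have h10 : (1 : Matrix (Fin 2) (Fin 2) ℝ) 1 0 = 0 := by simp
  have h11 : (1 : Matrix (Fin 2) (Fin 2) ℝ) 1 1 = 1 := by simp
  rw [h00, h01, h10, h11]
  ring

/-- Rank-one determinant lemma. -/
lemma det_add_vecMulVec (S : Matrix ι ι ℝ) (hS : S.det ≠ 0) (c : ι → ℝ) :
    (S + vecMulVec c c).det = S.det * (1 + c ⬝ᵥ S⁻¹ *ᵥ c) := by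
  have h := det_add_replicateCol_mul_replicateRow (ι := Unit) (isUnit_iff_ne_zero.2 hS) c c
  rw [← vecMulVec_eq Unit] at h
  rw [h]
  congr 1
  rw [det_unique, Matrix.add_apply, Matrix.one_apply_eq, Matrix.mul_assoc, Matrix.mul_apply]
  simp [dotProduct, Matrix.mulVec, Matrix.mul_apply]

/-- Squared Mahalanobis distance of the origin from the centroid: `b_K^T Σ_K^{-1} b_K`. -/
def mahal (K : Set (ι → ℝ)) : ℝ := centroid K ⬝ᵥ (cov K)⁻¹ *ᵥ centroid K

/-- The origin parameter `(m + 2 + b_K^T Σ_K^{-1} b_K) / ((m + 1)(m + 2))` of a set `K` in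
dimension `m`. For a simplex it is the sum of the squares of the barycentric coordinates of the
origin. -/
def originParam (K : Set (ι → ℝ)) : ℝ :=
  ((Fintype.card ι : ℝ) + 2 + mahal K) / (((Fintype.card ι : ℝ) + 1) * ((Fintype.card ι : ℝ) + 2))

lemma fsκ_pos {k l : ℝ} (hk : 0 ≤ k) (hl : 0 ≤ l) : 0 < fsκ k l := by
  unfold fsκ
  positivity

variable [Nonempty ι] [Nonempty κ] {A : Set (ι → ℝ)} {B : Set (κ → ℝ)}

lemma det_cov_fsum (hA : IsCompact A) (hAs : StarO A) (hB : IsCompact B) (hBs : StarO B)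
    (hVA : vol A ≠ 0) (hVB : vol B ≠ 0) (hdA : (cov A).det ≠ 0) (hdB : (cov B).det ≠ 0) :
    (cov (fsum A B)).det =
      fsκ (Fintype.card ι) (Fintype.card κ) ^ Fintype.card ι *
        fsκ (Fintype.card κ) (Fintype.card ι) ^ Fintype.card κ * (cov A).det * (cov B).det *
      ((1 + fsα (Fintype.card ι) (Fintype.card κ) / fsκ (Fintype.card ι) (Fintype.card κ) *
          mahal A) *
        (1 + fsα (Fintype.card κ) (Fintype.card ι) / fsκ (Fintype.card κ) (Fintype.card ι) *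
          mahal B) -
        fsγ (Fintype.card ι) (Fintype.card κ) ^ 2 /
          (fsκ (Fintype.card ι) (Fintype.card κ) * fsκ (Fintype.card κ) (Fintype.card ι)) *
          mahal A * mahal B) := by
  have hκA : fsκ (Fintype.card ι) (Fintype.card κ) ≠ 0 :=
    (fsκ_pos (Nat.cast_nonneg _) (Nat.cast_nonneg _)).ne'
  have hκB : fsκ (Fintype.card κ) (Fintype.card ι) ≠ 0 :=
    (fsκ_pos (Nat.cast_nonneg _) (Nat.cast_nonneg _)).ne'
  have hAi : (fsκ (Fintype.card ι) (Fintype.card κ) • cov A) *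
      ((fsκ (Fintype.card ι) (Fintype.card κ))⁻¹ • (cov A)⁻¹) = 1 := by
    rw [Matrix.smul_mul, Matrix.mul_smul, smul_smul, mul_inv_cancel₀ hκA, one_smul,
      Matrix.mul_nonsing_inv _ (isUnit_iff_ne_zero.2 hdA)]
  have hBi : (fsκ (Fintype.card κ) (Fintype.card ι) • cov B) *
      ((fsκ (Fintype.card κ) (Fintype.card ι))⁻¹ • (cov B)⁻¹) = 1 := by
    rw [Matrix.smul_mul, Matrix.mul_smul, smul_smul, mul_inv_cancel₀ hκB, one_smul,
      Matrix.mul_nonsing_inv _ (isUnit_iff_ne_zero.2 hdB)]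
  rw [cov_fsum hA hAs hB hBs hVA hVB, det_block_rank2 _ _ hAi _ _ hBi]
  have e1 : centroid A ⬝ᵥ ((fsκ (Fintype.card ι) (Fintype.card κ))⁻¹ • (cov A)⁻¹) *ᵥ centroid A =
      (fsκ (Fintype.card ι) (Fintype.card κ))⁻¹ * mahal A := by
    rw [Matrix.smul_mulVec, dotProduct_smul, smul_eq_mul]
    rfl
  have e2 : centroid B ⬝ᵥ ((fsκ (Fintype.card κ) (Fintype.card ι))⁻¹ • (cov B)⁻¹) *ᵥ centroid B =
      (fsκ (Fintype.card κ) (Fintype.card ι))⁻¹ * mahal B := by
    rw [Matrix.smul_mulVec, dotProduct_smul, smul_eq_mul]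
    rfl
  rw [e1, e2, det_smul, det_smul]
  field_simp

/-- The second-moment matrix about the origin of the free sum. -/
lemma det_mom_fsum (hA : IsCompact A) (hAs : StarO A) (hB : IsCompact B) (hBs : StarO B)
    (hVA : vol A ≠ 0) (hVB : vol B ≠ 0) (hdA : (cov A).det ≠ 0) (hdB : (cov B).det ≠ 0) :
    (cov (fsum A B) + vecMulVec (centroid (fsum A B)) (centroid (fsum A B))).det =
      fsκ (Fintype.card ι) (Fintype.card κ) ^ Fintype.card ι *
        fsκ (Fintype.card κ) (Fintype.card ι) ^ Fintype.card κ * (cov A).det * (cov B).det *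
      ((1 + mahal A) * (1 + mahal B) -
        ((Fintype.card ι : ℝ) + 1) * ((Fintype.card κ : ℝ) + 1) /
          (((Fintype.card ι : ℝ) + 2) * ((Fintype.card κ : ℝ) + 2)) * mahal A * mahal B) := by
  have hκA : fsκ (Fintype.card ι) (Fintype.card κ) ≠ 0 :=
    (fsκ_pos (Nat.cast_nonneg _) (Nat.cast_nonneg _)).ne'
  have hκB : fsκ (Fintype.card κ) (Fintype.card ι) ≠ 0 :=
    (fsκ_pos (Nat.cast_nonneg _) (Nat.cast_nonneg _)).ne'
  have hAi : (fsκ (Fintype.card ι) (Fintype.card κ) • cov A) *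
      ((fsκ (Fintype.card ι) (Fintype.card κ))⁻¹ • (cov A)⁻¹) = 1 := by
    rw [Matrix.smul_mul, Matrix.mul_smul, smul_smul, mul_inv_cancel₀ hκA, one_smul,
      Matrix.mul_nonsing_inv _ (isUnit_iff_ne_zero.2 hdA)]
  have hBi : (fsκ (Fintype.card κ) (Fintype.card ι) • cov B) *
      ((fsκ (Fintype.card κ) (Fintype.card ι))⁻¹ • (cov B)⁻¹) = 1 := by
    rw [Matrix.smul_mul, Matrix.mul_smul, smul_smul, mul_inv_cancel₀ hκB, one_smul,
      Matrix.mul_nonsing_inv _ (isUnit_iff_ne_zero.2 hdB)]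
  have hc := (fsC_pos (Fintype.card ι) (Fintype.card κ)).ne'
  have h1 : (Fintype.card ι : ℝ) + Fintype.card κ + 1 ≠ 0 := by positivity
  have h2 : (Fintype.card ι : ℝ) + Fintype.card κ + 2 ≠ 0 := by positivity
  have h1' : (Fintype.card κ : ℝ) + Fintype.card ι + 1 ≠ 0 := by positivity
  have h2' : (Fintype.card κ : ℝ) + Fintype.card ι + 2 ≠ 0 := by positivity
  set γ' : ℝ := -(((Fintype.card ι : ℝ) + 1) * ((Fintype.card κ : ℝ) + 1) /
    (((Fintype.card ι : ℝ) + Fintype.card κ + 1) * ((Fintype.card ι : ℝ) + Fintype.card κ + 2)))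
    with hγ'
  have hM : cov (fsum A B) + vecMulVec (centroid (fsum A B)) (centroid (fsum A B)) =
      fromBlocks (fsκ (Fintype.card ι) (Fintype.card κ) • cov A +
          fsκ (Fintype.card ι) (Fintype.card κ) • vecMulVec (centroid A) (centroid A))
        (-γ' • vecMulVec (centroid A) (centroid B))
        (-γ' • vecMulVec (centroid B) (centroid A))
        (fsκ (Fintype.card κ) (Fintype.card ι) • cov B +
          fsκ (Fintype.card κ) (Fintype.card ι) • vecMulVec (centroid B) (centroid B)) := by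
    ext (i | j) (i' | j')
    · simp only [cov, centroid, Matrix.fromBlocks_apply₁₁, Matrix.add_apply, Matrix.smul_apply,
        Matrix.vecMulVec_apply, smul_eq_mul, fsκ,
        vol_fsum hA hAs hB hBs, mom1_fsum_inl hA hAs hB hBs, mom2_fsum_inl_inl hA hAs hB hBs]
      field_simp
      ring
    · simp only [cov, centroid, Matrix.fromBlocks_apply₁₂, Matrix.add_apply, Matrix.smul_apply,
        Matrix.vecMulVec_apply, smul_eq_mul, hγ',
        vol_fsum hA hAs hB hBs, mom1_fsum_inl hA hAs hB hBs, mom1_fsum_inr hA hAs hB hBs,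
        mom2_fsum_inl_inr hA hAs hB hBs]
      field_simp
      ring
    · simp only [cov, centroid, Matrix.fromBlocks_apply₂₁, Matrix.add_apply, Matrix.smul_apply,
        Matrix.vecMulVec_apply, smul_eq_mul, hγ',
        vol_fsum hA hAs hB hBs, mom1_fsum_inl hA hAs hB hBs, mom1_fsum_inr hA hAs hB hBs,
        mom2_fsum_inr_inl hA hAs hB hBs]
      field_simp
      ring
    · simp only [cov, centroid, Matrix.fromBlocks_apply₂₂, Matrix.add_apply, Matrix.smul_apply,
        Matrix.vecMulVec_apply, smul_eq_mul, fsκ,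
        vol_fsum hA hAs hB hBs, mom1_fsum_inr hA hAs hB hBs, mom2_fsum_inr_inr hA hAs hB hBs]
      field_simp
      ring
  rw [hM, det_block_rank2 _ _ hAi _ _ hBi]
  have e1 : centroid A ⬝ᵥ ((fsκ (Fintype.card ι) (Fintype.card κ))⁻¹ • (cov A)⁻¹) *ᵥ centroid A =
      (fsκ (Fintype.card ι) (Fintype.card κ))⁻¹ * mahal A := by
    rw [Matrix.smul_mulVec, dotProduct_smul, smul_eq_mul]
    rfl
  have e2 : centroid B ⬝ᵥ ((fsκ (Fintype.card κ) (Fintype.card ι))⁻¹ • (cov B)⁻¹) *ᵥ centroid B =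
      (fsκ (Fintype.card κ) (Fintype.card ι))⁻¹ * mahal B := by
    rw [Matrix.smul_mulVec, dotProduct_smul, smul_eq_mul]
    rfl
  rw [e1, e2, det_smul, det_smul]
  have hk2 : (Fintype.card ι : ℝ) + 2 ≠ 0 := by positivity
  have hl2 : (Fintype.card κ : ℝ) + 2 ≠ 0 := by positivity
  have hk1 : (Fintype.card ι : ℝ) + 1 ≠ 0 := by positivity
  have hl1 : (Fintype.card κ : ℝ) + 1 ≠ 0 := by positivity
  rw [hγ']
  unfold fsκ
  field_simp
  ring

end

end Vale.Agent.Helper22
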