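import Vale.Agent.Helper22.PlaceMain

/-!
The simplex bound for `det (Cov) / vol^2`, with its equality case, for the convex hull of at most
`n + 2` points of `ℝ^n` (P254).
-/

namespace Vale.Agent.Helper22

open MeasureTheory Set

noncomputable section

variable {n : ℕ}

/-- Every `n`-simplex has the same `det (Cov) / vol^2` as the standard simplex. -/
theorem isoRatio_simplex (q : Fin (n + 1) → Fin n → ℝ) (hq : AffineIndependent ℝ q) :
    isoRatio (convexHull ℝ (Set.range q)) = isoRatio (stdSimp (Fin n)) := by
  have hβ : ∑ i, (Pi.single 0 1 : Fin (n + 1) → ℝ) i = 1 := by simp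
  have h := isoRatio_hull_le q hq (Pi.single 0 1) hβ
  have hr : ∑ i, (Pi.single 0 1 : Fin (n + 1) → ℝ) i • q i = q 0 := by
    rw [Finset.sum_eq_single 0]
    · simp
    · intro i _ hi
      simp [hi]
    · intro h0
      exact absurd (Finset.mem_univ _) h0
  rw [hr, Set.insert_eq_of_mem (Set.mem_range_self 0)] at h
  refine h.2.2 (Or.inl fun i => ?_)
  by_cases hi : i = 0
  · simp [hi]
  · simp [hi]

lemma hull_insert_of_mem {s : Set (Fin n → ℝ)} {r : Fin n → ℝ} (hr : r ∈ convexHull ℝ s) :
    convexHull ℝ (insert r s) = convexHull ℝ s :=
  Subset.antisymm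
    (convexHull_min (insert_subset hr (subset_convexHull ℝ s)) (convex_convexHull ℝ s))
    (convexHull_mono (subset_insert r s))

/-- Exchange: if `r` has barycentric coordinates `β` with `β j ≠ 0`, replacing the vertex `q j` by
`r` gives an affinely independent family again. -/
lemma exchange_indep (q : Fin (n + 1) → Fin n → ℝ) (hq : AffineIndependent ℝ q)
    (β : Fin (n + 1) → ℝ) (hβ : ∑ i, β i = 1) (j : Fin (n + 1)) (hj : β j ≠ 0) :
    AffineIndependent ℝ (Function.update q j (∑ i, β i • q i)) := by
  rw [affineIndependent_iff_of_fintype]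
  intro w hw hwv
  rw [Finset.weightedVSub_eq_linear_combination _ hw] at hwv
  set r := ∑ i, β i • q i with hr
  have h1 : ∀ i, w i • Function.update q j r i =
      (if i = j then w j else 0) • r + (if i = j then 0 else w i) • q i := by
    intro i
    by_cases hij : i = j
    · subst hij
      simp
    · rw [Function.update_of_ne hij, if_neg hij, if_neg hij, zero_smul, zero_add]
  have h2 : ∑ i, w i • Function.update q j r i =
      w j • r + ∑ i, (if i = j then 0 else w i) • q i := by
    rw [Finset.sum_congr rfl fun i _ => h1 i, Finset.sum_add_distrib, ← Finset.sum_smul,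
      Finset.sum_ite_eq' Finset.univ j fun _ => w j]
    simp
  rw [h2] at hwv
  set d : Fin (n + 1) → ℝ := fun i => w j * β i + (if i = j then 0 else w i) with hd
  have hws : ∑ i, (if i = j then 0 else w i) = -w j := by
    have h3 : ∀ i, (if i = j then 0 else w i) = w i - (if i = j then w j else 0) := by
      intro i
      by_cases hij : i = j
      · subst hij; simp
      · simp [hij]
    rw [Finset.sum_congr rfl fun i _ => h3 i, Finset.sum_sub_distrib, hw,
      Finset.sum_ite_eq' Finset.univ j fun _ => w j]
    simp
  have hd0 : ∑ i, d i = 0 := by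
    rw [hd]
    simp only
    rw [Finset.sum_add_distrib, ← Finset.mul_sum, hβ, hws]
    ring
  have hdq : ∑ i, d i • q i = 0 := by
    rw [← hwv, hr, Finset.smul_sum, ← Finset.sum_add_distrib]
    refine Finset.sum_congr rfl fun i _ => ?_
    rw [hd]
    simp only
    rw [add_smul, mul_smul]
  have hall := affineIndependent_iff.1 hq Finset.univ d hd0 hdq
  have hwj : w j = 0 := by
    have := hall j (Finset.mem_univ j)
    rw [hd] at this
    simp only [if_true, add_zero] at this
    rcases mul_eq_zero.1 this with h | h
    · exact h
    · exact absurd h hj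
  intro i
  by_cases hij : i = j
  · rw [hij]; exact hwj
  · have := hall i (Finset.mem_univ i)
    rw [hd] at this
    simp only [if_neg hij, hwj, zero_mul, zero_add] at this
    exact this

/-- Exchange: if exactly one barycentric coordinate of `r` is positive, the vertex `q j` lies in
the convex hull of `r` and the other vertices, so the hull of all `n + 2` points is the simplex
with `q j` replaced by `r`. -/
lemma exchange_hull (q : Fin (n + 1) → Fin n → ℝ)
    (β : Fin (n + 1) → ℝ) (hβ : ∑ i, β i = 1) (j : Fin (n + 1)) (hj : 0 < β j)
    (hoth : ∀ i, i ≠ j → β i ≤ 0) :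
    convexHull ℝ (Set.range (Function.update q j (∑ i, β i • q i))) =
      convexHull ℝ (insert (∑ i, β i • q i) (Set.range q)) := by
  set r := ∑ i, β i • q i with hr
  apply Subset.antisymm
  · apply convexHull_mono
    rintro x ⟨i, rfl⟩
    by_cases hij : i = j
    · subst hij
      rw [Function.update_self]
      exact mem_insert _ _
    · rw [Function.update_of_ne hij]
      exact mem_insert_of_mem _ (mem_range_self i)
  · apply convexHull_min _ (convex_convexHull ℝ _)
    have hsub : ∀ i, i ≠ j → q i ∈ convexHull ℝ (Set.range (Function.update q j r)) := by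
      intro i hij
      apply subset_convexHull
      exact ⟨i, Function.update_of_ne hij _ _⟩
    have hrmem : r ∈ convexHull ℝ (Set.range (Function.update q j r)) := by
      apply subset_convexHull
      exact ⟨j, Function.update_self _ _ _⟩
    have hqj : q j ∈ convexHull ℝ (Set.range (Function.update q j r)) := by
      set γ : Fin (n + 1) → ℝ := fun i => if i = j then 1 / β j else -(β i) / β j with hγ
      have hγ0 : ∀ i ∈ Finset.univ, 0 ≤ γ i := by
        intro i _
        rw [hγ]
        by_cases hij : i = j
        · simp only [if_pos hij]; positivity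
        · simp only [if_neg hij]
          exact div_nonneg (neg_nonneg.2 (hoth i hij)) hj.le
      have hsumk : ∑ k, β (j.succAbove k) = 1 - β j := by
        rw [Fin.sum_univ_succAbove β j] at hβ; linarith
      have hγj : γ j = 1 / β j := by rw [hγ]; simp
      have hγk : ∀ k, γ (j.succAbove k) = -(β (j.succAbove k)) / β j := by
        intro k
        rw [hγ]
        simp only [if_neg (Fin.succAbove_ne j k)]
      have hγ1 : ∑ i, γ i = 1 := by
        rw [Fin.sum_univ_succAbove γ j, hγj]
        simp_rw [hγk]
        rw [← Finset.sum_div, Finset.sum_neg_distrib, hsumk]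
        field_simp
        ring
      have hcomb : ∑ i, γ i • Function.update q j r i = q j := by
        rw [Fin.sum_univ_succAbove (fun i => γ i • Function.update q j r i) j, hγj,
          Function.update_self]
        simp_rw [hγk, Function.update_of_ne (Fin.succAbove_ne j _)]
        have hr2 : r = β j • q j + ∑ k, β (j.succAbove k) • q (j.succAbove k) := by
          rw [hr]
          exact Fin.sum_univ_succAbove (fun i => β i • q i) j
        rw [hr2, smul_add, smul_smul, one_div, inv_mul_cancel₀ hj.ne', one_smul, Finset.smul_sum,
          add_assoc, ← Finset.sum_add_distrib]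
        have hz : ∀ k ∈ (Finset.univ : Finset (Fin n)),
            (β j)⁻¹ • β (j.succAbove k) • q (j.succAbove k) +
              (-(β (j.succAbove k)) / β j) • q (j.succAbove k) = 0 := by
          intro k _
          rw [smul_smul, ← add_smul]
          have : (β j)⁻¹ * β (j.succAbove k) + -(β (j.succAbove k)) / β j = 0 := by
            field_simp
            ring
          rw [this, zero_smul]
        rw [Finset.sum_eq_zero hz, add_zero]
      rw [← hcomb]
      apply (convex_convexHull ℝ _).sum_mem hγ0 hγ1
      intro i _
      exact subset_convexHull ℝ _ (mem_range_self i)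
    intro x hx
    rcases hx with rfl | ⟨i, rfl⟩
    · exact hrmem
    · by_cases hij : i = j
      · rw [hij]; exact hqj
      · exact hsub i hij

/-- **Polytopes with at most `n + 2` vertices.**  For every set `V` of at most `n + 2` points of
`ℝ^n`, `det (Cov) / vol^2` of the convex hull of `V` is at most that of the simplex, with equality
exactly when the convex hull of `V` is an `n`-simplex. -/
theorem few_vertices (n : ℕ) (V : Finset (Fin n → ℝ)) (hV : V.card ≤ n + 2) :
    isoRatio (convexHull ℝ (V : Set (Fin n → ℝ))) ≤ isoRatio (stdSimp (Fin n)) ∧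
    (isoRatio (convexHull ℝ (V : Set (Fin n → ℝ))) = isoRatio (stdSimp (Fin n)) ↔
      ∃ q : Fin (n + 1) → Fin n → ℝ, AffineIndependent ℝ q ∧
        convexHull ℝ (Set.range q) = convexHull ℝ (V : Set (Fin n → ℝ))) := by
  classical
  have hpos : 0 < isoRatio (stdSimp (Fin n)) := isoRatio_stdSimp_pos
  have hback : (∃ q : Fin (n + 1) → Fin n → ℝ, AffineIndependent ℝ q ∧
      convexHull ℝ (Set.range q) = convexHull ℝ (V : Set (Fin n → ℝ))) →
      isoRatio (convexHull ℝ (V : Set (Fin n → ℝ))) = isoRatio (stdSimp (Fin n)) := by
    rintro ⟨q, hq, he⟩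
    rw [← he]
    exact isoRatio_simplex q hq
  by_cases htop : affineSpan ℝ (V : Set (Fin n → ℝ)) = ⊤
  · obtain ⟨t, htV, hspan, hind⟩ := exists_affineIndependent ℝ (Fin n → ℝ) (V : Set (Fin n → ℝ))
    have htfin : t.Finite := V.finite_toSet.subset htV
    have : Fintype t := htfin.fintype
    have hcard : Fintype.card t = n + 1 := by
      have h1 := hind.affineSpan_eq_top_iff_card_eq_finrank_add_one.1
        (by rw [Subtype.range_coe, hspan, htop])
      rw [Module.finrank_fin_fun] at h1
      exact h1
    set e : Fin (n + 1) ≃ t := (Fintype.equivFinOfCardEq hcard).symm with he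
    set q : Fin (n + 1) → Fin n → ℝ := fun i => (e i : Fin n → ℝ) with hq_def
    have hq : AffineIndependent ℝ q := hind.comp_embedding e.toEmbedding
    have hrange : Set.range q = t := by
      ext x
      constructor
      · rintro ⟨i, rfl⟩
        exact (e i).2
      · intro hx
        exact ⟨e.symm ⟨x, hx⟩, by simp [hq_def]⟩
    have hTcard : htfin.toFinset.card = n + 1 := by
      rw [← hcard]
      exact (Fintype.card_of_subtype htfin.toFinset fun x => htfin.mem_toFinset).symm
    have hTV : htfin.toFinset ⊆ V := by
      intro x hx
      exact Finset.mem_coe.1 (htV (htfin.mem_toFinset.1 hx))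
    have hVt : (V : Set (Fin n → ℝ)) = t ∨ ∃ r, (V : Set (Fin n → ℝ)) = insert r t := by
      have hc : (V \ htfin.toFinset).card ≤ 1 := by
        rw [Finset.card_sdiff_of_subset hTV, hTcard]; omega
      rcases Nat.lt_or_ge (V \ htfin.toFinset).card 1 with h0 | h1
      · left
        have hempty : V \ htfin.toFinset = ∅ := Finset.card_eq_zero.1 (by omega)
        have hVT : V ⊆ htfin.toFinset := Finset.sdiff_eq_empty_iff_subset.1 hempty
        have : V = htfin.toFinset := Finset.Subset.antisymm hVT hTV
        rw [this, htfin.coe_toFinset]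
      · right
        obtain ⟨r, hr⟩ := Finset.card_eq_one.1 (le_antisymm hc h1)
        refine ⟨r, ?_⟩
        have hVu : V = insert r htfin.toFinset := by
          rw [← Finset.sdiff_union_of_subset hTV, hr]
          rfl
        rw [hVu, Finset.coe_insert, htfin.coe_toFinset]
    rcases hVt with hVt | ⟨r, hVt⟩
    · rw [hVt, ← hrange]
      exact ⟨(isoRatio_simplex q hq).le, fun _ => ⟨q, hq, rfl⟩, fun _ => isoRatio_simplex q hq⟩
    · have hr : r ∈ affineSpan ℝ (Set.range q) := by
        rw [hrange, hspan, htop]
        exact AffineSubspace.mem_top ℝ _ r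
      obtain ⟨β, hβ, hrβ⟩ := eq_affineCombination_of_mem_affineSpan_of_fintype hr
      rw [Finset.affineCombination_eq_linear_combination _ _ _ hβ] at hrβ
      have hKeq : convexHull ℝ (V : Set (Fin n → ℝ)) =
          convexHull ℝ (insert (∑ i, β i • q i) (Set.range q)) := by
        rw [hVt, hrange, hrβ]
      obtain ⟨hle, heq⟩ := isoRatio_hull_le q hq β hβ
      rw [hKeq]
      refine ⟨hle, fun h => ?_, fun h => ?_⟩
      · rcases heq.1 h with hall | ⟨j, hj, hoth⟩
        · refine ⟨q, hq, (hull_insert_of_mem ?_).symm⟩
          apply (convex_convexHull ℝ _).sum_mem (fun i _ => hall i) hβ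
          intro i _
          exact subset_convexHull ℝ _ (mem_range_self i)
        · exact ⟨_, exchange_indep q hq β hβ j hj.ne', exchange_hull q β hβ j hj hoth⟩
      · rw [← hKeq]
        apply hback
        rw [hKeq]
        exact h
  · have hvol : vol (convexHull ℝ (V : Set (Fin n → ℝ))) = 0 := by
      unfold vol
      rw [measure_mono_null (convexHull_subset_affineSpan _)
        (Measure.addHaar_affineSubspace volume _ htop)]
      rfl
    have hiso : isoRatio (convexHull ℝ (V : Set (Fin n → ℝ))) = 0 := by
      unfold isoRatio
      rw [hvol]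
      simp
    rw [hiso]
    exact ⟨hpos.le, fun h => absurd h hpos.ne, fun h => by rw [← hiso]; exact hback h⟩

end

end Vale.Agent.Helper22
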