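import Vale.Agent.Helper22.FsMain
import Vale.Agent.Helper22.PlaceFin

/-!
The free-sum theorem for sets in `Fin k → ℝ` and `Fin l → ℝ`, in terms of the standard simplices,
and its application to convex hulls of two small point sets in complementary coordinate subspaces.
-/

namespace Vale.Agent.Helper22

open MeasureTheory Set Matrix

noncomputable section

lemma originParam_lower {ι : Type*} [Fintype ι] [DecidableEq ι] {K : Set (ι → ℝ)}
    (hK : IsCompact K) (hV : 0 < vol K) :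
    1 / ((Fintype.card ι : ℝ) + 1) ≤ originParam K := by
  have h1 := mahal_nonneg hK hV
  unfold originParam
  have hk : (0:ℝ) ≤ (Fintype.card ι : ℝ) := Nat.cast_nonneg _
  rw [div_le_div_iff₀ (by positivity) (by positivity)]
  nlinarith

/-- The free-sum theorem in coordinates. -/
theorem free_sum_fin :
    ∀ (k l : ℕ), 0 < k → 0 < l → ∀ (A : Set (Fin k → ℝ)) (B : Set (Fin l → ℝ)),
      IsCompact A → Convex ℝ A → (0 : Fin k → ℝ) ∈ A → 0 < vol A →
      IsCompact B → Convex ℝ B → (0 : Fin l → ℝ) ∈ B → 0 < vol B →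
      ∀ (E : Set (Fin k ⊕ Fin l → ℝ)) (a b : ℝ),
        E = convexHull ℝ ((fun x : Fin k → ℝ => (Sum.elim x 0 : Fin k ⊕ Fin l → ℝ)) '' A ∪
          (fun y : Fin l → ℝ => (Sum.elim 0 y : Fin k ⊕ Fin l → ℝ)) '' B) →
        a = ((k : ℝ) + 2 + mahal A) / (((k : ℝ) + 1) * ((k : ℝ) + 2)) →
        b = ((l : ℝ) + 2 + mahal B) / (((l : ℝ) + 1) * ((l : ℝ) + 2)) →
        (1 / ((k : ℝ) + 1) ≤ a ∧ a ≤ 1 ∧ 1 / ((l : ℝ) + 1) ≤ b ∧ b ≤ 1) ∧
        isoRatio E = isoRatio (stdSimp (Fin (k + l))) *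
          (isoRatio A / isoRatio (stdSimp (Fin k))) *
          (isoRatio B / isoRatio (stdSimp (Fin l))) * (1 - (1 - a) * (1 - b)) ∧
        ((k : ℝ) + l + 2 + mahal E) / (((k : ℝ) + l + 1) * ((k : ℝ) + l + 2)) *
          (1 - (1 - a) * (1 - b)) = a * b ∧
        (isoRatio A ≤ isoRatio (stdSimp (Fin k)) → isoRatio B ≤ isoRatio (stdSimp (Fin l)) →
          isoRatio E ≤ isoRatio (stdSimp (Fin (k + l))) ∧
          (isoRatio E = isoRatio (stdSimp (Fin (k + l))) ↔
            isoRatio A = isoRatio (stdSimp (Fin k)) ∧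
              isoRatio B = isoRatio (stdSimp (Fin l)) ∧ (a = 1 ∨ b = 1))) ∧
        IsCompact E ∧ Convex ℝ E ∧ (0 : Fin k ⊕ Fin l → ℝ) ∈ E ∧ 0 < vol E := by
  intro k l hk hl A B hA hAc hA0 hAV hB hBc hB0 hBV E a b hE ha hb
  have hne1 : Nonempty (Fin k) := ⟨⟨0, hk⟩⟩
  have hne2 : Nonempty (Fin l) := ⟨⟨0, hl⟩⟩
  have hfs := fsum_eq_hull hAc hBc ⟨0, hA0⟩ ⟨0, hB0⟩
  rw [← hfs] at hE
  subst hE
  obtain ⟨⟨ha0, ha1, hb0, hb1⟩, hform, horig, hEc, hE0, hEV, hrA, hrB⟩ :=
    free_sum_main hA hAc hA0 hAV hB hBc hB0 hBV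
  have hlowA := originParam_lower hA hAV
  have hlowB := originParam_lower hB hBV
  have haA : originParam A = a := by
    rw [ha]
    unfold originParam
    rw [Fintype.card_fin]
  have hbB : originParam B = b := by
    rw [hb]
    unfold originParam
    rw [Fintype.card_fin]
  have hEo : originParam (fsum A B) = ((k : ℝ) + l + 2 + mahal (fsum A B)) /
      (((k : ℝ) + l + 1) * ((k : ℝ) + l + 2)) := by
    unfold originParam
    rw [Fintype.card_sum, Fintype.card_fin, Fintype.card_fin]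
    push_cast
    rfl
  have hs : ∀ m : ℕ, simpD m = isoRatio (stdSimp (Fin m)) := fun m =>
    (isoRatio_stdSimp_fin m).symm
  rw [haA] at ha0 ha1 hlowA
  rw [hbB] at hb0 hb1 hlowB
  rw [Fintype.card_fin] at hlowA hlowB
  rw [haA, hbB] at hform horig
  rw [Fintype.card_fin, Fintype.card_fin, hs, hs, hs] at hform
  rw [hEo] at horig
  have hW : a + b - a * b = 1 - (1 - a) * (1 - b) := by ring
  rw [hW] at hform horig
  have hW0 : 0 < 1 - (1 - a) * (1 - b) := by nlinarith
  have hW1 : 1 - (1 - a) * (1 - b) ≤ 1 := by nlinarith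
  have hsk : 0 < isoRatio (stdSimp (Fin k)) := isoRatio_stdSimp_pos
  have hsl : 0 < isoRatio (stdSimp (Fin l)) := isoRatio_stdSimp_pos
  have hsn : 0 < isoRatio (stdSimp (Fin (k + l))) := isoRatio_stdSimp_pos
  refine ⟨⟨hlowA, ha1, hlowB, hb1⟩, hform, horig, ?_, hEc, ?_, hE0, hEV⟩
  · intro hleA hleB
    have hx0 : 0 < isoRatio A / isoRatio (stdSimp (Fin k)) := div_pos hrA hsk
    have hx1 : isoRatio A / isoRatio (stdSimp (Fin k)) ≤ 1 := (div_le_one hsk).2 hleA
    have hy0 : 0 < isoRatio B / isoRatio (stdSimp (Fin l)) := div_pos hrB hsl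
    have hy1 : isoRatio B / isoRatio (stdSimp (Fin l)) ≤ 1 := (div_le_one hsl).2 hleB
    obtain ⟨h3le, h3eq⟩ := three_factor hx0 hx1 hy0 hy1 hW0 hW1
    have hform' : isoRatio (fsum A B) = isoRatio (stdSimp (Fin (k + l))) *
        (isoRatio A / isoRatio (stdSimp (Fin k)) * (isoRatio B / isoRatio (stdSimp (Fin l))) *
          (1 - (1 - a) * (1 - b))) := by
      rw [hform]
      ring
    constructor
    · rw [hform']
      exact mul_le_of_le_one_right hsn.le h3le
    · rw [hform']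
      constructor
      · intro h
        have h1 : isoRatio A / isoRatio (stdSimp (Fin k)) *
            (isoRatio B / isoRatio (stdSimp (Fin l))) * (1 - (1 - a) * (1 - b)) = 1 :=
          mul_left_cancel₀ hsn.ne' (h.trans (mul_one _).symm)
        obtain ⟨e1, e2, e3⟩ := h3eq.1 h1
        refine ⟨(div_eq_one_iff_eq hsk.ne').1 e1, (div_eq_one_iff_eq hsl.ne').1 e2, ?_⟩
        have h4 : (1 - a) * (1 - b) = 0 := by linarith
        rcases mul_eq_zero.1 h4 with h5 | h5
        · left; linarith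
        · right; linarith
      · rintro ⟨e1, e2, e3⟩
        have h1 : isoRatio A / isoRatio (stdSimp (Fin k)) = 1 := (div_eq_one_iff_eq hsk.ne').2 e1
        have h2 : isoRatio B / isoRatio (stdSimp (Fin l)) = 1 := (div_eq_one_iff_eq hsl.ne').2 e2
        have h3 : (1 - a) * (1 - b) = 0 := by
          rcases e3 with e3 | e3
          · rw [e3]; ring
          · rw [e3]; ring
        rw [h1, h2, h3]
        ring
  · rw [hfs]
    exact convex_convexHull ℝ _

/-- Convex hulls of at most `k + 2` points of `ℝ^k × 0` and at most `l + 2` points of `0 × ℝ^l`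
whose hulls contain the origin and have positive volume in their subspaces satisfy the simplex
bound in `ℝ^(k+l)`. -/
theorem free_sum_few_vertices :
    ∀ (k l : ℕ), 0 < k → 0 < l → ∀ (V : Finset (Fin k → ℝ)) (W : Finset (Fin l → ℝ)),
      V.card ≤ k + 2 → W.card ≤ l + 2 →
      (0 : Fin k → ℝ) ∈ convexHull ℝ (V : Set (Fin k → ℝ)) →
      0 < vol (convexHull ℝ (V : Set (Fin k → ℝ))) →
      (0 : Fin l → ℝ) ∈ convexHull ℝ (W : Set (Fin l → ℝ)) →
      0 < vol (convexHull ℝ (W : Set (Fin l → ℝ))) →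
      isoRatio (convexHull ℝ
        ((fun x : Fin k → ℝ => (Sum.elim x 0 : Fin k ⊕ Fin l → ℝ)) '' (V : Set (Fin k → ℝ)) ∪
          (fun y : Fin l → ℝ => (Sum.elim 0 y : Fin k ⊕ Fin l → ℝ)) '' (W : Set (Fin l → ℝ)))) ≤
        isoRatio (stdSimp (Fin (k + l))) := by
  intro k l hk hl V W hV hW hV0 hVV hW0 hWV
  have hVc : IsCompact (convexHull ℝ (V : Set (Fin k → ℝ))) :=
    Set.Finite.isCompact_convexHull (𝕜 := ℝ) V.finite_toSet
  have hWc : IsCompact (convexHull ℝ (W : Set (Fin l → ℝ))) :=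
    Set.Finite.isCompact_convexHull (𝕜 := ℝ) W.finite_toSet
  have h := free_sum_fin k l hk hl _ _ hVc (convex_convexHull ℝ _) hV0 hVV hWc
    (convex_convexHull ℝ _) hW0 hWV _ _ _ (hull_union_image _ _) rfl rfl
  exact (h.2.2.2.1 (few_vertices k V hV).1 (few_vertices l W hW).1).1

end

end Vale.Agent.Helper22
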