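import Vale.Agent.Helper22.IsoDefs

/-!
Definitions for the sharp profile theorem of P254: the tower over a base set with a profile on
an interval, and the factor by which `det (Cov) / vol^2` changes when passing from a centred
base to the tower.
-/

namespace Vale.Agent.Helper22

open MeasureTheory

noncomputable section

variable {ι : Type*}

/-- The tower over `M` with profile `f` on `[a, b]`, as a subset of `(ι ⊕ Unit) → ℝ`:
the points `(f(t) y, t)` with `y ∈ M` and `a ≤ t ≤ b`. -/
def ctower (M : Set (ι → ℝ)) (f : ℝ → ℝ) (a b : ℝ) : Set (ι ⊕ Unit → ℝ) :=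
  {z | a ≤ z (Sum.inr ()) ∧ z (Sum.inr ()) ≤ b ∧
    ∃ y ∈ M, ∀ i, z (Sum.inl i) = f (z (Sum.inr ())) * y i}

/-- The factor by which `det (Cov) / vol^2` is multiplied when passing from a centred base in
dimension `m` to the tower over it with profile `f` on `[a, b]`:
`(∫ f^m ∫ t^2 f^m - (∫ t f^m)^2) (∫ f^(m+2))^m / (∫ f^m)^(m+4)`, all integrals over `[a, b]`. -/
def profileFactor (m : ℕ) (f : ℝ → ℝ) (a b : ℝ) : ℝ :=
  ((∫ t in a..b, f t ^ m) * (∫ t in a..b, t ^ 2 * f t ^ m) - (∫ t in a..b, t * f t ^ m) ^ 2) *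
    (∫ t in a..b, f t ^ (m + 2)) ^ m / (∫ t in a..b, f t ^ m) ^ (m + 4)

end

end Vale.Agent.Helper22
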