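import Vale.Agent.Helper22.Pyramid
import Vale.Agent.Helper22.SharpDefs

/-!
Towers `{(f(t) y, t) : y ∈ M, a ≤ t ≤ b}` over a bounded measurable base `M`: moments,
covariance matrix and the formula for `det (Cov) / vol^2`.
-/

namespace Vale.Agent.Helper22

open MeasureTheory Set

noncomputable section

variable {ι : Type*} [Fintype ι]

/-- The tower without its two extreme layers `t = a` and `t = b`. -/
def ctower0 (M : Set (ι → ℝ)) (f : ℝ → ℝ) (a b : ℝ) : Set (ι ⊕ Unit → ℝ) :=
  {z | a < z (Sum.inr ()) ∧ z (Sum.inr ()) < b ∧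
    (fun i => z (Sum.inl i) / f (z (Sum.inr ()))) ∈ M}

lemma ctower_ae_eq (M : Set (ι → ℝ)) {f : ℝ → ℝ} {a b : ℝ}
    (hpos : ∀ t ∈ Ioo a b, 0 < f t) : ctower M f a b =ᵐ[volume] ctower0 M f a b := by
  have hnull1 : (volume : Measure (ι ⊕ Unit → ℝ)) {z | z (Sum.inr ()) = a} = 0 :=
    Measure.pi_hyperplane (α := fun _ : ι ⊕ Unit => ℝ) (fun _ => volume) (Sum.inr ()) a
  have hnull2 : (volume : Measure (ι ⊕ Unit → ℝ)) {z | z (Sum.inr ()) = b} = 0 :=
    Measure.pi_hyperplane (α := fun _ : ι ⊕ Unit => ℝ) (fun _ => volume) (Sum.inr ()) b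
  have hc1 : ∀ᵐ z ∂(volume : Measure (ι ⊕ Unit → ℝ)), z (Sum.inr ()) ≠ a := by
    rw [ae_iff]
    simpa using hnull1
  have hc2 : ∀ᵐ z ∂(volume : Measure (ι ⊕ Unit → ℝ)), z (Sum.inr ()) ≠ b := by
    rw [ae_iff]
    simpa using hnull2
  filter_upwards [hc1, hc2] with z hz1 hz2
  apply propext
  constructor
  · rintro ⟨h1, h2, y, hy, hxy⟩
    have hlt1 : a < z (Sum.inr ()) := lt_of_le_of_ne h1 (Ne.symm hz1)
    have hlt2 : z (Sum.inr ()) < b := lt_of_le_of_ne h2 hz2
    refine ⟨hlt1, hlt2, ?_⟩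
    have hs := hpos _ ⟨hlt1, hlt2⟩
    have : (fun i => z (Sum.inl i) / f (z (Sum.inr ()))) = y := by
      funext i
      rw [hxy i]
      field_simp
    rw [this]; exact hy
  · rintro ⟨h1, h2, hm⟩
    have hs := hpos _ ⟨h1, h2⟩
    refine ⟨h1.le, h2.le, _, hm, fun i => ?_⟩
    field_simp

lemma measurableSet_ctower0 {M : Set (ι → ℝ)} (hM : MeasurableSet M) {f : ℝ → ℝ}
    (hfc : Continuous f) (a b : ℝ) : MeasurableSet (ctower0 M f a b) := by
  have h1 : MeasurableSet {z : ι ⊕ Unit → ℝ | a < z (Sum.inr ())} :=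
    measurableSet_lt measurable_const (measurable_pi_apply _)
  have h2 : MeasurableSet {z : ι ⊕ Unit → ℝ | z (Sum.inr ()) < b} :=
    measurableSet_lt (measurable_pi_apply _) measurable_const
  have hfm : Measurable (fun z : ι ⊕ Unit → ℝ => f (z (Sum.inr ()))) :=
    (hfc.comp (continuous_apply _)).measurable
  have h3 : Measurable
      (fun z : ι ⊕ Unit → ℝ => (fun i => z (Sum.inl i) / f (z (Sum.inr ())))) := by
    refine measurable_pi_lambda _ fun i => ?_
    exact (measurable_pi_apply _).div hfm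
  exact h1.inter (h2.inter (h3 hM))

lemma isBounded_ctower0 {M : Set (ι → ℝ)} (hb : Bornology.IsBounded M) {f : ℝ → ℝ} {a b : ℝ}
    (hpos : ∀ t ∈ Ioo a b, 0 < f t) {B : ℝ} (hB : ∀ t ∈ Ioo a b, f t ≤ B) :
    Bornology.IsBounded (ctower0 M f a b) := by
  obtain ⟨R, hR⟩ := hb.exists_norm_le
  rw [isBounded_iff_forall_norm_le]
  refine ⟨max (R * |B|) (max |a| |b|), fun z hz => ?_⟩
  obtain ⟨h1, h2, hm⟩ := hz
  have hRy := hR _ hm
  have hR0 : 0 ≤ R := le_trans (norm_nonneg _) hRy
  have hRB : 0 ≤ R * |B| := mul_nonneg hR0 (abs_nonneg _)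
  rw [pi_norm_le_iff_of_nonneg (le_trans hRB (le_max_left _ _))]
  have hs := hpos _ ⟨h1, h2⟩
  intro i
  cases i with
  | inl i =>
    have h3 := (pi_norm_le_iff_of_nonneg hR0).1 hRy i
    simp only [Real.norm_eq_abs] at h3 ⊢
    rw [abs_div, abs_of_pos hs, div_le_iff₀ hs] at h3
    refine le_trans h3 (le_trans ?_ (le_max_left _ _))
    exact mul_le_mul_of_nonneg_left (le_trans (hB _ ⟨h1, h2⟩) (le_abs_self B)) hR0
  | inr u =>
    simp only [Real.norm_eq_abs]
    refine le_trans ?_ (le_max_right _ _)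
    rw [abs_le]
    constructor
    · have := neg_abs_le a
      have := le_max_left |a| |b|
      linarith
    · have := le_abs_self b
      have := le_max_right |a| |b|
      linarith

/-- Integral over the tower of a product of a `k`-homogeneous continuous function of the
base variable and a continuous function of the height. -/
lemma integral_ctower {M : Set (ι → ℝ)} (hM : MeasurableSet M) (hb : Bornology.IsBounded M)
    {f : ℝ → ℝ} (hfc : Continuous f) {a b : ℝ} (hab : a ≤ b)
    (hpos : ∀ t ∈ Ioo a b, 0 < f t) {B : ℝ} (hB : ∀ t ∈ Ioo a b, f t ≤ B)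
    (φ : (ι → ℝ) → ℝ) (hφ : Continuous φ) (k : ℕ)
    (hk : ∀ (c : ℝ) (y : ι → ℝ), φ (c • y) = c ^ k * φ y) (h : ℝ → ℝ) (hh : Continuous h) :
    ∫ z in ctower M f a b, φ (fun i => z (Sum.inl i)) * h (z (Sum.inr ())) =
      (∫ y in M, φ y) * ∫ t in a..b, h t * f t ^ (Fintype.card ι + k) := by
  rw [setIntegral_congr_set (ctower_ae_eq M hpos)]
  set F : (ι ⊕ Unit → ℝ) → ℝ := fun z => φ (fun i => z (Sum.inl i)) * h (z (Sum.inr ())) with hF
  have hFc : Continuous F := by
    refine (hφ.comp ?_).mul (hh.comp (continuous_apply _))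
    exact continuous_pi fun i => continuous_apply _
  have hmeas := measurableSet_ctower0 hM hfc a b
  have hint : IntegrableOn F (ctower0 M f a b) := by
    obtain ⟨R, hR⟩ := (isBounded_ctower0 hb hpos hB).subset_closedBall (0 : ι ⊕ Unit → ℝ)
    exact (hFc.continuousOn.integrableOn_compact (isCompact_closedBall _ _)).mono_set hR
  rw [← integral_indicator hmeas]
  rw [integral_sum_pi _ (hint.integrable_indicator hmeas)]
  have hinner : ∀ t : ℝ, ∫ x : ι → ℝ, (ctower0 M f a b).indicator F (Sum.elim x (fun _ => t)) =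
      (Ioo a b).indicator
        (fun t => (h t * f t ^ (Fintype.card ι + k)) * ∫ y in M, φ y) t := by
    intro t
    by_cases ht : t ∈ Ioo a b
    · rw [indicator_of_mem ht]
      have hs : 0 < f t := hpos t ht
      set ψ : (ι → ℝ) → ℝ := M.indicator (fun y => φ (f t • y) * h t) with hψ
      have hcong : ∀ x : ι → ℝ, (ctower0 M f a b).indicator F (Sum.elim x (fun _ => t)) =
          ψ ((f t)⁻¹ • x) := by
        intro x
        have hfun : (fun i => x i / f t) = (f t)⁻¹ • x := by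
          funext i
          simp [div_eq_inv_mul]
        by_cases hx : (f t)⁻¹ • x ∈ M
        · have hz : Sum.elim x (fun _ => t) ∈ ctower0 M f a b := by
            refine ⟨ht.1, ht.2, ?_⟩
            show (fun i => x i / f t) ∈ M
            rw [hfun]; exact hx
          rw [indicator_of_mem hz, hψ, indicator_of_mem hx]
          show φ (fun i => x i) * h t = _
          rw [smul_smul, mul_inv_cancel₀ hs.ne', one_smul]
        · have hz : Sum.elim x (fun _ => t) ∉ ctower0 M f a b := by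
            rintro ⟨-, -, hm⟩
            apply hx
            rw [← hfun]; exact hm
          rw [indicator_of_notMem hz, hψ, indicator_of_notMem hx]
      rw [integral_congr_ae (Filter.Eventually.of_forall hcong)]
      rw [Measure.integral_comp_inv_smul_of_nonneg volume ψ hs.le]
      rw [hψ, integral_indicator hM]
      simp_rw [hk]
      rw [Module.finrank_fintype_fun_eq_card]
      rw [show (fun y => f t ^ k * φ y * h t) = fun y => (f t ^ k * h t) * φ y from by
        funext y; ring]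
      rw [integral_const_mul]
      simp only [smul_eq_mul]
      ring
    · rw [indicator_of_notMem ht]
      have hz : ∀ x : ι → ℝ, (ctower0 M f a b).indicator F (Sum.elim x (fun _ => t)) = 0 := by
        intro x
        apply indicator_of_notMem
        rintro ⟨h0, h1, -⟩
        exact ht ⟨h0, h1⟩
      simp [hz]
  simp_rw [hinner]
  rw [integral_indicator measurableSet_Ioo, integral_mul_const, mul_comm]
  congr 1
  rw [intervalIntegral.integral_of_le hab, integral_Ioc_eq_integral_Ioo]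

variable {M : Set (ι → ℝ)} {f : ℝ → ℝ} {a b : ℝ} {B : ℝ}

lemma vol_ctower (hM : MeasurableSet M) (hb : Bornology.IsBounded M) (hfc : Continuous f)
    (hab : a ≤ b) (hpos : ∀ t ∈ Ioo a b, 0 < f t) (hB : ∀ t ∈ Ioo a b, f t ≤ B) :
    vol (ctower M f a b) = vol M * ∫ t in a..b, f t ^ Fintype.card ι := by
  have h := integral_ctower hM hb hfc hab hpos hB (fun _ => (1:ℝ)) continuous_const 0
    (by intro c y; simp) (fun _ => (1:ℝ)) continuous_const
  simp only [mul_one, add_zero, one_mul] at h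
  rw [vol_eq_integral, vol_eq_integral, h]

lemma mom1_ctower_inl (hM : MeasurableSet M) (hb : Bornology.IsBounded M) (hfc : Continuous f)
    (hab : a ≤ b) (hpos : ∀ t ∈ Ioo a b, 0 < f t) (hB : ∀ t ∈ Ioo a b, f t ≤ B) (i : ι) :
    mom1 (ctower M f a b) (Sum.inl i) =
      mom1 M i * ∫ t in a..b, f t ^ (Fintype.card ι + 1) := by
  have h := integral_ctower hM hb hfc hab hpos hB (fun y => y i) (continuous_apply i) 1
    (by intro c y; simp) (fun _ => (1:ℝ)) continuous_const
  simp only [mul_one, one_mul] at h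
  unfold mom1
  rw [h]

lemma mom1_ctower_inr (hM : MeasurableSet M) (hb : Bornology.IsBounded M) (hfc : Continuous f)
    (hab : a ≤ b) (hpos : ∀ t ∈ Ioo a b, 0 < f t) (hB : ∀ t ∈ Ioo a b, f t ≤ B) :
    mom1 (ctower M f a b) (Sum.inr ()) = vol M * ∫ t in a..b, t * f t ^ Fintype.card ι := by
  have h := integral_ctower hM hb hfc hab hpos hB (fun _ => (1:ℝ)) continuous_const 0
    (by intro c y; simp) (fun t => t) continuous_id
  simp only [one_mul, add_zero] at h
  unfold mom1
  rw [h, vol_eq_integral]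

lemma mom2_ctower_inl_inl (hM : MeasurableSet M) (hb : Bornology.IsBounded M)
    (hfc : Continuous f) (hab : a ≤ b) (hpos : ∀ t ∈ Ioo a b, 0 < f t)
    (hB : ∀ t ∈ Ioo a b, f t ≤ B) (i j : ι) :
    mom2 (ctower M f a b) (Sum.inl i) (Sum.inl j) =
      mom2 M i j * ∫ t in a..b, f t ^ (Fintype.card ι + 2) := by
  have h := integral_ctower hM hb hfc hab hpos hB (fun y => y i * y j)
    ((continuous_apply i).mul (continuous_apply j)) 2 (by intro c y; simp; ring)
    (fun _ => (1:ℝ)) continuous_const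
  simp only [mul_one, one_mul] at h
  unfold mom2
  rw [h]

lemma mom2_ctower_inl_inr (hM : MeasurableSet M) (hb : Bornology.IsBounded M)
    (hfc : Continuous f) (hab : a ≤ b) (hpos : ∀ t ∈ Ioo a b, 0 < f t)
    (hB : ∀ t ∈ Ioo a b, f t ≤ B) (i : ι) :
    mom2 (ctower M f a b) (Sum.inl i) (Sum.inr ()) =
      mom1 M i * ∫ t in a..b, t * f t ^ (Fintype.card ι + 1) := by
  have h := integral_ctower hM hb hfc hab hpos hB (fun y => y i) (continuous_apply i) 1
    (by intro c y; simp) (fun t => t) continuous_id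
  unfold mom2 mom1
  rw [h]

lemma mom2_ctower_inr_inl (hM : MeasurableSet M) (hb : Bornology.IsBounded M)
    (hfc : Continuous f) (hab : a ≤ b) (hpos : ∀ t ∈ Ioo a b, 0 < f t)
    (hB : ∀ t ∈ Ioo a b, f t ≤ B) (i : ι) :
    mom2 (ctower M f a b) (Sum.inr ()) (Sum.inl i) =
      mom1 M i * ∫ t in a..b, t * f t ^ (Fintype.card ι + 1) := by
  rw [← mom2_ctower_inl_inr hM hb hfc hab hpos hB i]
  unfold mom2
  congr 1
  funext z
  ring

lemma mom2_ctower_inr_inr (hM : MeasurableSet M) (hb : Bornology.IsBounded M)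
    (hfc : Continuous f) (hab : a ≤ b) (hpos : ∀ t ∈ Ioo a b, 0 < f t)
    (hB : ∀ t ∈ Ioo a b, f t ≤ B) :
    mom2 (ctower M f a b) (Sum.inr ()) (Sum.inr ()) =
      vol M * ∫ t in a..b, t ^ 2 * f t ^ Fintype.card ι := by
  have h := integral_ctower hM hb hfc hab hpos hB (fun _ => (1:ℝ)) continuous_const 0
    (by intro c y; simp) (fun t => t ^ 2) (by fun_prop)
  simp only [one_mul, add_zero] at h
  have h2 : ∫ z in ctower M f a b, z (Sum.inr ()) * z (Sum.inr ()) =
      ∫ z in ctower M f a b, z (Sum.inr ()) ^ 2 := by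
    congr 1
    funext z
    ring
  unfold mom2
  rw [h2, h, vol_eq_integral]

lemma cov_ctower (hM : MeasurableSet M) (hb : Bornology.IsBounded M) (hfc : Continuous f)
    (hab : a ≤ b) (hpos : ∀ t ∈ Ioo a b, 0 < f t) (hB : ∀ t ∈ Ioo a b, f t ≤ B)
    (hcen : ∀ i, mom1 M i = 0) (hV : vol M ≠ 0)
    (hI : (∫ t in a..b, f t ^ Fintype.card ι) ≠ 0) :
    cov (ctower M f a b) = Matrix.fromBlocks
      (((∫ t in a..b, f t ^ (Fintype.card ι + 2)) /
        (∫ t in a..b, f t ^ Fintype.card ι)) • cov M)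
      0 0
      (Matrix.of fun (_ : Unit) (_ : Unit) =>
        (∫ t in a..b, t ^ 2 * f t ^ Fintype.card ι) / (∫ t in a..b, f t ^ Fintype.card ι) -
          ((∫ t in a..b, t * f t ^ Fintype.card ι) / (∫ t in a..b, f t ^ Fintype.card ι)) ^ 2) := by
  ext p q
  rcases p with i | u <;> rcases q with j | v
  · simp only [cov, centroid, Matrix.fromBlocks_apply₁₁, Matrix.smul_apply, smul_eq_mul]
    rw [mom2_ctower_inl_inl hM hb hfc hab hpos hB, mom1_ctower_inl hM hb hfc hab hpos hB,
      mom1_ctower_inl hM hb hfc hab hpos hB, vol_ctower hM hb hfc hab hpos hB, hcen i, hcen j]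
    field_simp
    ring
  · simp only [cov, centroid, Matrix.fromBlocks_apply₁₂, Matrix.zero_apply]
    rw [mom2_ctower_inl_inr hM hb hfc hab hpos hB, mom1_ctower_inl hM hb hfc hab hpos hB,
      hcen i]
    simp
  · simp only [cov, centroid, Matrix.fromBlocks_apply₂₁, Matrix.zero_apply]
    rw [mom2_ctower_inr_inl hM hb hfc hab hpos hB, mom1_ctower_inl hM hb hfc hab hpos hB,
      hcen j]
    simp
  · simp only [cov, centroid, Matrix.fromBlocks_apply₂₂, Matrix.of_apply]
    rw [mom2_ctower_inr_inr hM hb hfc hab hpos hB, mom1_ctower_inr hM hb hfc hab hpos hB,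
      vol_ctower hM hb hfc hab hpos hB]
    field_simp

theorem isoRatio_ctower [DecidableEq ι] (hM : MeasurableSet M) (hb : Bornology.IsBounded M)
    (hfc : Continuous f) (hab : a ≤ b) (hpos : ∀ t ∈ Ioo a b, 0 < f t)
    (hB : ∀ t ∈ Ioo a b, f t ≤ B) (hcen : ∀ i, mom1 M i = 0)
    (hI : 0 < ∫ t in a..b, f t ^ Fintype.card ι) :
    isoRatio (ctower M f a b) = profileFactor (Fintype.card ι) f a b * isoRatio M := by
  by_cases hV : vol M = 0
  · simp [isoRatio, vol_ctower hM hb hfc hab hpos hB, hV]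
  unfold isoRatio profileFactor
  rw [cov_ctower hM hb hfc hab hpos hB hcen hV hI.ne', Matrix.det_fromBlocks_zero₁₂,
    Matrix.det_smul, vol_ctower hM hb hfc hab hpos hB]
  simp only [Matrix.det_unique, Matrix.of_apply]
  have hI' := hI.ne'
  rw [div_pow]
  field_simp
  ring

omit [Fintype ι] in
lemma ctower_congr (M : Set (ι → ℝ)) {f g : ℝ → ℝ} {a b : ℝ}
    (hfg : ∀ t ∈ Icc a b, g t = f t) : ctower M f a b = ctower M g a b := by
  ext z
  constructor
  · rintro ⟨h1, h2, y, hy, hxy⟩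
    exact ⟨h1, h2, y, hy, fun i => by rw [hxy i, hfg _ ⟨h1, h2⟩]⟩
  · rintro ⟨h1, h2, y, hy, hxy⟩
    exact ⟨h1, h2, y, hy, fun i => by rw [hxy i, hfg _ ⟨h1, h2⟩]⟩

lemma profileFactor_congr (m : ℕ) {f g : ℝ → ℝ} {a b : ℝ} (hab : a ≤ b)
    (hfg : ∀ t ∈ Icc a b, g t = f t) : profileFactor m f a b = profileFactor m g a b := by
  have e1 : ∫ t in a..b, t ^ 2 * f t ^ m = ∫ t in a..b, t ^ 2 * g t ^ m := by
    apply intervalIntegral.integral_congr
    intro t ht
    rw [uIcc_of_le hab] at ht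
    simp only
    rw [hfg t ht]
  have e0 : ∫ t in a..b, t * f t ^ m = ∫ t in a..b, t * g t ^ m := by
    apply intervalIntegral.integral_congr
    intro t ht
    rw [uIcc_of_le hab] at ht
    simp only
    rw [hfg t ht]
  have e2 : ∀ k : ℕ, ∫ t in a..b, f t ^ k = ∫ t in a..b, g t ^ k := by
    intro k
    apply intervalIntegral.integral_congr
    intro t ht
    rw [uIcc_of_le hab] at ht
    simp only
    rw [hfg t ht]
  unfold profileFactor
  rw [e1, e0, e2, e2]

lemma measurableSet_ctower (hM : MeasurableSet M) (hfc : Continuous f) (a b : ℝ) :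
    MeasurableSet (ctower M f a b) := by
  have hfm : Measurable (fun z : ι ⊕ Unit → ℝ => f (z (Sum.inr ()))) :=
    (hfc.comp (continuous_apply _)).measurable
  have h1 : MeasurableSet {z : ι ⊕ Unit → ℝ | a ≤ z (Sum.inr ())} :=
    measurableSet_le measurable_const (measurable_pi_apply _)
  have h2 : MeasurableSet {z : ι ⊕ Unit → ℝ | z (Sum.inr ()) ≤ b} :=
    measurableSet_le (measurable_pi_apply _) measurable_const
  have h3 : Measurable
      (fun z : ι ⊕ Unit → ℝ => (fun i => z (Sum.inl i) / f (z (Sum.inr ())))) := by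
    refine measurable_pi_lambda _ fun i => ?_
    exact (measurable_pi_apply _).div hfm
  have h0 : MeasurableSet {z : ι ⊕ Unit → ℝ | f (z (Sum.inr ())) = 0} :=
    measurableSet_eq_fun hfm measurable_const
  have hx0 : MeasurableSet {z : ι ⊕ Unit → ℝ | ∀ i, z (Sum.inl i) = 0} := by
    have : {z : ι ⊕ Unit → ℝ | ∀ i, z (Sum.inl i) = 0} = ⋂ i, {z | z (Sum.inl i) = 0} := by
      ext z; simp
    rw [this]
    exact MeasurableSet.iInter fun i => measurableSet_eq_fun (measurable_pi_apply _)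
      measurable_const
  have hne : MeasurableSet {_z : ι ⊕ Unit → ℝ | M.Nonempty} := MeasurableSet.const _
  have hset : ctower M f a b = ({z : ι ⊕ Unit → ℝ | a ≤ z (Sum.inr ())} ∩
      {z : ι ⊕ Unit → ℝ | z (Sum.inr ()) ≤ b}) ∩
      (({z : ι ⊕ Unit → ℝ | f (z (Sum.inr ())) = 0}ᶜ ∩
          (fun z : ι ⊕ Unit → ℝ => (fun i => z (Sum.inl i) / f (z (Sum.inr ())))) ⁻¹' M) ∪
        ({z : ι ⊕ Unit → ℝ | f (z (Sum.inr ())) = 0} ∩
          {z : ι ⊕ Unit → ℝ | ∀ i, z (Sum.inl i) = 0} ∩ {_z : ι ⊕ Unit → ℝ | M.Nonempty})) := by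
    ext z
    constructor
    · rintro ⟨hz1, hz2, y, hy, hxy⟩
      refine ⟨⟨hz1, hz2⟩, ?_⟩
      by_cases hs : f (z (Sum.inr ())) = 0
      · right
        exact ⟨⟨hs, fun i => by rw [hxy i, hs, zero_mul]⟩, ⟨y, hy⟩⟩
      · left
        refine ⟨hs, ?_⟩
        have : (fun i => z (Sum.inl i) / f (z (Sum.inr ()))) = y := by
          funext i
          rw [hxy i]
          field_simp
        show (fun i => z (Sum.inl i) / f (z (Sum.inr ()))) ∈ M
        rw [this]; exact hy
    · rintro ⟨⟨hz1, hz2⟩, ⟨hs, hm⟩ | ⟨⟨hs, hx⟩, ⟨y, hy⟩⟩⟩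
      · refine ⟨hz1, hz2, _, hm, fun i => ?_⟩
        have hs' : f (z (Sum.inr ())) ≠ 0 := hs
        field_simp
      · have hs' : f (z (Sum.inr ())) = 0 := hs
        exact ⟨hz1, hz2, y, hy, fun i => by rw [hx i, hs', zero_mul]⟩
  rw [hset]
  exact (h1.inter h2).inter (((h0.compl).inter (h3 hM)).union ((h0.inter hx0).inter hne))

lemma isBounded_ctower (hb : Bornology.IsBounded M) (hB : ∀ t ∈ Icc a b, abs (f t) ≤ B) :
    Bornology.IsBounded (ctower M f a b) := by
  obtain ⟨R, hR⟩ := hb.exists_norm_le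
  rw [isBounded_iff_forall_norm_le]
  refine ⟨max (|B| * |R|) (max |a| |b|), fun z hz => ?_⟩
  obtain ⟨h1, h2, y, hy, hxy⟩ := hz
  have hRy := hR _ hy
  have hR0 : 0 ≤ R := le_trans (norm_nonneg _) hRy
  have hBR : 0 ≤ |B| * |R| := mul_nonneg (abs_nonneg _) (abs_nonneg _)
  rw [pi_norm_le_iff_of_nonneg (le_trans hBR (le_max_left _ _))]
  intro i
  cases i with
  | inl i =>
    have h3 := (pi_norm_le_iff_of_nonneg hR0).1 hRy i
    simp only [Real.norm_eq_abs] at h3 ⊢
    rw [hxy i, abs_mul]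
    refine le_trans ?_ (le_max_left _ _)
    exact mul_le_mul (le_trans (hB _ ⟨h1, h2⟩) (le_abs_self B)) (le_trans h3 (le_abs_self R))
      (abs_nonneg _) (abs_nonneg _)
  | inr u =>
    simp only [Real.norm_eq_abs]
    refine le_trans ?_ (le_max_right _ _)
    rw [abs_le]
    constructor
    · have := neg_abs_le a
      have := le_max_left |a| |b|
      linarith
    · have := le_abs_self b
      have := le_max_right |a| |b|
      linarith

omit [Fintype ι] in
lemma convex_ctower (hconc : ConcaveOn ℝ (Icc a b) f) (hnn : ∀ t ∈ Icc a b, 0 ≤ f t)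
    (hMc : Convex ℝ M) (h0M : (0 : ι → ℝ) ∈ M) : Convex ℝ (ctower M f a b) := by
  intro z hz z' hz' α β hα hβ hαβ
  obtain ⟨h1, h2, y, hy, hxy⟩ := hz
  obtain ⟨h1', h2', y', hy', hxy'⟩ := hz'
  set t : ℝ := z (Sum.inr ()) with ht
  set t' : ℝ := z' (Sum.inr ()) with ht'
  have htm : t ∈ Icc a b := ⟨h1, h2⟩
  have htm' : t' ∈ Icc a b := ⟨h1', h2'⟩
  have hcoord : (α • z + β • z') (Sum.inr ()) = α * t + β * t' := by
    simp [ht, ht']
  have hτm : α * t + β * t' ∈ Icc a b := by
    have := (convex_Icc a b) htm htm' hα hβ hαβ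
    simpa [smul_eq_mul] using this
  have hF2 : α * f t + β * f t' ≤ f (α * t + β * t') := by
    have := hconc.2 htm htm' hα hβ hαβ
    simpa [smul_eq_mul] using this
  have hu0 : 0 ≤ α * f t := mul_nonneg hα (hnn _ htm)
  have hv0 : 0 ≤ β * f t' := mul_nonneg hβ (hnn _ htm')
  refine ⟨by rw [hcoord]; exact hτm.1, by rw [hcoord]; exact hτm.2, ?_⟩
  rw [hcoord]
  have hxcoord : ∀ i, (α • z + β • z') (Sum.inl i) = α * f t * y i + β * f t' * y' i := by
    intro i
    simp only [Pi.add_apply, Pi.smul_apply, smul_eq_mul]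
    rw [hxy i, hxy' i]
    ring
  rcases (add_nonneg hu0 hv0).eq_or_lt with hg0 | hgpos
  · refine ⟨0, h0M, fun i => ?_⟩
    have hu : α * f t = 0 := by linarith
    have hv : β * f t' = 0 := by linarith
    rw [hxcoord i, hu, hv]
    simp
  · set F : ℝ := f (α * t + β * t') with hF
    set G : ℝ := α * f t + β * f t' with hG
    have hFpos : 0 < F := lt_of_lt_of_le hgpos hF2
    have hGF : G ≤ F := hF2
    have hybar : (α * f t / G) • y + (β * f t' / G) • y' ∈ M := by
      apply hMc hy hy' (div_nonneg hu0 hgpos.le) (div_nonneg hv0 hgpos.le)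
      rw [← add_div, div_self hgpos.ne']
    have hy2 : (G / F) • ((α * f t / G) • y + (β * f t' / G) • y') ∈ M :=
      hMc.smul_mem_of_zero_mem h0M hybar
        ⟨div_nonneg hgpos.le hFpos.le, (div_le_one hFpos).2 hGF⟩
    refine ⟨_, hy2, fun i => ?_⟩
    rw [hxcoord i]
    simp only [Pi.add_apply, Pi.smul_apply, smul_eq_mul]
    have hG' := hgpos.ne'
    have hF' := hFpos.ne'
    field_simp

end

end Vale.Agent.Helper22
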