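import Vale.Agent.Helper22.FsMain
import Vale.Agent.Helper22.SharpGeom

/-!
Joins: the cone with apex `0` over a compact convex set placed at height one, its origin
parameter (always `1`), and the product formula for `det Σ / vol^2` of the join of two compact
convex sets.
-/

namespace Vale.Agent.Helper22

open MeasureTheory Set Matrix

noncomputable section

variable {ι : Type*} [Fintype ι]

/-- The cone with apex `0` over `M × {1}`: all points `(s y, s)` with `y ∈ M`, `0 ≤ s ≤ 1`. -/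
def cone0 (M : Set (ι → ℝ)) : Set (ι ⊕ Unit → ℝ) := ctower M (fun t => t) 0 1

omit [Fintype ι] in
lemma cone0_eq_image (M : Set (ι → ℝ)) : cone0 M =
    (fun p : (ι → ℝ) × ℝ => (Sum.elim (p.2 • p.1) (fun _ => p.2) : ι ⊕ Unit → ℝ)) ''
      (M ×ˢ Icc (0:ℝ) 1) := by
  ext z
  constructor
  · rintro ⟨h0, h1, y, hy, hz⟩
    refine ⟨(y, z (Sum.inr ())), ⟨hy, h0, h1⟩, ?_⟩
    funext s
    cases s with
    | inl i => simp [hz i]
    | inr u => rfl
  · rintro ⟨⟨y, s⟩, ⟨hy, h0, h1⟩, rfl⟩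
    exact ⟨h0, h1, y, hy, fun i => rfl⟩

omit [Fintype ι] in
lemma isCompact_cone0 {M : Set (ι → ℝ)} (hM : IsCompact M) : IsCompact (cone0 M) := by
  rw [cone0_eq_image]
  refine (hM.prod isCompact_Icc).image ?_
  refine continuous_pi fun s => ?_
  cases s with
  | inl i =>
    simp only [Sum.elim_inl, Pi.smul_apply, smul_eq_mul]
    fun_prop
  | inr u =>
    simp only [Sum.elim_inr]
    fun_prop

omit [Fintype ι] in
lemma zero_mem_cone0 {M : Set (ι → ℝ)} (hne : M.Nonempty) : (0 : ι ⊕ Unit → ℝ) ∈ cone0 M := by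
  obtain ⟨y, hy⟩ := hne
  exact ⟨le_rfl, zero_le_one, y, hy, fun i => by simp⟩

omit [Fintype ι] in
/-- The embedding of `M` at height one. -/
lemma lift_mem_cone0 {M : Set (ι → ℝ)} {y : ι → ℝ} (hy : y ∈ M) :
    (Sum.elim y (fun _ => 1) : ι ⊕ Unit → ℝ) ∈ cone0 M :=
  ⟨zero_le_one, le_rfl, y, hy, fun i => by simp⟩

omit [Fintype ι] in
lemma convex_cone0 {M : Set (ι → ℝ)} (hM : Convex ℝ M) : Convex ℝ (cone0 M) := by
  rintro z ⟨h0, h1, y, hy, hz⟩ z' ⟨h0', h1', y', hy', hz'⟩ u v hu hv huv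
  set s := z (Sum.inr ()) with hs
  set s' := z' (Sum.inr ()) with hs'
  have hsum : (u • z + v • z') (Sum.inr ()) = u * s + v * s' := by simp [hs, hs']
  have hnn : 0 ≤ u * s + v * s' := add_nonneg (mul_nonneg hu h0) (mul_nonneg hv h0')
  have hle : u * s + v * s' ≤ 1 := by nlinarith
  rcases eq_or_lt_of_le hnn with h | h
  · have h1z : u * s = 0 := by nlinarith [mul_nonneg hu h0, mul_nonneg hv h0']
    have h2z : v * s' = 0 := by nlinarith [mul_nonneg hu h0, mul_nonneg hv h0']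
    refine ⟨by rw [hsum]; exact hnn, by rw [hsum]; exact hle, y, hy, fun i => ?_⟩
    rw [hsum, ← h, zero_mul]
    simp only [Pi.add_apply, Pi.smul_apply, smul_eq_mul, hz i, hz' i]
    rw [← mul_assoc, ← mul_assoc, h1z, h2z]
    ring
  · refine ⟨by rw [hsum]; exact hnn, by rw [hsum]; exact hle,
      (u * s / (u * s + v * s')) • y + (v * s' / (u * s + v * s')) • y',
      hM hy hy' (div_nonneg (mul_nonneg hu h0) h.le) (div_nonneg (mul_nonneg hv h0') h.le)
        (by field_simp), fun i => ?_⟩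
    rw [hsum]
    simp only [Pi.add_apply, Pi.smul_apply, smul_eq_mul, hz i, hz' i]
    field_simp

lemma int_id_pow (n : ℕ) : ∫ t in (0:ℝ)..1, (fun t : ℝ => t) t ^ n = 1 / ((n:ℝ) + 1) := by
  simp only [integral_pow]
  simp

lemma int_id_mul_pow (n : ℕ) :
    ∫ t in (0:ℝ)..1, t * (fun t : ℝ => t) t ^ n = 1 / ((n:ℝ) + 2) := by
  have e : ∀ t : ℝ, t * t ^ n = t ^ (n + 1) := fun t => by ring
  simp only [e, integral_pow]
  simp
  ring

lemma int_sq_mul_pow (n : ℕ) :
    ∫ t in (0:ℝ)..1, t ^ 2 * (fun t : ℝ => t) t ^ n = 1 / ((n:ℝ) + 3) := by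
  have e : ∀ t : ℝ, t ^ 2 * t ^ n = t ^ (n + 2) := fun t => by ring
  simp only [e, integral_pow]
  simp
  ring

section moments

variable {M : Set (ι → ℝ)}

lemma cone0_hyp : (∀ t ∈ Ioo (0:ℝ) 1, 0 < (fun t : ℝ => t) t) ∧
    (∀ t ∈ Ioo (0:ℝ) 1, (fun t : ℝ => t) t ≤ 1) :=
  ⟨fun _ ht => ht.1, fun _ ht => ht.2.le⟩

lemma vol_cone0 (hM : MeasurableSet M) (hb : Bornology.IsBounded M) :
    vol (cone0 M) = vol M / ((Fintype.card ι : ℝ) + 1) := by
  unfold cone0
  rw [vol_ctower hM hb continuous_id' zero_le_one cone0_hyp.1 cone0_hyp.2, int_id_pow]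
  ring

lemma mom1_cone0_inl (hM : MeasurableSet M) (hb : Bornology.IsBounded M) (i : ι) :
    mom1 (cone0 M) (Sum.inl i) = mom1 M i / ((Fintype.card ι : ℝ) + 2) := by
  unfold cone0
  rw [mom1_ctower_inl hM hb continuous_id' zero_le_one cone0_hyp.1 cone0_hyp.2, int_id_pow]
  push_cast
  ring

lemma mom1_cone0_inr (hM : MeasurableSet M) (hb : Bornology.IsBounded M) :
    mom1 (cone0 M) (Sum.inr ()) = vol M / ((Fintype.card ι : ℝ) + 2) := by
  unfold cone0
  rw [mom1_ctower_inr hM hb continuous_id' zero_le_one cone0_hyp.1 cone0_hyp.2, int_id_mul_pow]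
  ring

lemma mom2_cone0_inl_inl (hM : MeasurableSet M) (hb : Bornology.IsBounded M) (i j : ι) :
    mom2 (cone0 M) (Sum.inl i) (Sum.inl j) = mom2 M i j / ((Fintype.card ι : ℝ) + 3) := by
  unfold cone0
  rw [mom2_ctower_inl_inl hM hb continuous_id' zero_le_one cone0_hyp.1 cone0_hyp.2, int_id_pow]
  push_cast
  ring

lemma mom2_cone0_inl_inr (hM : MeasurableSet M) (hb : Bornology.IsBounded M) (i : ι) :
    mom2 (cone0 M) (Sum.inl i) (Sum.inr ()) = mom1 M i / ((Fintype.card ι : ℝ) + 3) := by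
  unfold cone0
  rw [mom2_ctower_inl_inr hM hb continuous_id' zero_le_one cone0_hyp.1 cone0_hyp.2,
    int_id_mul_pow]
  push_cast
  ring

lemma mom2_cone0_inr_inl (hM : MeasurableSet M) (hb : Bornology.IsBounded M) (i : ι) :
    mom2 (cone0 M) (Sum.inr ()) (Sum.inl i) = mom1 M i / ((Fintype.card ι : ℝ) + 3) := by
  unfold cone0
  rw [mom2_ctower_inr_inl hM hb continuous_id' zero_le_one cone0_hyp.1 cone0_hyp.2,
    int_id_mul_pow]
  push_cast
  ring

lemma mom2_cone0_inr_inr (hM : MeasurableSet M) (hb : Bornology.IsBounded M) :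
    mom2 (cone0 M) (Sum.inr ()) (Sum.inr ()) = vol M / ((Fintype.card ι : ℝ) + 3) := by
  unfold cone0
  rw [mom2_ctower_inr_inr hM hb continuous_id' zero_le_one cone0_hyp.1 cone0_hyp.2,
    int_sq_mul_pow]
  ring

lemma cov_cone0 (hM : MeasurableSet M) (hb : Bornology.IsBounded M) (hV : vol M ≠ 0) :
    cov (cone0 M) = Matrix.fromBlocks
      ((((Fintype.card ι : ℝ) + 1) / ((Fintype.card ι : ℝ) + 3)) • cov M +
        (((Fintype.card ι : ℝ) + 1) / (((Fintype.card ι : ℝ) + 3) * ((Fintype.card ι : ℝ) + 2) ^ 2))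
          • Matrix.of (fun i j => (-centroid M i) * (-centroid M j)))
      (Matrix.of fun i (_ : Unit) =>
        -(((Fintype.card ι : ℝ) + 1) / (((Fintype.card ι : ℝ) + 3) * ((Fintype.card ι : ℝ) + 2) ^ 2))
          * (-centroid M i))
      (Matrix.of fun (_ : Unit) j =>
        -(((Fintype.card ι : ℝ) + 1) / (((Fintype.card ι : ℝ) + 3) * ((Fintype.card ι : ℝ) + 2) ^ 2))
          * (-centroid M j))
      (Matrix.of fun (_ : Unit) (_ : Unit) =>
        ((Fintype.card ι : ℝ) + 1) / (((Fintype.card ι : ℝ) + 3) * ((Fintype.card ι : ℝ) + 2) ^ 2)) := by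
  have h1 : ((Fintype.card ι : ℝ) + 1) ≠ 0 := by positivity
  have h2 : ((Fintype.card ι : ℝ) + 2) ≠ 0 := by positivity
  have h3 : ((Fintype.card ι : ℝ) + 3) ≠ 0 := by positivity
  ext p q
  rcases p with i | u <;> rcases q with j | v
  · simp only [cov, centroid, Matrix.fromBlocks_apply₁₁, Matrix.add_apply, Matrix.smul_apply,
      Matrix.of_apply, smul_eq_mul]
    rw [mom2_cone0_inl_inl hM hb, mom1_cone0_inl hM hb, mom1_cone0_inl hM hb, vol_cone0 hM hb]
    field_simp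
    ring
  · simp only [cov, centroid, Matrix.fromBlocks_apply₁₂, Matrix.of_apply]
    rw [mom2_cone0_inl_inr hM hb, mom1_cone0_inl hM hb, mom1_cone0_inr hM hb, vol_cone0 hM hb]
    field_simp
    ring
  · simp only [cov, centroid, Matrix.fromBlocks_apply₂₁, Matrix.of_apply]
    rw [mom2_cone0_inr_inl hM hb, mom1_cone0_inl hM hb, mom1_cone0_inr hM hb, vol_cone0 hM hb]
    field_simp
    ring
  · simp only [cov, centroid, Matrix.fromBlocks_apply₂₂, Matrix.of_apply]
    rw [mom2_cone0_inr_inr hM hb, mom1_cone0_inr hM hb, vol_cone0 hM hb]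
    field_simp
    ring

theorem isoRatio_cone0 [DecidableEq ι] (hM : MeasurableSet M) (hb : Bornology.IsBounded M) :
    isoRatio (cone0 M) = pyrConst (Fintype.card ι) * isoRatio M := by
  by_cases hV : vol M = 0
  · simp [isoRatio, vol_cone0 hM hb, hV]
  have h1 : ((Fintype.card ι : ℝ) + 1) ≠ 0 := by positivity
  have h2 : ((Fintype.card ι : ℝ) + 2) ≠ 0 := by positivity
  have h3 : ((Fintype.card ι : ℝ) + 3) ≠ 0 := by positivity
  unfold isoRatio pyrConst
  rw [cov_cone0 hM hb hV, det_bordered, Matrix.det_smul, vol_cone0 hM hb, div_pow]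
  field_simp
  ring

end moments

/-- Cauchy–Schwarz for the Mahalanobis form: `⟨v, b⟩^2 ≤ (vᵀ Σ v) (bᵀ Σ⁻¹ b)`. -/
lemma cs_mahal [DecidableEq ι] {K : Set (ι → ℝ)} (hK : IsCompact K) (hV : 0 < vol K)
    (v : ι → ℝ) : (v ⬝ᵥ centroid K) ^ 2 ≤ (v ⬝ᵥ cov K *ᵥ v) * mahal K := by
  have hpd := cov_posDef hK hV
  have hdet : (cov K).det ≠ 0 := hpd.det_pos.ne'
  set u := (cov K)⁻¹ *ᵥ centroid K with hu
  have hq : mahal K = centroid K ⬝ᵥ u := rfl
  have hSu : cov K *ᵥ u = centroid K := by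
    rw [hu, Matrix.mulVec_mulVec, Matrix.mul_nonsing_inv _ (isUnit_iff_ne_zero.2 hdet),
      Matrix.one_mulVec]
  have hsymm : (cov K)ᵀ = cov K := by
    have h := hpd.isHermitian
    rwa [Matrix.IsHermitian, Matrix.conjTranspose_eq_transpose_of_trivial] at h
  have huv : u ⬝ᵥ cov K *ᵥ v = v ⬝ᵥ centroid K := by
    rw [Matrix.dotProduct_mulVec, ← Matrix.mulVec_transpose, hsymm, hSu, dotProduct_comm]
  have hquad : ∀ t : ℝ, 0 ≤ mahal K * (t * t) + (-2 * (v ⬝ᵥ centroid K)) * t +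
      v ⬝ᵥ cov K *ᵥ v := by
    intro t
    have h := hpd.posSemidef.dotProduct_mulVec_nonneg (v - t • u)
    rw [star_trivial] at h
    have e : (v - t • u) ⬝ᵥ cov K *ᵥ (v - t • u) =
        v ⬝ᵥ cov K *ᵥ v - 2 * t * (v ⬝ᵥ centroid K) + t * t * mahal K := by
      simp only [Matrix.mulVec_sub, Matrix.mulVec_smul, hSu, dotProduct_sub, sub_dotProduct,
        smul_dotProduct, dotProduct_smul, smul_eq_mul]
      rw [huv, dotProduct_comm u (centroid K), ← hq]
      ring
    rw [e] at h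
    linarith
  have hd := discrim_le_zero hquad
  unfold discrim at hd
  nlinarith

/-- The apex of a cone is at the largest possible Mahalanobis distance from the centroid. -/
lemma mahal_cone0 [DecidableEq ι] {M : Set (ι → ℝ)} (hM : IsCompact M) (hMc : Convex ℝ M)
    (hV : 0 < vol M) :
    mahal (cone0 M) = ((Fintype.card ι : ℝ) + 1) * ((Fintype.card ι : ℝ) + 3) := by
  have hne : M.Nonempty := by
    by_contra h
    rw [not_nonempty_iff_eq_empty] at h
    rw [h] at hV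
    simp [vol] at hV
  have hmeas := hM.measurableSet
  have hb := hM.isBounded
  have hc := isCompact_cone0 hM
  have hk1 : (0:ℝ) < (Fintype.card ι : ℝ) + 1 := by positivity
  have hk2 : (0:ℝ) < (Fintype.card ι : ℝ) + 2 := by positivity
  have hk3 : (0:ℝ) < (Fintype.card ι : ℝ) + 3 := by positivity
  have hVc : 0 < vol (cone0 M) := by
    rw [vol_cone0 hmeas hb]
    positivity
  have hle := mahal_le hc (convex_cone0 hMc) (zero_mem_cone0 hne) hVc
  rw [Fintype.card_sum, Fintype.card_unit] at hle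
  push_cast at hle
  have hcs := cs_mahal hc hVc (Pi.single (Sum.inr ()) 1)
  rw [single_one_dotProduct, Matrix.mulVec_single_one, single_one_dotProduct] at hcs
  have hcen : centroid (cone0 M) (Sum.inr ()) =
      ((Fintype.card ι : ℝ) + 1) / ((Fintype.card ι : ℝ) + 2) := by
    unfold centroid
    rw [mom1_cone0_inr hmeas hb, vol_cone0 hmeas hb]
    field_simp
  have hcov : cov (cone0 M) (Sum.inr ()) (Sum.inr ()) =
      ((Fintype.card ι : ℝ) + 1) / (((Fintype.card ι : ℝ) + 3) * ((Fintype.card ι : ℝ) + 2) ^ 2) := by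
    unfold cov
    rw [hcen, mom2_cone0_inr_inr hmeas hb, vol_cone0 hmeas hb]
    field_simp
    ring
  have hcol : (cov (cone0 M)).col (Sum.inr ()) (Sum.inr ()) =
      cov (cone0 M) (Sum.inr ()) (Sum.inr ()) := rfl
  rw [hcol, hcen, hcov] at hcs
  apply le_antisymm
  · linarith
  · have h1 : ((Fintype.card ι : ℝ) + 1) ^ 2 * ((Fintype.card ι : ℝ) + 3) ≤
        ((Fintype.card ι : ℝ) + 1) * mahal (cone0 M) := by
      have h2 := hcs
      rw [div_pow, div_mul_eq_mul_div, div_le_div_iff₀ (by positivity) (by positivity)] at h2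
      nlinarith [mul_pos hk2 hk2]
    nlinarith

lemma simpD_succ (k : ℕ) : simpD (k + 1) = pyrConst k * simpD k := by
  unfold simpD pyrConst
  rw [Nat.factorial_succ]
  have h1 : (k:ℝ) + 1 ≠ 0 := by positivity
  have h2 : (k:ℝ) + 2 ≠ 0 := by positivity
  have h3 : (k:ℝ) + 3 ≠ 0 := by positivity
  have hf : (k.factorial : ℝ) ≠ 0 := by positivity
  push_cast
  rw [show (k:ℝ) + 1 + 1 = (k:ℝ) + 2 from by ring, show (k:ℝ) + 1 + 2 = (k:ℝ) + 3 from by ring]
  field_simp
  ring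

variable {κ : Type*} [Fintype κ]

omit [Fintype ι] [Fintype κ] in
/-- The free sum of the cone over `A` and a convex set `B ∋ 0` is the convex hull of `A`, placed
at height one, and `B`: the join of `A` and `B`. -/
lemma fsum_cone0_eq_hull {A : Set (ι → ℝ)} {B : Set (κ → ℝ)} (hAc : Convex ℝ A)
    (hAne : A.Nonempty) (hBc : Convex ℝ B) (hB0 : (0 : κ → ℝ) ∈ B) :
    fsum (cone0 A) B = convexHull ℝ
      ((fun x : ι → ℝ => (Sum.elim (Sum.elim x (fun _ => (1:ℝ))) 0 : (ι ⊕ Unit) ⊕ κ → ℝ)) '' A ∪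
        (fun y : κ → ℝ => (Sum.elim 0 y : (ι ⊕ Unit) ⊕ κ → ℝ)) '' B) := by
  rw [fsum_eq_hull (convex_cone0 hAc) hBc ⟨0, zero_mem_cone0 hAne⟩ ⟨0, hB0⟩]
  set G : Set ((ι ⊕ Unit) ⊕ κ → ℝ) :=
    (fun x : ι → ℝ => (Sum.elim (Sum.elim x (fun _ => (1:ℝ))) 0 : (ι ⊕ Unit) ⊕ κ → ℝ)) '' A ∪
      (fun y : κ → ℝ => (Sum.elim 0 y : (ι ⊕ Unit) ⊕ κ → ℝ)) '' B with hG
  have hC : Convex ℝ (convexHull ℝ G) := convex_convexHull ℝ G
  apply subset_antisymm
  · apply convexHull_min _ hC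
    rintro _ (⟨z, ⟨h0, h1, y, hy, hz⟩, rfl⟩ | ⟨b, hb, rfl⟩)
    · have hcomb : (Sum.elim z 0 : (ι ⊕ Unit) ⊕ κ → ℝ) =
          z (Sum.inr ()) • (Sum.elim (Sum.elim y (fun _ => (1:ℝ))) 0 : (ι ⊕ Unit) ⊕ κ → ℝ) +
            (1 - z (Sum.inr ())) • (Sum.elim 0 (0 : κ → ℝ) : (ι ⊕ Unit) ⊕ κ → ℝ) := by
        funext s
        rcases s with (i | u) | j
        · simp [hz i]
        · simp
        · simp
      have hx : (Sum.elim (Sum.elim y (fun _ => (1:ℝ))) 0 : (ι ⊕ Unit) ⊕ κ → ℝ) ∈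
          convexHull ℝ G := subset_convexHull ℝ G (Or.inl ⟨y, hy, rfl⟩)
      have hy' : (Sum.elim 0 (0 : κ → ℝ) : (ι ⊕ Unit) ⊕ κ → ℝ) ∈ convexHull ℝ G :=
        subset_convexHull ℝ G (Or.inr ⟨0, hB0, rfl⟩)
      show (Sum.elim z 0 : (ι ⊕ Unit) ⊕ κ → ℝ) ∈ _
      rw [hcomb]
      exact hC hx hy' h0 (by linarith) (by ring)
    · exact subset_convexHull ℝ G (Or.inr ⟨b, hb, rfl⟩)
  · apply convexHull_mono
    rintro _ (⟨y, hy, rfl⟩ | ⟨b, hb, rfl⟩)
    · exact Or.inl ⟨_, lift_mem_cone0 hy, rfl⟩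
    · exact Or.inr ⟨b, hb, rfl⟩

variable [DecidableEq ι] [DecidableEq κ] [Nonempty κ]

/-- The join formula (general index types): for the join `J` of compact convex sets `A`, `B` of
positive volume, `D(J) / D(Δ) = (D(A) / D(Δ)) (D(B) / D(Δ))`. -/
theorem join_main {A : Set (ι → ℝ)} {B : Set (κ → ℝ)}
    (hA : IsCompact A) (hAc : Convex ℝ A) (hAV : 0 < vol A)
    (hB : IsCompact B) (hBc : Convex ℝ B) (hB0 : (0 : κ → ℝ) ∈ B) (hBV : 0 < vol B) :
    isoRatio (fsum (cone0 A) B) = simpD (Fintype.card ι + 1 + Fintype.card κ) *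
      (isoRatio A / simpD (Fintype.card ι)) * (isoRatio B / simpD (Fintype.card κ)) ∧
    IsCompact (fsum (cone0 A) B) ∧ 0 < vol (fsum (cone0 A) B) ∧ 0 < isoRatio A ∧
      0 < isoRatio B := by
  have hne : A.Nonempty := by
    by_contra h
    rw [not_nonempty_iff_eq_empty] at h
    rw [h] at hAV
    simp [vol] at hAV
  have hVc : 0 < vol (cone0 A) := by
    rw [vol_cone0 hA.measurableSet hA.isBounded]
    positivity
  obtain ⟨-, hform, -, hEc, -, hEV, -, hrB⟩ :=
    free_sum_main (isCompact_cone0 hA) (convex_cone0 hAc) (zero_mem_cone0 hne) hVc hB hBc hB0 hBV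
  have hone : originParam (cone0 A) = 1 := by
    unfold originParam
    rw [mahal_cone0 hA hAc hAV, Fintype.card_sum, Fintype.card_unit]
    push_cast
    have h2 : (Fintype.card ι : ℝ) + 2 ≠ 0 := by positivity
    have h3 : (Fintype.card ι : ℝ) + 3 ≠ 0 := by positivity
    field_simp
    ring
  rw [hone, isoRatio_cone0 hA.measurableSet hA.isBounded, Fintype.card_sum, Fintype.card_unit,
    simpD_succ] at hform
  refine ⟨?_, hEc, hEV, isoRatio_pos_of_compact hA hAV, hrB⟩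
  rw [hform]
  have hp := (pyrConst_pos (Fintype.card ι)).ne'
  have hs := (simpD_pos (Fintype.card ι)).ne'
  field_simp
  ring

/-- The join theorem in coordinates: for compact convex `A ⊂ ℝ^k` and `B ⊂ ℝ^l` (`l ≥ 1`,
`0 ∈ B`) of positive volume and their join `J ⊂ ℝ^(k+1+l)` (the convex hull of `A` placed at
height one and of `B` placed at height zero in the complementary coordinates), the ratio of
`det Σ / vol^2` to its value on the simplex of the same dimension is multiplicative. -/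
theorem join_fin :
    ∀ (k l : ℕ), 0 < l → ∀ (A : Set (Fin k → ℝ)) (B : Set (Fin l → ℝ)),
      IsCompact A → Convex ℝ A → 0 < vol A →
      IsCompact B → Convex ℝ B → (0 : Fin l → ℝ) ∈ B → 0 < vol B →
      ∀ (J : Set ((Fin k ⊕ Unit) ⊕ Fin l → ℝ)),
        J = convexHull ℝ
          ((fun x : Fin k → ℝ =>
              (Sum.elim (Sum.elim x (fun _ => (1:ℝ))) 0 : (Fin k ⊕ Unit) ⊕ Fin l → ℝ)) '' A ∪
            (fun y : Fin l → ℝ => (Sum.elim 0 y : (Fin k ⊕ Unit) ⊕ Fin l → ℝ)) '' B) →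
        isoRatio J = isoRatio (stdSimp (Fin (k + l + 1))) *
          (isoRatio A / isoRatio (stdSimp (Fin k))) *
          (isoRatio B / isoRatio (stdSimp (Fin l))) ∧
        IsCompact J ∧ 0 < vol J := by
  intro k l hl A B hA hAc hAV hB hBc hB0 hBV J hJ
  have hne2 : Nonempty (Fin l) := ⟨⟨0, hl⟩⟩
  have hne : A.Nonempty := by
    by_contra h
    rw [not_nonempty_iff_eq_empty] at h
    rw [h] at hAV
    simp [vol] at hAV
  rw [← fsum_cone0_eq_hull hAc hne hBc hB0] at hJ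
  subst hJ
  obtain ⟨hform, hc, hV, -, -⟩ := join_main hA hAc hAV hB hBc hB0 hBV
  refine ⟨?_, hc, hV⟩
  have hs : ∀ m : ℕ, simpD m = isoRatio (stdSimp (Fin m)) := fun m =>
    (isoRatio_stdSimp_fin m).symm
  rw [hform, Fintype.card_fin, Fintype.card_fin, show k + 1 + l = k + l + 1 by omega,
    hs, hs, hs]

end

end Vale.Agent.Helper22
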