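import Vale.Agent.Helper22.FsAlg

/-!
Positive definiteness of the covariance matrix of a compact set of positive volume, and the
bound `b_K^T Σ_K^{-1} b_K ≤ m (m + 2)` for a compact convex set `K ∋ 0` of positive volume in
dimension `m` (so that the origin parameter is at most `1`).
-/

namespace Vale.Agent.Helper22

open MeasureTheory Set Matrix
open scoped Pointwise

noncomputable section

variable {ι : Type*} [Fintype ι]

/-- `∫_K ⟨v, x⟩ dx`. -/
def lin1 (K : Set (ι → ℝ)) (v : ι → ℝ) : ℝ := ∫ x in K, v ⬝ᵥ x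

/-- `∫_K ⟨v, x⟩^2 dx`. -/
def lin2 (K : Set (ι → ℝ)) (v : ι → ℝ) : ℝ := ∫ x in K, (v ⬝ᵥ x) ^ 2

lemma intOnC {K : Set (ι → ℝ)} (hK : IsCompact K) {f : (ι → ℝ) → ℝ} (hf : Continuous f) :
    IntegrableOn f K := hf.continuousOn.integrableOn_compact hK

lemma continuous_dot (v : ι → ℝ) : Continuous fun x : ι → ℝ => v ⬝ᵥ x := by
  unfold dotProduct
  fun_prop

lemma sum_mom1 {K : Set (ι → ℝ)} (hK : IsCompact K) (v : ι → ℝ) :
    ∑ i, v i * mom1 K i = lin1 K v := by
  unfold mom1 lin1
  simp_rw [← integral_const_mul]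
  rw [← integral_finsetSum _ (fun i _ => intOnC hK (by fun_prop))]
  rfl

lemma sum_mom2 {K : Set (ι → ℝ)} (hK : IsCompact K) (v : ι → ℝ) :
    ∑ i, ∑ j, v i * v j * mom2 K i j = lin2 K v := by
  unfold mom2 lin2
  simp_rw [← integral_const_mul]
  have h1 : ∀ i, ∑ j, ∫ x in K, v i * v j * (x i * x j) =
      ∫ x in K, ∑ j, v i * v j * (x i * x j) := fun i =>
    (integral_finsetSum _ (fun j _ => intOnC hK (by fun_prop))).symm
  simp_rw [h1]
  rw [← integral_finsetSum _ (fun i _ => intOnC hK (by fun_prop))]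
  refine integral_congr_ae (Filter.Eventually.of_forall fun x => ?_)
  simp only [dotProduct, pow_two, Finset.sum_mul_sum]
  refine Finset.sum_congr rfl fun i _ => Finset.sum_congr rfl fun j _ => ?_
  ring

lemma dot_centroid {K : Set (ι → ℝ)} (hK : IsCompact K) (v : ι → ℝ) :
    v ⬝ᵥ centroid K = lin1 K v / vol K := by
  rw [← sum_mom1 hK, Finset.sum_div]
  unfold dotProduct centroid
  refine Finset.sum_congr rfl fun i _ => ?_
  ring

lemma quad_cov {K : Set (ι → ℝ)} (hK : IsCompact K) (v : ι → ℝ) :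
    v ⬝ᵥ cov K *ᵥ v = lin2 K v / vol K - (lin1 K v / vol K) ^ 2 := by
  rw [← sum_mom2 hK, ← dot_centroid hK, Finset.sum_div]
  have h2 : (v ⬝ᵥ centroid K) ^ 2 = ∑ i, ∑ j, v i * v j * (centroid K i * centroid K j) := by
    simp only [dotProduct, pow_two, Finset.sum_mul_sum]
    refine Finset.sum_congr rfl fun i _ => Finset.sum_congr rfl fun j _ => ?_
    ring
  rw [h2, ← Finset.sum_sub_distrib]
  unfold dotProduct Matrix.mulVec dotProduct cov
  refine Finset.sum_congr rfl fun i _ => ?_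
  rw [Finset.mul_sum, Finset.sum_div, ← Finset.sum_sub_distrib]
  refine Finset.sum_congr rfl fun j _ => ?_
  ring

lemma integral_const_vol' (K : Set (ι → ℝ)) (c : ℝ) : ∫ _x in K, c = c * vol K := by
  rw [vol_eq_integral, ← integral_const_mul]
  simp

lemma integral_sub_const {K : Set (ι → ℝ)} (hK : IsCompact K) (v : ι → ℝ) (m : ℝ) :
    ∫ x in K, (v ⬝ᵥ x - m) = lin1 K v - m * vol K := by
  rw [integral_sub (intOnC hK (continuous_dot v)) (intOnC hK continuous_const),
    integral_const_vol']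
  rfl

lemma integral_sq_sub {K : Set (ι → ℝ)} (hK : IsCompact K) (v : ι → ℝ) (m : ℝ) :
    ∫ x in K, (v ⬝ᵥ x - m) ^ 2 = lin2 K v - 2 * m * lin1 K v + m ^ 2 * vol K := by
  have e : ∀ x : ι → ℝ, (v ⬝ᵥ x - m) ^ 2 = (v ⬝ᵥ x) ^ 2 - 2 * m * (v ⬝ᵥ x) + m ^ 2 :=
    fun x => by ring
  simp_rw [e]
  have hc := continuous_dot v
  have h1 : IntegrableOn (fun x : ι → ℝ => (v ⬝ᵥ x) ^ 2) K := intOnC hK (by fun_prop)
  have h2 : IntegrableOn (fun x : ι → ℝ => 2 * m * (v ⬝ᵥ x)) K := intOnC hK (by fun_prop)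
  have h3 : IntegrableOn (fun _ : ι → ℝ => m ^ 2) K := intOnC hK continuous_const
  have h12 : IntegrableOn (fun x : ι → ℝ => (v ⬝ᵥ x) ^ 2 - 2 * m * (v ⬝ᵥ x)) K :=
    intOnC hK (by fun_prop)
  rw [integral_add h12 h3, integral_sub h1 h2, integral_const_mul, integral_const_vol']
  rfl

lemma hyperplane_null {v : ι → ℝ} (hv : v ≠ 0) (m : ℝ) :
    (volume : Measure (ι → ℝ)) {x | v ⬝ᵥ x = m} = 0 := by
  set φ : (ι → ℝ) →ₗ[ℝ] ℝ :=
    { toFun := fun x => v ⬝ᵥ x
      map_add' := dotProduct_add v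
      map_smul' := fun c x => by simp [dotProduct_smul] } with hφ
  by_cases hne : {x : ι → ℝ | v ⬝ᵥ x = m}.Nonempty
  · obtain ⟨p, hp⟩ := hne
    have hker : LinearMap.ker φ ≠ ⊤ := by
      intro htop
      have hmem : v ∈ LinearMap.ker φ := by rw [htop]; trivial
      have h0 : v ⬝ᵥ v = 0 := hmem
      exact hv (dotProduct_self_eq_zero.1 h0)
    have hsub : {x : ι → ℝ | v ⬝ᵥ x = m} ⊆
        (fun x => x + (-p)) ⁻¹' (LinearMap.ker φ : Set (ι → ℝ)) := by
      intro x hx
      show v ⬝ᵥ (x + -p) = 0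
      have hx' : v ⬝ᵥ x = m := hx
      have hp' : v ⬝ᵥ p = m := hp
      rw [dotProduct_add, dotProduct_neg, hx', hp']
      ring
    refine measure_mono_null hsub ?_
    rw [measure_preimage_add_right]
    exact Measure.addHaar_submodule volume _ hker
  · rw [not_nonempty_iff_eq_empty] at hne
    rw [hne]
    simp

/-- The variance of a nonzero linear functional on a compact set of positive volume is
positive. -/
lemma variance_pos {K : Set (ι → ℝ)} (hK : IsCompact K) (hV : 0 < vol K) {v : ι → ℝ}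
    (hv : v ≠ 0) : 0 < lin2 K v / vol K - (lin1 K v / vol K) ^ 2 := by
  set m := lin1 K v / vol K with hm
  have hint := integral_sq_sub hK v m
  have hpos : 0 < ∫ x in K, (v ⬝ᵥ x - m) ^ 2 := by
    by_contra hle
    have hnn : 0 ≤ ∫ x in K, (v ⬝ᵥ x - m) ^ 2 :=
      setIntegral_nonneg hK.measurableSet (fun x _ => sq_nonneg _)
    have hz : ∫ x in K, (v ⬝ᵥ x - m) ^ 2 = 0 := le_antisymm (not_lt.1 hle) hnn
    have h0 := (setIntegral_eq_zero_iff_of_nonneg_ae
      (Filter.Eventually.of_forall fun x => sq_nonneg (v ⬝ᵥ x - m))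
      (intOnC hK (by have := continuous_dot v; fun_prop))).1 hz
    rw [Filter.EventuallyEq, ae_restrict_iff' hK.measurableSet] at h0
    have hnull : volume K = 0 := by
      refine measure_mono_null
        (t := {x | v ⬝ᵥ x = m} ∪ {x | ¬ (x ∈ K → (v ⬝ᵥ x - m) ^ 2 = (0 : (ι → ℝ) → ℝ) x)}) ?_
        (measure_union_null (hyperplane_null hv m) (ae_iff.1 h0))
      intro x hx
      by_cases h : (v ⬝ᵥ x - m) ^ 2 = 0
      · left
        exact sub_eq_zero.1 (pow_eq_zero_iff two_ne_zero |>.1 h)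
      · right
        exact fun hh => h (hh hx)
    unfold vol at hV
    rw [hnull] at hV
    simp at hV
  rw [hint] at hpos
  have hV' := hV.ne'
  have e : lin2 K v / vol K - m ^ 2 = (lin2 K v - 2 * m * lin1 K v + m ^ 2 * vol K) / vol K := by
    rw [hm]
    field_simp
    ring
  rw [e]
  exact div_pos hpos hV

lemma cov_posDef [DecidableEq ι] {K : Set (ι → ℝ)} (hK : IsCompact K) (hV : 0 < vol K) :
    (cov K).PosDef := by
  refine Matrix.PosDef.of_dotProduct_mulVec_pos ?_ ?_
  · ext i j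
    simp only [Matrix.conjTranspose_apply, star_trivial]
    unfold cov mom2
    have h : ∫ x in K, x j * x i = ∫ x in K, x i * x j :=
      integral_congr_ae (Filter.Eventually.of_forall fun x => mul_comm _ _)
    rw [h, mul_comm]
  · intro v hv
    rw [star_trivial, quad_cov hK]
    exact variance_pos hK hV hv

lemma det_cov_pos [DecidableEq ι] {K : Set (ι → ℝ)} (hK : IsCompact K) (hV : 0 < vol K) :
    0 < (cov K).det := (cov_posDef hK hV).det_pos

lemma mahal_nonneg [DecidableEq ι] {K : Set (ι → ℝ)} (hK : IsCompact K) (hV : 0 < vol K) :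
    0 ≤ mahal K := by
  have h := (cov_posDef hK hV).inv.posSemidef.dotProduct_mulVec_nonneg (centroid K)
  rw [star_trivial] at h
  exact h

section starCS

variable [Nonempty ι] {S : Set (ι → ℝ)}

lemma depth_int1 (hS : IsCompact S) (hSs : StarO S) (Y : (ι → ℝ) → ℝ) (hYc : Continuous Y)
    (hY : ∀ (c : ℝ) (x : ι → ℝ), Y (c • x) = c ^ 1 * Y x) :
    ∫ x in S, Y x * depth S x = (∫ x in S, Y x) / ((Fintype.card ι : ℝ) + 2) := by
  have h := integral_depth_pow hS hSs Y hYc 1 hY 0
  rw [beta_coeff] at h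
  simp only [zero_add, pow_one] at h
  rw [h, show 1 + (Fintype.card ι + 1) = Fintype.card ι + 1 + 1 from by ring,
    Nat.factorial_succ (Fintype.card ι + 1), Nat.factorial_succ (Fintype.card ι),
    Nat.factorial_one]
  have h1 : ((Fintype.card ι).factorial : ℝ) ≠ 0 := by positivity
  have h2 : (Fintype.card ι : ℝ) + 2 ≠ 0 := by positivity
  have h3 : (Fintype.card ι : ℝ) + 1 ≠ 0 := by positivity
  push_cast
  field_simp
  ring

lemma depth_int2 (hS : IsCompact S) (hSs : StarO S) :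
    ∫ x in S, depth S x = vol S / ((Fintype.card ι : ℝ) + 1) := by
  have h := integral_depth_pow hS hSs (fun _ => (1:ℝ)) continuous_const 0 hom0 0
  rw [beta_coeff] at h
  simp only [zero_add, pow_one, one_mul, add_zero] at h
  rw [h, ← vol_eq_integral, show 1 + Fintype.card ι = Fintype.card ι + 1 from by ring,
    Nat.factorial_succ (Fintype.card ι), Nat.factorial_one]
  have h1 : ((Fintype.card ι).factorial : ℝ) ≠ 0 := by positivity
  have h3 : (Fintype.card ι : ℝ) + 1 ≠ 0 := by positivity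
  push_cast
  field_simp

lemma depth_int3 (hS : IsCompact S) (hSs : StarO S) :
    ∫ x in S, depth S x ^ 2 =
      vol S * 2 / (((Fintype.card ι : ℝ) + 1) * ((Fintype.card ι : ℝ) + 2)) := by
  have h := integral_depth_pow hS hSs (fun _ => (1:ℝ)) continuous_const 0 hom0 1
  rw [beta_coeff] at h
  simp only [one_mul, add_zero] at h
  rw [show (1:ℕ) + 1 = 2 from rfl] at h
  rw [h, ← vol_eq_integral, show 2 + Fintype.card ι = Fintype.card ι + 1 + 1 from by ring,
    Nat.factorial_succ (Fintype.card ι + 1), Nat.factorial_succ (Fintype.card ι)]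
  have h1 : ((Fintype.card ι).factorial : ℝ) ≠ 0 := by positivity
  have h2 : (Fintype.card ι : ℝ) + 2 ≠ 0 := by positivity
  have h3 : (Fintype.card ι : ℝ) + 1 ≠ 0 := by positivity
  simp only [Nat.factorial_two]
  push_cast
  field_simp
  ring

/-- Cauchy–Schwarz with the gauge function: for a compact set `S`, star-shaped about the origin,
in dimension `k`, and a continuous `1`-homogeneous `Y`,
`(k+1)^2 (∫_S Y)^2 ≤ k (k+2) vol(S) ∫_S Y^2`. -/
lemma star_CS (hS : IsCompact S) (hSs : StarO S) (Y : (ι → ℝ) → ℝ) (hYc : Continuous Y)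
    (hY : ∀ (c : ℝ) (x : ι → ℝ), Y (c • x) = c ^ 1 * Y x) :
    ((Fintype.card ι : ℝ) + 1) ^ 2 * (∫ x in S, Y x) ^ 2 ≤
      (Fintype.card ι : ℝ) * ((Fintype.card ι : ℝ) + 2) * vol S * ∫ x in S, (Y x) ^ 2 := by
  have hδm := measurable_depth hS hSs
  have hfin : (volume : Measure (ι → ℝ)) S ≠ ⊤ := hS.measure_lt_top.ne
  have hYi : IntegrableOn Y S := intOnC hS hYc
  have hY2i : IntegrableOn (fun x => (Y x) ^ 2) S := intOnC hS (by fun_prop)
  have hδb : ∀ x : ι → ℝ, ‖depth S x‖ ≤ 1 := fun x => by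
    rw [Real.norm_eq_abs, abs_of_nonneg (depth_nonneg S x)]
    exact depth_le_one S x
  have hwb : ∀ x : ι → ℝ, ‖1 - depth S x‖ ≤ 1 := fun x => by
    rw [Real.norm_eq_abs, abs_le]
    constructor <;> linarith [depth_nonneg S x, depth_le_one S x]
  have hwm : Measurable fun x : ι → ℝ => 1 - depth S x := measurable_const.sub hδm
  have h1i : IntegrableOn (fun _ : ι → ℝ => (1:ℝ)) S := integrableOn_const hfin
  have hδi : IntegrableOn (fun x => depth S x) S :=
    Integrable.mono' h1i hδm.aestronglyMeasurable (Filter.Eventually.of_forall hδb)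
  have hδ2i : IntegrableOn (fun x => depth S x * depth S x) S :=
    Integrable.mul_bdd (c := 1) hδi hδm.aestronglyMeasurable (Filter.Eventually.of_forall hδb)
  have hδ3 : ∫ x in S, depth S x * depth S x =
      vol S * 2 / (((Fintype.card ι : ℝ) + 1) * ((Fintype.card ι : ℝ) + 2)) := by
    simp_rw [← pow_two]
    exact depth_int3 hS hSs
  have hYδi : IntegrableOn (fun x => Y x * depth S x) S :=
    Integrable.mul_bdd (c := 1) hYi hδm.aestronglyMeasurable (Filter.Eventually.of_forall hδb)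
  have hwi : IntegrableOn (fun x => 1 - depth S x) S :=
    Integrable.mono' h1i hwm.aestronglyMeasurable (Filter.Eventually.of_forall hwb)
  have hw2i : IntegrableOn (fun x => (1 - depth S x) * (1 - depth S x)) S :=
    Integrable.mul_bdd (c := 1) hwi hwm.aestronglyMeasurable (Filter.Eventually.of_forall hwb)
  have hYwi : IntegrableOn (fun x => Y x * (1 - depth S x)) S :=
    Integrable.mul_bdd (c := 1) hYi hwm.aestronglyMeasurable (Filter.Eventually.of_forall hwb)
  -- the three integrals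
  have hQ : ∫ x in S, Y x * (1 - depth S x) =
      (∫ x in S, Y x) * (((Fintype.card ι : ℝ) + 1) / ((Fintype.card ι : ℝ) + 2)) := by
    have e : ∀ x : ι → ℝ, Y x * (1 - depth S x) = Y x - Y x * depth S x := fun x => by ring
    simp_rw [e]
    rw [integral_sub hYi hYδi, depth_int1 hS hSs Y hYc hY]
    have h2 : (Fintype.card ι : ℝ) + 2 ≠ 0 := by positivity
    field_simp
    ring
  have hP : ∫ x in S, (1 - depth S x) * (1 - depth S x) =
      vol S * ((Fintype.card ι : ℝ) / ((Fintype.card ι : ℝ) + 2)) := by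
    have e : ∀ x : ι → ℝ, (1 - depth S x) * (1 - depth S x) =
        1 - 2 * depth S x + depth S x * depth S x := fun x => by ring
    simp_rw [e]
    have h2δ : IntegrableOn (fun x => 2 * depth S x) S := hδi.const_mul 2
    have h12 : IntegrableOn (fun x => 1 - 2 * depth S x) S := h1i.sub h2δ
    rw [integral_add h12 hδ2i, integral_sub h1i h2δ, integral_const_mul, depth_int2 hS hSs,
      hδ3, ← vol_eq_integral]
    have h2 : (Fintype.card ι : ℝ) + 2 ≠ 0 := by positivity
    have h3 : (Fintype.card ι : ℝ) + 1 ≠ 0 := by positivity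
    field_simp
    ring
  -- Cauchy–Schwarz
  have hquad : ∀ t : ℝ, 0 ≤ (∫ x in S, (1 - depth S x) * (1 - depth S x)) * (t * t) +
      (-2 * ∫ x in S, Y x * (1 - depth S x)) * t + ∫ x in S, (Y x) ^ 2 := by
    intro t
    have hnn : 0 ≤ ∫ x in S, (Y x - t * (1 - depth S x)) ^ 2 :=
      setIntegral_nonneg hS.measurableSet (fun x _ => sq_nonneg _)
    have e : ∀ x : ι → ℝ, (Y x - t * (1 - depth S x)) ^ 2 =
        (Y x) ^ 2 - 2 * t * (Y x * (1 - depth S x)) +
          t * t * ((1 - depth S x) * (1 - depth S x)) := fun x => by ring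
    simp_rw [e] at hnn
    have ha : IntegrableOn (fun x => 2 * t * (Y x * (1 - depth S x))) S := hYwi.const_mul _
    have hb : IntegrableOn (fun x => t * t * ((1 - depth S x) * (1 - depth S x))) S :=
      hw2i.const_mul _
    have hab : IntegrableOn (fun x => (Y x) ^ 2 - 2 * t * (Y x * (1 - depth S x))) S :=
      hY2i.sub ha
    rw [integral_add hab hb, integral_sub hY2i ha, integral_const_mul, integral_const_mul] at hnn
    linarith
  have hdisc := discrim_le_zero hquad
  unfold discrim at hdisc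
  rw [hQ, hP] at hdisc
  have h2 : (0:ℝ) < (Fintype.card ι : ℝ) + 2 := by positivity
  have hdisc' : ((∫ x in S, Y x) * (((Fintype.card ι : ℝ) + 1) / ((Fintype.card ι : ℝ) + 2))) ^ 2 ≤
      vol S * ((Fintype.card ι : ℝ) / ((Fintype.card ι : ℝ) + 2)) * ∫ x in S, (Y x) ^ 2 := by
    nlinarith
  have e1 : ((∫ x in S, Y x) * (((Fintype.card ι : ℝ) + 1) / ((Fintype.card ι : ℝ) + 2))) ^ 2 =
      ((Fintype.card ι : ℝ) + 1) ^ 2 * (∫ x in S, Y x) ^ 2 / ((Fintype.card ι : ℝ) + 2) ^ 2 := by
    field_simp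
  have e2 : vol S * ((Fintype.card ι : ℝ) / ((Fintype.card ι : ℝ) + 2)) * ∫ x in S, (Y x) ^ 2 =
      (Fintype.card ι : ℝ) * ((Fintype.card ι : ℝ) + 2) * vol S * (∫ x in S, (Y x) ^ 2) /
        ((Fintype.card ι : ℝ) + 2) ^ 2 := by
    field_simp
  rw [e1, e2] at hdisc'
  exact (div_le_div_iff_of_pos_right (by positivity)).1 hdisc'

end starCS

lemma setIntegral_translate (K : Set (ι → ℝ)) (p : ι → ℝ) (f : (ι → ℝ) → ℝ) :
    ∫ y in (fun x => x + (-p)) '' K, f y = ∫ x in K, f (x + (-p)) :=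
  (measurePreserving_add_right volume (-p)).setIntegral_image_emb
    (measurableEmbedding_addRight (-p)) f K

lemma lin_moment_aux [Nonempty ι] {K : Set (ι → ℝ)} (hK : IsCompact K) (hconv : Convex ℝ K)
    (h0 : (0 : ι → ℝ) ∈ K) (hV : 0 < vol K) (v : ι → ℝ) (hL : 0 ≤ lin1 K v) :
    ((Fintype.card ι : ℝ) + 1) ^ 2 * (lin1 K v) ^ 2 ≤
      (Fintype.card ι : ℝ) * ((Fintype.card ι : ℝ) + 2) * vol K * lin2 K v := by
  obtain ⟨p, hpK, hpmin⟩ := hK.exists_isMinOn ⟨0, h0⟩ (continuous_dot v).continuousOn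
  have hα : v ⬝ᵥ p ≤ 0 := by
    have h := hpmin h0
    simpa using h
  set α := v ⬝ᵥ p with hαdef
  set S : Set (ι → ℝ) := (fun x => x + (-p)) '' K with hSdef
  have hSc : IsCompact S := hK.image (by fun_prop)
  have hSs : StarO S := by
    rintro _ ⟨x, hx, rfl⟩ s hs0 hs1
    refine ⟨s • x + (1 - s) • p, hconv hx hpK hs0 (by linarith) (by ring), ?_⟩
    show s • x + (1 - s) • p + -p = s • (x + -p)
    rw [sub_smul, one_smul, smul_add, smul_neg]
    abel
  have hCS := star_CS hSc hSs (fun y => v ⬝ᵥ y) (continuous_dot v)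
    (by intro c x; simp [dotProduct_smul])
  have e1 : ∫ y in S, v ⬝ᵥ y = lin1 K v - α * vol K := by
    rw [setIntegral_translate]
    have h : ∀ x : ι → ℝ, v ⬝ᵥ (x + -p) = v ⬝ᵥ x - α := fun x => by
      rw [dotProduct_add, dotProduct_neg]
      ring
    simp_rw [h]
    exact integral_sub_const hK v α
  have e2 : ∫ y in S, (v ⬝ᵥ y) ^ 2 = lin2 K v - 2 * α * lin1 K v + α ^ 2 * vol K := by
    rw [setIntegral_translate K p (fun y => (v ⬝ᵥ y) ^ 2)]
    have h : ∀ x : ι → ℝ, v ⬝ᵥ (x + -p) = v ⬝ᵥ x - α := fun x => by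
      rw [dotProduct_add, dotProduct_neg]
      ring
    simp_rw [h]
    exact integral_sq_sub hK v α
  have e3 : vol S = vol K := by
    rw [vol_eq_integral, vol_eq_integral K, setIntegral_translate]
  simp only [e1, e2, e3] at hCS
  nlinarith [hCS, mul_nonneg (mul_nonneg (neg_nonneg.2 hα) hV.le) hL, sq_nonneg (α * vol K)]

/-- For a compact convex set `K ∋ 0` of positive volume in dimension `k` and every linear
functional: `(k+1)^2 (∫_K ⟨v,x⟩)^2 ≤ k (k+2) vol(K) ∫_K ⟨v,x⟩^2`. -/
lemma lin_moment_bound [Nonempty ι] {K : Set (ι → ℝ)} (hK : IsCompact K) (hconv : Convex ℝ K)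
    (h0 : (0 : ι → ℝ) ∈ K) (hV : 0 < vol K) (v : ι → ℝ) :
    ((Fintype.card ι : ℝ) + 1) ^ 2 * (lin1 K v) ^ 2 ≤
      (Fintype.card ι : ℝ) * ((Fintype.card ι : ℝ) + 2) * vol K * lin2 K v := by
  by_cases hL : 0 ≤ lin1 K v
  · exact lin_moment_aux hK hconv h0 hV v hL
  · have h1 : lin1 K (-v) = -lin1 K v := by
      unfold lin1
      simp_rw [neg_dotProduct]
      exact integral_neg _
    have h2 : lin2 K (-v) = lin2 K v := by
      unfold lin2
      simp_rw [neg_dotProduct, neg_sq]
    have h := lin_moment_aux hK hconv h0 hV (-v) (by rw [h1]; linarith)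
    rw [h1, h2, neg_sq] at h
    exact h

/-- The origin of a compact convex set `K ∋ 0` of positive volume in dimension `k` lies within
Mahalanobis distance `sqrt (k (k + 2))` of the centroid. -/
lemma mahal_le [DecidableEq ι] [Nonempty ι] {K : Set (ι → ℝ)} (hK : IsCompact K)
    (hconv : Convex ℝ K) (h0 : (0 : ι → ℝ) ∈ K) (hV : 0 < vol K) :
    mahal K ≤ (Fintype.card ι : ℝ) * ((Fintype.card ι : ℝ) + 2) := by
  have hpd := cov_posDef hK hV
  have hdet : (cov K).det ≠ 0 := hpd.det_pos.ne'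
  set u := (cov K)⁻¹ *ᵥ centroid K with hu
  have hq : mahal K = centroid K ⬝ᵥ u := rfl
  have hSu : cov K *ᵥ u = centroid K := by
    rw [hu, Matrix.mulVec_mulVec, Matrix.mul_nonsing_inv _ (isUnit_iff_ne_zero.2 hdet),
      Matrix.one_mulVec]
  have h1 : lin1 K u / vol K = mahal K := by
    rw [← dot_centroid hK, hq, dotProduct_comm]
  have h2 : lin2 K u / vol K - (lin1 K u / vol K) ^ 2 = mahal K := by
    rw [← quad_cov hK, hSu, hq, dotProduct_comm]
  have hb := lin_moment_bound hK hconv h0 hV u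
  have hq0 := mahal_nonneg hK hV
  have hl1 : lin1 K u = mahal K * vol K := by
    rw [← h1]
    field_simp
  have hl2 : lin2 K u = (mahal K + mahal K ^ 2) * vol K := by
    rw [h1] at h2
    have h3 : lin2 K u / vol K = mahal K + mahal K ^ 2 := by linarith
    rw [← h3]
    field_simp
  rw [hl1, hl2] at hb
  have hk : (0:ℝ) ≤ (Fintype.card ι : ℝ) := Nat.cast_nonneg _
  generalize mahal K = q at *
  generalize (Fintype.card ι : ℝ) = k at *
  have hV2 : 0 < vol K ^ 2 := by positivity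
  have h4 : (k + 1) ^ 2 * q ^ 2 - k * (k + 2) * (q + q ^ 2) ≤ 0 := by
    by_contra h
    push Not at h
    have := mul_pos h hV2
    nlinarith
  by_contra hcon
  push Not at hcon
  have hqpos : 0 < q := lt_of_le_of_lt (by positivity) hcon
  nlinarith [mul_pos hqpos (sub_pos.2 hcon)]

end

end Vale.Agent.Helper22
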