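import Vale.Agent.Helper22.FsKLS

/-!
The free-sum theorem for `det Σ / vol^2`: exact formula, preservation of the simplex bound and
the equality case, for compact convex sets containing the origin.
-/

namespace Vale.Agent.Helper22

open MeasureTheory Set Matrix
open scoped Pointwise

noncomputable section

variable {ι κ : Type*} [Fintype ι] [Fintype κ]

omit [Fintype ι] in
lemma starO_of_convex {K : Set (ι → ℝ)} (hconv : Convex ℝ K) (h0 : (0 : ι → ℝ) ∈ K) :
    StarO K := fun _ hx _ hs0 hs1 => hconv.smul_mem_of_zero_mem h0 hx ⟨hs0, hs1⟩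

omit [Fintype ι] [Fintype κ] in
lemma convex_inl_image {A : Set (ι → ℝ)} (hA : Convex ℝ A) :
    Convex ℝ ((fun x : ι → ℝ => (Sum.elim x 0 : ι ⊕ κ → ℝ)) '' A) := by
  rintro _ ⟨a1, ha1, rfl⟩ _ ⟨a2, ha2, rfl⟩ u v hu hv huv
  refine ⟨u • a1 + v • a2, hA ha1 ha2 hu hv huv, ?_⟩
  funext s
  cases s <;> simp

omit [Fintype ι] [Fintype κ] in
lemma convex_inr_image {B : Set (κ → ℝ)} (hB : Convex ℝ B) :
    Convex ℝ ((fun y : κ → ℝ => (Sum.elim 0 y : ι ⊕ κ → ℝ)) '' B) := by
  rintro _ ⟨b1, hb1, rfl⟩ _ ⟨b2, hb2, rfl⟩ u v hu hv huv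
  refine ⟨u • b1 + v • b2, hB hb1 hb2 hu hv huv, ?_⟩
  funext s
  cases s <;> simp

omit [Fintype ι] [Fintype κ] in
/-- For convex nonempty `A`, `B` the free sum is the convex hull of the two embedded copies. -/
lemma fsum_eq_hull {A : Set (ι → ℝ)} {B : Set (κ → ℝ)} (hA : Convex ℝ A) (hB : Convex ℝ B)
    (hAne : A.Nonempty) (hBne : B.Nonempty) :
    fsum A B = convexHull ℝ ((fun x : ι → ℝ => (Sum.elim x 0 : ι ⊕ κ → ℝ)) '' A ∪
      (fun y : κ → ℝ => (Sum.elim 0 y : ι ⊕ κ → ℝ)) '' B) := by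
  rw [convexHull_union (hAne.image _) (hBne.image _), (convex_inl_image hA).convexHull_eq,
    (convex_inr_image hB).convexHull_eq]
  ext z
  rw [mem_convexJoin]
  constructor
  · rintro ⟨s, hs0, hs1, a, ha, b, hb, rfl⟩
    refine ⟨_, ⟨a, ha, rfl⟩, _, ⟨b, hb, rfl⟩, s, 1 - s, hs0, by linarith, by ring, ?_⟩
    funext t
    cases t <;> simp
  · rintro ⟨_, ⟨a, ha, rfl⟩, _, ⟨b, hb, rfl⟩, u, v, hu, hv, huv, rfl⟩
    refine ⟨u, hu, by linarith, a, ha, b, hb, ?_⟩
    have hv' : v = 1 - u := by linarith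
    funext t
    cases t <;> simp [hv']

omit [Fintype ι] [Fintype κ] in
/-- The hull of the two embedded copies may be computed from generating sets. -/
lemma hull_union_image (V : Set (ι → ℝ)) (W : Set (κ → ℝ)) :
    convexHull ℝ ((fun x : ι → ℝ => (Sum.elim x 0 : ι ⊕ κ → ℝ)) '' V ∪
      (fun y : κ → ℝ => (Sum.elim 0 y : ι ⊕ κ → ℝ)) '' W) =
    convexHull ℝ ((fun x : ι → ℝ => (Sum.elim x 0 : ι ⊕ κ → ℝ)) '' convexHull ℝ V ∪
      (fun y : κ → ℝ => (Sum.elim 0 y : ι ⊕ κ → ℝ)) '' convexHull ℝ W) := by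
  have h1 : IsLinearMap ℝ (fun x : ι → ℝ => (Sum.elim x 0 : ι ⊕ κ → ℝ)) :=
    IsLinearMap.mk (fun x y => by funext s; cases s <;> simp)
      (fun c x => by funext s; cases s <;> simp)
  have h2 : IsLinearMap ℝ (fun y : κ → ℝ => (Sum.elim 0 y : ι ⊕ κ → ℝ)) :=
    IsLinearMap.mk (fun x y => by funext s; cases s <;> simp)
      (fun c x => by funext s; cases s <;> simp)
  rw [h1.image_convexHull, h2.image_convexHull, convexHull_convexHull_union_left,
    convexHull_convexHull_union_right]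

lemma three_factor {x y w : ℝ} (hx : 0 < x) (hx1 : x ≤ 1) (hy : 0 < y) (hy1 : y ≤ 1)
    (hw : 0 < w) (hw1 : w ≤ 1) : x * y * w ≤ 1 ∧ (x * y * w = 1 ↔ x = 1 ∧ y = 1 ∧ w = 1) := by
  have hxy : x * y ≤ 1 := by nlinarith
  have hxy0 : 0 < x * y := mul_pos hx hy
  refine ⟨by nlinarith, ?_⟩
  constructor
  · intro h
    have h1 : x = 1 := by
      by_contra hne
      have hlt : x < 1 := lt_of_le_of_ne hx1 hne
      nlinarith [mul_pos hy hw, mul_le_one₀ hy1 hw.le hw1]
    have h2 : y = 1 := by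
      by_contra hne
      have hlt : y < 1 := lt_of_le_of_ne hy1 hne
      nlinarith [mul_pos hx hw, mul_le_one₀ hx1 hw.le hw1]
    have h3 : w = 1 := by
      rw [h1, h2] at h
      linarith
    exact ⟨h1, h2, h3⟩
  · rintro ⟨rfl, rfl, rfl⟩
    norm_num

variable [DecidableEq ι] [DecidableEq κ] [Nonempty ι] [Nonempty κ]

omit [Nonempty ι] in
lemma isoRatio_pos_of_compact {K : Set (ι → ℝ)} (hK : IsCompact K) (hV : 0 < vol K) :
    0 < isoRatio K := by
  unfold isoRatio
  exact div_pos (det_cov_pos hK hV) (by positivity)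

lemma originParam_bounds {K : Set (ι → ℝ)} (hK : IsCompact K) (hconv : Convex ℝ K)
    (h0 : (0 : ι → ℝ) ∈ K) (hV : 0 < vol K) : 0 < originParam K ∧ originParam K ≤ 1 := by
  have h1 := mahal_nonneg hK hV
  have h2 := mahal_le hK hconv h0 hV
  unfold originParam
  have hk : (0:ℝ) ≤ (Fintype.card ι : ℝ) := Nat.cast_nonneg _
  constructor
  · positivity
  · rw [div_le_one (by positivity)]
    nlinarith

/-- The free-sum theorem (general index types). -/
theorem free_sum_main {A : Set (ι → ℝ)} {B : Set (κ → ℝ)}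
    (hA : IsCompact A) (hAc : Convex ℝ A) (hA0 : (0 : ι → ℝ) ∈ A) (hAV : 0 < vol A)
    (hB : IsCompact B) (hBc : Convex ℝ B) (hB0 : (0 : κ → ℝ) ∈ B) (hBV : 0 < vol B) :
    (0 < originParam A ∧ originParam A ≤ 1 ∧ 0 < originParam B ∧ originParam B ≤ 1) ∧
    isoRatio (fsum A B) = simpD (Fintype.card ι + Fintype.card κ) *
      (isoRatio A / simpD (Fintype.card ι)) * (isoRatio B / simpD (Fintype.card κ)) *
      (originParam A + originParam B - originParam A * originParam B) ∧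
    originParam (fsum A B) *
      (originParam A + originParam B - originParam A * originParam B) =
      originParam A * originParam B ∧
    IsCompact (fsum A B) ∧ (0 : ι ⊕ κ → ℝ) ∈ fsum A B ∧ 0 < vol (fsum A B) ∧
    0 < isoRatio A ∧ 0 < isoRatio B := by
  have hAs := starO_of_convex hAc hA0
  have hBs := starO_of_convex hBc hB0
  have hdA := (det_cov_pos hA hAV).ne'
  have hdB := (det_cov_pos hB hBV).ne'
  have hEc := isCompact_fsum hA hB
  have hEV : 0 < vol (fsum A B) := by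
    rw [vol_fsum hA hAs hB hBs]
    exact mul_pos (mul_pos hAV hBV) (fsC_pos _ _)
  have hdE := (det_cov_pos hEc hEV).ne'
  have hbA := originParam_bounds hA hAc hA0 hAV
  have hbB := originParam_bounds hB hBc hB0 hBV
  refine ⟨⟨hbA.1, hbA.2, hbB.1, hbB.2⟩,
    isoRatio_fsum hA hAs hB hBs hAV.ne' hBV.ne' hdA hdB,
    originParam_fsum hA hAs hB hBs hAV.ne' hBV.ne' hdA hdB hdE, hEc, ?_, hEV,
    isoRatio_pos_of_compact hA hAV, isoRatio_pos_of_compact hB hBV⟩
  refine ⟨0, le_rfl, zero_le_one, 0, hA0, 0, hB0, ?_⟩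
  funext t
  cases t <;> simp

end

end Vale.Agent.Helper22
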