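import Vale.Agent.Helper22.FsIntegral

/-!
Volume, first and second moments and the covariance matrix of a free sum.
-/

namespace Vale.Agent.Helper22

open MeasureTheory Set
open scoped Pointwise

noncomputable section

variable {ι κ : Type*} [Fintype ι] [Fintype κ] [Nonempty ι] [Nonempty κ]
variable {A : Set (ι → ℝ)} {B : Set (κ → ℝ)}

/-- The volume coefficient `k! l! / (k + l)!`. -/
def fsC (k l : ℕ) : ℝ := (k.factorial : ℝ) * l.factorial / ((k + l).factorial : ℝ)

lemma fsC_pos (k l : ℕ) : 0 < fsC k l := by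
  unfold fsC
  positivity

lemma fsC_10 (k l : ℕ) : ((k + 1).factorial : ℝ) * l.factorial / ((k + 1 + l).factorial : ℝ) =
    fsC k l * (((k:ℝ) + 1) / ((k:ℝ) + l + 1)) := by
  unfold fsC
  rw [show k + 1 + l = (k + l) + 1 from by ring, Nat.factorial_succ k, Nat.factorial_succ (k + l)]
  push_cast
  have h1 : ((k + l).factorial : ℝ) ≠ 0 := by positivity
  have h2 : (k:ℝ) + l + 1 ≠ 0 := by positivity
  field_simp

lemma fsC_01 (k l : ℕ) : (k.factorial : ℝ) * (l + 1).factorial / ((k + (l + 1)).factorial : ℝ) =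
    fsC k l * (((l:ℝ) + 1) / ((k:ℝ) + l + 1)) := by
  unfold fsC
  rw [show k + (l + 1) = (k + l) + 1 from by ring, Nat.factorial_succ l, Nat.factorial_succ (k + l)]
  push_cast
  have h1 : ((k + l).factorial : ℝ) ≠ 0 := by positivity
  have h2 : (k:ℝ) + l + 1 ≠ 0 := by positivity
  field_simp

lemma fsC_20 (k l : ℕ) : ((k + 2).factorial : ℝ) * l.factorial / ((k + 2 + l).factorial : ℝ) =
    fsC k l * (((k:ℝ) + 1) * ((k:ℝ) + 2) / (((k:ℝ) + l + 1) * ((k:ℝ) + l + 2))) := by
  unfold fsC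
  rw [show k + 2 + l = (k + l + 1) + 1 from by ring, show k + 2 = (k + 1) + 1 from rfl,
    Nat.factorial_succ (k + 1), Nat.factorial_succ k, Nat.factorial_succ (k + l + 1),
    Nat.factorial_succ (k + l)]
  push_cast
  have h1 : ((k + l).factorial : ℝ) ≠ 0 := by positivity
  have h2 : (k:ℝ) + l + 1 ≠ 0 := by positivity
  have h3 : (k:ℝ) + l + 2 ≠ 0 := by positivity
  field_simp
  ring

lemma fsC_02 (k l : ℕ) : (k.factorial : ℝ) * (l + 2).factorial / ((k + (l + 2)).factorial : ℝ) =
    fsC k l * (((l:ℝ) + 1) * ((l:ℝ) + 2) / (((k:ℝ) + l + 1) * ((k:ℝ) + l + 2))) := by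
  unfold fsC
  rw [show k + (l + 2) = (k + l + 1) + 1 from by ring, show l + 2 = (l + 1) + 1 from rfl,
    Nat.factorial_succ (l + 1), Nat.factorial_succ l, Nat.factorial_succ (k + l + 1),
    Nat.factorial_succ (k + l)]
  push_cast
  have h1 : ((k + l).factorial : ℝ) ≠ 0 := by positivity
  have h2 : (k:ℝ) + l + 1 ≠ 0 := by positivity
  have h3 : (k:ℝ) + l + 2 ≠ 0 := by positivity
  field_simp
  ring

lemma fsC_11 (k l : ℕ) :
    ((k + 1).factorial : ℝ) * (l + 1).factorial / ((k + 1 + (l + 1)).factorial : ℝ) =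
    fsC k l * (((k:ℝ) + 1) * ((l:ℝ) + 1) / (((k:ℝ) + l + 1) * ((k:ℝ) + l + 2))) := by
  unfold fsC
  rw [show k + 1 + (l + 1) = (k + l + 1) + 1 from by ring,
    Nat.factorial_succ l, Nat.factorial_succ k, Nat.factorial_succ (k + l + 1),
    Nat.factorial_succ (k + l)]
  push_cast
  have h1 : ((k + l).factorial : ℝ) ≠ 0 := by positivity
  have h2 : (k:ℝ) + l + 1 ≠ 0 := by positivity
  have h3 : (k:ℝ) + l + 2 ≠ 0 := by positivity
  field_simp
  ring

omit [Fintype ι] [Nonempty ι] in
lemma hom0 (c : ℝ) (x : ι → ℝ) : (fun _ : ι → ℝ => (1:ℝ)) (c • x) = c ^ 0 * 1 := by simp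

omit [Fintype ι] [Nonempty ι] in
lemma hom1 (i : ι) (c : ℝ) (x : ι → ℝ) :
    (fun x : ι → ℝ => x i) (c • x) = c ^ 1 * (fun x : ι → ℝ => x i) x := by simp

omit [Fintype ι] [Nonempty ι] in
lemma hom2 (i j : ι) (c : ℝ) (x : ι → ℝ) :
    (fun x : ι → ℝ => x i * x j) (c • x) = c ^ 2 * (fun x : ι → ℝ => x i * x j) x := by
  simp only [Pi.smul_apply, smul_eq_mul]
  ring

lemma vol_fsum (hA : IsCompact A) (hAs : StarO A) (hB : IsCompact B) (hBs : StarO B) :
    vol (fsum A B) = vol A * vol B * fsC (Fintype.card ι) (Fintype.card κ) := by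
  have h := integral_fsum hA hAs hB hBs (fun _ => (1:ℝ)) continuous_const 0 hom0
    (fun _ => (1:ℝ)) continuous_const 0 hom0
  simp only [mul_one, add_zero] at h
  rw [vol_eq_integral, vol_eq_integral A, vol_eq_integral B, h]
  rfl

lemma mom1_fsum_inl (hA : IsCompact A) (hAs : StarO A) (hB : IsCompact B) (hBs : StarO B)
    (i : ι) : mom1 (fsum A B) (Sum.inl i) = mom1 A i * vol B *
      (fsC (Fintype.card ι) (Fintype.card κ) *
        (((Fintype.card ι : ℝ) + 1) / ((Fintype.card ι : ℝ) + Fintype.card κ + 1))) := by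
  have h := integral_fsum hA hAs hB hBs (fun x => x i) (by fun_prop) 1 (hom1 i)
    (fun _ => (1:ℝ)) continuous_const 0 hom0
  simp only [mul_one, add_zero] at h
  rw [← fsC_10, vol_eq_integral B]
  exact h

lemma mom1_fsum_inr (hA : IsCompact A) (hAs : StarO A) (hB : IsCompact B) (hBs : StarO B)
    (j : κ) : mom1 (fsum A B) (Sum.inr j) = vol A * mom1 B j *
      (fsC (Fintype.card ι) (Fintype.card κ) *
        (((Fintype.card κ : ℝ) + 1) / ((Fintype.card ι : ℝ) + Fintype.card κ + 1))) := by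
  have h := integral_fsum hA hAs hB hBs (fun _ => (1:ℝ)) continuous_const 0 hom0
    (fun y => y j) (by fun_prop) 1 (hom1 j)
  simp only [one_mul, add_zero] at h
  rw [← fsC_01, vol_eq_integral A]
  exact h

lemma mom2_fsum_inl_inl (hA : IsCompact A) (hAs : StarO A) (hB : IsCompact B) (hBs : StarO B)
    (i i' : ι) : mom2 (fsum A B) (Sum.inl i) (Sum.inl i') = mom2 A i i' * vol B *
      (fsC (Fintype.card ι) (Fintype.card κ) *
        (((Fintype.card ι : ℝ) + 1) * ((Fintype.card ι : ℝ) + 2) /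
          (((Fintype.card ι : ℝ) + Fintype.card κ + 1) *
            ((Fintype.card ι : ℝ) + Fintype.card κ + 2)))) := by
  have h := integral_fsum hA hAs hB hBs (fun x => x i * x i') (by fun_prop) 2 (hom2 i i')
    (fun _ => (1:ℝ)) continuous_const 0 hom0
  simp only [mul_one, add_zero] at h
  rw [← fsC_20, vol_eq_integral B]
  exact h

lemma mom2_fsum_inr_inr (hA : IsCompact A) (hAs : StarO A) (hB : IsCompact B) (hBs : StarO B)
    (j j' : κ) : mom2 (fsum A B) (Sum.inr j) (Sum.inr j') = vol A * mom2 B j j' *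
      (fsC (Fintype.card ι) (Fintype.card κ) *
        (((Fintype.card κ : ℝ) + 1) * ((Fintype.card κ : ℝ) + 2) /
          (((Fintype.card ι : ℝ) + Fintype.card κ + 1) *
            ((Fintype.card ι : ℝ) + Fintype.card κ + 2)))) := by
  have h := integral_fsum hA hAs hB hBs (fun _ => (1:ℝ)) continuous_const 0 hom0
    (fun y => y j * y j') (by fun_prop) 2 (hom2 j j')
  simp only [one_mul, add_zero] at h
  rw [← fsC_02, vol_eq_integral A]
  exact h

lemma mom2_fsum_inl_inr (hA : IsCompact A) (hAs : StarO A) (hB : IsCompact B) (hBs : StarO B)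
    (i : ι) (j : κ) : mom2 (fsum A B) (Sum.inl i) (Sum.inr j) = mom1 A i * mom1 B j *
      (fsC (Fintype.card ι) (Fintype.card κ) *
        (((Fintype.card ι : ℝ) + 1) * ((Fintype.card κ : ℝ) + 1) /
          (((Fintype.card ι : ℝ) + Fintype.card κ + 1) *
            ((Fintype.card ι : ℝ) + Fintype.card κ + 2)))) := by
  have h := integral_fsum hA hAs hB hBs (fun x => x i) (by fun_prop) 1 (hom1 i)
    (fun y => y j) (by fun_prop) 1 (hom1 j)
  rw [← fsC_11]
  exact h

lemma mom2_fsum_inr_inl (hA : IsCompact A) (hAs : StarO A) (hB : IsCompact B) (hBs : StarO B)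
    (j : κ) (i : ι) : mom2 (fsum A B) (Sum.inr j) (Sum.inl i) = mom1 A i * mom1 B j *
      (fsC (Fintype.card ι) (Fintype.card κ) *
        (((Fintype.card ι : ℝ) + 1) * ((Fintype.card κ : ℝ) + 1) /
          (((Fintype.card ι : ℝ) + Fintype.card κ + 1) *
            ((Fintype.card ι : ℝ) + Fintype.card κ + 2)))) := by
  rw [← mom2_fsum_inl_inr hA hAs hB hBs i j]
  unfold mom2
  refine integral_congr_ae (Filter.Eventually.of_forall fun z => ?_)
  exact mul_comm _ _

/-- Scaling coefficient of the covariance block. -/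
def fsκ (k l : ℝ) : ℝ := (k + 1) * (k + 2) / ((k + l + 1) * (k + l + 2))

/-- Coefficient of the rank-one diagonal correction. -/
def fsα (k l : ℝ) : ℝ := (k + 1) * l / ((k + l + 1) ^ 2 * (k + l + 2))

/-- Coefficient of the off-diagonal blocks. -/
def fsγ (k l : ℝ) : ℝ := (k + 1) * (l + 1) / ((k + l + 1) ^ 2 * (k + l + 2))

/-- The covariance matrix of a free sum in block form. -/
theorem cov_fsum (hA : IsCompact A) (hAs : StarO A) (hB : IsCompact B) (hBs : StarO B)
    (hVA : vol A ≠ 0) (hVB : vol B ≠ 0) :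
    cov (fsum A B) = Matrix.fromBlocks
      (fsκ (Fintype.card ι) (Fintype.card κ) • cov A +
        fsα (Fintype.card ι) (Fintype.card κ) • Matrix.vecMulVec (centroid A) (centroid A))
      (-fsγ (Fintype.card ι) (Fintype.card κ) • Matrix.vecMulVec (centroid A) (centroid B))
      (-fsγ (Fintype.card ι) (Fintype.card κ) • Matrix.vecMulVec (centroid B) (centroid A))
      (fsκ (Fintype.card κ) (Fintype.card ι) • cov B +
        fsα (Fintype.card κ) (Fintype.card ι) • Matrix.vecMulVec (centroid B) (centroid B)) := by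
  have hc := (fsC_pos (Fintype.card ι) (Fintype.card κ)).ne'
  have h1 : (Fintype.card ι : ℝ) + Fintype.card κ + 1 ≠ 0 := by positivity
  have h2 : (Fintype.card ι : ℝ) + Fintype.card κ + 2 ≠ 0 := by positivity
  have h1' : (Fintype.card κ : ℝ) + Fintype.card ι + 1 ≠ 0 := by positivity
  have h2' : (Fintype.card κ : ℝ) + Fintype.card ι + 2 ≠ 0 := by positivity
  ext (i | j) (i' | j')
  · simp only [cov, centroid, Matrix.fromBlocks_apply₁₁, Matrix.add_apply, Matrix.smul_apply,
      Matrix.vecMulVec_apply, smul_eq_mul, fsκ, fsα,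
      vol_fsum hA hAs hB hBs, mom1_fsum_inl hA hAs hB hBs, mom2_fsum_inl_inl hA hAs hB hBs]
    field_simp
    ring
  · simp only [cov, centroid, Matrix.fromBlocks_apply₁₂, Matrix.smul_apply,
      Matrix.vecMulVec_apply, smul_eq_mul, fsγ,
      vol_fsum hA hAs hB hBs, mom1_fsum_inl hA hAs hB hBs, mom1_fsum_inr hA hAs hB hBs,
      mom2_fsum_inl_inr hA hAs hB hBs]
    field_simp
    ring
  · simp only [cov, centroid, Matrix.fromBlocks_apply₂₁, Matrix.smul_apply,
      Matrix.vecMulVec_apply, smul_eq_mul, fsγ,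
      vol_fsum hA hAs hB hBs, mom1_fsum_inl hA hAs hB hBs, mom1_fsum_inr hA hAs hB hBs,
      mom2_fsum_inr_inl hA hAs hB hBs]
    field_simp
    ring
  · simp only [cov, centroid, Matrix.fromBlocks_apply₂₂, Matrix.add_apply, Matrix.smul_apply,
      Matrix.vecMulVec_apply, smul_eq_mul, fsκ, fsα,
      vol_fsum hA hAs hB hBs, mom1_fsum_inr hA hAs hB hBs, mom2_fsum_inr_inr hA hAs hB hBs]
    field_simp
    ring

end

end Vale.Agent.Helper22
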