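import Mathlib

/-!
Infinity Laplacian, viscosity infinity-harmonic functions, and basic calculus facts
used for the axial symmetry reduction (P080).
-/

open scoped Topology

namespace Vale.Agent.Helper22.InfHarm

variable {H : Type*} [NormedAddCommGroup H] [InnerProductSpace ℝ H] [CompleteSpace H]

/-- The infinity Laplacian of `φ` at `z`: the second derivative of `φ` at `z` applied twice to
the gradient of `φ` at `z`, that is `⟨D²φ(z) ∇φ(z), ∇φ(z)⟩`. -/
noncomputable def infLap (φ : H → ℝ) (z : H) : ℝ :=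
  fderiv ℝ (fderiv ℝ φ) z (gradient φ z) (gradient φ z)

/-- `u` is a viscosity solution of the infinity Laplace equation on `Ω` (and continuous there):
test functions are all functions that are `C²` near the touching point. -/
def IsInfHarmonicOn (u : H → ℝ) (Ω : Set H) : Prop :=
  ContinuousOn u Ω ∧ ∀ (φ : H → ℝ) (z : H), z ∈ Ω → ContDiffAt ℝ 2 φ z →
    (IsLocalMax (fun y => u y - φ y) z → 0 ≤ infLap φ z) ∧
    (IsLocalMin (fun y => u y - φ y) z → infLap φ z ≤ 0)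

/-- second derivative along a line -/
theorem fderiv2_eq_deriv2 {φ : H → ℝ} {z : H} (hφ : ContDiffAt ℝ 2 φ z) (g : H) :
    fderiv ℝ (fderiv ℝ φ) z g g = deriv (deriv (fun t : ℝ => φ (z + t • g))) 0 := by
  have hline : ∀ t : ℝ, HasDerivAt (fun t : ℝ => z + t • g) g t := by
    intro t
    have := ((hasDerivAt_id t).smul_const g).const_add z
    simpa using this
  have hev : ∀ᶠ y in 𝓝 z, DifferentiableAt ℝ φ y := by
    have := hφ.eventually (by simp)
    filter_upwards [this] with y hy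
    exact hy.differentiableAt (by norm_num)
  have hcont : Filter.Tendsto (fun t : ℝ => z + t • g) (𝓝 0) (𝓝 z) := by
    have : Continuous (fun t : ℝ => z + t • g) := by fun_prop
    simpa using this.tendsto 0
  have hev' : ∀ᶠ t in 𝓝 (0 : ℝ), deriv (fun t : ℝ => φ (z + t • g)) t
      = fderiv ℝ φ (z + t • g) g := by
    filter_upwards [hcont.eventually hev] with t ht
    exact (ht.hasFDerivAt.comp_hasDerivAt t (hline t)).deriv
  rw [Filter.EventuallyEq.deriv_eq hev']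
  have hd : DifferentiableAt ℝ (fderiv ℝ φ) z :=
    (hφ.fderiv_right (m := 1) (by norm_num)).differentiableAt (by norm_num)
  have h1 : HasDerivAt (fun t : ℝ => fderiv ℝ φ (z + t • g)) (fderiv ℝ (fderiv ℝ φ) z g) 0 := by
    have hz : HasFDerivAt (fderiv ℝ φ) (fderiv ℝ (fderiv ℝ φ) z) (z + (0 : ℝ) • g) := by
      simpa using hd.hasFDerivAt
    exact hz.comp_hasDerivAt 0 (hline 0)
  have h2 : HasDerivAt (fun t : ℝ => fderiv ℝ φ (z + t • g) g)
      (fderiv ℝ (fderiv ℝ φ) z g g) 0 := by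
    have := h1.clm_apply (hasDerivAt_const (0 : ℝ) g)
    simpa using this
  exact h2.deriv.symm

theorem infLap_eq_deriv2 {φ : H → ℝ} {z : H} (hφ : ContDiffAt ℝ 2 φ z) :
    infLap φ z = deriv (deriv (fun t : ℝ => φ (z + t • gradient φ z))) 0 :=
  fderiv2_eq_deriv2 hφ _

theorem infLap_neg (φ : H → ℝ) (z : H) : infLap (fun y => - φ y) z = - infLap φ z := by
  unfold infLap gradient
  have h1 : fderiv ℝ (fun y => - φ y) = fun y => - fderiv ℝ φ y := by
    funext y; exact fderiv_neg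
  rw [h1]
  have h2 : fderiv ℝ (fun y => - fderiv ℝ φ y) z = - fderiv ℝ (fderiv ℝ φ) z := fderiv_neg
  rw [h2]
  simp

/-- first order Taylor bound near a point where the function is `C²` -/
theorem exists_taylor_ball {φ : H → ℝ} {p : H} (hφ : ContDiffAt ℝ 2 φ p) :
    ∃ δ > 0, ∃ K : ℝ, 0 ≤ K ∧
      (∀ q ∈ Metric.ball p δ, DifferentiableAt ℝ φ q) ∧
      (∀ q₁ ∈ Metric.ball p δ, ∀ q₂ ∈ Metric.ball p δ,
        ‖fderiv ℝ φ q₂ - fderiv ℝ φ q₁‖ ≤ K * ‖q₂ - q₁‖) ∧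
      (∀ q₁ ∈ Metric.ball p δ, ∀ q₂ ∈ Metric.ball p δ,
        |φ q₂ - φ q₁ - fderiv ℝ φ q₁ (q₂ - q₁)| ≤ K * ‖q₂ - q₁‖ ^ 2) := by
  have hev : ∀ᶠ y in 𝓝 p, DifferentiableAt ℝ φ y := by
    have := hφ.eventually (by simp)
    filter_upwards [this] with y hy
    exact hy.differentiableAt (by norm_num)
  have hd : ContDiffAt ℝ 1 (fderiv ℝ φ) p := hφ.fderiv_right (m := 1) (by norm_num)
  obtain ⟨K, t, ht, hLip⟩ := hd.exists_lipschitzOnWith
  obtain ⟨δ, hδ, hball⟩ := Metric.mem_nhds_iff.mp (Filter.inter_mem ht hev)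
  refine ⟨δ, hδ, (K : ℝ), K.coe_nonneg, ?_, ?_, ?_⟩
  · intro q hq
    exact (hball hq).2
  · intro q₁ h1 q₂ h2
    have := hLip.dist_le_mul q₂ (hball h2).1 q₁ (hball h1).1
    simpa [dist_eq_norm] using this
  · intro q₁ h1 q₂ h2
    have hs : Convex ℝ (Metric.ball p δ ∩ Metric.closedBall q₁ ‖q₂ - q₁‖) :=
      (convex_ball p δ).inter (convex_closedBall q₁ _)
    have hx : q₁ ∈ Metric.ball p δ ∩ Metric.closedBall q₁ ‖q₂ - q₁‖ :=
      ⟨h1, by simp⟩
    have hy : q₂ ∈ Metric.ball p δ ∩ Metric.closedBall q₁ ‖q₂ - q₁‖ :=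
      ⟨h2, by simp [dist_eq_norm]⟩
    have key := hs.norm_image_sub_le_of_norm_fderiv_le' (f := φ) (φ := fderiv ℝ φ q₁)
      (C := K * ‖q₂ - q₁‖)
      (fun x hx => (hball hx.1).2)
      (fun x hx => by
        have h3 := hLip.dist_le_mul x (hball hx.1).1 q₁ (hball h1).1
        have h4 : dist x q₁ ≤ ‖q₂ - q₁‖ := hx.2
        rw [dist_eq_norm] at h3
        calc ‖fderiv ℝ φ x - fderiv ℝ φ q₁‖ ≤ K * dist x q₁ := h3
          _ ≤ K * ‖q₂ - q₁‖ := by gcongr)
      hx hy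
    rw [Real.norm_eq_abs] at key
    calc |φ q₂ - φ q₁ - fderiv ℝ φ q₁ (q₂ - q₁)| ≤ K * ‖q₂ - q₁‖ * ‖q₂ - q₁‖ := key
      _ = K * ‖q₂ - q₁‖ ^ 2 := by ring

theorem hasDerivAt_quad (c0 c1 c2 t : ℝ) :
    HasDerivAt (fun t : ℝ => c0 + c1 * t + c2 * t ^ 2) (c1 + 2 * c2 * t) t := by
  have h1 : HasDerivAt (fun t : ℝ => c1 * t) c1 t := by
    simpa using (hasDerivAt_id' t).const_mul c1
  have h2 : HasDerivAt (fun t : ℝ => c2 * t ^ 2) (c2 * (2 * t)) t := by
    simpa using ((hasDerivAt_id' t).pow 2).const_mul c2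
  have h := (h1.const_add c0).add h2
  exact h.congr_deriv (by ring)

theorem deriv_quad (c0 c1 c2 : ℝ) :
    deriv (fun t : ℝ => c0 + c1 * t + c2 * t ^ 2) = fun t => c1 + 2 * c2 * t := by
  funext t
  exact (hasDerivAt_quad c0 c1 c2 t).deriv

theorem deriv2_quad (c0 c1 c2 : ℝ) :
    deriv (deriv (fun t : ℝ => c0 + c1 * t + c2 * t ^ 2)) 0 = 2 * c2 := by
  rw [deriv_quad]
  have h1 : HasDerivAt (fun t : ℝ => 2 * c2 * t) (2 * c2) 0 := by
    simpa using (hasDerivAt_id' (0 : ℝ)).const_mul (2 * c2)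
  exact (h1.const_add c1).deriv

theorem inner_gradient_eq_fderiv {Ψ : H → ℝ} {x : H} (h : DifferentiableAt ℝ Ψ x) (v : H) :
    inner ℝ (gradient Ψ x) v = fderiv ℝ Ψ x v := by
  have := h.hasGradientAt.hasFDerivAt.fderiv
  rw [this]
  simp

/-- a quadratic test function centred at `x₀` -/
noncomputable def qtest (β m K : ℝ) (g e' x₀ : H) (x : H) : ℝ :=
  β + inner ℝ g (x - x₀) - m * (inner ℝ e' (x - x₀)) ^ 2 + K * ‖x - x₀‖ ^ 2

theorem quad_test (β m K : ℝ) (g e' x₀ : H) :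
    ContDiff ℝ 2 (qtest β m K g e' x₀) ∧ qtest β m K g e' x₀ x₀ = β ∧
      infLap (qtest β m K g e' x₀) x₀ = 2 * (- m * (inner ℝ e' g) ^ 2 + K * ‖g‖ ^ 2) := by
  have hC : ContDiff ℝ 2 (qtest β m K g e' x₀) := by
    have h1 : ContDiff ℝ 2 (fun x : H => x - x₀) := by fun_prop
    have h2 : ContDiff ℝ 2 (fun x : H => ‖x - x₀‖ ^ 2) := h1.norm_sq ℝ
    have h3 : ContDiff ℝ 2 (fun x : H => inner ℝ g (x - x₀)) := contDiff_const.inner ℝ h1
    have h4 : ContDiff ℝ 2 (fun x : H => inner ℝ e' (x - x₀)) := contDiff_const.inner ℝ h1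
    exact ((contDiff_const.add h3).sub (contDiff_const.mul (h4.pow 2))).add
      (contDiff_const.mul h2)
  have hline : ∀ v : H, (fun t : ℝ => qtest β m K g e' x₀ (x₀ + t • v))
      = fun t : ℝ => β + inner ℝ g v * t + (- m * (inner ℝ e' v) ^ 2 + K * ‖v‖ ^ 2) * t ^ 2 := by
    intro v
    funext t
    simp only [qtest, add_sub_cancel_left, inner_smul_right, norm_smul, Real.norm_eq_abs]
    have h : (|t| * ‖v‖) ^ 2 = t ^ 2 * ‖v‖ ^ 2 := by rw [mul_pow, sq_abs]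
    rw [h]
    ring
  have hgrad : gradient (qtest β m K g e' x₀) x₀ = g := by
    apply ext_inner_right ℝ
    intro v
    rw [inner_gradient_eq_fderiv (hC.differentiable (by norm_num)).differentiableAt]
    rw [← (hC.differentiable (by norm_num)).differentiableAt.lineDeriv_eq_fderiv]
    unfold lineDeriv
    rw [hline v, deriv_quad]
    simp
  refine ⟨hC, by simp [qtest], ?_⟩
  rw [infLap_eq_deriv2 hC.contDiffAt, hgrad, hline g, deriv2_quad]

/-- test functions of the form `φ ∘ Λ + R` -/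
theorem comp_test {E : Type*} [NormedAddCommGroup E] [InnerProductSpace ℝ E] [CompleteSpace E]
    (Λ : H →L[ℝ] E) (R : H → ℝ) (x₀ : H) (φ : E → ℝ) (hφ : ContDiffAt ℝ 2 φ (Λ x₀))
    (hR : ContDiffAt ℝ 2 R x₀) (hR0 : ∀ y, 0 ≤ R y) (g : H)
    (hg1 : ∀ v, inner ℝ g v = inner ℝ (gradient φ (Λ x₀)) (Λ v))
    (hg2 : Λ g = gradient φ (Λ x₀)) (hg3 : ∀ t : ℝ, R (x₀ + t • g) = 0) :
    ContDiffAt ℝ 2 (fun x => φ (Λ x) + R x) x₀ ∧
      infLap (fun x => φ (Λ x) + R x) x₀ = infLap φ (Λ x₀) := by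
  have hC : ContDiffAt ℝ 2 (fun x => φ (Λ x) + R x) x₀ :=
    (hφ.comp x₀ Λ.contDiff.contDiffAt).add hR
  refine ⟨hC, ?_⟩
  have hRx : R x₀ = 0 := by simpa using hg3 0
  have hRmin : IsLocalMin R x₀ := by
    apply Filter.Eventually.of_forall
    intro y
    rw [hRx]
    exact hR0 y
  have hRd : DifferentiableAt ℝ R x₀ := hR.differentiableAt (by norm_num)
  have hR' : fderiv ℝ R x₀ = 0 := hRmin.fderiv_eq_zero
  have hφd : DifferentiableAt ℝ φ (Λ x₀) := hφ.differentiableAt (by norm_num)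
  have hΨd : DifferentiableAt ℝ (fun x => φ (Λ x) + R x) x₀ := hC.differentiableAt (by norm_num)
  have hgrad : gradient (fun x => φ (Λ x) + R x) x₀ = g := by
    apply ext_inner_right ℝ
    intro v
    rw [inner_gradient_eq_fderiv hΨd]
    have h1 : HasFDerivAt (fun x => φ (Λ x) + R x) ((fderiv ℝ φ (Λ x₀)).comp Λ + fderiv ℝ R x₀) x₀ :=
      (hφd.hasFDerivAt.comp x₀ Λ.hasFDerivAt).add hRd.hasFDerivAt
    rw [h1.fderiv, hR', hg1 v, inner_gradient_eq_fderiv hφd]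
    simp
  rw [infLap_eq_deriv2 hC, hgrad, infLap_eq_deriv2 hφ]
  congr 2
  funext t
  simp [hg3 t, hg2]

end Vale.Agent.Helper22.InfHarm
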