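import Vale.Agent.Helper22.IsoDefs

/-!
P254: `det Σ / vol^2` does not change on null sets and is continuous along increasing unions.
-/

namespace Vale.Agent.Helper22

open MeasureTheory Set Filter Topology

noncomputable section

variable {ι : Type*} [Fintype ι]

lemma isoRatio_congr_ae [DecidableEq ι] {A B : Set (ι → ℝ)} (h : A =ᵐ[volume] B) :
    isoRatio A = isoRatio B := by
  have hv : vol A = vol B := by
    unfold vol
    rw [measure_congr h]
  have h1 : mom1 A = mom1 B := by
    funext i
    exact setIntegral_congr_set h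
  have h2 : mom2 A = mom2 B := by
    funext i j
    exact setIntegral_congr_set h
  unfold isoRatio cov centroid
  rw [hv, h1, h2]

lemma isoRatio_tendsto_of_monotone [DecidableEq ι] (K : ℕ → Set (ι → ℝ))
    (hm : ∀ j, MeasurableSet (K j)) (hmono : Monotone K) {C : Set (ι → ℝ)} (hC : IsCompact C)
    (hsub : (⋃ j, K j) ⊆ C) (hpos : 0 < vol (⋃ j, K j)) :
    Tendsto (fun j => isoRatio (K j)) atTop (𝓝 (isoRatio (⋃ j, K j))) := by
  have hfin : volume (⋃ j, K j) ≠ ⊤ :=
    ((measure_mono hsub).trans_lt hC.measure_lt_top).ne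
  have hvol : Tendsto (fun j => vol (K j)) atTop (𝓝 (vol (⋃ j, K j))) := by
    unfold vol
    exact (ENNReal.tendsto_toReal hfin).comp (tendsto_measure_iUnion_atTop hmono)
  have hint : ∀ f : (ι → ℝ) → ℝ, Continuous f → IntegrableOn f (⋃ j, K j) := fun f hf =>
    (hf.continuousOn.integrableOn_compact hC).mono_set hsub
  have hm1 : ∀ i, Tendsto (fun j => mom1 (K j) i) atTop (𝓝 (mom1 (⋃ j, K j) i)) := fun i =>
    tendsto_setIntegral_of_monotone hm hmono (hint _ (continuous_apply i))
  have hm2 : ∀ i k, Tendsto (fun j => mom2 (K j) i k) atTop (𝓝 (mom2 (⋃ j, K j) i k)) :=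
    fun i k => tendsto_setIntegral_of_monotone hm hmono
      (hint _ ((continuous_apply i).mul (continuous_apply k)))
  have hcov : Tendsto (fun j => cov (K j)) atTop (𝓝 (cov (⋃ j, K j))) := by
    refine tendsto_pi_nhds.2 fun i => tendsto_pi_nhds.2 fun k => ?_
    unfold cov centroid
    exact ((hm2 i k).div hvol hpos.ne').sub
      (((hm1 i).div hvol hpos.ne').mul ((hm1 k).div hvol hpos.ne'))
  have hdet : Tendsto (fun j => (cov (K j)).det) atTop (𝓝 (cov (⋃ j, K j)).det) :=
    ((continuous_id.matrix_det).tendsto _).comp hcov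
  unfold isoRatio
  exact hdet.div (hvol.pow 2) (pow_ne_zero 2 hpos.ne')

end

end Vale.Agent.Helper22
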