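import Mathlib

/-!
Initial segments of `[0, ∞)`, the layer-cake formula for the moments of a nonincreasing weight
on `[0, L]`, and a Chebyshev-type inequality for two nonincreasing functions.
-/

namespace Vale.Agent.Helper22

open MeasureTheory Set

noncomputable section

section InitSeg

variable {A : Set ℝ} {La : ℝ}

lemma initSeg_fin (hAsub : A ⊆ Icc 0 La) : volume A ≠ ⊤ := by
  apply ne_top_of_le_ne_top _ (measure_mono hAsub)
  rw [Real.volume_Icc]
  exact ENNReal.ofReal_ne_top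

lemma initSeg_le_of_subset {t : ℝ} (ht : 0 ≤ t) (h : A ⊆ Icc 0 t) :
    volume.real A ≤ t := by
  have h1 : volume A ≤ volume (Icc 0 t) := measure_mono h
  rw [Real.volume_Icc, sub_zero] at h1
  have h2 := ENNReal.toReal_mono ENNReal.ofReal_ne_top h1
  rw [ENNReal.toReal_ofReal ht] at h2
  exact h2

lemma initSeg_subset (hAsub : A ⊆ Icc 0 La)
    (hinit : ∀ t ∈ A, ∀ s, 0 ≤ s → s ≤ t → s ∈ A) : A ⊆ Icc 0 (volume.real A) := by
  intro t ht
  have h0 : 0 ≤ t := (hAsub ht).1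
  refine ⟨h0, ?_⟩
  have hsub : Icc 0 t ⊆ A := fun s hs => hinit t ht s hs.1 hs.2
  have h1 : volume (Icc 0 t) ≤ volume A := measure_mono hsub
  rw [Real.volume_Icc, sub_zero] at h1
  have h2 := ENNReal.toReal_mono (initSeg_fin hAsub) h1
  rw [ENNReal.toReal_ofReal h0] at h2
  exact h2

lemma initSeg_mem (hAsub : A ⊆ Icc 0 La)
    (hinit : ∀ t ∈ A, ∀ s, 0 ≤ s → s ≤ t → s ∈ A) {t : ℝ} (h0 : 0 ≤ t)
    (ht : t < volume.real A) : t ∈ A := by
  by_contra hnot
  have hsub : A ⊆ Icc 0 t := fun s hs =>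
    ⟨(hAsub hs).1, le_of_not_gt fun hlt => hnot (hinit s hs t h0 hlt.le)⟩
  have := initSeg_le_of_subset h0 hsub
  linarith

lemma initSeg_ae (hA : MeasurableSet A) (hAsub : A ⊆ Icc 0 La)
    (hinit : ∀ t ∈ A, ∀ s, 0 ≤ s → s ≤ t → s ∈ A) :
    A =ᵐ[volume] Icc 0 (volume.real A) := by
  apply ae_eq_of_subset_of_measure_ge (initSeg_subset hAsub hinit) _ hA.nullMeasurableSet
  · rw [Real.volume_Icc]; exact ENNReal.ofReal_ne_top
  · rw [Real.volume_Icc, sub_zero, measureReal_def, ENNReal.ofReal_toReal (initSeg_fin hAsub)]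

lemma initSeg_integral (hA : MeasurableSet A) (hAsub : A ⊆ Icc 0 La)
    (hinit : ∀ t ∈ A, ∀ s, 0 ≤ s → s ≤ t → s ∈ A) (j : ℕ) :
    ∫ t in A, t ^ j = (volume.real A) ^ (j + 1) / ((j : ℝ) + 1) := by
  have hρ0 : 0 ≤ volume.real A := measureReal_nonneg
  rw [setIntegral_congr_set (initSeg_ae hA hAsub hinit), integral_Icc_eq_integral_Ioc,
    ← intervalIntegral.integral_of_le hρ0, integral_pow]
  simp

/-- The volume of the sum of two initial segments. -/
lemma initSeg_add {B C : Set ℝ} {Lb : ℝ} (hAsub : A ⊆ Icc 0 La) (hBsub : B ⊆ Icc 0 Lb)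
    (hAinit : ∀ t ∈ A, ∀ s, 0 ≤ s → s ≤ t → s ∈ A)
    (hBinit : ∀ t ∈ B, ∀ s, 0 ≤ s → s ≤ t → s ∈ B)
    (hne : A.Nonempty ↔ B.Nonempty)
    (hC : ∀ x, x ∈ C ↔ ∃ u v, u ∈ A ∧ v ∈ B ∧ u + v = x) :
    volume.real C = volume.real A + volume.real B := by
  by_cases hAne : A.Nonempty
  · have hBne : B.Nonempty := hne.1 hAne
    obtain ⟨a, ha⟩ := hAne
    obtain ⟨b, hb⟩ := hBne
    have h0A : (0 : ℝ) ∈ A := hAinit a ha 0 (le_refl _) (hAsub ha).1
    have h0B : (0 : ℝ) ∈ B := hBinit b hb 0 (le_refl _) (hBsub hb).1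
    set ρa : ℝ := volume.real A with hρa
    set ρb : ℝ := volume.real B with hρb
    have hρa0 : 0 ≤ ρa := measureReal_nonneg
    have hρb0 : 0 ≤ ρb := measureReal_nonneg
    have hsubC : C ⊆ Icc 0 (ρa + ρb) := by
      intro x hx
      obtain ⟨u, v, hu, hv, rfl⟩ := (hC x).1 hx
      have h1 := initSeg_subset hAsub hAinit hu
      have h2 := initSeg_subset hBsub hBinit hv
      exact ⟨add_nonneg h1.1 h2.1, add_le_add h1.2 h2.2⟩
    have hsupC : Ioo 0 (ρa + ρb) ⊆ C := by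
      intro x hx
      have hs : 0 < ρa + ρb := lt_trans hx.1 hx.2
      rw [hC x]
      refine ⟨x * ρa / (ρa + ρb), x * ρb / (ρa + ρb), ?_, ?_, ?_⟩
      · rcases hρa0.eq_or_lt with h0 | hpos
        · rw [← h0]; simpa using h0A
        · apply initSeg_mem hAsub hAinit (div_nonneg (mul_nonneg hx.1.le hρa0) hs.le)
          rw [div_lt_iff₀ hs]
          nlinarith [hx.2]
      · rcases hρb0.eq_or_lt with h0 | hpos
        · rw [← h0]; simpa using h0B
        · apply initSeg_mem hBsub hBinit (div_nonneg (mul_nonneg hx.1.le hρb0) hs.le)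
          rw [div_lt_iff₀ hs]
          nlinarith [hx.2]
      · field_simp
    have h1 : volume C ≤ ENNReal.ofReal (ρa + ρb) := by
      have := measure_mono (μ := volume) hsubC
      rwa [Real.volume_Icc, sub_zero] at this
    have h2 : ENNReal.ofReal (ρa + ρb) ≤ volume C := by
      have := measure_mono (μ := volume) hsupC
      rwa [Real.volume_Ioo, sub_zero] at this
    rw [measureReal_def, le_antisymm h1 h2, ENNReal.toReal_ofReal (add_nonneg hρa0 hρb0)]
  · have hBne : ¬ B.Nonempty := fun h => hAne (hne.2 h)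
    have hA0 : A = ∅ := not_nonempty_iff_eq_empty.1 hAne
    have hB0 : B = ∅ := not_nonempty_iff_eq_empty.1 hBne
    have hC0 : C = ∅ := by
      ext x
      rw [hC x, hA0]
      simp
    rw [hA0, hB0, hC0]
    simp

end InitSeg

/-- The volume of the part of `[0, L]` where `l ≤ q`. -/
def lev (q : ℝ → ℝ) (Lq l : ℝ) : ℝ := volume.real {t | t ∈ Icc 0 Lq ∧ l ≤ q t}

section Lev

variable {q : ℝ → ℝ} {Lq : ℝ}

lemma lev_measurable (hq : Continuous q) (l : ℝ) :
    MeasurableSet {t | t ∈ Icc 0 Lq ∧ l ≤ q t} :=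
  measurableSet_Icc.inter (measurableSet_le measurable_const hq.measurable)

lemma lev_sub (l : ℝ) : {t | t ∈ Icc 0 Lq ∧ l ≤ q t} ⊆ Icc 0 Lq := fun _ ht => ht.1

lemma lev_init (hanti : AntitoneOn q (Icc 0 Lq)) (l : ℝ) :
    ∀ t ∈ {t | t ∈ Icc 0 Lq ∧ l ≤ q t}, ∀ s, 0 ≤ s → s ≤ t →
      s ∈ {t | t ∈ Icc 0 Lq ∧ l ≤ q t} := by
  intro t ht s hs hst
  have hsm : s ∈ Icc 0 Lq := ⟨hs, le_trans hst ht.1.2⟩
  exact ⟨hsm, le_trans ht.2 (hanti hsm ht.1 hst)⟩

lemma lev_nonneg (l : ℝ) : 0 ≤ lev q Lq l := measureReal_nonneg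

lemma lev_antitone : Antitone (lev q Lq) := by
  intro l l' hll'
  unfold lev
  apply measureReal_mono _ (initSeg_fin (lev_sub (q := q) (Lq := Lq) l))
  intro t ht
  exact ⟨ht.1, le_trans hll' ht.2⟩

/-- Layer-cake formula for the moments of a nonincreasing weight on `[0, L]`. -/
lemma layer_cake (hq : Continuous q) (hLq : 0 ≤ Lq) (hanti : AntitoneOn q (Icc 0 Lq))
    (hnn : ∀ t ∈ Icc 0 Lq, 0 ≤ q t) {M : ℝ} (hM : ∀ t ∈ Icc 0 Lq, q t ≤ M) (hM0 : 0 ≤ M)
    (j : ℕ) :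
    ∫ t in (0:ℝ)..Lq, t ^ j * q t =
      ∫ l in (0:ℝ)..M, lev q Lq l ^ (j + 1) / ((j : ℝ) + 1) := by
  set μ : Measure ℝ := volume.restrict (Icc 0 Lq) with hμ
  set ν : Measure ℝ := volume.restrict (Ioc 0 M) with hν
  set S : Set (ℝ × ℝ) := {p | p.1 ∈ Icc 0 Lq ∧ p.2 ≤ q p.1} with hS
  have hSm : MeasurableSet S :=
    (measurableSet_Icc.preimage measurable_fst).inter
      (measurableSet_le measurable_snd (hq.measurable.comp measurable_fst))
  set F : ℝ → ℝ → ℝ := fun t l => S.indicator (fun p : ℝ × ℝ => p.1 ^ j) (t, l) with hF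
  have hFm : Measurable (Function.uncurry F) := by
    have : Function.uncurry F = S.indicator (fun p : ℝ × ℝ => p.1 ^ j) := by
      funext p
      rfl
    rw [this]
    exact (measurable_fst.pow_const j).indicator hSm
  have hbound : ∀ p : ℝ × ℝ, ‖Function.uncurry F p‖ ≤ Lq ^ j := by
    intro p
    show ‖S.indicator (fun p : ℝ × ℝ => p.1 ^ j) (p.1, p.2)‖ ≤ Lq ^ j
    by_cases hp : (p.1, p.2) ∈ S
    · rw [indicator_of_mem hp, Real.norm_eq_abs, abs_of_nonneg (pow_nonneg hp.1.1 j)]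
      exact pow_le_pow_left₀ hp.1.1 hp.1.2 j
    · rw [indicator_of_notMem hp, norm_zero]
      exact pow_nonneg hLq j
  have hint : Integrable (Function.uncurry F) (μ.prod ν) :=
    Integrable.of_bound hFm.aestronglyMeasurable (Lq ^ j) (Filter.Eventually.of_forall hbound)
  have hswap := integral_integral_swap hint
  have hleft : ∀ t ∈ Icc 0 Lq, ∫ l, F t l ∂ν = t ^ j * q t := by
    intro t ht
    have hFt : (fun l => F t l) = (Iic (q t)).indicator (fun _ => t ^ j) := by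
      funext l
      simp only [hF]
      by_cases hl : l ≤ q t
      · rw [indicator_of_mem (show (t, l) ∈ S from ⟨ht, hl⟩), indicator_of_mem (show l ∈ Iic (q t) from hl)]
      · rw [indicator_of_notMem (show (t, l) ∉ S from fun h => hl h.2),
          indicator_of_notMem (show l ∉ Iic (q t) from hl)]
    rw [hFt, hν, setIntegral_indicator measurableSet_Iic]
    have hset : Ioc 0 M ∩ Iic (q t) = Ioc 0 (q t) := by
      ext l
      simp only [mem_inter_iff, mem_Ioc, mem_Iic]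
      constructor
      · rintro ⟨⟨h1, -⟩, h3⟩; exact ⟨h1, h3⟩
      · rintro ⟨h1, h3⟩; exact ⟨⟨h1, le_trans h3 (hM t ht)⟩, h3⟩
    rw [hset, setIntegral_const, measureReal_def, Real.volume_Ioc, sub_zero,
      ENNReal.toReal_ofReal (hnn t ht), smul_eq_mul, mul_comm]
  have hright : ∀ l, ∫ t, F t l ∂μ = lev q Lq l ^ (j + 1) / ((j : ℝ) + 1) := by
    intro l
    have hFl : (fun t => F t l) = {t | t ∈ Icc 0 Lq ∧ l ≤ q t}.indicator (fun t => t ^ j) := by
      funext t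
      simp only [hF]
      by_cases ht : t ∈ Icc 0 Lq ∧ l ≤ q t
      · rw [indicator_of_mem (show (t, l) ∈ S from ht),
          indicator_of_mem (show t ∈ {t | t ∈ Icc 0 Lq ∧ l ≤ q t} from ht)]
      · rw [indicator_of_notMem (show (t, l) ∉ S from ht),
          indicator_of_notMem (show t ∉ {t | t ∈ Icc 0 Lq ∧ l ≤ q t} from ht)]
    rw [hFl, hμ, setIntegral_indicator (lev_measurable hq l)]
    have hset : Icc 0 Lq ∩ {t | t ∈ Icc 0 Lq ∧ l ≤ q t} = {t | t ∈ Icc 0 Lq ∧ l ≤ q t} := by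
      ext t
      simp only [mem_inter_iff]
      constructor
      · rintro ⟨-, h⟩; exact h
      · intro h; exact ⟨h.1, h⟩
    rw [hset, initSeg_integral (lev_measurable hq l) (lev_sub l) (lev_init hanti l) j]
    rfl
  have e1 : ∫ t, ∫ l, F t l ∂ν ∂μ = ∫ t in (0:ℝ)..Lq, t ^ j * q t := by
    rw [hμ, setIntegral_congr_fun measurableSet_Icc hleft, integral_Icc_eq_integral_Ioc,
      ← intervalIntegral.integral_of_le hLq]
  have e2 : ∫ l, ∫ t, F t l ∂μ ∂ν = ∫ l in (0:ℝ)..M, lev q Lq l ^ (j + 1) / ((j : ℝ) + 1) := by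
    simp_rw [hright]
    rw [hν, ← intervalIntegral.integral_of_le hM0]
  rw [← e1, ← e2]
  exact hswap

end Lev

end

end Vale.Agent.Helper22
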