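import Vale.Agent.Helper22.IsoDefs

/-!
Projection bodies via the shadow function `u ↦ vol (K + [0, u]) - vol K`, and the behaviour of
the Petty ratio `vol (Π K) / vol K ^ (n - 1)` under Cartesian products.
-/

namespace Vale.Agent.Helper22

open MeasureTheory Set
open scoped ENNReal Pointwise

noncomputable section

variable {ι κ : Type*} [Fintype ι] [Fintype κ]

/-- `K + [0, c u]`: the points `k + s u` with `k ∈ K` and `0 ≤ s ≤ c`. -/
def sweepR (K : Set (ι → ℝ)) (u : ι → ℝ) (c : ℝ) : Set (ι → ℝ) :=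
  {x | ∃ s ∈ Set.Icc (0:ℝ) c, x - s • u ∈ K}

/-- The Minkowski sum `K + [0, u]` of `K` with the segment from `0` to `u`:
the points `k + s u` with `k ∈ K` and `0 ≤ s ≤ 1`. -/
def sweep (K : Set (ι → ℝ)) (u : ι → ℝ) : Set (ι → ℝ) :=
  {x | ∃ s ∈ Set.Icc (0:ℝ) 1, x - s • u ∈ K}

/-- The shadow function `vol (K + [0, u]) - vol K`. For a convex body `K` it equals
`|u|` times the `(n-1)`-volume of the orthogonal projection of `K` to the hyperplane `u^⊥`,
that is, the support function of the projection body of `K`. -/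
def shadow (K : Set (ι → ℝ)) (u : ι → ℝ) : ℝ := vol (sweep K u) - vol K

/-- The projection body `Π K`: the convex set with support function `shadow K`. -/
def projBody (K : Set (ι → ℝ)) : Set (ι → ℝ) := {x | ∀ u : ι → ℝ, ∑ i, x i * u i ≤ shadow K u}

/-- The Petty ratio `R_n(K) = vol (Π K) / vol K ^ (n - 1)`, `n` the dimension. -/
def pettyRatio (K : Set (ι → ℝ)) : ℝ := vol (projBody K) / vol K ^ (Fintype.card ι - 1)

/-- The Cartesian product `M × N` as a subset of `(ι ⊕ κ) → ℝ`. -/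
def prodSet (M : Set (ι → ℝ)) (N : Set (κ → ℝ)) : Set (ι ⊕ κ → ℝ) :=
  {f | (fun i => f (Sum.inl i)) ∈ M ∧ (fun j => f (Sum.inr j)) ∈ N}

lemma sweepR_one (K : Set (ι → ℝ)) (u : ι → ℝ) : sweepR K u 1 = sweep K u := rfl

lemma sweepR_eq_image (K : Set (ι → ℝ)) (u : ι → ℝ) (c : ℝ) :
    sweepR K u c = (fun p : (ι → ℝ) × ℝ => p.1 + p.2 • u) '' (K ×ˢ Set.Icc (0:ℝ) c) := by
  ext x
  constructor
  · rintro ⟨s, hs, hx⟩
    exact ⟨(x - s • u, s), ⟨hx, hs⟩, by simp⟩
  · rintro ⟨⟨k, s⟩, ⟨hk, hs⟩, rfl⟩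
    refine ⟨s, hs, ?_⟩
    simpa using hk

lemma isCompact_sweepR {K : Set (ι → ℝ)} (hK : IsCompact K) (u : ι → ℝ) (c : ℝ) :
    IsCompact (sweepR K u c) := by
  rw [sweepR_eq_image]
  refine (hK.prod isCompact_Icc).image ?_
  fun_prop

lemma isCompact_sweep {K : Set (ι → ℝ)} (hK : IsCompact K) (u : ι → ℝ) :
    IsCompact (sweep K u) := isCompact_sweepR hK u 1

lemma subset_sweepR (K : Set (ι → ℝ)) (u : ι → ℝ) {c : ℝ} (hc : 0 ≤ c) : K ⊆ sweepR K u c := by
  intro x hx
  exact ⟨0, ⟨le_refl _, hc⟩, by simpa using hx⟩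

lemma sweepR_add (K : Set (ι → ℝ)) (u : ι → ℝ) {a b : ℝ} (ha : 0 ≤ a) (hb : 0 ≤ b) :
    sweepR K u (a + b) = sweepR K u a ∪ (fun x => x + -(a • u)) ⁻¹' sweepR K u b := by
  ext x
  constructor
  · rintro ⟨s, ⟨hs0, hs1⟩, hx⟩
    rcases le_total s a with h | h
    · left
      exact ⟨s, ⟨hs0, h⟩, hx⟩
    · right
      refine ⟨s - a, ⟨by linarith, by linarith⟩, ?_⟩
      have e : x + -(a • u) - (s - a) • u = x - s • u := by
        rw [sub_smul]; abel
      show x + -(a • u) - (s - a) • u ∈ K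
      rw [e]; exact hx
  · rintro (⟨s, ⟨hs0, hs1⟩, hx⟩ | ⟨s, ⟨hs0, hs1⟩, hx⟩)
    · exact ⟨s, ⟨hs0, by linarith⟩, hx⟩
    · refine ⟨s + a, ⟨by linarith, by linarith⟩, ?_⟩
      have e : x - (s + a) • u = x + -(a • u) - s • u := by
        rw [add_smul]; abel
      rw [e]; exact hx

lemma sweepR_inter {K : Set (ι → ℝ)} (hK : Convex ℝ K) (u : ι → ℝ) {a b : ℝ} (ha : 0 ≤ a)
    (hb : 0 ≤ b) :
    sweepR K u a ∩ (fun x => x + -(a • u)) ⁻¹' sweepR K u b = (fun x => x + -(a • u)) ⁻¹' K := by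
  ext x
  constructor
  · rintro ⟨⟨s₁, ⟨h10, h1a⟩, hx1⟩, ⟨s₂, ⟨h20, h2b⟩, hx2⟩⟩
    have hP : Convex ℝ {s : ℝ | x - s • u ∈ K} := by
      intro s hs t ht α β hα hβ hαβ
      have hx : x = α • x + β • x := by rw [← add_smul, hαβ, one_smul]
      have e : x - (α • s + β • t) • u = α • (x - s • u) + β • (x - t • u) := by
        rw [smul_sub, smul_sub, add_smul, smul_smul, smul_smul]
        nth_rewrite 1 [hx]
        simp only [smul_eq_mul]
        abel
      show x - (α • s + β • t) • u ∈ K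
      rw [e]
      exact hK hs ht hα hβ hαβ
    have h2 : a + s₂ ∈ {s : ℝ | x - s • u ∈ K} := by
      have e : x - (a + s₂) • u = x + -(a • u) - s₂ • u := by
        rw [add_smul]; abel
      show x - (a + s₂) • u ∈ K
      rw [e]; exact hx2
    have h3 := hP.ordConnected.out (show s₁ ∈ {s : ℝ | x - s • u ∈ K} from hx1) h2
      ⟨h1a, by linarith⟩
    have e : x + -(a • u) = x - a • u := by abel
    show x + -(a • u) ∈ K
    rw [e]; exact h3
  · intro hx
    have hx' : x + -(a • u) ∈ K := hx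
    refine ⟨⟨a, ⟨ha, le_refl _⟩, ?_⟩, ⟨0, ⟨le_refl _, hb⟩, ?_⟩⟩
    · have e : x - a • u = x + -(a • u) := by abel
      rw [e]; exact hx'
    · simpa using hx'

lemma volume_sweepR_add {K : Set (ι → ℝ)} (hKc : IsCompact K) (hK : Convex ℝ K) (u : ι → ℝ)
    {a b : ℝ} (ha : 0 ≤ a) (hb : 0 ≤ b) :
    volume (sweepR K u (a + b)) + volume K = volume (sweepR K u a) + volume (sweepR K u b) := by
  have hm : MeasurableSet ((fun x : ι → ℝ => x + -(a • u)) ⁻¹' sweepR K u b) := by
    refine (isCompact_sweepR hKc u b).isClosed.measurableSet.preimage ?_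
    fun_prop
  have h := measure_union_add_inter (μ := (volume : Measure (ι → ℝ))) (sweepR K u a) hm
  rw [← sweepR_add K u ha hb, sweepR_inter hK u ha hb, measure_preimage_add_right,
    measure_preimage_add_right] at h
  exact h

lemma additive_nonneg_linear (g : ℝ → ℝ)
    (hadd : ∀ a b, 0 ≤ a → 0 ≤ b → g (a + b) = g a + g b) (hnn : ∀ a, 0 ≤ a → 0 ≤ g a)
    (c : ℝ) (hc : 0 ≤ c) : g c = c * g 1 := by
  have hmono : ∀ a b, 0 ≤ a → a ≤ b → g a ≤ g b := by
    intro a b ha hab
    have h := hadd a (b - a) ha (by linarith)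
    rw [add_sub_cancel] at h
    linarith [hnn (b - a) (by linarith)]
  have h0 : g 0 = 0 := by
    have h := hadd 0 0 (le_refl _) (le_refl _)
    rw [add_zero] at h
    linarith
  have hnat : ∀ (n : ℕ) (a : ℝ), 0 ≤ a → g (n * a) = n * g a := by
    intro n a ha
    induction n with
    | zero => simp [h0]
    | succ n ih =>
      have e : ((n + 1 : ℕ) : ℝ) * a = n * a + a := by push_cast; ring
      rw [e, hadd _ _ (by positivity) ha, ih]
      push_cast; ring
  have key : ∀ N : ℕ, |g c - c * g 1| * N ≤ g 1 := by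
    intro N
    have hNc : (0:ℝ) ≤ N * c := by positivity
    have hk1 : ((⌊(N:ℝ) * c⌋₊ : ℕ) : ℝ) ≤ N * c := Nat.floor_le hNc
    have hk2 : (N:ℝ) * c < ⌊(N:ℝ) * c⌋₊ + 1 := Nat.lt_floor_add_one _
    set k : ℕ := ⌊(N:ℝ) * c⌋₊ with hk
    have g1 : 0 ≤ g 1 := hnn 1 zero_le_one
    have e1 : g (k : ℝ) = k * g 1 := by
      have h := hnat k 1 zero_le_one
      rwa [mul_one] at h
    have e2 : g ((k : ℝ) + 1) = (k + 1) * g 1 := by
      have h := hnat (k + 1) 1 zero_le_one
      rw [mul_one] at h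
      push_cast at h
      exact h
    have e3 : g (N * c) = N * g c := hnat N c hc
    have m1 : g (k : ℝ) ≤ g (N * c) := hmono _ _ (by positivity) hk1
    have m2 : g (N * c) ≤ g ((k : ℝ) + 1) := hmono _ _ hNc hk2.le
    have p1 : (k : ℝ) * g 1 ≤ N * c * g 1 := mul_le_mul_of_nonneg_right hk1 g1
    have p2 : (N : ℝ) * c * g 1 ≤ ((k : ℝ) + 1) * g 1 := mul_le_mul_of_nonneg_right hk2.le g1
    have hN0 : (0:ℝ) ≤ N := by positivity
    rw [← abs_of_nonneg hN0, ← abs_mul, abs_le]
    constructor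
    · nlinarith
    · nlinarith
  by_contra h
  have hpos : 0 < |g c - c * g 1| := abs_pos.mpr (sub_ne_zero.mpr h)
  obtain ⟨N, hN⟩ := exists_nat_gt (g 1 / |g c - c * g 1|)
  have h1 := (div_lt_iff₀ hpos).mp hN
  have h2 := key N
  linarith

lemma vol_le_vol_sweepR {K : Set (ι → ℝ)} (hKc : IsCompact K) (u : ι → ℝ) {c : ℝ} (hc : 0 ≤ c) :
    vol K ≤ vol (sweepR K u c) :=
  ENNReal.toReal_mono (isCompact_sweepR hKc u c).measure_lt_top.ne
    (measure_mono (subset_sweepR K u hc))

lemma shadow_nonneg {K : Set (ι → ℝ)} (hKc : IsCompact K) (u : ι → ℝ) : 0 ≤ shadow K u := by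
  have h := vol_le_vol_sweepR hKc u (zero_le_one)
  rw [sweepR_one] at h
  unfold shadow
  linarith

lemma vol_sweepR {K : Set (ι → ℝ)} (hKc : IsCompact K) (hK : Convex ℝ K) (u : ι → ℝ)
    {c : ℝ} (hc : 0 ≤ c) : vol (sweepR K u c) = vol K + c * shadow K u := by
  have h := additive_nonneg_linear (fun c => vol (sweepR K u c) - vol K) ?_ ?_ c hc
  · simp only [sweepR_one] at h
    unfold shadow
    linarith
  · intro a b ha hb
    have h := volume_sweepR_add hKc hK u ha hb
    have h' := congrArg ENNReal.toReal h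
    rw [ENNReal.toReal_add (isCompact_sweepR hKc u _).measure_lt_top.ne hKc.measure_lt_top.ne,
      ENNReal.toReal_add (isCompact_sweepR hKc u _).measure_lt_top.ne
        (isCompact_sweepR hKc u _).measure_lt_top.ne] at h'
    show vol (sweepR K u (a + b)) - vol K = vol (sweepR K u a) - vol K + (vol (sweepR K u b) - vol K)
    unfold vol
    linarith
  · intro a ha
    have h := vol_le_vol_sweepR hKc u ha
    show 0 ≤ vol (sweepR K u a) - vol K
    linarith

lemma volume_sweepR {K : Set (ι → ℝ)} (hKc : IsCompact K) (hK : Convex ℝ K) (u : ι → ℝ)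
    {c : ℝ} (hc : 0 ≤ c) :
    volume (sweepR K u c) = ENNReal.ofReal (vol K + c * shadow K u) := by
  rw [← vol_sweepR hKc hK u hc]
  unfold vol
  rw [ENNReal.ofReal_toReal (isCompact_sweepR hKc u c).measure_lt_top.ne]

lemma volume_eq_lintegral_slice {S : Set (ι ⊕ κ → ℝ)} (hS : MeasurableSet S) :
    volume S = ∫⁻ y : κ → ℝ, volume {x : ι → ℝ | Sum.elim x y ∈ S} := by
  have he := volume_measurePreserving_sumPiEquivProdPi_symm (fun _ : ι ⊕ κ => ℝ)
  rw [← he.measure_preimage hS.nullMeasurableSet, Measure.volume_eq_prod,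
    Measure.prod_apply_symm (he.measurable hS)]
  rfl

lemma volume_prodSet (M : Set (ι → ℝ)) (N : Set (κ → ℝ)) :
    volume (prodSet M N) = volume M * volume N := by
  have he := volume_measurePreserving_sumPiEquivProdPi_symm (fun _ : ι ⊕ κ => ℝ)
  rw [← he.measure_preimage_equiv]
  have e : (MeasurableEquiv.sumPiEquivProdPi (fun _ : ι ⊕ κ => ℝ)).symm ⁻¹' prodSet M N
      = M ×ˢ N := by
    ext ⟨x, y⟩
    rfl
  rw [e, Measure.volume_eq_prod, Measure.prod_prod]

lemma vol_prodSet (M : Set (ι → ℝ)) (N : Set (κ → ℝ)) :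
    vol (prodSet M N) = vol M * vol N := by
  unfold vol
  rw [volume_prodSet, ENNReal.toReal_mul]

lemma isCompact_prodSet {M : Set (ι → ℝ)} {N : Set (κ → ℝ)} (hM : IsCompact M)
    (hN : IsCompact N) : IsCompact (prodSet M N) := by
  have e : prodSet M N = (fun p : (ι → ℝ) × (κ → ℝ) => Sum.elim p.1 p.2) '' (M ×ˢ N) := by
    ext f
    constructor
    · rintro ⟨h1, h2⟩
      refine ⟨(fun i => f (Sum.inl i), fun j => f (Sum.inr j)), ⟨h1, h2⟩, ?_⟩
      funext t
      rcases t with i | j <;> rfl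
    · rintro ⟨⟨x, y⟩, ⟨hx, hy⟩, rfl⟩
      exact ⟨hx, hy⟩
  rw [e]
  refine (hM.prod hN).image ?_
  refine continuous_pi fun t => ?_
  rcases t with i | j
  · exact (continuous_apply i).comp continuous_fst
  · exact (continuous_apply j).comp continuous_snd

/-- The parameters `s ∈ [0, 1]` with `y - s v ∈ N`. -/
def Lam (N : Set (κ → ℝ)) (v y : κ → ℝ) : Set ℝ := {s | s ∈ Set.Icc (0:ℝ) 1 ∧ y - s • v ∈ N}

lemma slice_sweep_prod (M : Set (ι → ℝ)) (N : Set (κ → ℝ)) (w : ι ⊕ κ → ℝ) (y : κ → ℝ) :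
    {x : ι → ℝ | Sum.elim x y ∈ sweep (prodSet M N) w}
      = {x | ∃ s ∈ Lam N (fun j => w (Sum.inr j)) y, x - s • (fun i => w (Sum.inl i)) ∈ M} := by
  ext x
  constructor
  · rintro ⟨s, hs, h1, h2⟩
    exact ⟨s, ⟨hs, h2⟩, h1⟩
  · rintro ⟨s, ⟨hs, h2⟩, h1⟩
    exact ⟨s, hs, h1, h2⟩

lemma Lam_eq_Icc {N : Set (κ → ℝ)} (hNc : IsCompact N) (hN : Convex ℝ N) (v y : κ → ℝ)
    (hne : (Lam N v y).Nonempty) : ∃ a b : ℝ, 0 ≤ a ∧ a ≤ b ∧ Lam N v y = Set.Icc a b := by
  have hcl : IsClosed ((fun s : ℝ => y - s • v) ⁻¹' N) := hNc.isClosed.preimage (by fun_prop)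
  have hcomp : IsCompact (Lam N v y) := isCompact_Icc.inter_right hcl
  have hconv : Convex ℝ (Lam N v y) := by
    refine (convex_Icc (0:ℝ) 1).inter ?_
    intro s hs t ht α β hα hβ hαβ
    have hx : y = α • y + β • y := by rw [← add_smul, hαβ, one_smul]
    have e : y - (α • s + β • t) • v = α • (y - s • v) + β • (y - t • v) := by
      rw [smul_sub, smul_sub, add_smul, smul_smul, smul_smul]
      nth_rewrite 1 [hx]
      simp only [smul_eq_mul]
      abel
    show y - (α • s + β • t) • v ∈ N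
    rw [e]
    exact hN hs ht hα hβ hαβ
  have h := eq_Icc_of_connected_compact ⟨hne, hconv.isPreconnected⟩ hcomp
  have hab : sInf (Lam N v y) ≤ sSup (Lam N v y) := by
    rw [h] at hne
    exact Set.nonempty_Icc.mp hne
  have ha : sInf (Lam N v y) ∈ Lam N v y := by
    have h' : sInf (Lam N v y) ∈ Set.Icc (sInf (Lam N v y)) (sSup (Lam N v y)) :=
      Set.left_mem_Icc.mpr hab
    rw [← h] at h'
    exact h'
  exact ⟨_, _, ha.1.1, hab, h⟩

lemma volume_slice {M : Set (ι → ℝ)} {N : Set (κ → ℝ)} (hMc : IsCompact M) (hM : Convex ℝ M)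
    (hNc : IsCompact N) (hN : Convex ℝ N) (u : ι → ℝ) (v y : κ → ℝ) :
    volume {x : ι → ℝ | ∃ s ∈ Lam N v y, x - s • u ∈ M}
      = (sweep N v).indicator (fun _ => ENNReal.ofReal (vol M)) y
        + volume (Lam N v y) * ENNReal.ofReal (shadow M u) := by
  by_cases hne : (Lam N v y).Nonempty
  · obtain ⟨a, b, ha, hab, hL⟩ := Lam_eq_Icc hNc hN v y hne
    have hy : y ∈ sweep N v := by
      obtain ⟨s, hs1, hs2⟩ := hne
      exact ⟨s, hs1, hs2⟩
    rw [Set.indicator_of_mem hy, hL, Real.volume_Icc]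
    have hset : {x : ι → ℝ | ∃ s ∈ Set.Icc a b, x - s • u ∈ M}
        = (fun x => x + -(a • u)) ⁻¹' sweepR M u (b - a) := by
      ext x
      constructor
      · rintro ⟨s, ⟨hs1, hs2⟩, hx⟩
        refine ⟨s - a, ⟨by linarith, by linarith⟩, ?_⟩
        have e : x + -(a • u) - (s - a) • u = x - s • u := by
          rw [sub_smul]; abel
        show x + -(a • u) - (s - a) • u ∈ M
        rw [e]; exact hx
      · rintro ⟨s, ⟨hs1, hs2⟩, hx⟩
        refine ⟨s + a, ⟨by linarith, by linarith⟩, ?_⟩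
        have e : x - (s + a) • u = x + -(a • u) - s • u := by
          rw [add_smul]; abel
        show x - (s + a) • u ∈ M
        rw [e]; exact hx
    have hv : 0 ≤ vol M := ENNReal.toReal_nonneg
    rw [hset, measure_preimage_add_right, volume_sweepR hMc hM u (by linarith),
      ENNReal.ofReal_add hv (mul_nonneg (by linarith) (shadow_nonneg hMc u)),
      ENNReal.ofReal_mul (by linarith)]
  · rw [Set.not_nonempty_iff_eq_empty] at hne
    have hy : y ∉ sweep N v := by
      rintro ⟨s, hs1, hs2⟩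
      have h : s ∈ Lam N v y := ⟨hs1, hs2⟩
      rw [hne] at h
      exact h
    rw [Set.indicator_of_notMem hy, hne]
    simp

lemma lintegral_volume_Lam {N : Set (κ → ℝ)} (hNc : IsCompact N) (v : κ → ℝ) :
    ∫⁻ y, volume (Lam N v y) = volume N := by
  set S : Set ((κ → ℝ) × ℝ) := {p | p.2 ∈ Set.Icc (0:ℝ) 1 ∧ p.1 - p.2 • v ∈ N} with hSdef
  have hS : MeasurableSet S := by
    have h1 : IsClosed {p : (κ → ℝ) × ℝ | p.2 ∈ Set.Icc (0:ℝ) 1} :=
      isClosed_Icc.preimage continuous_snd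
    have h2 : IsClosed {p : (κ → ℝ) × ℝ | p.1 - p.2 • v ∈ N} :=
      hNc.isClosed.preimage (by fun_prop)
    exact (h1.inter h2).measurableSet
  have e1 := Measure.prod_apply (μ := (volume : Measure (κ → ℝ))) (ν := (volume : Measure ℝ)) hS
  have e2 := Measure.prod_apply_symm (μ := (volume : Measure (κ → ℝ)))
    (ν := (volume : Measure ℝ)) hS
  have e3 : ∀ s : ℝ, volume ((fun y : κ → ℝ => (y, s)) ⁻¹' S)
      = (Set.Icc (0:ℝ) 1).indicator (fun _ => volume N) s := by
    intro s
    by_cases hs : s ∈ Set.Icc (0:ℝ) 1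
    · rw [Set.indicator_of_mem hs]
      have e : (fun y : κ → ℝ => (y, s)) ⁻¹' S = (fun y => y + -(s • v)) ⁻¹' N := by
        ext y
        constructor
        · rintro ⟨_, h⟩
          have e' : y + -(s • v) = y - s • v := by abel
          show y + -(s • v) ∈ N
          rw [e']; exact h
        · intro h
          have h' : y + -(s • v) ∈ N := h
          have e' : y + -(s • v) = y - s • v := by abel
          rw [e'] at h'
          exact ⟨hs, h'⟩
      rw [e, measure_preimage_add_right]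
    · rw [Set.indicator_of_notMem hs]
      have e : (fun y : κ → ℝ => (y, s)) ⁻¹' S = ∅ := by
        ext y
        constructor
        · rintro ⟨h, _⟩
          exact hs h
        · intro h
          exact h.elim
      rw [e, measure_empty]
  calc ∫⁻ y, volume (Lam N v y) = (volume.prod volume) S := e1.symm
    _ = ∫⁻ s, (Set.Icc (0:ℝ) 1).indicator (fun _ => volume N) s := by
        rw [e2]; exact lintegral_congr e3
    _ = volume N := by
        rw [lintegral_indicator_const measurableSet_Icc, Real.volume_Icc]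
        simp

lemma volume_sweep_prodSet {M : Set (ι → ℝ)} {N : Set (κ → ℝ)} (hMc : IsCompact M)
    (hM : Convex ℝ M) (hNc : IsCompact N) (hN : Convex ℝ N) (w : ι ⊕ κ → ℝ) :
    volume (sweep (prodSet M N) w)
      = ENNReal.ofReal (vol M) * volume (sweep N (fun j => w (Sum.inr j)))
        + volume N * ENNReal.ofReal (shadow M (fun i => w (Sum.inl i))) := by
  have hm : MeasurableSet (sweep (prodSet M N) w) :=
    (isCompact_sweep (isCompact_prodSet hMc hNc) w).isClosed.measurableSet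
  rw [volume_eq_lintegral_slice hm]
  simp_rw [slice_sweep_prod, volume_slice hMc hM hNc hN]
  have hm2 : MeasurableSet (sweep N (fun j => w (Sum.inr j))) :=
    (isCompact_sweep hNc _).isClosed.measurableSet
  rw [lintegral_add_left (measurable_const.indicator hm2), lintegral_indicator_const hm2,
    lintegral_mul_const' _ _ ENNReal.ofReal_ne_top, lintegral_volume_Lam hNc]

lemma shadow_prodSet {M : Set (ι → ℝ)} {N : Set (κ → ℝ)} (hMc : IsCompact M)
    (hM : Convex ℝ M) (hNc : IsCompact N) (hN : Convex ℝ N) (w : ι ⊕ κ → ℝ) :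
    shadow (prodSet M N) w
      = vol N * shadow M (fun i => w (Sum.inl i)) + vol M * shadow N (fun j => w (Sum.inr j)) := by
  have h := volume_sweep_prodSet hMc hM hNc hN w
  have hv : 0 ≤ vol M := ENNReal.toReal_nonneg
  have h' : vol (sweep (prodSet M N) w)
      = vol M * vol (sweep N (fun j => w (Sum.inr j)))
        + vol N * shadow M (fun i => w (Sum.inl i)) := by
    show (volume (sweep (prodSet M N) w)).toReal
      = vol M * (volume (sweep N (fun j => w (Sum.inr j)))).toReal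
        + (volume N).toReal * shadow M (fun i => w (Sum.inl i))
    rw [h, ENNReal.toReal_add
      (ENNReal.mul_ne_top ENNReal.ofReal_ne_top (isCompact_sweep hNc _).measure_lt_top.ne)
      (ENNReal.mul_ne_top hNc.measure_lt_top.ne ENNReal.ofReal_ne_top),
      ENNReal.toReal_mul, ENNReal.toReal_mul, ENNReal.toReal_ofReal hv,
      ENNReal.toReal_ofReal (shadow_nonneg hMc _)]
  unfold shadow at h' ⊢
  rw [h', vol_prodSet]
  ring

lemma sweep_zero (K : Set (ι → ℝ)) : sweep K 0 = K := by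
  ext x
  constructor
  · rintro ⟨s, hs, hx⟩
    simpa using hx
  · intro hx
    exact ⟨0, ⟨le_refl _, zero_le_one⟩, by simpa using hx⟩

lemma shadow_zero (K : Set (ι → ℝ)) : shadow K 0 = 0 := by
  unfold shadow
  rw [sweep_zero]
  ring

lemma projBody_prodSet {M : Set (ι → ℝ)} {N : Set (κ → ℝ)} (hMc : IsCompact M)
    (hM : Convex ℝ M) (hNc : IsCompact N) (hN : Convex ℝ N) (hvM : 0 < vol M) (hvN : 0 < vol N) :
    projBody (prodSet M N) = prodSet (vol N • projBody M) (vol M • projBody N) := by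
  ext f
  constructor
  · intro hf
    constructor
    · rw [Set.mem_smul_set_iff_inv_smul_mem₀ hvN.ne']
      intro u
      have h := hf (Sum.elim u 0)
      rw [shadow_prodSet hMc hM hNc hN, Fintype.sum_sum_type] at h
      have e0 : (fun j : κ => (Sum.elim u (0 : κ → ℝ)) (Sum.inr j)) = 0 := rfl
      have e1 : (fun i : ι => (Sum.elim u (0 : κ → ℝ)) (Sum.inl i)) = u := rfl
      rw [e0, e1, shadow_zero] at h
      simp only [Sum.elim_inl, Sum.elim_inr, Pi.zero_apply, mul_zero, Finset.sum_const_zero,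
        add_zero] at h
      have e2 : ∑ i, ((vol N)⁻¹ • fun i => f (Sum.inl i)) i * u i
          = (vol N)⁻¹ * ∑ i, f (Sum.inl i) * u i := by
        rw [Finset.mul_sum]
        refine Finset.sum_congr rfl fun i _ => ?_
        simp only [Pi.smul_apply, smul_eq_mul]
        ring
      rw [e2]
      have h3 : (vol N)⁻¹ * ∑ i, f (Sum.inl i) * u i ≤ (vol N)⁻¹ * (vol N * shadow M u) :=
        mul_le_mul_of_nonneg_left h (inv_nonneg.mpr hvN.le)
      rw [← mul_assoc, inv_mul_cancel₀ hvN.ne', one_mul] at h3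
      exact h3
    · rw [Set.mem_smul_set_iff_inv_smul_mem₀ hvM.ne']
      intro v
      have h := hf (Sum.elim 0 v)
      rw [shadow_prodSet hMc hM hNc hN, Fintype.sum_sum_type] at h
      have e0 : (fun i : ι => (Sum.elim (0 : ι → ℝ) v) (Sum.inl i)) = 0 := rfl
      have e1 : (fun j : κ => (Sum.elim (0 : ι → ℝ) v) (Sum.inr j)) = v := rfl
      rw [e0, e1, shadow_zero] at h
      simp only [Sum.elim_inl, Sum.elim_inr, Pi.zero_apply, mul_zero, Finset.sum_const_zero,
        zero_add] at h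
      have e2 : ∑ j, ((vol M)⁻¹ • fun j => f (Sum.inr j)) j * v j
          = (vol M)⁻¹ * ∑ j, f (Sum.inr j) * v j := by
        rw [Finset.mul_sum]
        refine Finset.sum_congr rfl fun j _ => ?_
        simp only [Pi.smul_apply, smul_eq_mul]
        ring
      rw [e2]
      have h3 : (vol M)⁻¹ * ∑ j, f (Sum.inr j) * v j ≤ (vol M)⁻¹ * (vol M * shadow N v) :=
        mul_le_mul_of_nonneg_left h (inv_nonneg.mpr hvM.le)
      rw [← mul_assoc, inv_mul_cancel₀ hvM.ne', one_mul] at h3
      exact h3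
  · rintro ⟨⟨p, hp, hpe⟩, ⟨q, hq, hqe⟩⟩ w
    rw [shadow_prodSet hMc hM hNc hN, Fintype.sum_sum_type]
    have e1 : ∀ i, f (Sum.inl i) = vol N * p i := fun i => by
      have h := congrFun hpe i
      simp only [Pi.smul_apply, smul_eq_mul] at h
      exact h.symm
    have e2 : ∀ j, f (Sum.inr j) = vol M * q j := fun j => by
      have h := congrFun hqe j
      simp only [Pi.smul_apply, smul_eq_mul] at h
      exact h.symm
    have s1 : ∑ i, f (Sum.inl i) * w (Sum.inl i) = vol N * ∑ i, p i * w (Sum.inl i) := by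
      rw [Finset.mul_sum]
      refine Finset.sum_congr rfl fun i _ => ?_
      rw [e1]; ring
    have s2 : ∑ j, f (Sum.inr j) * w (Sum.inr j) = vol M * ∑ j, q j * w (Sum.inr j) := by
      rw [Finset.mul_sum]
      refine Finset.sum_congr rfl fun j _ => ?_
      rw [e2]; ring
    rw [s1, s2]
    exact add_le_add (mul_le_mul_of_nonneg_left (hp _) hvN.le)
      (mul_le_mul_of_nonneg_left (hq _) hvM.le)

lemma vol_smul_set {c : ℝ} (hc : 0 ≤ c) (A : Set (ι → ℝ)) :
    vol (c • A) = c ^ Fintype.card ι * vol A := by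
  unfold vol
  rw [Measure.addHaar_smul, ENNReal.toReal_mul, Module.finrank_fintype_fun_eq_card,
    abs_of_nonneg (pow_nonneg hc _), ENNReal.toReal_ofReal (pow_nonneg hc _)]

lemma pettyRatio_prodSet [Nonempty ι] [Nonempty κ] {M : Set (ι → ℝ)} {N : Set (κ → ℝ)}
    (hMc : IsCompact M) (hM : Convex ℝ M) (hNc : IsCompact N) (hN : Convex ℝ N)
    (hvM : 0 < vol M) (hvN : 0 < vol N) :
    pettyRatio (prodSet M N) = pettyRatio M * pettyRatio N := by
  unfold pettyRatio
  rw [projBody_prodSet hMc hM hNc hN hvM hvN, vol_prodSet, vol_smul_set hvN.le,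
    vol_smul_set hvM.le, vol_prodSet, Fintype.card_sum]
  obtain ⟨a, ha⟩ : ∃ a, Fintype.card ι = a + 1 :=
    Nat.exists_eq_succ_of_ne_zero Fintype.card_ne_zero
  obtain ⟨b, hb⟩ : ∃ b, Fintype.card κ = b + 1 :=
    Nat.exists_eq_succ_of_ne_zero Fintype.card_ne_zero
  rw [ha, hb]
  have e : a + 1 + (b + 1) - 1 = a + b + 1 := by omega
  rw [e]
  simp only [Nat.add_sub_cancel]
  have h1 : vol M ≠ 0 := hvM.ne'
  have h2 : vol N ≠ 0 := hvN.ne'
  field_simp
  ring

/-- The segment `[0, h]` as a subset of `Unit → ℝ` (the real line). -/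
def unitSeg (h : ℝ) : Set (Unit → ℝ) := {y | y () ∈ Set.Icc (0:ℝ) h}

lemma volume_unit_Icc (a b : ℝ) :
    volume {y : Unit → ℝ | y () ∈ Set.Icc a b} = ENNReal.ofReal (b - a) := by
  have h := (volume_preserving_funUnique Unit ℝ).measure_preimage_equiv (Set.Icc a b)
  rw [Real.volume_Icc] at h
  exact h

lemma isCompact_unit_Icc (a b : ℝ) : IsCompact {y : Unit → ℝ | y () ∈ Set.Icc a b} := by
  have e : {y : Unit → ℝ | y () ∈ Set.Icc a b} = (fun t : ℝ => fun _ : Unit => t) '' Set.Icc a b := by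
    ext y
    constructor
    · intro hy
      exact ⟨y (), hy, rfl⟩
    · rintro ⟨t, ht, rfl⟩
      exact ht
  rw [e]
  exact isCompact_Icc.image (by fun_prop)

lemma convex_unit_Icc (a b : ℝ) : Convex ℝ {y : Unit → ℝ | y () ∈ Set.Icc a b} := by
  intro x hx y hy α β hα hβ hαβ
  exact convex_Icc a b hx hy hα hβ hαβ

lemma sweep_unitSeg {h : ℝ} (hh : 0 ≤ h) (v : Unit → ℝ) :
    sweep (unitSeg h) v = {y | y () ∈ Set.Icc (min 0 (v ())) (h + max 0 (v ()))} := by
  ext y
  constructor
  · rintro ⟨s, ⟨hs0, hs1⟩, h1, h2⟩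
    have h1' : 0 ≤ y () - s * v () := h1
    have h2' : y () - s * v () ≤ h := h2
    constructor
    · rcases le_total 0 (v ()) with hv | hv
      · rw [min_eq_left hv]; nlinarith
      · rw [min_eq_right hv]; nlinarith
    · rcases le_total 0 (v ()) with hv | hv
      · rw [max_eq_right hv]; nlinarith
      · rw [max_eq_left hv]; nlinarith
  · rintro ⟨h1, h2⟩
    rcases le_total 0 (v ()) with hv | hv
    · rw [min_eq_left hv] at h1
      rw [max_eq_right hv] at h2
      rcases le_total (y ()) h with hy | hy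
      · exact ⟨0, ⟨le_refl _, zero_le_one⟩, by
          show y () - 0 * v () ∈ Set.Icc (0:ℝ) h
          rw [zero_mul, sub_zero]; exact ⟨h1, hy⟩⟩
      · rcases hv.eq_or_lt with hv0 | hvpos
        · exact ⟨0, ⟨le_refl _, zero_le_one⟩, by
            show y () - 0 * v () ∈ Set.Icc (0:ℝ) h
            rw [zero_mul, sub_zero]; exact ⟨h1, by linarith⟩⟩
        refine ⟨(y () - h) / v (), ⟨div_nonneg (by linarith) hv, ?_⟩, ?_⟩
        · rw [div_le_one hvpos]; linarith
        · show y () - (y () - h) / v () * v () ∈ Set.Icc (0:ℝ) h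
          rw [div_mul_cancel₀ _ hvpos.ne']
          constructor <;> linarith
    · rw [min_eq_right hv] at h1
      rw [max_eq_left hv] at h2
      rcases le_total 0 (y ()) with hy | hy
      · exact ⟨0, ⟨le_refl _, zero_le_one⟩, by
          show y () - 0 * v () ∈ Set.Icc (0:ℝ) h
          rw [zero_mul, sub_zero]; exact ⟨hy, by linarith⟩⟩
      · rcases hv.eq_or_lt with hv0 | hvneg
        · exact ⟨0, ⟨le_refl _, zero_le_one⟩, by
            show y () - 0 * v () ∈ Set.Icc (0:ℝ) h
            rw [zero_mul, sub_zero]; exact ⟨by linarith, by linarith⟩⟩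
        refine ⟨y () / v (), ⟨div_nonneg_of_nonpos hy hv, ?_⟩, ?_⟩
        · rw [div_le_one_of_neg hvneg]; exact h1
        · show y () - y () / v () * v () ∈ Set.Icc (0:ℝ) h
          rw [div_mul_cancel₀ _ hvneg.ne]
          constructor <;> linarith

lemma vol_unitSeg {h : ℝ} (hh : 0 ≤ h) : vol (unitSeg h) = h := by
  unfold vol unitSeg
  rw [volume_unit_Icc, sub_zero, ENNReal.toReal_ofReal hh]

lemma shadow_unitSeg {h : ℝ} (hh : 0 ≤ h) (v : Unit → ℝ) : shadow (unitSeg h) v = |v ()| := by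
  unfold shadow
  rw [vol_unitSeg hh, sweep_unitSeg hh]
  unfold vol
  rw [volume_unit_Icc]
  have e : h + max 0 (v ()) - min 0 (v ()) = h + |v ()| := by
    rcases le_total 0 (v ()) with hv | hv
    · rw [max_eq_right hv, min_eq_left hv, abs_of_nonneg hv]; ring
    · rw [max_eq_left hv, min_eq_right hv, abs_of_nonpos hv]; ring
  rw [e, ENNReal.toReal_ofReal (by positivity)]
  ring

lemma projBody_unitSeg {h : ℝ} (hh : 0 ≤ h) :
    projBody (unitSeg h) = {y | y () ∈ Set.Icc (-1:ℝ) 1} := by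
  ext y
  constructor
  · intro hy
    have h1 := hy (fun _ => 1)
    have h2 := hy (fun _ => -1)
    rw [shadow_unitSeg hh] at h1 h2
    simp only [Finset.univ_unique, Finset.sum_singleton, mul_one, abs_one, mul_neg, abs_neg]
      at h1 h2
    constructor
    · have e : y () = y default := rfl
      linarith
    · exact h1
  · rintro ⟨h1, h2⟩ v
    rw [shadow_unitSeg hh]
    simp only [Finset.univ_unique, Finset.sum_singleton]
    have e : y default = y () := rfl
    have e' : v default = v () := rfl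
    rw [e, e']
    have h3 : |y ()| ≤ 1 := abs_le.mpr ⟨h1, h2⟩
    calc y () * v () ≤ |y () * v ()| := le_abs_self _
      _ = |y ()| * |v ()| := abs_mul _ _
      _ ≤ 1 * |v ()| := mul_le_mul_of_nonneg_right h3 (abs_nonneg _)
      _ = |v ()| := one_mul _

lemma pettyRatio_unitSeg {h : ℝ} (hh : 0 ≤ h) : pettyRatio (unitSeg h) = 2 := by
  unfold pettyRatio
  rw [projBody_unitSeg hh]
  unfold vol
  rw [volume_unit_Icc]
  simp only [Fintype.card_unit, Nat.sub_self, pow_zero, div_one]
  rw [ENNReal.toReal_ofReal (by norm_num)]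
  norm_num

lemma vol_pos_of_interior {M : Set (ι → ℝ)} (hMc : IsCompact M) (hi : (interior M).Nonempty) :
    0 < vol M :=
  ENNReal.toReal_pos (Measure.measure_pos_of_nonempty_interior _ hi).ne' hMc.measure_lt_top.ne

end

end Vale.Agent.Helper22
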