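import Vale.Agent.Helper22.Petty

/-!
The planar case of Petty's inequality for the shadow-function projection body:
`vol (Π M) ≥ 4 vol M` for every compact convex `M` in the plane.
-/

namespace Vale.Agent.Helper22

open MeasureTheory Set
open scoped ENNReal Pointwise

noncomputable section

lemma fin2_eta (f : Fin 2 → ℝ) : ![f 0, f 1] = f := by
  funext i
  fin_cases i <;> rfl

lemma volume_fin2_slice0 {S : Set (Fin 2 → ℝ)} (hS : MeasurableSet S) :
    volume S = ∫⁻ t : ℝ, volume {x : ℝ | ![t, x] ∈ S} := by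
  have he := MeasurePreserving.symm _ (volume_preserving_finTwoArrow ℝ)
  rw [← he.measure_preimage hS.nullMeasurableSet, Measure.volume_eq_prod,
    Measure.prod_apply (he.measurable hS)]
  rfl

lemma volume_fin2_slice1 {S : Set (Fin 2 → ℝ)} (hS : MeasurableSet S) :
    volume S = ∫⁻ y : ℝ, volume {x : ℝ | ![x, y] ∈ S} := by
  have he := MeasurePreserving.symm _ (volume_preserving_finTwoArrow ℝ)
  rw [← he.measure_preimage hS.nullMeasurableSet, Measure.volume_eq_prod,
    Measure.prod_apply_symm (he.measurable hS)]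
  rfl

lemma measurable_slice1 {S : Set (Fin 2 → ℝ)} (hS : MeasurableSet S) :
    Measurable (fun y : ℝ => volume {x : ℝ | ![x, y] ∈ S}) := by
  have he := MeasurePreserving.symm _ (volume_preserving_finTwoArrow ℝ)
  exact measurable_measure_prodMk_right (he.measurable hS)

lemma isClosed_projBody {ι : Type*} [Fintype ι] (K : Set (ι → ℝ)) : IsClosed (projBody K) := by
  have e : projBody K = ⋂ u : ι → ℝ, {x | ∑ i, x i * u i ≤ shadow K u} := by
    ext x
    simp [projBody]
  rw [e]
  refine isClosed_iInter fun u => isClosed_le ?_ continuous_const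
  fun_prop

lemma shadow_ge_det {M : Set (Fin 2 → ℝ)} (hMc : IsCompact M) (hM : Convex ℝ M)
    {a b : Fin 2 → ℝ} (ha : a ∈ M) (hb : b ∈ M) (u : Fin 2 → ℝ) :
    (a 0 - b 0) * u 1 - (a 1 - b 1) * u 0 ≤ shadow M u := by
  by_contra hlt
  rw [not_le] at hlt
  have hs := shadow_nonneg hMc u
  have hv : 0 ≤ vol M := ENNReal.toReal_nonneg
  have key : ∀ c : ℝ, 0 < c →
      c * ((a 0 - b 0) * u 1 - (a 1 - b 1) * u 0) ≤ vol M + c * shadow M u := by
    intro c hc
    have hdet : (!![a 0 - b 0, c * u 0; a 1 - b 1, c * u 1] : Matrix (Fin 2) (Fin 2) ℝ).det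
        = c * ((a 0 - b 0) * u 1 - (a 1 - b 1) * u 0) := by
      rw [Matrix.det_fin_two_of]; ring
    have himg := Measure.addHaar_image_linearMap (volume : Measure (Fin 2 → ℝ))
      (Matrix.toLin' (!![a 0 - b 0, c * u 0; a 1 - b 1, c * u 1] : Matrix (Fin 2) (Fin 2) ℝ))
      (Set.Icc (0 : Fin 2 → ℝ) 1)
    rw [LinearMap.det_toLin', hdet, Real.volume_Icc_pi] at himg
    have hsub : (Matrix.toLin' (!![a 0 - b 0, c * u 0; a 1 - b 1, c * u 1] :
        Matrix (Fin 2) (Fin 2) ℝ)) '' Set.Icc (0 : Fin 2 → ℝ) 1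
        ⊆ (fun x => x + b) ⁻¹' sweepR M u c := by
      rintro _ ⟨p, ⟨hp0, hp1⟩, rfl⟩
      have hp00 : 0 ≤ p 0 := hp0 0
      have hp01 : 0 ≤ p 1 := hp0 1
      have hp10 : p 0 ≤ 1 := hp1 0
      have hp11 : p 1 ≤ 1 := hp1 1
      refine ⟨c * p 1, ⟨mul_nonneg hc.le hp01, by nlinarith⟩, ?_⟩
      have e : Matrix.toLin' (!![a 0 - b 0, c * u 0; a 1 - b 1, c * u 1] :
          Matrix (Fin 2) (Fin 2) ℝ) p + b - (c * p 1) • u = (1 - p 0) • b + p 0 • a := by
        have hT0 : (Matrix.toLin' (!![a 0 - b 0, c * u 0; a 1 - b 1, c * u 1] :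
            Matrix (Fin 2) (Fin 2) ℝ) p) 0 = (a 0 - b 0) * p 0 + c * u 0 * p 1 := by
          simp [Matrix.toLin'_apply, Matrix.mulVec, dotProduct, Fin.sum_univ_two]
        have hT1 : (Matrix.toLin' (!![a 0 - b 0, c * u 0; a 1 - b 1, c * u 1] :
            Matrix (Fin 2) (Fin 2) ℝ) p) 1 = (a 1 - b 1) * p 0 + c * u 1 * p 1 := by
          simp [Matrix.toLin'_apply, Matrix.mulVec, dotProduct, Fin.sum_univ_two]
        have e0 : (Matrix.toLin' (!![a 0 - b 0, c * u 0; a 1 - b 1, c * u 1] :
            Matrix (Fin 2) (Fin 2) ℝ) p + b - (c * p 1) • u) 0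
            = ((1 - p 0) • b + p 0 • a) 0 := by
          show (Matrix.toLin' (!![a 0 - b 0, c * u 0; a 1 - b 1, c * u 1] :
            Matrix (Fin 2) (Fin 2) ℝ) p) 0 + b 0 - (c * p 1) * u 0
            = (1 - p 0) * b 0 + p 0 * a 0
          rw [hT0]
          ring
        have e1 : (Matrix.toLin' (!![a 0 - b 0, c * u 0; a 1 - b 1, c * u 1] :
            Matrix (Fin 2) (Fin 2) ℝ) p + b - (c * p 1) • u) 1
            = ((1 - p 0) • b + p 0 • a) 1 := by
          show (Matrix.toLin' (!![a 0 - b 0, c * u 0; a 1 - b 1, c * u 1] :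
            Matrix (Fin 2) (Fin 2) ℝ) p) 1 + b 1 - (c * p 1) * u 1
            = (1 - p 0) * b 1 + p 0 * a 1
          rw [hT1]
          ring
        funext i
        fin_cases i
        · exact e0
        · exact e1
      show Matrix.toLin' (!![a 0 - b 0, c * u 0; a 1 - b 1, c * u 1] :
          Matrix (Fin 2) (Fin 2) ℝ) p + b - (c * p 1) • u ∈ M
      rw [e]
      exact hM hb ha (by linarith) hp00 (by ring)
    have hle := measure_mono (μ := (volume : Measure (Fin 2 → ℝ))) hsub
    rw [himg, measure_preimage_add_right, volume_sweepR hMc hM u hc.le] at hle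
    simp only [Pi.one_apply, Pi.zero_apply, sub_zero, ENNReal.ofReal_one, Finset.prod_const_one,
      mul_one] at hle
    have h2 := (ENNReal.ofReal_le_ofReal_iff (by positivity)).mp hle
    exact (le_abs_self _).trans h2
  have hpos : 0 < (a 0 - b 0) * u 1 - (a 1 - b 1) * u 0 - shadow M u := by linarith
  have h := key ((vol M + 1) / ((a 0 - b 0) * u 1 - (a 1 - b 1) * u 0 - shadow M u))
    (by positivity)
  have e : (vol M + 1) / ((a 0 - b 0) * u 1 - (a 1 - b 1) * u 0 - shadow M u)
      * ((a 0 - b 0) * u 1 - (a 1 - b 1) * u 0)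
      - (vol M + 1) / ((a 0 - b 0) * u 1 - (a 1 - b 1) * u 0 - shadow M u) * shadow M u
      = vol M + 1 := by
    field_simp
  linarith

lemma slice_sub_mem_projBody {M : Set (Fin 2 → ℝ)} (hMc : IsCompact M) (hM : Convex ℝ M)
    {x x' y₁ y₂ : ℝ} (h1 : ![x, y₁] ∈ M) (h2 : ![x', y₂] ∈ M) :
    ![y₁ - y₂, x' - x] ∈ projBody M := by
  intro u
  have h := shadow_ge_det hMc hM h2 h1 u
  simp only [Fin.sum_univ_two, Matrix.cons_val_zero, Matrix.cons_val_one] at h ⊢
  linarith

lemma volume_diff_ge {A B : Set ℝ} (hA : IsCompact A) (hB : IsCompact B) (hAne : A.Nonempty)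
    (hBne : B.Nonempty) (S : Set ℝ) (hS : ∀ x ∈ A, ∀ x' ∈ B, x' - x ∈ S) :
    volume A + volume B ≤ volume S := by
  have hα : sInf A ∈ A := hA.sInf_mem hAne
  have hβ : sInf B ∈ B := hB.sInf_mem hBne
  have hP1 : (fun z => z + sInf A) ⁻¹' B ⊆ S := by
    intro z hz
    have h := hS _ hα _ hz
    simpa using h
  have hP2 : (fun z => sInf B - z) ⁻¹' A ⊆ S := by
    intro z hz
    have h := hS _ hz _ hβ
    simpa using h
  have hint : (fun z => z + sInf A) ⁻¹' B ∩ (fun z => sInf B - z) ⁻¹' A ⊆ {sInf B - sInf A} := by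
    rintro z ⟨h1, h2⟩
    have h3 := csInf_le hB.bddBelow h1
    have h4 := csInf_le hA.bddBelow h2
    show z = sInf B - sInf A
    linarith
  have hm2 : MeasurableSet ((fun z => sInf B - z) ⁻¹' A) :=
    hA.isClosed.measurableSet.preimage (by fun_prop)
  have h := measure_union_add_inter (μ := (volume : Measure ℝ)) ((fun z => z + sInf A) ⁻¹' B) hm2
  have h0 : volume ((fun z => z + sInf A) ⁻¹' B ∩ (fun z => sInf B - z) ⁻¹' A) = 0 :=
    measure_mono_null hint (by simp)
  have h5 : volume ((fun z => sInf B - z) ⁻¹' A) = volume A :=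
    (Measure.measurePreserving_sub_left volume (sInf B)).measure_preimage
      hA.isClosed.measurableSet.nullMeasurableSet
  rw [h0, add_zero, measure_preimage_add_right, h5] at h
  calc volume A + volume B = volume ((fun z => z + sInf A) ⁻¹' B ∪ (fun z => sInf B - z) ⁻¹' A) := by
        rw [h, add_comm]
    _ ≤ volume S := measure_mono (union_subset hP1 hP2)

lemma lintegral_comp_affine (l : ℝ → ℝ≥0∞) (hl : Measurable l) (m a : ℝ) (ha : a ≠ 0) :
    ∫⁻ t, l (m + a * t) = ENNReal.ofReal |a⁻¹| * ∫⁻ y, l y := by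
  have hf : Measurable (fun s => l (m + s)) := hl.comp (measurable_const_add m)
  have h1 : ∫⁻ t, l (m + a * t) = ∫⁻ s, l (m + s) ∂(Measure.map (a * ·) volume) :=
    (lintegral_map hf (measurable_const_mul a)).symm
  rw [h1, Real.map_volume_mul_left ha, lintegral_smul_measure, lintegral_add_left_eq_self]
  rfl

lemma isCompact_slice {M : Set (Fin 2 → ℝ)} (hMc : IsCompact M) (y : ℝ) :
    IsCompact {x : ℝ | ![x, y] ∈ M} := by
  have hcl : IsClosed {x : ℝ | ![x, y] ∈ M} := by
    refine hMc.isClosed.preimage ?_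
    refine continuous_pi fun i => ?_
    fin_cases i
    · exact continuous_id
    · exact continuous_const
  have hsub : {x : ℝ | ![x, y] ∈ M} ⊆ (fun f : Fin 2 → ℝ => f 0) '' M := by
    intro x hx
    exact ⟨_, hx, rfl⟩
  exact (hMc.image (continuous_apply 0)).of_isClosed_subset hcl hsub

theorem four_mul_volume_le_projBody {M : Set (Fin 2 → ℝ)} (hMc : IsCompact M)
    (hM : Convex ℝ M) (hne : M.Nonempty) : 4 * volume M ≤ volume (projBody M) := by
  have hMm : MeasurableSet M := hMc.isClosed.measurableSet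
  -- the set of heights
  have hHc : IsCompact ((fun f : Fin 2 → ℝ => f 1) '' M) := hMc.image (continuous_apply 1)
  have hHconv : Convex ℝ ((fun f : Fin 2 → ℝ => f 1) '' M) :=
    hM.linear_image (LinearMap.proj 1)
  have hHne : ((fun f : Fin 2 → ℝ => f 1) '' M).Nonempty := hne.image _
  have hH := eq_Icc_of_connected_compact ⟨hHne, hHconv.isPreconnected⟩ hHc
  set c := sInf ((fun f : Fin 2 → ℝ => f 1) '' M) with hc
  set d := sSup ((fun f : Fin 2 → ℝ => f 1) '' M) with hd
  have hmem : ∀ y : ℝ, ({x : ℝ | ![x, y] ∈ M}).Nonempty ↔ y ∈ Set.Icc c d := by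
    intro y
    rw [← hH]
    constructor
    · rintro ⟨x, hx⟩
      exact ⟨_, hx, rfl⟩
    · rintro ⟨f, hf, rfl⟩
      exact ⟨f 0, by
        show ![f 0, f 1] ∈ M
        rw [fin2_eta]; exact hf⟩
  have key : ∀ t : ℝ, volume {x : ℝ | ![x, (c + d) / 2 + 1 / 2 * t] ∈ M}
      + volume {x : ℝ | ![x, (c + d) / 2 + -(1 / 2) * t] ∈ M}
      ≤ volume {x : ℝ | ![t, x] ∈ projBody M} := by
    intro t
    by_cases h1 : (c + d) / 2 + 1 / 2 * t ∈ Set.Icc c d
    · have h2 : (c + d) / 2 + -(1 / 2) * t ∈ Set.Icc c d := by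
        obtain ⟨h1a, h1b⟩ := h1
        constructor <;> linarith
      refine volume_diff_ge (isCompact_slice hMc _) (isCompact_slice hMc _)
        ((hmem _).mpr h1) ((hmem _).mpr h2) _ ?_
      intro x hx x' hx'
      have h3 := slice_sub_mem_projBody hMc hM hx hx'
      have e : (c + d) / 2 + 1 / 2 * t - ((c + d) / 2 + -(1 / 2) * t) = t := by ring
      rw [e] at h3
      exact h3
    · have h2 : (c + d) / 2 + -(1 / 2) * t ∉ Set.Icc c d := by
        intro h2
        apply h1
        obtain ⟨h2a, h2b⟩ := h2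
        constructor <;> linarith
      have e1 : {x : ℝ | ![x, (c + d) / 2 + 1 / 2 * t] ∈ M} = ∅ := by
        rw [← Set.not_nonempty_iff_eq_empty, hmem]; exact h1
      have e2 : {x : ℝ | ![x, (c + d) / 2 + -(1 / 2) * t] ∈ M} = ∅ := by
        rw [← Set.not_nonempty_iff_eq_empty, hmem]; exact h2
      rw [e1, e2]
      simp
  have hl := measurable_slice1 hMm
  have hpm : MeasurableSet (projBody M) := (isClosed_projBody M).measurableSet
  rw [volume_fin2_slice0 hpm]
  have i1 := lintegral_comp_affine _ hl ((c + d) / 2) (1 / 2) (by norm_num)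
  have i2 := lintegral_comp_affine _ hl ((c + d) / 2) (-(1 / 2)) (by norm_num)
  have hab1 : |((1:ℝ) / 2)⁻¹| = 2 := by norm_num
  have hab2 : |(-((1:ℝ) / 2))⁻¹| = 2 := by
    rw [inv_neg, abs_neg]; norm_num
  rw [hab1, ← volume_fin2_slice1 hMm] at i1
  rw [hab2, ← volume_fin2_slice1 hMm] at i2
  have hsum : ∫⁻ t : ℝ, (volume {x : ℝ | ![x, (c + d) / 2 + 1 / 2 * t] ∈ M}
      + volume {x : ℝ | ![x, (c + d) / 2 + -(1 / 2) * t] ∈ M}) = 4 * volume M := by
    rw [lintegral_add_left, i1, i2]
    · have e4 : (4 : ℝ≥0∞) = ENNReal.ofReal 2 + ENNReal.ofReal 2 := by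
        rw [← ENNReal.ofReal_add (by norm_num) (by norm_num)]
        norm_num
      rw [e4, add_mul]
    · exact hl.comp (by fun_prop)
  rw [← hsum]
  exact lintegral_mono key

theorem four_le_pettyRatio_fin2 {M : Set (Fin 2 → ℝ)} (hMc : IsCompact M)
    (hM : Convex ℝ M) (hi : (interior M).Nonempty) : 4 ≤ pettyRatio M := by
  have hne : M.Nonempty := hi.mono interior_subset
  have h := four_mul_volume_le_projBody hMc hM hne
  have hv := vol_pos_of_interior hMc hi
  unfold pettyRatio
  simp only [Fintype.card_fin, Nat.add_one_sub_one, pow_one]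
  rw [le_div_iff₀ hv]
  unfold vol
  by_cases htop : volume (projBody M) = ⊤
  · exfalso
    have hb : Bornology.IsBounded (projBody M) := by
      rw [Metric.isBounded_iff_subset_closedBall 0]
      refine ⟨max (shadow M ![1, 0] + shadow M ![-1, 0]) (shadow M ![0, 1] + shadow M ![0, -1]), ?_⟩
      intro x hx
      rw [mem_closedBall_zero_iff, pi_norm_le_iff_of_nonneg
        (le_max_of_le_left (add_nonneg (shadow_nonneg hMc _) (shadow_nonneg hMc _)))]
      intro i
      have q1 := hx ![1, 0]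
      have q2 := hx ![-1, 0]
      have q3 := hx ![0, 1]
      have q4 := hx ![0, -1]
      simp only [Fin.sum_univ_two, Matrix.cons_val_zero, Matrix.cons_val_one, mul_one, mul_zero,
        add_zero, zero_add, mul_neg] at q1 q2 q3 q4
      have s1 := shadow_nonneg hMc ![1, 0]
      have s2 := shadow_nonneg hMc ![-1, 0]
      have s3 := shadow_nonneg hMc ![0, 1]
      have s4 := shadow_nonneg hMc ![0, -1]
      rw [Real.norm_eq_abs, abs_le]
      fin_cases i
      · constructor
        · have := le_max_left (shadow M ![1, 0] + shadow M ![-1, 0])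
            (shadow M ![0, 1] + shadow M ![0, -1])
          show -max _ _ ≤ x 0
          linarith
        · have := le_max_left (shadow M ![1, 0] + shadow M ![-1, 0])
            (shadow M ![0, 1] + shadow M ![0, -1])
          show x 0 ≤ max _ _
          linarith
      · constructor
        · have := le_max_right (shadow M ![1, 0] + shadow M ![-1, 0])
            (shadow M ![0, 1] + shadow M ![0, -1])
          show -max _ _ ≤ x 1
          linarith
        · have := le_max_right (shadow M ![1, 0] + shadow M ![-1, 0])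
            (shadow M ![0, 1] + shadow M ![0, -1])
          show x 1 ≤ max _ _
          linarith
    exact hb.measure_lt_top.ne htop
  · have h' := ENNReal.toReal_mono htop h
    rw [ENNReal.toReal_mul] at h'
    simpa using h'

end

end Vale.Agent.Helper22
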