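import Vale.Agent.Helper22.AffImage

/-!
Decomposition of `conv (Δ ∪ {w})`, for the standard simplex `Δ` of `Fin n → ℝ` and a point `w`
with `∑ w_i ≤ 1`, into `Δ` and one linear image of `Δ` for each negative coordinate of `w`;
volume and moments of this set (P254).
-/

namespace Vale.Agent.Helper22

open MeasureTheory Set

noncomputable section

variable {n : ℕ}

/-- The identity matrix with column `a` replaced by `w`. -/
def repCol (w : Fin n → ℝ) (a : Fin n) : Matrix (Fin n) (Fin n) ℝ :=
  (1 : Matrix (Fin n) (Fin n) ℝ).updateCol a w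

lemma det_repCol (w : Fin n → ℝ) (a : Fin n) : (repCol w a).det = w a := by
  unfold repCol
  rw [← Matrix.cramer_apply, Matrix.cramer_one]
  rfl

lemma repCol_apply (w : Fin n → ℝ) (a i k : Fin n) :
    repCol w a i k = if k = a then w i else if i = k then 1 else 0 := by
  simp [repCol, Matrix.updateCol_apply, Matrix.one_apply]

lemma sum_repCol_mul (w : Fin n → ℝ) (a : Fin n) (t : Fin n → ℝ) (i : Fin n) :
    ∑ k, repCol w a i k * t k = (if i = a then 0 else t i) + t a * w i := by
  rw [← Finset.add_sum_erase _ _ (Finset.mem_univ a)]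
  have h1 : repCol w a i a * t a = t a * w i := by
    rw [repCol_apply, if_pos rfl]; ring
  have h2 : ∑ k ∈ Finset.univ.erase a, repCol w a i k * t k = if i = a then 0 else t i := by
    have h3 : ∀ k ∈ Finset.univ.erase a, repCol w a i k * t k = if i = k then t i else 0 := by
      intro k hk
      rw [repCol_apply, if_neg (Finset.ne_of_mem_erase hk)]
      by_cases hik : i = k
      · rw [if_pos hik, if_pos hik, hik]; ring
      · rw [if_neg hik, if_neg hik]; ring
    rw [Finset.sum_congr rfl h3, Finset.sum_ite_eq]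
    by_cases hia : i = a
    · rw [if_neg (by simp [hia]), if_pos hia]
    · rw [if_pos (by simp [hia]), if_neg hia]
  rw [h1, h2]; ring

lemma affMap_repCol (w : Fin n → ℝ) (a : Fin n) (t : Fin n → ℝ) (i : Fin n) :
    affMap 0 (repCol w a) t i = (if i = a then 0 else t i) + t a * w i := by
  rw [affMap_apply, sum_repCol_mul]; simp

/-- The piece of `conv (Δ ∪ {w})` beyond the facet `x_a = 0` of the standard simplex. -/
def piece (w : Fin n → ℝ) (a : Fin n) : Set (Fin n → ℝ) :=
  affMap 0 (repCol w a) '' stdSimp (Fin n)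

/-- `conv (Δ ∪ {w})` written with explicit weights. -/
def Kset (w : Fin n → ℝ) : Set (Fin n → ℝ) :=
  {x | ∃ y : Fin n → ℝ, ∃ α : ℝ, (∀ i, 0 ≤ y i) ∧ 0 ≤ α ∧ ∑ i, y i + α ≤ 1 ∧ x = y + α • w}

lemma stdSimp_subset_Kset (w : Fin n → ℝ) : stdSimp (Fin n) ⊆ Kset w := fun x hx =>
  ⟨x, 0, hx.1, le_refl _, by simpa using hx.2, by simp⟩

lemma piece_subset_Kset (w : Fin n → ℝ) (a : Fin n) : piece w a ⊆ Kset w := by
  rintro x ⟨t, ht, rfl⟩
  refine ⟨fun i => if i = a then 0 else t i, t a, fun i => ?_, ht.1 a, ?_, ?_⟩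
  · by_cases hia : i = a
    · simp [hia]
    · simp only [if_neg hia]; exact ht.1 i
  · have h : ∑ i, (if i = a then 0 else t i) + t a = ∑ i, t i := by
      rw [← Finset.add_sum_erase _ t (Finset.mem_univ a),
        ← Finset.add_sum_erase _ (fun i => if i = a then 0 else t i) (Finset.mem_univ a)]
      simp only [if_true, zero_add]
      rw [add_comm]
      congr 1
      exact Finset.sum_congr rfl fun i hi => by rw [if_neg (Finset.ne_of_mem_erase hi)]
    rw [h]
    exact ht.2
  · funext i
    rw [affMap_repCol]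
    simp [smul_eq_mul]

lemma Kset_subset (w : Fin n → ℝ) (hw : ∑ i, w i ≤ 1) :
    Kset w ⊆ stdSimp (Fin n) ∪ ⋃ a ∈ {a : Fin n | w a < 0}, piece w a := by
  rintro x ⟨y, α, hy, hα, hsum, rfl⟩
  by_cases hneg : ∀ a, w a < 0 → 0 ≤ (y + α • w) a
  · left
    refine ⟨fun i => ?_, ?_⟩
    · by_cases hwi : w i < 0
      · exact hneg i hwi
      · simp only [Pi.add_apply, Pi.smul_apply, smul_eq_mul]
        have := mul_nonneg hα (not_lt.1 hwi)
        linarith [hy i]
    · simp only [Pi.add_apply, Pi.smul_apply, smul_eq_mul]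
      rw [Finset.sum_add_distrib, ← Finset.mul_sum]
      nlinarith [mul_le_mul_of_nonneg_left hw hα]
  · right
    push Not at hneg
    obtain ⟨a₀, ha₀, hxa₀⟩ := hneg
    set x := y + α • w with hx
    have hxi : ∀ i, x i = y i + α * w i := fun i => by simp [hx]
    have hne : (Finset.univ.filter fun a => w a < 0).Nonempty := ⟨a₀, by simp [ha₀]⟩
    obtain ⟨a, ha, hmax⟩ := Finset.exists_max_image _ (fun b => x b / w b) hne
    have hwa : w a < 0 := (Finset.mem_filter.1 ha).2
    have hta_pos : 0 < x a / w a :=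
      lt_of_lt_of_le (div_pos_of_neg_of_neg hxa₀ ha₀) (hmax a₀ (by simp [ha₀]))
    set τ := x a / w a with hτ
    have hτα : τ ≤ α := by
      rw [hτ, div_le_iff_of_neg hwa]
      linarith [hy a, hxi a]
    have hxa : x a = τ * w a := by
      rw [hτ, div_mul_cancel₀ _ hwa.ne]
    refine mem_iUnion₂.2 ⟨a, hwa, ?_⟩
    refine ⟨fun i => if i = a then τ else x i - τ * w i, ⟨fun i => ?_, ?_⟩, ?_⟩
    · by_cases hia : i = a
      · simp only [if_pos hia]; exact hta_pos.le
      · simp only [if_neg hia]
        by_cases hwi : w i < 0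
        · have h1 := hmax i (by simp [hwi])
          rw [div_le_iff_of_neg hwi] at h1
          linarith
        · have h2 : τ * w i ≤ α * w i := mul_le_mul_of_nonneg_right hτα (not_lt.1 hwi)
          linarith [hy i, hxi i]
    · have hs : ∑ i, (if i = a then τ else x i - τ * w i) = ∑ i, x i + τ * (1 - ∑ i, w i) := by
        have h1 : ∀ i, (if i = a then τ else x i - τ * w i) =
            (x i - τ * w i) + (if i = a then τ else 0) := by
          intro i
          by_cases hia : i = a
          · rw [if_pos hia, if_pos hia, hia, hxa]; ring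
          · rw [if_neg hia, if_neg hia]; ring
        simp_rw [h1]
        rw [Finset.sum_add_distrib, Finset.sum_sub_distrib, ← Finset.mul_sum, Finset.sum_ite_eq']
        simp only [Finset.mem_univ, if_true]
        ring
      rw [hs]
      have hsx : ∑ i, x i = ∑ i, y i + α * ∑ i, w i := by
        simp_rw [hxi]
        rw [Finset.sum_add_distrib, ← Finset.mul_sum]
      have h3 : τ * (1 - ∑ i, w i) ≤ α * (1 - ∑ i, w i) :=
        mul_le_mul_of_nonneg_right hτα (by linarith)
      nlinarith
    · funext i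
      rw [affMap_repCol]
      by_cases hia : i = a
      · simp only [if_pos hia, if_true]
        rw [hia, hxa]; ring
      · simp only [if_neg hia, if_true]
        ring

lemma piece_coord_nonpos (w : Fin n → ℝ) (a : Fin n) (hwa : w a < 0) {x : Fin n → ℝ}
    (hx : x ∈ piece w a) : x a ≤ 0 := by
  obtain ⟨t, ht, rfl⟩ := hx
  rw [affMap_repCol, if_pos rfl, zero_add]
  exact mul_nonpos_of_nonneg_of_nonpos (ht.1 a) hwa.le

lemma piece_ratio (w : Fin n → ℝ) {a b : Fin n} (hab : a ≠ b) (hwa : w a < 0)
    {x : Fin n → ℝ} (hx : x ∈ piece w a) : w a * x b ≤ w b * x a := by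
  obtain ⟨t, ht, rfl⟩ := hx
  rw [affMap_repCol, affMap_repCol, if_pos rfl, if_neg (Ne.symm hab)]
  nlinarith [mul_nonneg (neg_nonneg.2 hwa.le) (ht.1 b)]

lemma null_coord (a : Fin n) : volume {x : Fin n → ℝ | x a = 0} = 0 := by
  rw [volume_pi]
  exact Measure.pi_hyperplane (fun _ => volume) a 0

lemma null_ratio (w : Fin n → ℝ) {a b : Fin n} (hab : a ≠ b) (hwb : w b ≠ 0) :
    volume {x : Fin n → ℝ | w a * x b = w b * x a} = 0 := by
  let φ : (Fin n → ℝ) →ₗ[ℝ] ℝ :=
    w a • (LinearMap.proj b : (Fin n → ℝ) →ₗ[ℝ] ℝ) - w b • (LinearMap.proj a : (Fin n → ℝ) →ₗ[ℝ] ℝ)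
  have hset : {x : Fin n → ℝ | w a * x b = w b * x a} = (LinearMap.ker φ : Set (Fin n → ℝ)) := by
    ext x
    simp [φ, sub_eq_zero]
  rw [hset]
  apply Measure.addHaar_submodule
  intro htop
  have h1 : Pi.single a (1:ℝ) ∈ LinearMap.ker φ := by
    rw [htop]; trivial
  have h2 : φ (Pi.single a (1:ℝ)) = 0 := h1
  simp [φ, hab] at h2
  exact hwb h2

/-- The pieces of `conv (Δ ∪ {w})`, indexed by `none` (the simplex itself) and the coordinates. -/
def pc (w : Fin n → ℝ) : Option (Fin n) → Set (Fin n → ℝ)
  | none => stdSimp (Fin n)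
  | some a => if w a < 0 then piece w a else ∅

lemma Kset_eq_iUnion (w : Fin n → ℝ) (hw : ∑ i, w i ≤ 1) : Kset w = ⋃ o, pc w o := by
  apply Subset.antisymm
  · intro x hx
    rcases Kset_subset w hw hx with h | h
    · exact mem_iUnion.2 ⟨none, h⟩
    · obtain ⟨a, ha, hxa⟩ := mem_iUnion₂.1 h
      refine mem_iUnion.2 ⟨some a, ?_⟩
      have ha' : w a < 0 := ha
      simp only [pc, if_pos ha']
      exact hxa
  · intro x hx
    obtain ⟨o, ho⟩ := mem_iUnion.1 hx
    cases o with
    | none => exact stdSimp_subset_Kset w ho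
    | some a =>
      simp only [pc] at ho
      by_cases h : w a < 0
      · rw [if_pos h] at ho
        exact piece_subset_Kset w a ho
      · rw [if_neg h] at ho
        exact absurd ho (Set.notMem_empty _)

lemma isCompact_piece (w : Fin n → ℝ) (a : Fin n) : IsCompact (piece w a) :=
  (isCompact_stdSimp n).image (continuous_affMap 0 _)

lemma isCompact_pc (w : Fin n → ℝ) (o : Option (Fin n)) : IsCompact (pc w o) := by
  cases o with
  | none => exact isCompact_stdSimp n
  | some a =>
    simp only [pc]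
    by_cases h : w a < 0
    · rw [if_pos h]; exact isCompact_piece w a
    · rw [if_neg h]; exact isCompact_empty

lemma isCompact_Kset (w : Fin n → ℝ) (hw : ∑ i, w i ≤ 1) : IsCompact (Kset w) := by
  rw [Kset_eq_iUnion w hw]
  exact isCompact_iUnion fun o => isCompact_pc w o

lemma aedisjoint_pc (w : Fin n → ℝ) : Pairwise (Function.onFun (AEDisjoint volume) (pc w)) := by
  have key : ∀ a : Fin n, volume (stdSimp (Fin n) ∩ pc w (some a)) = 0 := by
    intro a
    simp only [pc]
    by_cases h : w a < 0
    · rw [if_pos h]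
      apply measure_mono_null _ (null_coord a)
      rintro x ⟨hx1, hx2⟩
      exact le_antisymm (piece_coord_nonpos w a h hx2) (hx1.1 a)
    · rw [if_neg h]; simp
  have key2 : ∀ a b : Fin n, a ≠ b → volume (pc w (some a) ∩ pc w (some b)) = 0 := by
    intro a b hab
    simp only [pc]
    by_cases ha : w a < 0
    · by_cases hb : w b < 0
      · rw [if_pos ha, if_pos hb]
        apply measure_mono_null _ (null_ratio w hab hb.ne)
        rintro x ⟨hx1, hx2⟩
        exact le_antisymm (piece_ratio w hab ha hx1) (piece_ratio w hab.symm hb hx2)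
      · rw [if_neg hb]; simp
    · rw [if_neg ha]; simp
  intro o o' hne
  show volume (pc w o ∩ pc w o') = 0
  cases o with
  | none =>
    cases o' with
    | none => exact absurd rfl hne
    | some b => exact key b
  | some a =>
    cases o' with
    | none => rw [inter_comm]; exact key a
    | some b => exact key2 a b (fun h => hne (by rw [h]))

/-- The negative part of the coordinates of `w`. -/
def wm (w : Fin n → ℝ) (a : Fin n) : ℝ := max (-(w a)) 0

lemma wm_nonneg (w : Fin n → ℝ) (a : Fin n) : 0 ≤ wm w a := le_max_right _ _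

lemma integral_Kset (w : Fin n → ℝ) (hw : ∑ i, w i ≤ 1) {G : (Fin n → ℝ) → ℝ}
    (hG : Continuous G) :
    ∫ x in Kset w, G x = (∫ x in stdSimp (Fin n), G x) +
      ∑ a, wm w a * ∫ t in stdSimp (Fin n), G (affMap 0 (repCol w a) t) := by
  have hint : IntegrableOn G (⋃ o, pc w o) := by
    rw [← Kset_eq_iUnion w hw]
    exact intOn (isCompact_Kset w hw) hG
  rw [Kset_eq_iUnion w hw, integral_iUnion_ae
    (fun o => (isCompact_pc w o).measurableSet.nullMeasurableSet) (aedisjoint_pc w) hint,
    tsum_fintype (fun o : Option (Fin n) => ∫ x in pc w o, G x),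
    Fintype.sum_option (fun o : Option (Fin n) => ∫ x in pc w o, G x)]
  have h0 : ∫ x in pc w none, G x = ∫ x in stdSimp (Fin n), G x := rfl
  rw [h0]
  refine congrArg (fun z => (∫ x in stdSimp (Fin n), G x) + z)
    (Finset.sum_congr rfl fun a _ => ?_)
  simp only [pc, wm]
  by_cases h : w a < 0
  · rw [if_pos h]
    have hd : (repCol w a).det ≠ 0 := by rw [det_repCol]; exact h.ne
    show ∫ x in piece w a, G x = _
    unfold piece
    rw [integral_affImage 0 (repCol w a) hd measurableSet_stdSimp G, det_repCol,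
      abs_of_neg h, max_eq_left (by linarith)]
  · rw [if_neg h, max_eq_right (by linarith)]
    simp

end

end Vale.Agent.Helper22
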