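import Vale.Agent.Helper22.PlaceMoments

/-!
Covariance matrix and `det (Cov) / vol^2` of `conv (Δ ∪ {w})` for `∑ w_i ≤ 1` (P254): the
covariance is a multiple of the identity plus a rank-three term, whose determinant is computed by
the Sylvester determinant identity.
-/

namespace Vale.Agent.Helper22

open MeasureTheory Set

noncomputable section

variable {n : ℕ}

/-- `∑ w_i`. -/
def sg (w : Fin n → ℝ) : ℝ := ∑ i, w i

/-- `∑ w_i^2`. -/
def sA (w : Fin n → ℝ) : ℝ := ∑ i, w i * w i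

/-- `∑ (negative part of w_i)^2`. -/
def sB (w : Fin n → ℝ) : ℝ := ∑ i, wm w i * wm w i

lemma w_mul_wm (w : Fin n → ℝ) (i : Fin n) : w i * wm w i = -(wm w i * wm w i) := by
  unfold wm
  rcases le_total (-(w i)) 0 with h | h
  · rw [max_eq_right h]; ring
  · rw [max_eq_left h]; ring

/-- A symmetric `3 × 3` matrix with the given entries. -/
def Wmat (a b c d e f : ℝ) : Matrix (Fin 3) (Fin 3) ℝ :=
  !![a, b, c; b, d, e; c, e, f]

/-- The Gram matrix of the three vectors `1`, `w`, `w⁻`. -/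
def Gmat (N Ω σ A B : ℝ) : Matrix (Fin 3) (Fin 3) ℝ :=
  !![N, σ, Ω - 1; σ, A, -B; Ω - 1, -B, B]

lemma det_key (N Ω σ A B : ℝ) (hΩ : Ω ≠ 0) (hN : N + 1 ≠ 0) (a b c d e f : ℝ)
    (ha : a = 1 - (N + 2) / ((N + 1) * Ω ^ 2) * Ω ^ 2)
    (hb : b = (Ω - 1) / Ω - (N + 2) / ((N + 1) * Ω ^ 2) * (Ω * (Ω - 1)))
    (hc : c = -1 / Ω + (N + 2) / ((N + 1) * Ω ^ 2) * Ω)
    (hd : d = 2 * (Ω - 1) / Ω - (N + 2) / ((N + 1) * Ω ^ 2) * (Ω - 1) ^ 2)
    (he : e = -1 / Ω + (N + 2) / ((N + 1) * Ω ^ 2) * (Ω - 1))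
    (hf : f = -((N + 2) / ((N + 1) * Ω ^ 2))) :
    (1 + Wmat a b c d e f * Gmat N Ω σ A B).det =
      (Ω ^ 2 - (Ω ^ 2 - 1 - B) * (Ω ^ 2 - A + B - (1 - σ) ^ 2) / Ω ^ 2) / (N + 1) := by
  have h : (1 + Wmat a b c d e f * Gmat N Ω σ A B).det =
      (1 + (a * N + b * σ + c * (Ω - 1))) * (1 + (b * σ + d * A + e * (-B))) *
          (1 + (c * (Ω - 1) + e * (-B) + f * B)) -
        (1 + (a * N + b * σ + c * (Ω - 1))) * (b * (Ω - 1) + d * (-B) + e * B) *
          (c * σ + e * A + f * (-B)) -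
        (a * σ + b * A + c * (-B)) * (b * N + d * σ + e * (Ω - 1)) *
          (1 + (c * (Ω - 1) + e * (-B) + f * B)) +
        (a * σ + b * A + c * (-B)) * (b * (Ω - 1) + d * (-B) + e * B) *
          (c * N + e * σ + f * (Ω - 1)) +
        (a * (Ω - 1) + b * (-B) + c * B) * (b * N + d * σ + e * (Ω - 1)) *
          (c * σ + e * A + f * (-B)) -
        (a * (Ω - 1) + b * (-B) + c * B) * (1 + (b * σ + d * A + e * (-B))) *
          (c * N + e * σ + f * (Ω - 1)) := by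
    rw [Matrix.det_fin_three]
    simp [Wmat, Gmat]
    ring
  rw [h, ha, hb, hc, hd, he, hf]
  field_simp
  ring

/-- The three vectors `1`, `w`, `w⁻` as the columns of an `n × 3` matrix. -/
def Gvec (w : Fin n → ℝ) : Matrix (Fin n) (Fin 3) ℝ := Matrix.of fun i c => ![1, w i, wm w i] c

lemma Gvec_zero (w : Fin n → ℝ) (i : Fin n) : Gvec w i 0 = 1 := rfl

lemma Gvec_one (w : Fin n → ℝ) (i : Fin n) : Gvec w i 1 = w i := rfl

lemma Gvec_two (w : Fin n → ℝ) (i : Fin n) : Gvec w i 2 = wm w i := rfl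

lemma Gvec_gram (w : Fin n → ℝ) :
    (Gvec w).transpose * Gvec w = Gmat n (Om w) (sg w) (sA w) (sB w) := by
  have h02 : ∑ i, wm w i = Om w - 1 := by unfold Om; ring
  have h12 : ∑ i, w i * wm w i = -sB w := by
    simp_rw [w_mul_wm]
    rw [Finset.sum_neg_distrib]
    rfl
  have h21 : ∑ i, wm w i * w i = -sB w := by
    rw [← h12]
    exact Finset.sum_congr rfl fun i _ => mul_comm _ _
  ext c d
  fin_cases c <;> fin_cases d
  · simp [Matrix.mul_apply, Gvec_zero, Gmat]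
  · simp [Matrix.mul_apply, Gvec_zero, Gvec_one, Gmat, sg]
  · simp [Matrix.mul_apply, Gvec_zero, Gvec_two, Gmat, h02]
  · simp [Matrix.mul_apply, Gvec_zero, Gvec_one, Gmat, sg]
  · simp [Matrix.mul_apply, Gvec_one, Gmat, sA]
  · simp [Matrix.mul_apply, Gvec_one, Gvec_two, Gmat, h12]
  · simp [Matrix.mul_apply, Gvec_zero, Gvec_two, Gmat, h02]
  · simp [Matrix.mul_apply, Gvec_one, Gvec_two, Gmat, h21]
  · simp [Matrix.mul_apply, Gvec_two, Gmat, sB]

lemma cov_Kset (w : Fin n → ℝ) (hw : ∑ i, w i ≤ 1) (a b c d e f : ℝ)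
    (ha : a = 1 - ((n : ℝ) + 2) / (((n : ℝ) + 1) * Om w ^ 2) * Om w ^ 2)
    (hb : b = (Om w - 1) / Om w - ((n : ℝ) + 2) / (((n : ℝ) + 1) * Om w ^ 2) * (Om w * (Om w - 1)))
    (hc : c = -1 / Om w + ((n : ℝ) + 2) / (((n : ℝ) + 1) * Om w ^ 2) * Om w)
    (hd : d = 2 * (Om w - 1) / Om w - ((n : ℝ) + 2) / (((n : ℝ) + 1) * Om w ^ 2) * (Om w - 1) ^ 2)
    (he : e = -1 / Om w + ((n : ℝ) + 2) / (((n : ℝ) + 1) * Om w ^ 2) * (Om w - 1))
    (hf : f = -(((n : ℝ) + 2) / (((n : ℝ) + 1) * Om w ^ 2))) :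
    cov (Kset w) = (1 / (((n : ℝ) + 1) * ((n : ℝ) + 2))) •
      (1 + Gvec w * Wmat a b c d e f * (Gvec w).transpose) := by
  have hΩ0 : Om w ≠ 0 := by linarith [Om_ge_one w]
  have hn1 : ((n : ℝ) + 1) ≠ 0 := by positivity
  have hn2 : ((n : ℝ) + 2) ≠ 0 := by positivity
  have hf0 : ((n.factorial : ℕ) : ℝ) ≠ 0 := by positivity
  have f1 : (((n + 1).factorial : ℕ) : ℝ) = ((n : ℝ) + 1) * (n.factorial : ℝ) := by
    rw [Nat.factorial_succ]; push_cast; ring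
  have f2 : (((n + 2).factorial : ℕ) : ℝ) = ((n : ℝ) + 2) * (((n : ℝ) + 1) * (n.factorial : ℝ)) := by
    rw [Nat.factorial_succ, Nat.factorial_succ]; push_cast; ring
  ext i j
  have hG : (Gvec w * Wmat a b c d e f * (Gvec w).transpose) i j =
      (a + b * w j + c * wm w j) + w i * (b + d * w j + e * wm w j) +
        wm w i * (c + e * w j + f * wm w j) := by
    simp only [Matrix.mul_apply, Fin.sum_univ_three, Matrix.transpose_apply, Gvec_zero, Gvec_one,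
      Gvec_two]
    simp [Wmat]
    ring
  simp only [cov, centroid, vol_Kset w hw, mom1_Kset w hw, mom2_Kset w hw, Matrix.smul_apply,
    Matrix.add_apply, Matrix.one_apply, smul_eq_mul]
  rw [hG, ha, hb, hc, hd, he, hf, f1, f2]
  by_cases hij : i = j
  · subst hij
    simp only [if_true]
    field_simp
    ring
  · simp only [if_neg hij]
    field_simp
    ring

/-- `det (Cov) / vol^2` of `conv (Δ ∪ {w})` for `∑ w_i ≤ 1`. -/
theorem isoRatio_Kset (w : Fin n → ℝ) (hw : ∑ i, w i ≤ 1) :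
    isoRatio (Kset w) = isoRatio (stdSimp (Fin n)) *
      (1 - (1 - (1 + sB w) / Om w ^ 2) * (1 - (sA w - sB w + (1 - sg w) ^ 2) / Om w ^ 2)) := by
  have hΩ0 : Om w ≠ 0 := by linarith [Om_ge_one w]
  have hn1 : ((n : ℝ) + 1) ≠ 0 := by positivity
  have hn2 : ((n : ℝ) + 2) ≠ 0 := by positivity
  have hf0 : ((n.factorial : ℕ) : ℝ) ≠ 0 := by positivity
  have hL : isoRatio (Kset w) = (cov (Kset w)).det / vol (Kset w) ^ 2 := rfl
  rw [hL, cov_Kset w hw _ _ _ _ _ _ rfl rfl rfl rfl rfl rfl, Matrix.det_smul, Fintype.card_fin,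
    Matrix.mul_assoc, Matrix.det_one_add_mul_comm, Matrix.mul_assoc, Gvec_gram,
    det_key _ _ _ _ _ hΩ0 hn1 _ _ _ _ _ _ rfl rfl rfl rfl rfl rfl, vol_Kset w hw,
    isoRatio_stdSimp_fin]
  have hpow : (1 / (((n : ℝ) + 1) * ((n : ℝ) + 2))) ^ n =
      1 / (((n : ℝ) + 1) ^ n * ((n : ℝ) + 2) ^ n) := by
    rw [one_div, inv_pow, mul_pow, one_div]
  rw [hpow, pow_succ]
  have hX : ((n : ℝ) + 1) ^ n ≠ 0 := pow_ne_zero _ hn1
  have hY : ((n : ℝ) + 2) ^ n ≠ 0 := pow_ne_zero _ hn2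
  field_simp
  rw [pow_succ]
  ring

end

end Vale.Agent.Helper22
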