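import Vale.Agent.Helper22.PlaceDet

/-!
`det (Cov) / vol^2` of the convex hull of an `n`-simplex and one further point of `ℝ^n`, in terms
of the barycentric coordinates of the point (P254).
-/

namespace Vale.Agent.Helper22

open MeasureTheory Set

noncomputable section

variable {n : ℕ}

lemma convex_Kset (w : Fin n → ℝ) : Convex ℝ (Kset w) := by
  rintro x ⟨y, α, hy, hα, hs, rfl⟩ x' ⟨y', α', hy', hα', hs', rfl⟩ c d hc hd hcd
  refine ⟨c • y + d • y', c * α + d * α', fun i => ?_, ?_, ?_, ?_⟩
  · simp only [Pi.add_apply, Pi.smul_apply, smul_eq_mul]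
    exact add_nonneg (mul_nonneg hc (hy i)) (mul_nonneg hd (hy' i))
  · exact add_nonneg (mul_nonneg hc hα) (mul_nonneg hd hα')
  · simp only [Pi.add_apply, Pi.smul_apply, smul_eq_mul]
    rw [Finset.sum_add_distrib, ← Finset.mul_sum, ← Finset.mul_sum]
    nlinarith [mul_le_mul_of_nonneg_left hs hc, mul_le_mul_of_nonneg_left hs' hd]
  · funext i
    simp only [Pi.add_apply, Pi.smul_apply, smul_eq_mul]
    ring

lemma convex_affImage (a : Fin n → ℝ) (U : Matrix (Fin n) (Fin n) ℝ) {S : Set (Fin n → ℝ)}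
    (hS : Convex ℝ S) : Convex ℝ (affMap a U '' S) := by
  rintro x ⟨s, hs, rfl⟩ x' ⟨s', hs', rfl⟩ c d hc hd hcd
  refine ⟨c • s + d • s', hS hs hs' hc hd hcd, ?_⟩
  funext i
  simp only [affMap_apply, Pi.add_apply, Pi.smul_apply, smul_eq_mul]
  simp_rw [mul_add, Finset.sum_add_distrib]
  have h1 : ∑ k, U i k * (c * s k) = c * ∑ k, U i k * s k := by
    rw [Finset.mul_sum]; exact Finset.sum_congr rfl fun k _ => by ring
  have h2 : ∑ k, U i k * (d * s' k) = d * ∑ k, U i k * s' k := by
    rw [Finset.mul_sum]; exact Finset.sum_congr rfl fun k _ => by ring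
  rw [h1, h2]
  have hd' : d = 1 - c := by linarith
  rw [hd']
  ring

/-- The matrix whose columns are the edge vectors `q (j.succAbove k) - q j`. -/
def edgeMat (q : Fin (n + 1) → Fin n → ℝ) (j : Fin (n + 1)) : Matrix (Fin n) (Fin n) ℝ :=
  Matrix.of fun i k => q (j.succAbove k) i - q j i

lemma affMap_edge (q : Fin (n + 1) → Fin n → ℝ) (j : Fin (n + 1)) (t : Fin n → ℝ) :
    affMap (q j) (edgeMat q j) t = (1 - ∑ k, t k) • q j + ∑ k, t k • q (j.succAbove k) := by
  funext i
  simp only [affMap_apply, edgeMat, Matrix.of_apply, Pi.add_apply, Pi.smul_apply, smul_eq_mul,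
    Finset.sum_apply]
  simp_rw [sub_mul, Finset.sum_sub_distrib]
  rw [← Finset.mul_sum]
  have h : ∑ k, q (j.succAbove k) i * t k = ∑ k, t k * q (j.succAbove k) i :=
    Finset.sum_congr rfl fun k _ => mul_comm _ _
  rw [h]
  ring

lemma det_edgeMat_ne_zero (q : Fin (n + 1) → Fin n → ℝ) (hq : AffineIndependent ℝ q)
    (j : Fin (n + 1)) : (edgeMat q j).det ≠ 0 := by
  intro h0
  obtain ⟨v, hv, hmv⟩ := Matrix.exists_mulVec_eq_zero_iff.2 h0
  have hv2 : ∀ i, ∑ k, v k * (q (j.succAbove k) i - q j i) = 0 := by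
    intro i
    have := congrFun hmv i
    simp only [Matrix.mulVec, dotProduct, edgeMat, Matrix.of_apply, Pi.zero_apply] at this
    rw [← this]
    exact Finset.sum_congr rfl fun k _ => mul_comm _ _
  set c : Fin (n + 1) → ℝ := Fin.insertNth j (-∑ k, v k) v with hc
  have hcj : c j = -∑ k, v k := by rw [hc, Fin.insertNth_apply_same]
  have hck : ∀ k, c (j.succAbove k) = v k := fun k => by rw [hc, Fin.insertNth_apply_succAbove]
  have hc0 : ∑ i, c i = 0 := by
    rw [Fin.sum_univ_succAbove c j, hcj]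
    simp_rw [hck]
    ring
  have hcq : ∑ i, c i • q i = 0 := by
    rw [Fin.sum_univ_succAbove (fun i => c i • q i) j, hcj]
    simp_rw [hck]
    funext i
    simp only [Pi.add_apply, Pi.smul_apply, smul_eq_mul, Finset.sum_apply, Pi.zero_apply]
    have h := hv2 i
    simp_rw [mul_sub, Finset.sum_sub_distrib] at h
    rw [← Finset.sum_mul] at h
    linarith
  have hall := affineIndependent_iff.1 hq Finset.univ c hc0 hcq
  apply hv
  funext k
  rw [← hck k]
  exact hall _ (Finset.mem_univ _)

/-- The convex hull of the simplex with vertices `q` and of the point with barycentric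
coordinates `β` is an affine image of `Kset`. -/
lemma hull_eq (q : Fin (n + 1) → Fin n → ℝ) (β : Fin (n + 1) → ℝ) (hβ : ∑ i, β i = 1)
    (j : Fin (n + 1)) :
    convexHull ℝ (insert (∑ i, β i • q i) (Set.range q)) =
      affMap (q j) (edgeMat q j) '' Kset (fun k => β (j.succAbove k)) := by
  have hsum : ∑ k, β (j.succAbove k) = 1 - β j := by
    rw [Fin.sum_univ_succAbove β j] at hβ; linarith
  have hr : ∑ i, β i • q i = β j • q j + ∑ k, β (j.succAbove k) • q (j.succAbove k) :=
    Fin.sum_univ_succAbove (fun i => β i • q i) j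
  apply Subset.antisymm
  · apply convexHull_min _ (convex_affImage _ _ (convex_Kset _))
    intro x hx
    rcases hx with rfl | ⟨i, rfl⟩
    · refine ⟨fun k => β (j.succAbove k), ⟨0, 1, fun _ => le_refl _, zero_le_one, by simp, by simp⟩,
        ?_⟩
      rw [affMap_edge, hsum, hr]
      congr 1
      rw [sub_sub_cancel]
    · rcases Fin.eq_self_or_eq_succAbove j i with rfl | ⟨k, rfl⟩
      · refine ⟨0, ⟨0, 0, fun _ => le_refl _, le_refl _, by simp, by simp⟩, ?_⟩
        rw [affMap_edge]
        simp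
      · refine ⟨Pi.single k 1, ⟨Pi.single k 1, 0, fun i => ?_, le_refl _, by simp, by simp⟩, ?_⟩
        · by_cases hik : i = k
          · simp [hik]
          · simp [hik]
        · rw [affMap_edge]
          simp [Pi.single_apply]
  · rintro x ⟨t, ⟨y, α, hy, hα, hs, rfl⟩, rfl⟩
    rw [affMap_edge]
    set τ : ℝ := 1 - ∑ k, y k - α with hτ
    have hτ0 : 0 ≤ τ := by rw [hτ]; linarith
    have key : (1 - ∑ k, (y + α • fun k => β (j.succAbove k)) k) • q j +
        ∑ k, (y + α • fun k => β (j.succAbove k)) k • q (j.succAbove k) =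
        ∑ o : Option (Fin (n + 1)), (Option.elim o α (Fin.insertNth j τ y)) •
          (Option.elim o (∑ i, β i • q i) q) := by
      rw [Fintype.sum_option (fun o : Option (Fin (n + 1)) => (Option.elim o α (Fin.insertNth j τ y)) •
          (Option.elim o (∑ i, β i • q i) q))]
      simp only [Option.elim_none, Option.elim_some]
      rw [Fin.sum_univ_succAbove (fun i => (Fin.insertNth j τ y : Fin (n + 1) → ℝ) i • q i) j]
      simp only [Fin.insertNth_apply_same, Fin.insertNth_apply_succAbove]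
      rw [hr]
      simp only [Pi.add_apply, Pi.smul_apply, smul_eq_mul, add_smul, Finset.sum_add_distrib]
      rw [← Finset.mul_sum, hsum, smul_add, Finset.smul_sum, hτ]
      simp only [mul_smul]
      module
    rw [key]
    apply (convex_convexHull ℝ _).sum_mem
    · intro o _
      cases o with
      | none => exact hα
      | some i =>
        simp only [Option.elim_some]
        rcases Fin.eq_self_or_eq_succAbove j i with rfl | ⟨k, rfl⟩
        · rw [Fin.insertNth_apply_same]; exact hτ0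
        · rw [Fin.insertNth_apply_succAbove]; exact hy k
    · rw [Fintype.sum_option (fun o : Option (Fin (n + 1)) => Option.elim o α (Fin.insertNth j τ y))]
      simp only [Option.elim_none, Option.elim_some]
      rw [Fin.sum_univ_succAbove (fun i => (Fin.insertNth j τ y : Fin (n + 1) → ℝ) i) j]
      simp only [Fin.insertNth_apply_same, Fin.insertNth_apply_succAbove]
      rw [hτ]; ring
    · intro o _
      apply subset_convexHull
      cases o with
      | none => exact mem_insert _ _
      | some i => exact mem_insert_of_mem _ (mem_range_self i)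

lemma max_eq_add_max_neg (x : ℝ) : max x 0 = x + max (-x) 0 := by
  rcases le_total x 0 with h | h
  · rw [max_eq_right h, max_eq_left (by linarith)]; ring
  · rw [max_eq_left h, max_eq_right (by linarith)]; ring

lemma min_sq_eq (x : ℝ) : (min x 0) ^ 2 = max (-x) 0 * max (-x) 0 := by
  rcases le_total x 0 with h | h
  · rw [min_eq_left h, max_eq_left (by linarith)]; ring
  · rw [min_eq_right h, max_eq_right (by linarith)]; ring

lemma max_sq_eq (x : ℝ) : (max x 0) ^ 2 = x * x - max (-x) 0 * max (-x) 0 := by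
  rcases le_total x 0 with h | h
  · rw [max_eq_right h, max_eq_left (by linarith)]; ring
  · rw [max_eq_left h, max_eq_right (by linarith)]; ring

/-- Exact value of `det (Cov) / vol^2` for the convex hull of a simplex with vertices `q` and
the point with barycentric coordinates `β`. -/
theorem isoRatio_hull (q : Fin (n + 1) → Fin n → ℝ) (hq : AffineIndependent ℝ q)
    (β : Fin (n + 1) → ℝ) (hβ : ∑ i, β i = 1) :
    isoRatio (convexHull ℝ (insert (∑ i, β i • q i) (Set.range q))) =
      isoRatio (stdSimp (Fin n)) *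
        (1 - (1 - (1 + ∑ i, (min (β i) 0) ^ 2) / (∑ i, max (β i) 0) ^ 2) *
          (1 - (∑ i, (max (β i) 0) ^ 2) / (∑ i, max (β i) 0) ^ 2)) := by
  have hex : ∃ j, 0 < β j := by
    by_contra hne
    push Not at hne
    have : ∑ i, β i ≤ 0 := Finset.sum_nonpos fun i _ => hne i
    linarith
  obtain ⟨j, hj⟩ := hex
  have hsum : ∑ k, β (j.succAbove k) = 1 - β j := by
    rw [Fin.sum_univ_succAbove β j] at hβ; linarith
  have hw : ∑ k, (fun k => β (j.succAbove k)) k ≤ 1 := by
    show ∑ k, β (j.succAbove k) ≤ 1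
    linarith
  rw [hull_eq q β hβ j, isoRatio_affImage _ _ (det_edgeMat_ne_zero q hq j) (isCompact_Kset _ hw),
    isoRatio_Kset _ hw]
  have hOm : Om (fun k => β (j.succAbove k)) = ∑ i, max (β i) 0 := by
    rw [Fin.sum_univ_succAbove (fun i => max (β i) 0) j, max_eq_left hj.le]
    simp_rw [max_eq_add_max_neg (β (j.succAbove _))]
    rw [Finset.sum_add_distrib, hsum]
    unfold Om wm
    ring
  have hB : sB (fun k => β (j.succAbove k)) = ∑ i, (min (β i) 0) ^ 2 := by
    rw [Fin.sum_univ_succAbove (fun i => (min (β i) 0) ^ 2) j, min_eq_right hj.le]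
    simp_rw [min_sq_eq (β (j.succAbove _))]
    unfold sB wm
    ring
  have hA : sA (fun k => β (j.succAbove k)) - sB (fun k => β (j.succAbove k)) +
      (1 - sg (fun k => β (j.succAbove k))) ^ 2 = ∑ i, (max (β i) 0) ^ 2 := by
    rw [Fin.sum_univ_succAbove (fun i => (max (β i) 0) ^ 2) j, max_eq_left hj.le]
    simp_rw [max_sq_eq (β (j.succAbove _))]
    rw [Finset.sum_sub_distrib]
    unfold sA sB sg wm
    rw [hsum]
    ring
  rw [hOm, hA, hB]

lemma sq_sum_le {ι : Type*} [Fintype ι] (a : ι → ℝ) (ha : ∀ i, 0 ≤ a i) :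
    ∑ i, a i ^ 2 ≤ (∑ i, a i) ^ 2 := by
  rw [sq, Finset.sum_mul]
  apply Finset.sum_le_sum
  intro i _
  rw [sq]
  exact mul_le_mul_of_nonneg_left
    (Finset.single_le_sum (fun k _ => ha k) (Finset.mem_univ i)) (ha i)

lemma mul_eq_zero_of_sq_sum_eq {ι : Type*} [Fintype ι] [DecidableEq ι] (a : ι → ℝ)
    (ha : ∀ i, 0 ≤ a i) (h : ∑ i, a i ^ 2 = (∑ i, a i) ^ 2) (i j : ι) (hij : i ≠ j) :
    a i * a j = 0 := by
  have hS : ∀ k, a k ^ 2 ≤ a k * ∑ l, a l := fun k => by
    rw [sq]
    exact mul_le_mul_of_nonneg_left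
      (Finset.single_le_sum (fun k _ => ha k) (Finset.mem_univ k)) (ha k)
  have h2 : ∑ k, a k * ∑ l, a l = ∑ k, a k ^ 2 := by rw [h, sq, Finset.sum_mul]
  have h3 : ∀ k ∈ Finset.univ, a k * ∑ l, a l - a k ^ 2 = 0 := by
    apply (Finset.sum_eq_zero_iff_of_nonneg (fun k _ => sub_nonneg.2 (hS k))).1
    rw [Finset.sum_sub_distrib, h2, sub_self]
  have h4 := h3 i (Finset.mem_univ i)
  have h5 : a i + a j ≤ ∑ l, a l := by
    calc a i + a j = ∑ l ∈ {i, j}, a l := by rw [Finset.sum_pair hij]
      _ ≤ ∑ l, a l :=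
        Finset.sum_le_sum_of_subset_of_nonneg (Finset.subset_univ _) (fun l _ _ => ha l)
  have h6 := mul_le_mul_of_nonneg_left h5 (ha i)
  exact le_antisymm (by nlinarith) (mul_nonneg (ha i) (ha j))

/-- The two factors of the defect are nonnegative, and each vanishes exactly in one of the two
degenerate configurations. -/
lemma defect_facts {ι : Type*} [Fintype ι] [DecidableEq ι] (β : ι → ℝ) (hβ : ∑ i, β i = 1) :
    0 ≤ 1 - (1 + ∑ i, (min (β i) 0) ^ 2) / (∑ i, max (β i) 0) ^ 2 ∧
    0 ≤ 1 - (∑ i, (max (β i) 0) ^ 2) / (∑ i, max (β i) 0) ^ 2 ∧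
    (1 - (1 + ∑ i, (min (β i) 0) ^ 2) / (∑ i, max (β i) 0) ^ 2 = 0 ↔ ∀ i, 0 ≤ β i) ∧
    (1 - (∑ i, (max (β i) 0) ^ 2) / (∑ i, max (β i) 0) ^ 2 = 0 ↔
      ∃ j, 0 < β j ∧ ∀ i, i ≠ j → β i ≤ 0) := by
  set P := ∑ i, max (β i) 0 with hP
  set Nn := ∑ i, max (-(β i)) 0 with hNn
  have hPN : P = 1 + Nn := by
    rw [hP, hNn, ← hβ, ← Finset.sum_add_distrib]
    exact Finset.sum_congr rfl fun i _ => max_eq_add_max_neg (β i)
  have hNn0 : 0 ≤ Nn := Finset.sum_nonneg fun i _ => le_max_right _ _
  have hP1 : 1 ≤ P := by linarith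
  have hP0 : 0 < P ^ 2 := by positivity
  have hN2 : ∑ i, (min (β i) 0) ^ 2 = ∑ i, (max (-(β i)) 0) ^ 2 :=
    Finset.sum_congr rfl fun i _ => by rw [min_sq_eq, sq]
  have hN2le : ∑ i, (max (-(β i)) 0) ^ 2 ≤ Nn ^ 2 := sq_sum_le _ fun i => le_max_right _ _
  have hP2le : ∑ i, (max (β i) 0) ^ 2 ≤ P ^ 2 := sq_sum_le _ fun i => le_max_right _ _
  have hex : ∃ j, 0 < β j := by
    by_contra hne
    push Not at hne
    have : ∑ i, β i ≤ 0 := Finset.sum_nonpos fun i _ => hne i
    linarith
  refine ⟨?_, ?_, ?_, ?_⟩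
  · rw [sub_nonneg, div_le_one hP0, hN2, hPN]
    nlinarith
  · rw [sub_nonneg, div_le_one hP0]
    exact hP2le
  · rw [sub_eq_zero, eq_comm, div_eq_one_iff_eq hP0.ne', hN2]
    constructor
    · intro h
      have hNn' : Nn = 0 := by
        rw [hPN] at h
        nlinarith
      have hall := (Finset.sum_eq_zero_iff_of_nonneg (fun i _ => le_max_right (-(β i)) 0)).1 hNn'
      intro i
      have h1 := hall i (Finset.mem_univ i)
      have h2 : -(β i) ≤ max (-(β i)) 0 := le_max_left _ _
      linarith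
    · intro h
      have hz : ∀ i, max (-(β i)) 0 = 0 := fun i => max_eq_right (by linarith [h i])
      have hNn' : Nn = 0 := by
        rw [hNn]; exact Finset.sum_eq_zero fun i _ => hz i
      rw [hPN, hNn']
      simp [hz]
  · rw [sub_eq_zero, eq_comm, div_eq_one_iff_eq hP0.ne']
    constructor
    · intro h
      obtain ⟨j, hj⟩ := hex
      refine ⟨j, hj, fun i hij => ?_⟩
      have hm := mul_eq_zero_of_sq_sum_eq (fun i => max (β i) 0) (fun i => le_max_right _ _) h i j hij
      simp only [max_eq_left hj.le] at hm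
      rcases mul_eq_zero.1 hm with h0 | h0
      · have : β i ≤ max (β i) 0 := le_max_left _ _
        linarith
      · linarith
    · rintro ⟨j, hj, hothers⟩
      have hz : ∀ i, i ≠ j → max (β i) 0 = 0 := fun i hi => max_eq_right (hothers i hi)
      have h1 : P = max (β j) 0 := by
        rw [hP]
        exact Finset.sum_eq_single j (fun i _ hi => hz i hi) (fun h => absurd (Finset.mem_univ j) h)
      have h2 : ∑ i, (max (β i) 0) ^ 2 = (max (β j) 0) ^ 2 :=
        Finset.sum_eq_single j (fun i _ hi => by rw [hz i hi]; ring)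
          (fun h => absurd (Finset.mem_univ j) h)
      rw [h1, h2]

/-- Inequality and equality case for the convex hull of a simplex and one further point. -/
theorem isoRatio_hull_le (q : Fin (n + 1) → Fin n → ℝ) (hq : AffineIndependent ℝ q)
    (β : Fin (n + 1) → ℝ) (hβ : ∑ i, β i = 1) :
    isoRatio (convexHull ℝ (insert (∑ i, β i • q i) (Set.range q))) ≤
        isoRatio (stdSimp (Fin n)) ∧
      (isoRatio (convexHull ℝ (insert (∑ i, β i • q i) (Set.range q))) =
          isoRatio (stdSimp (Fin n)) ↔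
        (∀ i, 0 ≤ β i) ∨ ∃ j, 0 < β j ∧ ∀ i, i ≠ j → β i ≤ 0) := by
  obtain ⟨h1, h2, h3, h4⟩ := defect_facts β hβ
  have hpos : 0 < isoRatio (stdSimp (Fin n)) := isoRatio_stdSimp_pos
  rw [isoRatio_hull q hq β hβ]
  constructor
  · nlinarith [mul_nonneg h1 h2]
  · rw [← h3, ← h4]
    constructor
    · intro h
      have h5 : isoRatio (stdSimp (Fin n)) *
          ((1 - (1 + ∑ i, (min (β i) 0) ^ 2) / (∑ i, max (β i) 0) ^ 2) *
            (1 - (∑ i, (max (β i) 0) ^ 2) / (∑ i, max (β i) 0) ^ 2)) = 0 := by linarith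
      rcases mul_eq_zero.1 h5 with h6 | h6
      · exact absurd h6 hpos.ne'
      · exact mul_eq_zero.1 h6
    · intro h
      rw [mul_eq_zero.2 h]
      ring

end

end Vale.Agent.Helper22
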