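import Vale.Agent.Helper22.PlaceDecomp

/-!
Volume and moments of `conv (Δ ∪ {w})` (the set `Kset w`) for `∑ w_i ≤ 1` (P254).
-/

namespace Vale.Agent.Helper22

open MeasureTheory Set

noncomputable section

variable {n : ℕ}

/-- `1 + ∑ (negative parts of the coordinates of w)`. -/
def Om (w : Fin n → ℝ) : ℝ := 1 + ∑ a, wm w a

lemma Om_ge_one (w : Fin n → ℝ) : 1 ≤ Om w := by
  unfold Om
  have := Finset.sum_nonneg fun a (_ : a ∈ Finset.univ) => wm_nonneg w a
  linarith

lemma vol_Kset (w : Fin n → ℝ) (hw : ∑ i, w i ≤ 1) :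
    vol (Kset w) = Om w / (n.factorial : ℝ) := by
  rw [vol_eq_integral, integral_Kset w hw (G := fun _ => (1:ℝ)) continuous_const]
  simp only [← vol_eq_integral]
  rw [(stdSimp_moments n).1, ← Finset.sum_mul]
  unfold Om
  ring

lemma mom1_Kset (w : Fin n → ℝ) (hw : ∑ i, w i ≤ 1) (i : Fin n) :
    mom1 (Kset w) i = (Om w + (Om w - 1) * w i - wm w i) / ((n + 1).factorial : ℝ) := by
  unfold mom1
  rw [integral_Kset w hw (G := fun x => x i) (continuous_apply i)]
  have hΔ : ∀ k : Fin n, ∫ t in stdSimp (Fin n), t k = 1 / ((n + 1).factorial : ℝ) :=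
    (stdSimp_moments n).2.1
  have hc := isCompact_stdSimp n
  have hpiece : ∀ a : Fin n, ∫ t in stdSimp (Fin n), affMap 0 (repCol w a) t i =
      ((1 - if i = a then (1:ℝ) else 0) + w i) / ((n + 1).factorial : ℝ) := by
    intro a
    simp_rw [affMap_repCol]
    have i1 : IntegrableOn (fun t : Fin n → ℝ => t a * w i) (stdSimp (Fin n)) :=
      intOn hc (by fun_prop)
    by_cases hia : i = a
    · simp only [if_pos hia, zero_add]
      rw [integral_mul_const, hΔ a]
      ring
    · simp only [if_neg hia]
      have i2 : IntegrableOn (fun t : Fin n → ℝ => t i) (stdSimp (Fin n)) :=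
        intOn hc (by fun_prop)
      rw [integral_add i2 i1, integral_mul_const, hΔ a, hΔ i]
      ring
  simp_rw [hpiece]
  rw [hΔ i]
  have hs : ∑ a, wm w a * (((1 - if i = a then (1:ℝ) else 0) + w i) / ((n + 1).factorial : ℝ)) =
      ((Om w - 1) * (1 + w i) - wm w i) / ((n + 1).factorial : ℝ) := by
    have h1 : ∀ a, wm w a * (((1 - if i = a then (1:ℝ) else 0) + w i) / ((n + 1).factorial : ℝ)) =
        (wm w a * (1 + w i) - (if i = a then wm w a else 0)) / ((n + 1).factorial : ℝ) := by
      intro a
      by_cases hia : i = a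
      · simp only [if_pos hia]; ring
      · simp only [if_neg hia]; ring
    simp_rw [h1]
    rw [← Finset.sum_div, Finset.sum_sub_distrib, ← Finset.sum_mul, Finset.sum_ite_eq]
    simp [Om]
  rw [hs]
  ring

lemma integral_four (i j a : Fin n) (p q r s : ℝ) :
    ∫ t in stdSimp (Fin n), (p * (t i * t j) + q * (t i * t a) + r * (t j * t a) + s * (t a * t a)) =
      p * mom2 (stdSimp (Fin n)) i j + q * mom2 (stdSimp (Fin n)) i a +
        r * mom2 (stdSimp (Fin n)) j a + s * mom2 (stdSimp (Fin n)) a a := by
  have hc := isCompact_stdSimp n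
  have i1 : IntegrableOn (fun t : Fin n → ℝ => p * (t i * t j)) (stdSimp (Fin n)) :=
    intOn hc (by fun_prop)
  have i2 : IntegrableOn (fun t : Fin n → ℝ => q * (t i * t a)) (stdSimp (Fin n)) :=
    intOn hc (by fun_prop)
  have i3 : IntegrableOn (fun t : Fin n → ℝ => r * (t j * t a)) (stdSimp (Fin n)) :=
    intOn hc (by fun_prop)
  have i4 : IntegrableOn (fun t : Fin n → ℝ => s * (t a * t a)) (stdSimp (Fin n)) :=
    intOn hc (by fun_prop)
  have i12 : IntegrableOn (fun t : Fin n → ℝ => p * (t i * t j) + q * (t i * t a))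
      (stdSimp (Fin n)) := intOn hc (by fun_prop)
  have i123 : IntegrableOn (fun t : Fin n → ℝ => p * (t i * t j) + q * (t i * t a) +
      r * (t j * t a)) (stdSimp (Fin n)) := intOn hc (by fun_prop)
  rw [integral_add i123 i4, integral_add i12 i3, integral_add i1 i2]
  simp_rw [integral_const_mul]
  rfl

lemma mom2_Kset (w : Fin n → ℝ) (hw : ∑ i, w i ≤ 1) (i j : Fin n) :
    mom2 (Kset w) i j = ((if i = j then Om w else 0) + 1 + (Om w - 1) * w i * w j +
      (Om w - 1) * (1 + w i) * (1 + w j) - wm w i * (1 + w j) - wm w j * (1 + w i)) /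
        ((n + 2).factorial : ℝ) := by
  have hf : (((n + 2).factorial : ℕ) : ℝ) ≠ 0 := by positivity
  have hΔ : ∀ k l : Fin n, mom2 (stdSimp (Fin n)) k l =
      (if k = l then 2 else 1) / ((n + 2).factorial : ℝ) := (stdSimp_moments n).2.2
  have hpiece : ∀ a : Fin n,
      ∫ t in stdSimp (Fin n), affMap 0 (repCol w a) t i * affMap 0 (repCol w a) t j =
      ((if i = a then (0:ℝ) else 1) * (if j = a then (0:ℝ) else 1) * (if i = j then 2 else 1) +
        (if i = a then (0:ℝ) else 1) * w j + (if j = a then (0:ℝ) else 1) * w i + 2 * (w i * w j)) /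
          ((n + 2).factorial : ℝ) := by
    intro a
    have hpt : ∀ t : Fin n → ℝ, affMap 0 (repCol w a) t i * affMap 0 (repCol w a) t j =
        (if i = a then (0:ℝ) else 1) * (if j = a then (0:ℝ) else 1) * (t i * t j) +
          (if i = a then (0:ℝ) else 1) * w j * (t i * t a) +
          (if j = a then (0:ℝ) else 1) * w i * (t j * t a) + w i * w j * (t a * t a) := by
      intro t
      rw [affMap_repCol, affMap_repCol]
      by_cases hia : i = a
      · by_cases hja : j = a
        · simp only [if_pos hia, if_pos hja]; ring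
        · simp only [if_pos hia, if_neg hja]; ring
      · by_cases hja : j = a
        · simp only [if_neg hia, if_pos hja]; ring
        · simp only [if_neg hia, if_neg hja]; ring
    simp_rw [hpt]
    rw [integral_four, hΔ i j, hΔ i a, hΔ j a, hΔ a a, if_pos rfl]
    by_cases hia : i = a
    · by_cases hja : j = a
      · simp only [if_pos hia, if_pos hja]; ring
      · simp only [if_pos hia, if_neg hja]; ring
    · by_cases hja : j = a
      · simp only [if_neg hia, if_pos hja]; ring
      · simp only [if_neg hia, if_neg hja]; ring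
  unfold mom2
  rw [integral_Kset w hw (G := fun x => x i * x j) (by fun_prop)]
  simp_rw [hpiece]
  have h0 : ∫ x in stdSimp (Fin n), x i * x j = (if i = j then 2 else 1) / ((n + 2).factorial : ℝ) :=
    hΔ i j
  rw [h0]
  have h1 : ∀ a, wm w a *
      (((if i = a then (0:ℝ) else 1) * (if j = a then (0:ℝ) else 1) * (if i = j then 2 else 1) +
        (if i = a then (0:ℝ) else 1) * w j + (if j = a then (0:ℝ) else 1) * w i + 2 * (w i * w j)) /
          ((n + 2).factorial : ℝ)) =
      (wm w a * ((if i = j then 2 else 1) + w i + w j + 2 * (w i * w j)) -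
        (if i = a then wm w a else 0) * ((if i = j then 2 else 1) + w j) -
        (if j = a then wm w a else 0) * ((if i = j then 2 else 1) + w i) +
        (if i = a then (if j = a then wm w a else 0) else 0) * (if i = j then 2 else 1)) /
          ((n + 2).factorial : ℝ) := by
    intro a
    by_cases hia : i = a
    · by_cases hja : j = a
      · simp only [if_pos hia, if_pos hja]; ring
      · simp only [if_pos hia, if_neg hja]; ring
    · by_cases hja : j = a
      · simp only [if_neg hia, if_pos hja]; ring
      · simp only [if_neg hia, if_neg hja]; ring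
  simp_rw [h1]
  rw [← Finset.sum_div, Finset.sum_add_distrib, Finset.sum_sub_distrib, Finset.sum_sub_distrib,
    ← Finset.sum_mul, ← Finset.sum_mul, ← Finset.sum_mul, ← Finset.sum_mul, Finset.sum_ite_eq,
    Finset.sum_ite_eq, Finset.sum_ite_eq]
  simp only [Finset.mem_univ, if_true]
  have hO : ∑ a, wm w a = Om w - 1 := by unfold Om; ring
  rw [hO]
  by_cases hij : i = j
  · subst hij
    simp only [if_true]
    field_simp
    ring
  · have hji : ¬ j = i := fun h => hij h.symm
    simp only [if_neg hij, if_neg hji]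
    field_simp
    ring

end

end Vale.Agent.Helper22
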