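import Mathlib

/-!
The monotone rearrangement of a profile given by two nonincreasing halves `f₁` on `[0, L₁]` and
`f₂` on `[0, L₂]`: the function `g` on `[0, L₁ + L₂]` with
`g(x) = max {min (f₁ u) (f₂ v) : u + v = x}`.  It is continuous, concave and nonincreasing when
the halves are, and its superlevel sets are the sums of the superlevel sets of the halves.
-/

namespace Vale.Agent.Helper22

open Set

noncomputable section

/-- The rearrangement of the two halves `f₁` on `[0, L₁]` and `f₂` on `[0, L₂]`. -/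
def rearr (f₁ f₂ : ℝ → ℝ) (L₁ L₂ x : ℝ) : ℝ :=
  sSup ((fun u => min (f₁ u) (f₂ (x - u))) '' Icc (max 0 (x - L₂)) (min L₁ x))

variable {f₁ f₂ : ℝ → ℝ} {L₁ L₂ : ℝ}

lemma rearr_compact (h₁ : Continuous f₁) (h₂ : Continuous f₂) (x : ℝ) :
    IsCompact ((fun u => min (f₁ u) (f₂ (x - u))) '' Icc (max 0 (x - L₂)) (min L₁ x)) := by
  apply isCompact_Icc.image
  fun_prop

/-- The supremum defining the rearrangement is attained. -/
lemma rearr_attained (h₁ : Continuous f₁) (h₂ : Continuous f₂) (hL₁ : 0 ≤ L₁) (hL₂ : 0 ≤ L₂)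
    {x : ℝ} (hx : x ∈ Icc 0 (L₁ + L₂)) :
    ∃ u v, u ∈ Icc 0 L₁ ∧ v ∈ Icc 0 L₂ ∧ u + v = x ∧ rearr f₁ f₂ L₁ L₂ x = min (f₁ u) (f₂ v) := by
  have hne : (Icc (max 0 (x - L₂)) (min L₁ x)).Nonempty := by
    rw [nonempty_Icc]
    apply max_le
    · exact le_min hL₁ hx.1
    · apply le_min
      · linarith [hx.2]
      · linarith
  have hmem := (rearr_compact (L₁ := L₁) (L₂ := L₂) h₁ h₂ x).sSup_mem (hne.image _)
  obtain ⟨u, hu, huv⟩ := hmem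
  refine ⟨u, x - u, ⟨le_trans (le_max_left _ _) hu.1, le_trans hu.2 (min_le_left _ _)⟩,
    ⟨?_, ?_⟩, by ring, huv.symm⟩
  · have := le_trans hu.2 (min_le_right _ _)
    linarith
  · have := le_trans (le_max_right _ _) hu.1
    linarith

/-- Every admissible splitting gives a lower bound for the rearrangement. -/
lemma le_rearr (h₁ : Continuous f₁) (h₂ : Continuous f₂) {u v : ℝ} (hu : u ∈ Icc 0 L₁)
    (hv : v ∈ Icc 0 L₂) : min (f₁ u) (f₂ v) ≤ rearr f₁ f₂ L₁ L₂ (u + v) := by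
  unfold rearr
  apply le_csSup (rearr_compact h₁ h₂ _).bddAbove
  refine ⟨u, ⟨max_le hu.1 (by linarith [hv.2]), le_min hu.2 (by linarith [hv.1])⟩, ?_⟩
  simp

lemma rearr_nonneg (h₁ : Continuous f₁) (h₂ : Continuous f₂) (hL₁ : 0 ≤ L₁) (hL₂ : 0 ≤ L₂)
    (hn₁ : ∀ t ∈ Icc 0 L₁, 0 ≤ f₁ t) (hn₂ : ∀ t ∈ Icc 0 L₂, 0 ≤ f₂ t)
    {x : ℝ} (hx : x ∈ Icc 0 (L₁ + L₂)) : 0 ≤ rearr f₁ f₂ L₁ L₂ x := by
  obtain ⟨u, v, hu, hv, -, he⟩ := rearr_attained h₁ h₂ hL₁ hL₂ hx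
  rw [he]
  exact le_min (hn₁ u hu) (hn₂ v hv)

lemma rearr_zero (h₁ : Continuous f₁) (h₂ : Continuous f₂) (hL₁ : 0 ≤ L₁) (hL₂ : 0 ≤ L₂) :
    rearr f₁ f₂ L₁ L₂ 0 = min (f₁ 0) (f₂ 0) := by
  obtain ⟨u, v, hu, hv, huv, he⟩ := rearr_attained h₁ h₂ hL₁ hL₂
    (x := 0) ⟨le_refl _, add_nonneg hL₁ hL₂⟩
  have hu0 : u = 0 := by linarith [hu.1, hv.1]
  have hv0 : v = 0 := by linarith [hu.1, hv.1]
  rw [he, hu0, hv0]

lemma rearr_antitone (h₁ : Continuous f₁) (h₂ : Continuous f₂) (hL₁ : 0 ≤ L₁) (hL₂ : 0 ≤ L₂)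
    (ha₁ : AntitoneOn f₁ (Icc 0 L₁)) (ha₂ : AntitoneOn f₂ (Icc 0 L₂)) :
    AntitoneOn (rearr f₁ f₂ L₁ L₂) (Icc 0 (L₁ + L₂)) := by
  intro x hx x' hx' hxx'
  obtain ⟨u', v', hu', hv', huv', he'⟩ := rearr_attained h₁ h₂ hL₁ hL₂ hx'
  rcases hx'.1.eq_or_lt with h0 | hpos
  · have : x = x' := le_antisymm hxx' (by rw [← h0]; exact hx.1)
    rw [this]
  · set r : ℝ := x / x' with hr
    have hr0 : 0 ≤ r := div_nonneg hx.1 hpos.le
    have hr1 : r ≤ 1 := (div_le_one hpos).2 hxx'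
    have hu : r * u' ∈ Icc 0 L₁ :=
      ⟨mul_nonneg hr0 hu'.1, le_trans (mul_le_of_le_one_left hu'.1 hr1) hu'.2⟩
    have hv : r * v' ∈ Icc 0 L₂ :=
      ⟨mul_nonneg hr0 hv'.1, le_trans (mul_le_of_le_one_left hv'.1 hr1) hv'.2⟩
    have hsum : r * u' + r * v' = x := by
      rw [← mul_add, huv', hr]
      field_simp
    have h := le_rearr h₁ h₂ hu hv
    rw [hsum] at h
    rw [he']
    refine le_trans ?_ h
    exact min_le_min (ha₁ hu hu' (mul_le_of_le_one_left hu'.1 hr1))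
      (ha₂ hv hv' (mul_le_of_le_one_left hv'.1 hr1))

lemma rearr_concave (h₁ : Continuous f₁) (h₂ : Continuous f₂) (hL₁ : 0 ≤ L₁) (hL₂ : 0 ≤ L₂)
    (hc₁ : ConcaveOn ℝ (Icc 0 L₁) f₁) (hc₂ : ConcaveOn ℝ (Icc 0 L₂) f₂) :
    ConcaveOn ℝ (Icc 0 (L₁ + L₂)) (rearr f₁ f₂ L₁ L₂) := by
  refine ⟨convex_Icc _ _, ?_⟩
  intro x hx x' hx' α β hα hβ hαβ
  obtain ⟨u, v, hu, hv, huv, he⟩ := rearr_attained h₁ h₂ hL₁ hL₂ hx
  obtain ⟨u', v', hu', hv', huv', he'⟩ := rearr_attained h₁ h₂ hL₁ hL₂ hx'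
  have hU : α * u + β * u' ∈ Icc 0 L₁ := by
    have := (convex_Icc (0:ℝ) L₁) hu hu' hα hβ hαβ
    simpa [smul_eq_mul] using this
  have hV : α * v + β * v' ∈ Icc 0 L₂ := by
    have := (convex_Icc (0:ℝ) L₂) hv hv' hα hβ hαβ
    simpa [smul_eq_mul] using this
  have h := le_rearr h₁ h₂ hU hV
  have hsum : α * u + β * u' + (α * v + β * v') = α * x + β * x' := by
    rw [← huv, ← huv']; ring
  rw [hsum] at h
  have hf₁ : α * f₁ u + β * f₁ u' ≤ f₁ (α * u + β * u') := by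
    have := hc₁.2 hu hu' hα hβ hαβ
    simpa [smul_eq_mul] using this
  have hf₂ : α * f₂ v + β * f₂ v' ≤ f₂ (α * v + β * v') := by
    have := hc₂.2 hv hv' hα hβ hαβ
    simpa [smul_eq_mul] using this
  simp only [smul_eq_mul]
  rw [he, he']
  refine le_trans ?_ h
  apply le_min
  · refine le_trans ?_ hf₁
    exact add_le_add (mul_le_mul_of_nonneg_left (min_le_left _ _) hα)
      (mul_le_mul_of_nonneg_left (min_le_left _ _) hβ)
  · refine le_trans ?_ hf₂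
    exact add_le_add (mul_le_mul_of_nonneg_left (min_le_right _ _) hα)
      (mul_le_mul_of_nonneg_left (min_le_right _ _) hβ)

/-- One half of the continuity estimate: moving to the right by less than `δ` lowers the
rearrangement by less than `ε`. -/
lemma rearr_cont_aux (h₁ : Continuous f₁) (h₂ : Continuous f₂) (hL₁ : 0 ≤ L₁) (hL₂ : 0 ≤ L₂)
    {ε δ : ℝ}
    (hδ₁ : ∀ a ∈ Icc 0 L₁, ∀ b ∈ Icc 0 L₁, dist a b < δ → dist (f₁ a) (f₁ b) < ε)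
    (hδ₂ : ∀ a ∈ Icc 0 L₂, ∀ b ∈ Icc 0 L₂, dist a b < δ → dist (f₂ a) (f₂ b) < ε)
    {x x' : ℝ} (hx : x ∈ Icc 0 (L₁ + L₂)) (hx' : x' ∈ Icc 0 (L₁ + L₂)) (hxx' : x ≤ x')
    (hd : x' - x < δ) : rearr f₁ f₂ L₁ L₂ x - ε < rearr f₁ f₂ L₁ L₂ x' := by
  obtain ⟨u, v, hu, hv, huv, he⟩ := rearr_attained h₁ h₂ hL₁ hL₂ hx
  set d : ℝ := x' - x with hd'
  have hd0 : 0 ≤ d := by linarith
  -- split `d = d₁ + d₂` with `u + d₁ ≤ L₁` and `v + d₂ ≤ L₂`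
  set d₁ : ℝ := min d (L₁ - u) with hd₁
  set d₂ : ℝ := d - d₁ with hd₂
  have hd₁0 : 0 ≤ d₁ := le_min hd0 (by linarith [hu.2])
  have hd₁d : d₁ ≤ d := min_le_left _ _
  have hd₂0 : 0 ≤ d₂ := by linarith
  have hd₂d : d₂ ≤ d := by linarith
  have hu' : u + d₁ ∈ Icc 0 L₁ := ⟨by linarith [hu.1], by
    have := min_le_right d (L₁ - u)
    linarith⟩
  have hv' : v + d₂ ∈ Icc 0 L₂ := by
    refine ⟨by linarith [hv.1], ?_⟩
    rcases le_total d (L₁ - u) with hcase | hcase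
    · have : d₁ = d := min_eq_left hcase
      have : d₂ = 0 := by rw [hd₂, this]; ring
      linarith [hv.2]
    · have : d₁ = L₁ - u := min_eq_right hcase
      have : v + d₂ = x' - L₁ := by rw [hd₂, this, hd']; linarith
      linarith [hx'.2]
  have hsum : u + d₁ + (v + d₂) = x' := by
    rw [hd₂, hd']; linarith
  have h := le_rearr h₁ h₂ hu' hv'
  rw [hsum] at h
  have e1 : dist (u + d₁) u < δ := by
    rw [Real.dist_eq]
    have : |u + d₁ - u| = d₁ := by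
      rw [add_sub_cancel_left, abs_of_nonneg hd₁0]
    rw [this]; linarith
  have e2 : dist (v + d₂) v < δ := by
    rw [Real.dist_eq]
    have : |v + d₂ - v| = d₂ := by
      rw [add_sub_cancel_left, abs_of_nonneg hd₂0]
    rw [this]; linarith
  have g1 := hδ₁ _ hu' _ hu e1
  have g2 := hδ₂ _ hv' _ hv e2
  rw [Real.dist_eq] at g1 g2
  have g1' : f₁ u - ε < f₁ (u + d₁) := by
    have := (abs_lt.1 g1).1
    linarith
  have g2' : f₂ v - ε < f₂ (v + d₂) := by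
    have := (abs_lt.1 g2).1
    linarith
  rw [he]
  refine lt_of_lt_of_le ?_ h
  rw [lt_min_iff]
  constructor
  · have := min_le_left (f₁ u) (f₂ v)
    linarith
  · have := min_le_right (f₁ u) (f₂ v)
    linarith

lemma rearr_continuousOn (h₁ : Continuous f₁) (h₂ : Continuous f₂) (hL₁ : 0 ≤ L₁)
    (hL₂ : 0 ≤ L₂) (ha₁ : AntitoneOn f₁ (Icc 0 L₁)) (ha₂ : AntitoneOn f₂ (Icc 0 L₂)) :
    ContinuousOn (rearr f₁ f₂ L₁ L₂) (Icc 0 (L₁ + L₂)) := by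
  have hanti := rearr_antitone h₁ h₂ hL₁ hL₂ ha₁ ha₂
  have hu₁ := isCompact_Icc.uniformContinuousOn_of_continuous (h₁.continuousOn (s := Icc 0 L₁))
  have hu₂ := isCompact_Icc.uniformContinuousOn_of_continuous (h₂.continuousOn (s := Icc 0 L₂))
  rw [Metric.uniformContinuousOn_iff] at hu₁ hu₂
  rw [Metric.continuousOn_iff]
  intro x hx ε hε
  obtain ⟨δ₁, hδ₁pos, hδ₁⟩ := hu₁ ε hε
  obtain ⟨δ₂, hδ₂pos, hδ₂⟩ := hu₂ ε hε
  refine ⟨min δ₁ δ₂, lt_min hδ₁pos hδ₂pos, fun x' hx' hdist => ?_⟩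
  have hA₁ : ∀ a ∈ Icc 0 L₁, ∀ b ∈ Icc 0 L₁, dist a b < min δ₁ δ₂ → dist (f₁ a) (f₁ b) < ε :=
    fun a ha b hb hab => hδ₁ a ha b hb (lt_of_lt_of_le hab (min_le_left _ _))
  have hA₂ : ∀ a ∈ Icc 0 L₂, ∀ b ∈ Icc 0 L₂, dist a b < min δ₁ δ₂ → dist (f₂ a) (f₂ b) < ε :=
    fun a ha b hb hab => hδ₂ a ha b hb (lt_of_lt_of_le hab (min_le_right _ _))
  rw [Real.dist_eq] at hdist ⊢
  rw [abs_lt] at hdist ⊢
  rcases le_total x x' with hle | hle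
  · have hmono := hanti hx hx' hle
    have haux := rearr_cont_aux h₁ h₂ hL₁ hL₂ hA₁ hA₂ hx hx' hle (by linarith [hdist.2])
    constructor <;> linarith
  · have hmono := hanti hx' hx hle
    have haux := rearr_cont_aux h₁ h₂ hL₁ hL₂ hA₁ hA₂ hx' hx hle (by linarith [hdist.1])
    constructor <;> linarith

/-- Superlevel sets of powers of the rearrangement are sums of superlevel sets of the halves. -/
lemma rearr_level (h₁ : Continuous f₁) (h₂ : Continuous f₂) (hL₁ : 0 ≤ L₁) (hL₂ : 0 ≤ L₂)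
    (hn₁ : ∀ t ∈ Icc 0 L₁, 0 ≤ f₁ t) (hn₂ : ∀ t ∈ Icc 0 L₂, 0 ≤ f₂ t) (k : ℕ) (l x : ℝ) :
    (x ∈ Icc 0 (L₁ + L₂) ∧ l ≤ rearr f₁ f₂ L₁ L₂ x ^ k) ↔
      ∃ u v, (u ∈ Icc 0 L₁ ∧ l ≤ f₁ u ^ k) ∧ (v ∈ Icc 0 L₂ ∧ l ≤ f₂ v ^ k) ∧ u + v = x := by
  constructor
  · rintro ⟨hx, hl⟩
    obtain ⟨u, v, hu, hv, huv, he⟩ := rearr_attained h₁ h₂ hL₁ hL₂ hx
    rw [he] at hl
    have hmin0 : 0 ≤ min (f₁ u) (f₂ v) := le_min (hn₁ u hu) (hn₂ v hv)
    refine ⟨u, v, ⟨hu, le_trans hl ?_⟩, ⟨hv, le_trans hl ?_⟩, huv⟩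
    · exact pow_le_pow_left₀ hmin0 (min_le_left _ _) k
    · exact pow_le_pow_left₀ hmin0 (min_le_right _ _) k
  · rintro ⟨u, v, ⟨hu, hlu⟩, ⟨hv, hlv⟩, rfl⟩
    refine ⟨⟨add_nonneg hu.1 hv.1, add_le_add hu.2 hv.2⟩, ?_⟩
    have h := le_rearr h₁ h₂ hu hv
    have hmin0 : 0 ≤ min (f₁ u) (f₂ v) := le_min (hn₁ u hu) (hn₂ v hv)
    refine le_trans ?_ (pow_le_pow_left₀ hmin0 h k)
    rcases le_total (f₁ u) (f₂ v) with hle | hle
    · rw [min_eq_left hle]; exact hlu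
    · rw [min_eq_right hle]; exact hlv

end

end Vale.Agent.Helper22
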