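import Vale.Agent.Helper22.Rearr1D
import Vale.Agent.Helper22.LayerCake

/-!
Moments of the monotone rearrangement: the rearrangement of two nonincreasing halves has the
same integrals of powers as the two halves together, and its variance-type functional is at
least that of the two-sided profile made of the two halves.
-/

namespace Vale.Agent.Helper22

open MeasureTheory Set

noncomputable section

lemma int_lin4 {g₁ g₂ g₃ g₄ : ℝ → ℝ} {a b : ℝ} (h₁ : IntervalIntegrable g₁ volume a b)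
    (h₂ : IntervalIntegrable g₂ volume a b) (h₃ : IntervalIntegrable g₃ volume a b)
    (h₄ : IntervalIntegrable g₄ volume a b) (c₁ c₂ c₃ c₄ : ℝ) :
    ∫ x in a..b, (c₁ * g₁ x - c₂ * g₂ x - c₃ * g₃ x + c₄ * g₄ x) =
      c₁ * (∫ x in a..b, g₁ x) - c₂ * (∫ x in a..b, g₂ x) - c₃ * (∫ x in a..b, g₃ x)
        + c₄ * ∫ x in a..b, g₄ x := by
  rw [intervalIntegral.integral_add
      (((h₁.const_mul c₁).sub (h₂.const_mul c₂)).sub (h₃.const_mul c₃)) (h₄.const_mul c₄),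
    intervalIntegral.integral_sub ((h₁.const_mul c₁).sub (h₂.const_mul c₂)) (h₃.const_mul c₃),
    intervalIntegral.integral_sub (h₁.const_mul c₁) (h₂.const_mul c₂),
    intervalIntegral.integral_const_mul, intervalIntegral.integral_const_mul,
    intervalIntegral.integral_const_mul, intervalIntegral.integral_const_mul]

section Anti

variable {r₁ r₂ : ℝ → ℝ}

lemma anti_pow (h : Antitone r₁) (hn : ∀ l, 0 ≤ r₁ l) (k : ℕ) : Antitone fun l => r₁ l ^ k :=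
  fun _ _ hxy => pow_le_pow_left₀ (hn _) (h hxy) k

lemma anti_mul (h₁ : Antitone r₁) (h₂ : Antitone r₂) (hn₁ : ∀ l, 0 ≤ r₁ l)
    (hn₂ : ∀ l, 0 ≤ r₂ l) : Antitone fun l => r₁ l * r₂ l :=
  fun _ _ hxy => mul_le_mul (h₁ hxy) (h₂ hxy) (hn₂ _) (hn₁ _)

/-- Chebyshev's inequality for two nonincreasing nonnegative functions and the weight given
by their sum. -/
lemma cheb_antitone (h₁ : Antitone r₁) (h₂ : Antitone r₂) (hn₁ : ∀ l, 0 ≤ r₁ l)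
    (hn₂ : ∀ l, 0 ≤ r₂ l) {M : ℝ} (hM : 0 ≤ M) :
    (∫ l in (0:ℝ)..M, r₁ l * (r₁ l + r₂ l)) * (∫ l in (0:ℝ)..M, r₂ l * (r₁ l + r₂ l)) ≤
      (∫ l in (0:ℝ)..M, (r₁ l + r₂ l)) * (∫ l in (0:ℝ)..M, r₁ l * r₂ l * (r₁ l + r₂ l)) := by
  have hnA : Antitone fun l => r₁ l + r₂ l := h₁.add h₂
  have hnn : ∀ l, 0 ≤ r₁ l + r₂ l := fun l => add_nonneg (hn₁ l) (hn₂ l)
  have hA1 : Antitone fun l => r₁ l * (r₁ l + r₂ l) := anti_mul h₁ hnA hn₁ hnn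
  have hA2 : Antitone fun l => r₂ l * (r₁ l + r₂ l) := anti_mul h₂ hnA hn₂ hnn
  have hA12 : Antitone fun l => r₁ l * r₂ l * (r₁ l + r₂ l) :=
    anti_mul (anti_mul h₁ h₂ hn₁ hn₂) hnA (fun l => mul_nonneg (hn₁ l) (hn₂ l)) hnn
  have iN : IntervalIntegrable (fun l => r₁ l + r₂ l) volume 0 M := hnA.intervalIntegrable
  have i1 : IntervalIntegrable (fun l => r₁ l * (r₁ l + r₂ l)) volume 0 M := hA1.intervalIntegrable
  have i2 : IntervalIntegrable (fun l => r₂ l * (r₁ l + r₂ l)) volume 0 M := hA2.intervalIntegrable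
  have i12 : IntervalIntegrable (fun l => r₁ l * r₂ l * (r₁ l + r₂ l)) volume 0 M :=
    hA12.intervalIntegrable
  set N : ℝ := ∫ l in (0:ℝ)..M, (r₁ l + r₂ l) with hN
  set R1 : ℝ := ∫ l in (0:ℝ)..M, r₁ l * (r₁ l + r₂ l) with hR1
  set R2 : ℝ := ∫ l in (0:ℝ)..M, r₂ l * (r₁ l + r₂ l) with hR2
  set R12 : ℝ := ∫ l in (0:ℝ)..M, r₁ l * r₂ l * (r₁ l + r₂ l) with hR12
  have hpt : ∀ l ∈ Icc 0 M, ∀ u ∈ Icc 0 M,
      0 ≤ (r₁ l - r₁ u) * (r₂ l - r₂ u) * ((r₁ l + r₂ l) * (r₁ u + r₂ u)) := by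
    intro l _ u _
    apply mul_nonneg _ (mul_nonneg (hnn l) (hnn u))
    rcases le_total l u with hlu | hul
    · exact mul_nonneg (sub_nonneg.2 (h₁ hlu)) (sub_nonneg.2 (h₂ hlu))
    · exact mul_nonneg_of_nonpos_of_nonpos (sub_nonpos.2 (h₁ hul)) (sub_nonpos.2 (h₂ hul))
  have inner : ∀ l, ∫ u in (0:ℝ)..M,
      (r₁ l - r₁ u) * (r₂ l - r₂ u) * ((r₁ l + r₂ l) * (r₁ u + r₂ u)) =
      (r₁ l * r₂ l * (r₁ l + r₂ l)) * N - (r₁ l * (r₁ l + r₂ l)) * R2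
        - (r₂ l * (r₁ l + r₂ l)) * R1 + (r₁ l + r₂ l) * R12 := by
    intro l
    have e : ∀ u, (r₁ l - r₁ u) * (r₂ l - r₂ u) * ((r₁ l + r₂ l) * (r₁ u + r₂ u)) =
        (r₁ l * r₂ l * (r₁ l + r₂ l)) * (r₁ u + r₂ u)
          - (r₁ l * (r₁ l + r₂ l)) * (r₂ u * (r₁ u + r₂ u))
          - (r₂ l * (r₁ l + r₂ l)) * (r₁ u * (r₁ u + r₂ u))
          + (r₁ l + r₂ l) * (r₁ u * r₂ u * (r₁ u + r₂ u)) := by
      intro u; ring
    simp_rw [e]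
    exact int_lin4 iN i2 i1 i12 _ _ _ _
  have outer : ∫ l in (0:ℝ)..M, ((r₁ l * r₂ l * (r₁ l + r₂ l)) * N - (r₁ l * (r₁ l + r₂ l)) * R2
        - (r₂ l * (r₁ l + r₂ l)) * R1 + (r₁ l + r₂ l) * R12) =
      N * R12 - R2 * R1 - R1 * R2 + R12 * N := by
    have e : ∀ l, (r₁ l * r₂ l * (r₁ l + r₂ l)) * N - (r₁ l * (r₁ l + r₂ l)) * R2
        - (r₂ l * (r₁ l + r₂ l)) * R1 + (r₁ l + r₂ l) * R12 =
        N * (r₁ l * r₂ l * (r₁ l + r₂ l)) - R2 * (r₁ l * (r₁ l + r₂ l))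
          - R1 * (r₂ l * (r₁ l + r₂ l)) + R12 * (r₁ l + r₂ l) := by
      intro l; ring
    simp_rw [e]
    exact int_lin4 i12 i1 i2 iN _ _ _ _
  have h0 : 0 ≤ ∫ l in (0:ℝ)..M, ∫ u in (0:ℝ)..M,
      (r₁ l - r₁ u) * (r₂ l - r₂ u) * ((r₁ l + r₂ l) * (r₁ u + r₂ u)) :=
    intervalIntegral.integral_nonneg hM fun l hl =>
      intervalIntegral.integral_nonneg hM fun u hu => hpt l hl u hu
  simp_rw [inner] at h0
  rw [outer] at h0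
  nlinarith

/-- The variance-type comparison in terms of level functions. -/
lemma level_var (h₁ : Antitone r₁) (h₂ : Antitone r₂) (hn₁ : ∀ l, 0 ≤ r₁ l)
    (hn₂ : ∀ l, 0 ≤ r₂ l) {M : ℝ} (hM : 0 ≤ M) :
    (∫ l in (0:ℝ)..M, (r₁ l + r₂ l)) = (∫ l in (0:ℝ)..M, r₁ l) + (∫ l in (0:ℝ)..M, r₂ l) ∧
    ((∫ l in (0:ℝ)..M, r₁ l) + (∫ l in (0:ℝ)..M, r₂ l)) *
        ((∫ l in (0:ℝ)..M, r₁ l ^ 3 / 3) + (∫ l in (0:ℝ)..M, r₂ l ^ 3 / 3))
      - ((∫ l in (0:ℝ)..M, r₂ l ^ 2 / 2) - (∫ l in (0:ℝ)..M, r₁ l ^ 2 / 2)) ^ 2 ≤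
    (∫ l in (0:ℝ)..M, (r₁ l + r₂ l)) * (∫ l in (0:ℝ)..M, (r₁ l + r₂ l) ^ 3 / 3)
      - (∫ l in (0:ℝ)..M, (r₁ l + r₂ l) ^ 2 / 2) ^ 2 := by
  have hnA : Antitone fun l => r₁ l + r₂ l := h₁.add h₂
  have hnn : ∀ l, 0 ≤ r₁ l + r₂ l := fun l => add_nonneg (hn₁ l) (hn₂ l)
  have divA : ∀ {u : ℝ → ℝ} (c : ℝ), 0 ≤ c → Antitone u → Antitone fun l => u l / c :=
    fun c hc hu _ _ hxy => div_le_div_of_nonneg_right (hu hxy) hc
  have j1 : IntervalIntegrable r₁ volume 0 M := h₁.intervalIntegrable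
  have j2 : IntervalIntegrable r₂ volume 0 M := h₂.intervalIntegrable
  have jN : IntervalIntegrable (fun l => r₁ l + r₂ l) volume 0 M := hnA.intervalIntegrable
  have j1s : IntervalIntegrable (fun l => r₁ l ^ 2 / 2) volume 0 M :=
    (divA 2 (by norm_num) (anti_pow h₁ hn₁ 2)).intervalIntegrable
  have j2s : IntervalIntegrable (fun l => r₂ l ^ 2 / 2) volume 0 M :=
    (divA 2 (by norm_num) (anti_pow h₂ hn₂ 2)).intervalIntegrable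
  have jNs : IntervalIntegrable (fun l => (r₁ l + r₂ l) ^ 2 / 2) volume 0 M :=
    (divA 2 (by norm_num) (anti_pow hnA hnn 2)).intervalIntegrable
  have j1c : IntervalIntegrable (fun l => r₁ l ^ 3 / 3) volume 0 M :=
    (divA 3 (by norm_num) (anti_pow h₁ hn₁ 3)).intervalIntegrable
  have j2c : IntervalIntegrable (fun l => r₂ l ^ 3 / 3) volume 0 M :=
    (divA 3 (by norm_num) (anti_pow h₂ hn₂ 3)).intervalIntegrable
  have jNc : IntervalIntegrable (fun l => (r₁ l + r₂ l) ^ 3 / 3) volume 0 M :=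
    (divA 3 (by norm_num) (anti_pow hnA hnn 3)).intervalIntegrable
  have i1 : IntervalIntegrable (fun l => r₁ l * (r₁ l + r₂ l)) volume 0 M :=
    (anti_mul h₁ hnA hn₁ hnn).intervalIntegrable
  have i2 : IntervalIntegrable (fun l => r₂ l * (r₁ l + r₂ l)) volume 0 M :=
    (anti_mul h₂ hnA hn₂ hnn).intervalIntegrable
  have i12 : IntervalIntegrable (fun l => r₁ l * r₂ l * (r₁ l + r₂ l)) volume 0 M :=
    (anti_mul (anti_mul h₁ h₂ hn₁ hn₂) hnA (fun l => mul_nonneg (hn₁ l) (hn₂ l))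
      hnn).intervalIntegrable
  have hcheb := cheb_antitone h₁ h₂ hn₁ hn₂ hM
  have eN : (∫ l in (0:ℝ)..M, (r₁ l + r₂ l)) =
      (∫ l in (0:ℝ)..M, r₁ l) + (∫ l in (0:ℝ)..M, r₂ l) :=
    intervalIntegral.integral_add j1 j2
  -- `T1_g - T1₂ + T1₁ = R1`
  have eR1 : (∫ l in (0:ℝ)..M, r₁ l * (r₁ l + r₂ l)) =
      (∫ l in (0:ℝ)..M, (r₁ l + r₂ l) ^ 2 / 2) - (∫ l in (0:ℝ)..M, r₂ l ^ 2 / 2)
        + (∫ l in (0:ℝ)..M, r₁ l ^ 2 / 2) := by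
    have h := int_lin4 jNs j2s (intervalIntegrable_const (c := (0:ℝ)) (a := 0) (b := M)
      (μ := volume)) j1s 1 1 1 1
    have e : ∀ l, r₁ l * (r₁ l + r₂ l) =
        1 * ((r₁ l + r₂ l) ^ 2 / 2) - 1 * (r₂ l ^ 2 / 2) - 1 * 0 + 1 * (r₁ l ^ 2 / 2) := by
      intro l; ring
    simp_rw [e]
    rw [h]
    simp
  have eR2 : (∫ l in (0:ℝ)..M, r₂ l * (r₁ l + r₂ l)) =
      (∫ l in (0:ℝ)..M, (r₁ l + r₂ l) ^ 2 / 2) - (∫ l in (0:ℝ)..M, r₁ l ^ 2 / 2)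
        + (∫ l in (0:ℝ)..M, r₂ l ^ 2 / 2) := by
    have h := int_lin4 jNs j1s (intervalIntegrable_const (c := (0:ℝ)) (a := 0) (b := M)
      (μ := volume)) j2s 1 1 1 1
    have e : ∀ l, r₂ l * (r₁ l + r₂ l) =
        1 * ((r₁ l + r₂ l) ^ 2 / 2) - 1 * (r₁ l ^ 2 / 2) - 1 * 0 + 1 * (r₂ l ^ 2 / 2) := by
      intro l; ring
    simp_rw [e]
    rw [h]
    simp
  have eR12 : (∫ l in (0:ℝ)..M, r₁ l * r₂ l * (r₁ l + r₂ l)) =
      (∫ l in (0:ℝ)..M, (r₁ l + r₂ l) ^ 3 / 3) - (∫ l in (0:ℝ)..M, r₁ l ^ 3 / 3)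
        - (∫ l in (0:ℝ)..M, r₂ l ^ 3 / 3) := by
    have h := int_lin4 jNc j1c j2c (intervalIntegrable_const (c := (0:ℝ)) (a := 0) (b := M)
      (μ := volume)) 1 1 1 1
    have e : ∀ l, r₁ l * r₂ l * (r₁ l + r₂ l) =
        1 * ((r₁ l + r₂ l) ^ 3 / 3) - 1 * (r₁ l ^ 3 / 3) - 1 * (r₂ l ^ 3 / 3) + 1 * 0 := by
      intro l; ring
    simp_rw [e]
    rw [h]
    simp
  refine ⟨eN, ?_⟩
  rw [eR1, eR2, eR12, eN] at hcheb
  rw [eN]
  nlinarith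

end Anti

end

end Vale.Agent.Helper22
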