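import Vale.Agent.Helper22.IsoDefs

/-!
Definition for P254: the body of revolution in `Fin (n + 1) → ℝ` about the last coordinate axis
whose radius at height `t` is `f t`, for heights `t` in `[a, b]`.
-/

namespace Vale.Agent.Helper22

/-- The body of revolution `{x : a ≤ x_last ≤ b, ∑_{i < n} x_i ^ 2 ≤ f (x_last) ^ 2}` in
`Fin (n + 1) → ℝ`. -/
def revBody (n : ℕ) (f : ℝ → ℝ) (a b : ℝ) : Set (Fin (n + 1) → ℝ) :=
  {x | a ≤ x (Fin.last n) ∧ x (Fin.last n) ≤ b ∧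
    ∑ i : Fin n, x (Fin.castSucc i) ^ 2 ≤ f (x (Fin.last n)) ^ 2}

end Vale.Agent.Helper22
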