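import Vale.Agent.Helper22.ConcaveMain
import Vale.Agent.Helper22.RevDefs

/-!
Bodies of revolution for P254: a body of revolution in dimension `n + 1` with concave meridian
profile is, after relabelling of coordinates, the tower over the Euclidean unit ball of dimension
`n`; the unit balls are themselves iterated towers, so the sharp tower theorem gives the simplex
bound for every body of revolution, with strict inequality from dimension three on.
-/

namespace Vale.Agent.Helper22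

open MeasureTheory Set

noncomputable section

section relabelling

variable {ι : Type*} [Fintype ι] {κ : Type*} [Fintype κ]

lemma vol_relabel (e : ι ≃ κ) (K : Set (κ → ℝ)) : vol (relabel e ⁻¹' K) = vol K := by
  unfold vol
  rw [(relabel_mp e).measure_preimage_emb (relabel e).measurableEmbedding]

lemma mom1_relabel (e : ι ≃ κ) (K : Set (κ → ℝ)) (k : κ) :
    mom1 K k = mom1 (relabel e ⁻¹' K) (e.symm k) := by
  unfold mom1
  rw [← (relabel_mp e).setIntegral_preimage_emb (relabel e).measurableEmbedding]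
  rfl

lemma mom2_relabel (e : ι ≃ κ) (K : Set (κ → ℝ)) (k l : κ) :
    mom2 K k l = mom2 (relabel e ⁻¹' K) (e.symm k) (e.symm l) := by
  unfold mom2
  rw [← (relabel_mp e).setIntegral_preimage_emb (relabel e).measurableEmbedding]
  rfl

lemma cov_relabel (e : ι ≃ κ) (K : Set (κ → ℝ)) :
    cov K = Matrix.reindex e e (cov (relabel e ⁻¹' K)) := by
  ext k l
  simp only [cov, centroid, Matrix.reindex_apply, Matrix.submatrix_apply]
  rw [mom2_relabel e K k l, mom1_relabel e K k, mom1_relabel e K l, vol_relabel e K]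

theorem isoRatio_relabel [DecidableEq ι] [DecidableEq κ] (e : ι ≃ κ) (K : Set (κ → ℝ)) :
    isoRatio K = isoRatio (relabel e ⁻¹' K) := by
  unfold isoRatio
  rw [cov_relabel e, Matrix.det_reindex_self, vol_relabel e]

end relabelling

/-- The identification of `Fin n ⊕ Unit` with `Fin (n + 1)` sending the extra point to the last
index. -/
def lastEquiv (n : ℕ) : Fin n ⊕ Unit ≃ Fin (n + 1) where
  toFun := Sum.elim Fin.castSucc (fun _ => Fin.last n)
  invFun := Fin.lastCases (Sum.inr ()) Sum.inl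
  left_inv := by
    rintro (i | u)
    · simp
    · simp
  right_inv := by
    intro k
    refine Fin.lastCases ?_ (fun i => ?_) k
    · simp
    · simp

lemma lastEquiv_symm_last (n : ℕ) : (lastEquiv n).symm (Fin.last n) = Sum.inr () := by
  simp [lastEquiv]

lemma lastEquiv_symm_castSucc (n : ℕ) (i : Fin n) :
    (lastEquiv n).symm (Fin.castSucc i) = Sum.inl i := by
  simp [lastEquiv]

lemma lastEquiv_inl (n : ℕ) (i : Fin n) : lastEquiv n (Sum.inl i) = Fin.castSucc i := rfl

lemma lastEquiv_inr (n : ℕ) (u : Unit) : lastEquiv n (Sum.inr u) = Fin.last n := rfl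

/-- The closed Euclidean unit ball in `Fin n → ℝ`. -/
def eball (n : ℕ) : Set (Fin n → ℝ) := {y | ∑ i, y i ^ 2 ≤ 1}

lemma measurableSet_eball (n : ℕ) : MeasurableSet (eball n) := by
  apply measurableSet_le _ measurable_const
  exact Finset.measurable_sum _ fun i _ => (measurable_pi_apply i).pow_const 2

lemma isBounded_eball (n : ℕ) : Bornology.IsBounded (eball n) := by
  rw [isBounded_iff_forall_norm_le]
  refine ⟨1, fun y hy => ?_⟩
  rw [pi_norm_le_iff_of_nonneg zero_le_one]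
  intro i
  have h1 : y i ^ 2 ≤ ∑ j, y j ^ 2 :=
    Finset.single_le_sum (f := fun j => y j ^ 2) (fun j _ => sq_nonneg _) (Finset.mem_univ i)
  have h2 : y i ^ 2 ≤ 1 := le_trans h1 hy
  rw [Real.norm_eq_abs]
  exact abs_le.2 ⟨by nlinarith, by nlinarith⟩

lemma zero_mem_eball (n : ℕ) : (0 : Fin n → ℝ) ∈ eball n := by
  simp [eball]

lemma convex_eball (n : ℕ) : Convex ℝ (eball n) := by
  intro y hy y' hy' α β hα hβ hαβ
  have hy1 : ∑ i, y i ^ 2 ≤ 1 := hy
  have hy2 : ∑ i, y' i ^ 2 ≤ 1 := hy'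
  have h : ∑ i, (α • y + β • y') i ^ 2 ≤ ∑ i, (α * y i ^ 2 + β * y' i ^ 2) := by
    apply Finset.sum_le_sum
    intro i _
    simp only [Pi.add_apply, Pi.smul_apply, smul_eq_mul]
    have hβ' : β = 1 - α := by linarith
    subst hβ'
    nlinarith [mul_nonneg (mul_nonneg hα hβ) (sq_nonneg (y i - y' i))]
  show ∑ i, (α • y + β • y') i ^ 2 ≤ 1
  calc ∑ i, (α • y + β • y') i ^ 2 ≤ ∑ i, (α * y i ^ 2 + β * y' i ^ 2) := h
    _ = α * ∑ i, y i ^ 2 + β * ∑ i, y' i ^ 2 := by
        rw [Finset.sum_add_distrib, Finset.mul_sum, Finset.mul_sum]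
    _ ≤ α * 1 + β * 1 :=
        add_le_add (mul_le_mul_of_nonneg_left hy1 hα) (mul_le_mul_of_nonneg_left hy2 hβ)
    _ = 1 := by linarith

/-- After relabelling, a body of revolution is the tower over the unit ball. -/
lemma relabel_revBody (n : ℕ) (f : ℝ → ℝ) (a b : ℝ) (hnn : ∀ t ∈ Icc a b, 0 ≤ f t) :
    relabel (lastEquiv n) ⁻¹' revBody n f a b = ctower (eball n) f a b := by
  ext z
  simp only [mem_preimage, revBody, ctower, mem_ofPred_eq, relabel_apply, lastEquiv_symm_last,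
    lastEquiv_symm_castSucc]
  constructor
  · rintro ⟨h1, h2, h3⟩
    refine ⟨h1, h2, ?_⟩
    have hf0 := hnn _ ⟨h1, h2⟩
    rcases hf0.eq_or_lt with h0 | hpos
    · refine ⟨0, zero_mem_eball n, fun i => ?_⟩
      rw [← h0] at h3 ⊢
      have hs : ∑ j : Fin n, z (Sum.inl j) ^ 2 ≤ 0 := by simpa using h3
      have hi : z (Sum.inl i) ^ 2 ≤ ∑ j : Fin n, z (Sum.inl j) ^ 2 :=
        Finset.single_le_sum (f := fun j => z (Sum.inl j) ^ 2) (fun j _ => sq_nonneg _)
          (Finset.mem_univ i)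
      have h4 : z (Sum.inl i) ^ 2 = 0 := le_antisymm (le_trans hi hs) (sq_nonneg _)
      have h5 : z (Sum.inl i) = 0 := by simpa using h4
      simp [h5]
    · refine ⟨fun i => z (Sum.inl i) / f (z (Sum.inr ())), ?_, fun i => ?_⟩
      · show ∑ i, (z (Sum.inl i) / f (z (Sum.inr ()))) ^ 2 ≤ 1
        simp only [div_pow]
        rw [← Finset.sum_div, div_le_one (by positivity)]
        exact h3
      · field_simp
  · rintro ⟨h1, h2, y, hy, hxy⟩
    refine ⟨h1, h2, ?_⟩
    simp only [hxy, mul_pow]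
    rw [← Finset.mul_sum]
    have hy' : ∑ i, y i ^ 2 ≤ 1 := hy
    nlinarith [sq_nonneg (f (z (Sum.inr ())))]

/-- The semicircle profile. -/
def semi : ℝ → ℝ := fun t => Real.sqrt (1 - t ^ 2)

lemma continuous_semi : Continuous semi := by
  unfold semi
  fun_prop

lemma semi_nonneg (t : ℝ) : 0 ≤ semi t := Real.sqrt_nonneg _

lemma semi_sq {t : ℝ} (ht : t ∈ Icc (-1:ℝ) 1) : semi t ^ 2 = 1 - t ^ 2 :=
  Real.sq_sqrt (by nlinarith [ht.1, ht.2])

lemma semi_neg (t : ℝ) : semi (-t) = semi t := by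
  unfold semi
  rw [neg_sq]

lemma concaveOn_semi : ConcaveOn ℝ (Icc (-1:ℝ) 1) semi := by
  refine ⟨convex_Icc _ _, ?_⟩
  intro x hx y hy α β hα hβ hαβ
  have hp := semi_sq hx
  have hq := semi_sq hy
  have hp0 := semi_nonneg x
  have hq0 := semi_nonneg y
  simp only [smul_eq_mul]
  have h0 : 0 ≤ α * semi x + β * semi y := add_nonneg (mul_nonneg hα hp0) (mul_nonneg hβ hq0)
  have key : (α * semi x + β * semi y) ^ 2 ≤ 1 - (α * x + β * y) ^ 2 := by
    have hpq : semi x * semi y + x * y ≤ 1 := by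
      nlinarith [sq_nonneg (semi x - semi y), sq_nonneg (x - y)]
    have e : (α * semi x + β * semi y) ^ 2 + (α * x + β * y) ^ 2 =
        α ^ 2 * (semi x ^ 2 + x ^ 2) + β ^ 2 * (semi y ^ 2 + y ^ 2) +
          2 * (α * β) * (semi x * semi y + x * y) := by ring
    have e1 : semi x ^ 2 + x ^ 2 = 1 := by linarith
    have e2 : semi y ^ 2 + y ^ 2 = 1 := by linarith
    rw [e1, e2] at e
    have h1 : α ^ 2 + β ^ 2 + 2 * (α * β) = 1 := by
      rw [show α ^ 2 + β ^ 2 + 2 * (α * β) = (α + β) ^ 2 by ring, hαβ]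
      norm_num
    have h2 : 2 * (α * β) * (semi x * semi y + x * y) ≤ 2 * (α * β) * 1 :=
      mul_le_mul_of_nonneg_left hpq (by positivity)
    linarith
  show α * semi x + β * semi y ≤ Real.sqrt (1 - (α * x + β * y) ^ 2)
  calc α * semi x + β * semi y = Real.sqrt ((α * semi x + β * semi y) ^ 2) :=
        (Real.sqrt_sq h0).symm
    _ ≤ Real.sqrt (1 - (α * x + β * y) ^ 2) := Real.sqrt_le_sqrt key

lemma eball_succ (n : ℕ) : eball (n + 1) = revBody n semi (-1) 1 := by
  ext x
  simp only [eball, revBody, mem_ofPred_eq]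
  rw [Fin.sum_univ_castSucc]
  constructor
  · intro h
    have hs : 0 ≤ ∑ i : Fin n, x (Fin.castSucc i) ^ 2 := Finset.sum_nonneg fun i _ => sq_nonneg _
    have ht : x (Fin.last n) ^ 2 ≤ 1 := by linarith
    have hm : x (Fin.last n) ∈ Icc (-1:ℝ) 1 := ⟨by nlinarith, by nlinarith⟩
    refine ⟨hm.1, hm.2, ?_⟩
    rw [semi_sq hm]
    linarith
  · rintro ⟨h1, h2, h3⟩
    rw [semi_sq ⟨h1, h2⟩] at h3
    linarith

lemma int_odd_semi (n : ℕ) : ∫ t in (-1:ℝ)..1, t * semi t ^ n = 0 := by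
  have h := intervalIntegral.integral_comp_neg (a := (-1:ℝ)) (b := 1) (fun t => t * semi t ^ n)
  simp only [semi_neg, neg_neg] at h
  have h2 : ∫ x in (-1:ℝ)..1, -x * semi x ^ n = -∫ x in (-1:ℝ)..1, x * semi x ^ n := by
    rw [← intervalIntegral.integral_neg]
    congr 1
    ext x
    ring
  linarith

lemma semi_le (t : ℝ) (ht : t ∈ Icc (-1:ℝ) 1) : semi t ≤ 1 - t ^ 2 / 2 := by
  unfold semi
  rw [Real.sqrt_le_left (by nlinarith [ht.1, ht.2])]
  nlinarith [sq_nonneg (t ^ 2)]

lemma int_poly1 : ∫ t in (-1:ℝ)..1, t ^ 2 * (1 - t ^ 2 / 2) = 7 / 15 := by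
  have h : ∀ x ∈ uIcc (-1:ℝ) 1,
      HasDerivAt (fun t : ℝ => t ^ 3 / 3 - t ^ 5 / 10) (x ^ 2 * (1 - x ^ 2 / 2)) x := by
    intro x _
    have h3 : HasDerivAt (fun t : ℝ => t ^ 3 / 3 - t ^ 5 / 10)
        (((3:ℕ) : ℝ) * x ^ (3 - 1) / 3 - ((5:ℕ) : ℝ) * x ^ (5 - 1) / 10) x :=
      ((hasDerivAt_pow 3 x).div_const 3).sub ((hasDerivAt_pow 5 x).div_const 10)
    have e : ((3:ℕ) : ℝ) * x ^ (3 - 1) / 3 - ((5:ℕ) : ℝ) * x ^ (5 - 1) / 10 =
        x ^ 2 * (1 - x ^ 2 / 2) := by
      norm_num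
      ring
    rw [e] at h3
    exact h3
  rw [intervalIntegral.integral_eq_sub_of_hasDerivAt h
    (Continuous.intervalIntegrable (by fun_prop) _ _)]
  norm_num

lemma int_poly2 : ∫ t in (-1:ℝ)..1, (1 - t ^ 2) * (1 - t ^ 2 / 2) = 6 / 5 := by
  have h : ∀ x ∈ uIcc (-1:ℝ) 1,
      HasDerivAt (fun t : ℝ => t - t ^ 3 / 2 + t ^ 5 / 10) ((1 - x ^ 2) * (1 - x ^ 2 / 2)) x := by
    intro x _
    have h3 : HasDerivAt (fun t : ℝ => t - t ^ 3 / 2 + t ^ 5 / 10)
        (1 - ((3:ℕ) : ℝ) * x ^ (3 - 1) / 2 + ((5:ℕ) : ℝ) * x ^ (5 - 1) / 10) x :=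
      ((hasDerivAt_id x).sub ((hasDerivAt_pow 3 x).div_const 2)).add
        ((hasDerivAt_pow 5 x).div_const 10)
    have e : 1 - ((3:ℕ) : ℝ) * x ^ (3 - 1) / 2 + ((5:ℕ) : ℝ) * x ^ (5 - 1) / 10 =
        (1 - x ^ 2) * (1 - x ^ 2 / 2) := by
      norm_num
      ring
    rw [e] at h3
    exact h3
  rw [intervalIntegral.integral_eq_sub_of_hasDerivAt h
    (Continuous.intervalIntegrable (by fun_prop) _ _)]
  norm_num

/-- The profile factor of the semicircle over a segment is strictly below the cone value. -/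
lemma pf_semi_lt : profileFactor 1 semi (-1) 1 < pyrConst 1 := by
  have hI : ∫ t in (-1:ℝ)..1, semi t ^ 1 = Real.pi / 2 := by
    simp only [pow_one]
    exact integral_sqrt_one_sub_sq
  have hc1 : Continuous fun t : ℝ => t ^ 2 * semi t ^ 1 :=
    (continuous_id.pow 2).mul (continuous_semi.pow 1)
  have hc2 : Continuous fun t : ℝ => semi t ^ (1 + 2) := continuous_semi.pow _
  have hT2 : ∫ t in (-1:ℝ)..1, t ^ 2 * semi t ^ 1 ≤ 7 / 15 := by
    rw [← int_poly1]
    apply intervalIntegral.integral_mono_on (by norm_num) (hc1.intervalIntegrable _ _)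
      (Continuous.intervalIntegrable (by fun_prop) _ _)
    intro t ht
    rw [pow_one]
    exact mul_le_mul_of_nonneg_left (semi_le t ht) (sq_nonneg t)
  have hS : ∫ t in (-1:ℝ)..1, semi t ^ (1 + 2) ≤ 6 / 5 := by
    rw [← int_poly2]
    apply intervalIntegral.integral_mono_on (by norm_num) (hc2.intervalIntegrable _ _)
      (Continuous.intervalIntegrable (by fun_prop) _ _)
    intro t ht
    have e : semi t ^ (1 + 2) = (1 - t ^ 2) * semi t := by
      rw [show (1 + 2 : ℕ) = 2 + 1 from rfl, pow_succ, semi_sq ht]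
    rw [e]
    exact mul_le_mul_of_nonneg_left (semi_le t ht) (by nlinarith [ht.1, ht.2])
  have hS0 : 0 ≤ ∫ t in (-1:ℝ)..1, semi t ^ (1 + 2) :=
    intervalIntegral.integral_nonneg (by norm_num) fun t _ => pow_nonneg (semi_nonneg t) _
  have hT20 : 0 ≤ ∫ t in (-1:ℝ)..1, t ^ 2 * semi t ^ 1 :=
    intervalIntegral.integral_nonneg (by norm_num) fun t _ =>
      mul_nonneg (sq_nonneg t) (pow_nonneg (semi_nonneg t) _)
  unfold profileFactor
  rw [hI]
  set T2 := ∫ t in (-1:ℝ)..1, t ^ 2 * semi t ^ 1 with hT2def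
  set S := ∫ t in (-1:ℝ)..1, semi t ^ (1 + 2) with hSdef
  set T1 := ∫ t in (-1:ℝ)..1, t * semi t ^ 1 with hT1def
  have hpc : pyrConst 1 = 1 / 9 := by
    unfold pyrConst
    norm_num
  rw [hpc]
  have hP : (3:ℝ) / 2 < Real.pi / 2 := by linarith [Real.pi_gt_three]
  set P := Real.pi / 2 with hPdef
  have hP0 : 0 < P := by linarith
  have hP4 : (3 / 2 : ℝ) ^ 4 < P ^ 4 := pow_lt_pow_left₀ hP (by norm_num) (by norm_num)
  rw [div_lt_iff₀ (by positivity), pow_one]
  have hTS : T2 * S ≤ 7 / 15 * (6 / 5) := mul_le_mul hT2 hS hS0 (by norm_num)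
  have h1 : (P * T2 - T1 ^ 2) * S ≤ P * (T2 * S) := by
    nlinarith [mul_nonneg (sq_nonneg T1) hS0]
  have h2 : P * (T2 * S) ≤ P * (7 / 15 * (6 / 5)) := mul_le_mul_of_nonneg_left hTS hP0.le
  have h3 : P * (7 / 15 * (6 / 5)) < 1 / 9 * P ^ (1 + 4) := by
    have e : P ^ (1 + 4) = P * P ^ 4 := by ring
    rw [e]
    nlinarith
  linarith

lemma strict_aux {p c x y : ℝ} (hp0 : 0 ≤ p) (hpc : p ≤ c) (hc : 0 < c) (hy : 0 < y)
    (hxy : x ≤ y) (h : p < c ∨ x < y) : p * x < c * y := by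
  rcases h with h | h
  · calc p * x ≤ p * y := mul_le_mul_of_nonneg_left hxy hp0
      _ < c * y := mul_lt_mul_of_pos_right h hy
  · rcases hp0.eq_or_lt with h0 | hpos
    · rw [← h0, zero_mul]
      exact mul_pos hc hy
    · calc p * x < p * y := mul_lt_mul_of_pos_left h hpos
        _ ≤ c * y := mul_le_mul_of_nonneg_right hpc hy.le

/-- Volume of a tower with a concave profile, and positivity of the profile integral. -/
lemma vol_ctower_concave {ι : Type*} [Fintype ι] (M : Set (ι → ℝ)) (hM : MeasurableSet M)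
    (hb : Bornology.IsBounded M) (f : ℝ → ℝ) (a b : ℝ) (hab : a < b)
    (hcont : ContinuousOn f (Icc a b)) (hconc : ConcaveOn ℝ (Icc a b) f)
    (hnn : ∀ t ∈ Icc a b, 0 ≤ f t) (hpos : ∃ t ∈ Icc a b, 0 < f t) :
    vol (ctower M f a b) = vol M * ∫ t in a..b, f t ^ Fintype.card ι ∧
      0 < ∫ t in a..b, f t ^ Fintype.card ι := by
  set g : ℝ → ℝ := fun t => f (max a (min b t)) with hg
  have hclamp : ∀ t : ℝ, max a (min b t) ∈ Icc a b := fun t =>
    ⟨le_max_left _ _, max_le hab.le (min_le_left _ _)⟩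
  have hgeq : ∀ t ∈ Icc a b, g t = f t := by
    intro t ht
    simp only [hg]
    rw [min_eq_right ht.2, max_eq_right ht.1]
  have hgc : Continuous g :=
    hcont.comp_continuous (continuous_const.max (continuous_const.min continuous_id)) hclamp
  have hgconc : ConcaveOn ℝ (Icc a b) g := hconc.congr fun t ht => (hgeq t ht).symm
  have hgnn : ∀ t ∈ Icc a b, 0 ≤ g t := fun t ht => by rw [hgeq t ht]; exact hnn t ht
  have hgpos : ∃ t ∈ Icc a b, 0 < g t := by
    obtain ⟨t, ht, hft⟩ := hpos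
    exact ⟨t, ht, by rw [hgeq t ht]; exact hft⟩
  have htow : ctower M f a b = ctower M g a b := ctower_congr M hgeq
  have hI : ∫ t in a..b, f t ^ Fintype.card ι = ∫ t in a..b, g t ^ Fintype.card ι := by
    apply intervalIntegral.integral_congr
    intro t ht
    rw [uIcc_of_le hab.le] at ht
    simp only
    rw [hgeq t ht]
  have hpos' : ∀ t ∈ Ioo a b, 0 < g t := fun t ht => pos_of_concave_general hgconc hgnn hgpos ht
  obtain ⟨c, hcm, hcmax⟩ := isCompact_Icc.exists_isMaxOn (nonempty_Icc.2 hab.le)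
    (hgc.continuousOn (s := Icc a b))
  have hB : ∀ t ∈ Ioo a b, g t ≤ g c := fun t ht => hcmax ⟨ht.1.le, ht.2.le⟩
  rw [htow, hI]
  refine ⟨vol_ctower hM hb hgc hab.le hpos' hB, ?_⟩
  apply intervalIntegral.intervalIntegral_pos_of_pos_on
  · exact Continuous.intervalIntegrable (by fun_prop) _ _
  · intro x hx
    exact pow_pos (hpos' x hx) _
  · exact hab

lemma eball_zero : eball 0 = stdSimp (Fin 0) := by
  ext y
  simp [eball, stdSimp]

lemma vol_stdSimp_zero : vol (stdSimp (Fin 0)) = 1 := by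
  have hu : stdSimp (Fin 0) = univ := by
    ext y
    simp [stdSimp]
  unfold vol
  rw [hu, volume_pi]
  simp

/-- The Euclidean unit balls are centred, have positive volume and lie weakly below the simplex
value, strictly from dimension two on. -/
theorem eball_props : ∀ n : ℕ, (∀ i, mom1 (eball n) i = 0) ∧ 0 < vol (eball n) ∧
    isoRatio (eball n) ≤ isoRatio (stdSimp (Fin n)) ∧
    (2 ≤ n → isoRatio (eball n) < isoRatio (stdSimp (Fin n)))
  | 0 => by
    refine ⟨fun i => i.elim0, ?_, ?_, fun h => absurd h (by norm_num)⟩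
    · rw [eball_zero, vol_stdSimp_zero]
      exact one_pos
    · rw [eball_zero]
  | n + 1 => by
    obtain ⟨hcen, hvol, hle, hlt⟩ := eball_props n
    have hI : (-1:ℝ) < 1 := by norm_num
    have hsp : ∃ t ∈ Icc (-1:ℝ) 1, 0 < semi t :=
      ⟨0, ⟨by norm_num, by norm_num⟩, by simp [semi]⟩
    obtain ⟨h1, h2, h3, h4, -, ⟨h7, h8⟩, -⟩ :=
      concave_tower_main (eball n) (measurableSet_eball n) (isBounded_eball n) hcen semi (-1) 1
        hI continuous_semi.continuousOn concaveOn_semi (fun t _ => semi_nonneg t) hsp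
    obtain ⟨hv1, hv2⟩ := vol_ctower_concave (eball n) (measurableSet_eball n) (isBounded_eball n)
      semi (-1) 1 hI continuous_semi.continuousOn concaveOn_semi (fun t _ => semi_nonneg t) hsp
    have hpre : relabel (lastEquiv n) ⁻¹' eball (n + 1) = ctower (eball n) semi (-1) 1 := by
      rw [eball_succ, relabel_revBody n semi (-1) 1 (fun t _ => semi_nonneg t)]
    have hD : isoRatio (eball (n + 1)) = isoRatio (ctower (eball n) semi (-1) 1) := by
      rw [isoRatio_relabel (lastEquiv n), hpre]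
    have hS : isoRatio (stdSimp (Fin (n + 1))) = isoRatio (stdSimp (Fin n ⊕ Unit)) :=
      isoRatio_stdSimp_relabel (lastEquiv n)
    refine ⟨fun k => ?_, ?_, ?_, fun hn => ?_⟩
    · rw [mom1_relabel (lastEquiv n), hpre]
      refine Fin.lastCases ?_ (fun i => ?_) k
      · rw [lastEquiv_symm_last, h8, Fintype.card_fin, int_odd_semi, mul_zero]
      · rw [lastEquiv_symm_castSucc]
        exact h7 i
    · rw [← vol_relabel (lastEquiv n), hpre, hv1]
      exact mul_pos hvol hv2
    · rw [hD, hS]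
      exact h4 hle
    · rw [hD, hS, h1, isoRatio_stdSimp_succ]
      have hsp0 : 0 < isoRatio (stdSimp (Fin n)) := isoRatio_stdSimp_pos
      apply strict_aux h2 h3 (pyrConst_pos _) hsp0 hle
      rcases Nat.lt_or_ge n 2 with hn2 | hn2
      · left
        have hn1 : n = 1 := by omega
        subst hn1
        rw [Fintype.card_fin]
        exact pf_semi_lt
      · right
        exact hlt hn2

end

end Vale.Agent.Helper22
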