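import Vale.Agent.Helper22.Tower1D

/-!
Tail functionals of the weight `f ^ m` for a continuous, concave, nonincreasing, nonnegative
profile `f` on `[0, L]`: the tail integral, its two iterated tail integrals, and the sharp
inequalities between them.
-/

namespace Vale.Agent.Helper22

open MeasureTheory Set

noncomputable section

/-- Tail integral `∫_t^b φ`. -/
def tailOf (φ : ℝ → ℝ) (b t : ℝ) : ℝ := ∫ x in t..b, φ x

lemma hasDerivAt_tailOf {φ : ℝ → ℝ} (hφ : Continuous φ) (b t : ℝ) :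
    HasDerivAt (tailOf φ b) (-(φ t)) t :=
  intervalIntegral.integral_hasDerivAt_left (hφ.intervalIntegrable _ _)
    (hφ.stronglyMeasurableAtFilter _ _) hφ.continuousAt

lemma continuous_tailOf {φ : ℝ → ℝ} (hφ : Continuous φ) (b : ℝ) : Continuous (tailOf φ b) :=
  continuous_iff_continuousAt.2 fun t => (hasDerivAt_tailOf hφ b t).continuousAt

lemma tailOf_self (φ : ℝ → ℝ) (b : ℝ) : tailOf φ b b = 0 := by
  unfold tailOf
  exact intervalIntegral.integral_same

/-- `∫_a^b (∫_t^b φ) dt = ∫_a^b (t - a) φ(t) dt`. -/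
lemma int_tailOf {φ : ℝ → ℝ} (hφ : Continuous φ) (a b : ℝ) :
    ∫ t in a..b, tailOf φ b t = ∫ t in a..b, (t - a) * φ t := by
  have hΨ := continuous_tailOf hφ b
  have hd : ∀ t ∈ uIcc a b, HasDerivAt (fun t => (t - a) * tailOf φ b t)
      (tailOf φ b t - (t - a) * φ t) t := by
    intro t _
    have h := ((hasDerivAt_id t).sub_const a).mul (hasDerivAt_tailOf hφ b t)
    have h2 : HasDerivAt (fun t => (t - a) * tailOf φ b t) _ t := h
    refine h2.congr_deriv ?_
    simp only [id]
    ring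
  have h := intervalIntegral.integral_eq_sub_of_hasDerivAt hd
    (Continuous.intervalIntegrable (by fun_prop) _ _)
  rw [intervalIntegral.integral_sub, tailOf_self] at h
  · simp only [mul_zero, sub_self, zero_mul] at h
    linarith
  · exact Continuous.intervalIntegrable (by fun_prop) _ _
  · exact Continuous.intervalIntegrable (by fun_prop) _ _

/-- `∫_a^b (t - a) (∫_t^b φ) dt = ∫_a^b (t - a)^2 / 2 φ(t) dt`. -/
lemma int_sub_mul_tailOf {φ : ℝ → ℝ} (hφ : Continuous φ) (a b : ℝ) :
    ∫ t in a..b, (t - a) * tailOf φ b t = ∫ t in a..b, (t - a) ^ 2 / 2 * φ t := by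
  have hΨ := continuous_tailOf hφ b
  have hd : ∀ t ∈ uIcc a b, HasDerivAt (fun t => (t - a) ^ 2 / 2 * tailOf φ b t)
      ((t - a) * tailOf φ b t - (t - a) ^ 2 / 2 * φ t) t := by
    intro t _
    have h := ((((hasDerivAt_id t).sub_const a).pow 2).div_const 2).mul
      (hasDerivAt_tailOf hφ b t)
    have h2 : HasDerivAt (fun t => (t - a) ^ 2 / 2 * tailOf φ b t) _ t := h
    refine h2.congr_deriv ?_
    have e21 : (2 - 1 : ℕ) = 1 := rfl
    simp only [id, e21, Pi.pow_apply]
    push_cast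
    ring
  have h := intervalIntegral.integral_eq_sub_of_hasDerivAt hd
    (Continuous.intervalIntegrable (by fun_prop) _ _)
  rw [intervalIntegral.integral_sub, tailOf_self] at h
  · simp only [mul_zero, sub_self] at h
    have h0 : (a - a) ^ 2 / 2 * tailOf φ b a = 0 := by simp
    linarith
  · exact Continuous.intervalIntegrable (by fun_prop) _ _
  · exact Continuous.intervalIntegrable (by fun_prop) _ _

/-- `∫_a^b φ(t) (∫_t^b φ) dt = (∫_a^b φ)^2 / 2`. -/
lemma int_mul_tailOf {φ : ℝ → ℝ} (hφ : Continuous φ) (a b : ℝ) :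
    ∫ t in a..b, φ t * tailOf φ b t = tailOf φ b a ^ 2 / 2 := by
  have hΨ := continuous_tailOf hφ b
  have hd : ∀ t ∈ uIcc a b, HasDerivAt (fun t => -(tailOf φ b t ^ 2) / 2)
      (φ t * tailOf φ b t) t := by
    intro t _
    have h := (((hasDerivAt_tailOf hφ b t).pow 2).neg).div_const 2
    have h2 : HasDerivAt (fun t => -(tailOf φ b t ^ 2) / 2) _ t := h
    refine h2.congr_deriv ?_
    have e21 : (2 - 1 : ℕ) = 1 := rfl
    rw [e21]
    push_cast
    ring
  have h := intervalIntegral.integral_eq_sub_of_hasDerivAt hd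
    (Continuous.intervalIntegrable (by fun_prop) _ _)
  rw [h, tailOf_self]
  ring

/-- A Chebyshev-type expansion on `[a, b]`. -/
lemma cheb_gen (w Ψ : ℝ → ℝ) (c₁ c₂ : ℝ) (hw : Continuous w) (hΨ : Continuous Ψ) {a b : ℝ}
    (hab : a ≤ b)
    (hpt : ∀ s ∈ Icc a b, ∀ t ∈ Icc a b,
      0 ≤ c₁ * ((t - s) * (Ψ s * w t - Ψ t * w s)) - c₂ * ((t - s) ^ 2 * (w s * w t))) :
    0 ≤ c₁ * (2 * (∫ t in a..b, (t - a) * w t) * (∫ t in a..b, Ψ t) -
        2 * (∫ t in a..b, w t) * (∫ t in a..b, (t - a) * Ψ t)) -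
      c₂ * (2 * (∫ t in a..b, w t) * (∫ t in a..b, (t - a) ^ 2 * w t) -
        2 * (∫ t in a..b, (t - a) * w t) ^ 2) := by
  set I : ℝ := ∫ t in a..b, w t with hI
  set T1 : ℝ := ∫ t in a..b, (t - a) * w t with hT1
  set T2 : ℝ := ∫ t in a..b, (t - a) ^ 2 * w t with hT2
  set P1 : ℝ := ∫ t in a..b, Ψ t with hP1
  set TP : ℝ := ∫ t in a..b, (t - a) * Ψ t with hTP
  have inner : ∀ s, ∫ t in a..b,
      (c₁ * ((t - s) * (Ψ s * w t - Ψ t * w s)) - c₂ * ((t - s) ^ 2 * (w s * w t))) =
      (c₁ * Ψ s) * T1 - (c₁ * ((s - a) * Ψ s)) * I - (c₁ * w s) * TP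
        + (c₁ * ((s - a) * w s)) * P1
        - (c₂ * w s) * T2 + (2 * c₂ * ((s - a) * w s)) * T1 - (c₂ * ((s - a) ^ 2 * w s)) * I := by
    intro s
    have e : ∀ t, c₁ * ((t - s) * (Ψ s * w t - Ψ t * w s)) - c₂ * ((t - s) ^ 2 * (w s * w t)) =
        (c₁ * Ψ s) * ((t - a) * w t) - (c₁ * ((s - a) * Ψ s)) * w t
          - (c₁ * w s) * ((t - a) * Ψ t)
          + (c₁ * ((s - a) * w s)) * Ψ t - (c₂ * w s) * ((t - a) ^ 2 * w t)
          + (2 * c₂ * ((s - a) * w s)) * ((t - a) * w t)
          - (c₂ * ((s - a) ^ 2 * w s)) * w t := by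
      intro t; ring
    simp_rw [e]
    rw [intervalIntegral.integral_sub, intervalIntegral.integral_add,
      intervalIntegral.integral_sub, intervalIntegral.integral_add,
      intervalIntegral.integral_sub, intervalIntegral.integral_sub,
      intervalIntegral.integral_const_mul, intervalIntegral.integral_const_mul,
      intervalIntegral.integral_const_mul, intervalIntegral.integral_const_mul,
      intervalIntegral.integral_const_mul, intervalIntegral.integral_const_mul,
      intervalIntegral.integral_const_mul]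
    all_goals exact Continuous.intervalIntegrable (by fun_prop) _ _
  have outer : ∫ s in a..b, ((c₁ * Ψ s) * T1 - (c₁ * ((s - a) * Ψ s)) * I - (c₁ * w s) * TP
        + (c₁ * ((s - a) * w s)) * P1
        - (c₂ * w s) * T2 + (2 * c₂ * ((s - a) * w s)) * T1
        - (c₂ * ((s - a) ^ 2 * w s)) * I) =
      c₁ * P1 * T1 - c₁ * TP * I - c₁ * I * TP + c₁ * T1 * P1 - c₂ * I * T2
        + 2 * c₂ * T1 * T1 - c₂ * T2 * I := by
    rw [intervalIntegral.integral_sub, intervalIntegral.integral_add,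
      intervalIntegral.integral_sub, intervalIntegral.integral_add,
      intervalIntegral.integral_sub, intervalIntegral.integral_sub,
      intervalIntegral.integral_mul_const, intervalIntegral.integral_mul_const,
      intervalIntegral.integral_mul_const, intervalIntegral.integral_mul_const,
      intervalIntegral.integral_mul_const, intervalIntegral.integral_mul_const,
      intervalIntegral.integral_mul_const,
      intervalIntegral.integral_const_mul, intervalIntegral.integral_const_mul,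
      intervalIntegral.integral_const_mul, intervalIntegral.integral_const_mul,
      intervalIntegral.integral_const_mul, intervalIntegral.integral_const_mul,
      intervalIntegral.integral_const_mul]
    all_goals exact Continuous.intervalIntegrable (by fun_prop) _ _
  have hnn : 0 ≤ ∫ s in a..b, ∫ t in a..b,
      (c₁ * ((t - s) * (Ψ s * w t - Ψ t * w s)) - c₂ * ((t - s) ^ 2 * (w s * w t))) :=
    intervalIntegral.integral_nonneg hab fun s hs =>
      intervalIntegral.integral_nonneg hab fun t ht => hpt s hs t ht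
  simp_rw [inner] at hnn
  rw [outer] at hnn
  nlinarith

/-- First iterated tail: `∫_s^L (∫_t^L f^m) dt = ∫_s^L (t - s) f^m`. -/
def tail1 (f : ℝ → ℝ) (m : ℕ) (L s : ℝ) : ℝ := ∫ t in s..L, tailInt f m L t

/-- Second iterated tail: `∫_s^L tail1 = ∫_s^L (t - s)^2 / 2 f^m`. -/
def tail2 (f : ℝ → ℝ) (m : ℕ) (L s : ℝ) : ℝ := ∫ t in s..L, tail1 f m L t

variable {f : ℝ → ℝ} {L : ℝ}

lemma tailInt_eq_tailOf (m : ℕ) : tailInt f m L = tailOf (fun x => f x ^ m) L := rfl

lemma tail1_eq_tailOf (m : ℕ) : tail1 f m L = tailOf (tailInt f m L) L := rfl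

lemma tail2_eq_tailOf (m : ℕ) : tail2 f m L = tailOf (tail1 f m L) L := rfl

lemma hasDerivAt_tail1 (hc : Continuous f) (m : ℕ) (s : ℝ) :
    HasDerivAt (tail1 f m L) (-(tailInt f m L s)) s :=
  hasDerivAt_tailOf (continuous_tailInt hc m) L s

lemma continuous_tail1 (hc : Continuous f) (m : ℕ) : Continuous (tail1 f m L) :=
  continuous_tailOf (continuous_tailInt hc m) L

lemma hasDerivAt_tail2 (hc : Continuous f) (m : ℕ) (s : ℝ) :
    HasDerivAt (tail2 f m L) (-(tail1 f m L s)) s :=
  hasDerivAt_tailOf (continuous_tail1 hc m) L s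

lemma continuous_tail2 (hc : Continuous f) (m : ℕ) : Continuous (tail2 f m L) :=
  continuous_tailOf (continuous_tail1 hc m) L

lemma tail1_eq (hc : Continuous f) (m : ℕ) (s : ℝ) :
    tail1 f m L s = ∫ t in s..L, (t - s) * f t ^ m := by
  have hwc : Continuous fun x => f x ^ m := by fun_prop
  exact int_tailOf hwc s L

lemma tail2_eq_a (hc : Continuous f) (m : ℕ) (s : ℝ) :
    tail2 f m L s = ∫ t in s..L, (t - s) * tailInt f m L t :=
  int_tailOf (continuous_tailInt hc m) s L

lemma tail2_eq (hc : Continuous f) (m : ℕ) (s : ℝ) :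
    tail2 f m L s = ∫ t in s..L, (t - s) ^ 2 / 2 * f t ^ m := by
  have hwc : Continuous fun x => f x ^ m := by fun_prop
  rw [tail2_eq_a hc m s]
  exact int_sub_mul_tailOf hwc s L

lemma tailInt_nonneg (_hc : Continuous f) (hnn : ∀ x ∈ Icc 0 L, 0 ≤ f x) (m : ℕ) {s : ℝ}
    (hs : 0 ≤ s) (hsL : s ≤ L) : 0 ≤ tailInt f m L s := by
  unfold tailInt
  apply intervalIntegral.integral_nonneg hsL
  intro x hx
  exact pow_nonneg (hnn x ⟨by linarith [hx.1], hx.2⟩) _

lemma tailInt_pos (hc : Continuous f) (hpos : ∀ x ∈ Ico 0 L, 0 < f x) (m : ℕ) {s : ℝ}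
    (hs : 0 ≤ s) (hsL : s < L) : 0 < tailInt f m L s := by
  unfold tailInt
  apply intervalIntegral.intervalIntegral_pos_of_pos_on
  · exact Continuous.intervalIntegrable (by fun_prop) _ _
  · intro x hx
    exact pow_pos (hpos x ⟨by linarith [hx.1], hx.2⟩) m
  · exact hsL

lemma tail1_pos (hc : Continuous f) (hpos : ∀ x ∈ Ico 0 L, 0 < f x) (m : ℕ) {s : ℝ}
    (hs : 0 ≤ s) (hsL : s < L) : 0 < tail1 f m L s := by
  have hΦc := continuous_tailInt (L := L) hc m
  unfold tail1
  apply intervalIntegral.intervalIntegral_pos_of_pos_on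
  · exact Continuous.intervalIntegrable (by fun_prop) _ _
  · intro x hx
    exact tailInt_pos hc hpos m (by linarith [hx.1]) hx.2
  · exact hsL

lemma tail2_pos (hc : Continuous f) (hpos : ∀ x ∈ Ico 0 L, 0 < f x) (m : ℕ) {s : ℝ}
    (hs : 0 ≤ s) (hsL : s < L) : 0 < tail2 f m L s := by
  have hΦc := continuous_tail1 (L := L) hc m
  unfold tail2
  apply intervalIntegral.intervalIntegral_pos_of_pos_on
  · exact Continuous.intervalIntegrable (by fun_prop) _ _
  · intro x hx
    exact tail1_pos hc hpos m (by linarith [hx.1]) hx.2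
  · exact hsL

/-- `Φ(s)^2 ≤ 2 w(s) P₁(s)`. -/
lemma tail_z1 (hc : Continuous f) (hanti : AntitoneOn f (Icc 0 L))
    (hnn : ∀ x ∈ Icc 0 L, 0 ≤ f x) (m : ℕ) {s : ℝ} (hs : 0 ≤ s) (hsL : s ≤ L) :
    tailInt f m L s ^ 2 ≤ 2 * f s ^ m * tail1 f m L s := by
  have hwc : Continuous fun x => f x ^ m := by fun_prop
  have hΦc := continuous_tailInt (L := L) hc m
  have h1 : ∫ t in s..L, f t ^ m * tailInt f m L t = tailInt f m L s ^ 2 / 2 :=
    int_mul_tailOf hwc s L
  have h2 : ∫ t in s..L, f t ^ m * tailInt f m L t ≤ ∫ t in s..L, f s ^ m * tailInt f m L t := by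
    apply intervalIntegral.integral_mono_on hsL
    · exact Continuous.intervalIntegrable (by fun_prop) _ _
    · exact Continuous.intervalIntegrable (by fun_prop) _ _
    · intro t ht
      have htm : t ∈ Icc 0 L := ⟨by linarith [ht.1], ht.2⟩
      have hsm : s ∈ Icc 0 L := ⟨hs, hsL⟩
      have hle : f t ^ m ≤ f s ^ m := pow_le_pow_left₀ (hnn t htm) (hanti hsm htm ht.1) m
      exact mul_le_mul_of_nonneg_right hle (tailInt_nonneg hc hnn m htm.1 htm.2)
  rw [intervalIntegral.integral_const_mul] at h2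
  have h3 : ∫ t in s..L, tailInt f m L t = tail1 f m L s := rfl
  rw [h3] at h2
  linarith

/-- `(m + 2) w(s) P₁(s) ≤ (m + 1) Φ(s)^2`. -/
lemma tail_z2 (hc : Continuous f) (hconc : ConcaveOn ℝ (Icc 0 L) f)
    (hanti : AntitoneOn f (Icc 0 L)) (hnn : ∀ x ∈ Icc 0 L, 0 ≤ f x) (m : ℕ) {s : ℝ}
    (hs : 0 ≤ s) (hsL : s ≤ L) :
    ((m : ℝ) + 2) * f s ^ m * tail1 f m L s ≤ ((m : ℝ) + 1) * tailInt f m L s ^ 2 := by
  have hwc : Continuous fun x => f x ^ m := by fun_prop
  have hΦc := continuous_tailInt (L := L) hc m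
  have h1 : ∫ t in s..L, f s ^ m * ((t - s) * f t ^ m) ≤
      ∫ t in s..L, ((m : ℝ) + 1) * (tailInt f m L s * f t ^ m - tailInt f m L t * f s ^ m) := by
    apply intervalIntegral.integral_mono_on hsL
    · exact Continuous.intervalIntegrable (by fun_prop) _ _
    · exact Continuous.intervalIntegrable (by fun_prop) _ _
    · intro t ht
      have h := sifr hc hconc hanti hnn m hs ht.1 ht.2
      have e : f s ^ m * ((t - s) * f t ^ m) = (t - s) * (f s ^ m * f t ^ m) := by ring
      rw [e]; exact h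
  rw [intervalIntegral.integral_const_mul, intervalIntegral.integral_const_mul,
    intervalIntegral.integral_sub, intervalIntegral.integral_const_mul,
    intervalIntegral.integral_mul_const, ← tail1_eq hc m s] at h1
  · have h3 : ∫ t in s..L, tailInt f m L t = tail1 f m L s := rfl
    have h4 : ∫ t in s..L, f t ^ m = tailInt f m L s := rfl
    rw [h3, h4] at h1
    nlinarith
  · exact Continuous.intervalIntegrable (by fun_prop) _ _
  · exact Continuous.intervalIntegrable (by fun_prop) _ _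

lemma tail_cheb_ids (hc : Continuous f) (m : ℕ) (s : ℝ) :
    (∫ t in s..L, (t - s) * f t ^ m) = tail1 f m L s ∧
    (∫ t in s..L, tailInt f m L t) = tail1 f m L s ∧
    (∫ t in s..L, f t ^ m) = tailInt f m L s ∧
    (∫ t in s..L, (t - s) * tailInt f m L t) = tail2 f m L s ∧
    (∫ t in s..L, (t - s) ^ 2 * f t ^ m) = 2 * tail2 f m L s := by
  refine ⟨(tail1_eq hc m s).symm, rfl, rfl, (tail2_eq_a hc m s).symm, ?_⟩
  rw [tail2_eq hc m s, ← intervalIntegral.integral_const_mul]
  congr 1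
  funext t
  ring

/-- `(m + 3) Φ(s) P₂(s) ≤ (m + 2) P₁(s)^2`. -/
lemma tail_i2 (hc : Continuous f) (hconc : ConcaveOn ℝ (Icc 0 L) f)
    (hanti : AntitoneOn f (Icc 0 L)) (hnn : ∀ x ∈ Icc 0 L, 0 ≤ f x) (m : ℕ) {s : ℝ}
    (hs : 0 ≤ s) (hsL : s ≤ L) :
    ((m : ℝ) + 3) * tailInt f m L s * tail2 f m L s ≤ ((m : ℝ) + 2) * tail1 f m L s ^ 2 := by
  have hwc : Continuous fun t => f t ^ m := by fun_prop
  have hΦc := continuous_tailInt (L := L) hc m
  have hpt : ∀ s' ∈ Icc s L, ∀ t ∈ Icc s L,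
      0 ≤ ((m : ℝ) + 1) * ((t - s') * (tailInt f m L s' * f t ^ m - tailInt f m L t * f s' ^ m))
        - 1 * ((t - s') ^ 2 * (f s' ^ m * f t ^ m)) := by
    intro s' hs' t ht
    rcases le_total s' t with hst | hts
    · have h := sifr hc hconc hanti hnn m (le_trans hs hs'.1) hst ht.2
      have h1 := mul_le_mul_of_nonneg_left h (sub_nonneg.2 hst)
      nlinarith
    · have h := sifr hc hconc hanti hnn m (le_trans hs ht.1) hts hs'.2
      have h1 := mul_le_mul_of_nonneg_left h (sub_nonneg.2 hts)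
      nlinarith
  have h := cheb_gen (fun t => f t ^ m) (tailInt f m L) ((m : ℝ) + 1) 1 hwc hΦc hsL hpt
  obtain ⟨e1, e2, e3, e4, e5⟩ := tail_cheb_ids (L := L) hc m s
  simp only [e1, e2, e3, e4, e5] at h
  nlinarith

/-- `2 P₁(s)^2 ≤ 3 Φ(s) P₂(s)`. -/
lemma tail_u (hc : Continuous f) (hanti : AntitoneOn f (Icc 0 L))
    (hnn : ∀ x ∈ Icc 0 L, 0 ≤ f x) (m : ℕ) {s : ℝ} (hs : 0 ≤ s) (hsL : s ≤ L) :
    2 * tail1 f m L s ^ 2 ≤ 3 * tailInt f m L s * tail2 f m L s := by
  have hwc : Continuous fun t => f t ^ m := by fun_prop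
  have hΦc := continuous_tailInt (L := L) hc m
  have key : ∀ a ∈ Icc s L, ∀ b ∈ Icc s L, a ≤ b →
      tailInt f m L a * f b ^ m - tailInt f m L b * f a ^ m ≤ (b - a) * (f a ^ m * f b ^ m) := by
    intro a ha b hb hab
    have ham : a ∈ Icc 0 L := ⟨le_trans hs ha.1, ha.2⟩
    have hbm : b ∈ Icc 0 L := ⟨le_trans hs hb.1, hb.2⟩
    have hsplit : tailInt f m L a = (∫ x in a..b, f x ^ m) + tailInt f m L b := by
      unfold tailInt
      rw [intervalIntegral.integral_add_adjacent_intervals]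
      · exact Continuous.intervalIntegrable (by fun_prop) _ _
      · exact Continuous.intervalIntegrable (by fun_prop) _ _
    have hS : ∫ x in a..b, f x ^ m ≤ (b - a) * f a ^ m := by
      have h1 : ∫ x in a..b, f x ^ m ≤ ∫ _x in a..b, f a ^ m := by
        apply intervalIntegral.integral_mono_on hab
        · exact Continuous.intervalIntegrable (by fun_prop) _ _
        · exact Continuous.intervalIntegrable (by fun_prop) _ _
        · intro x hx
          have hxm : x ∈ Icc 0 L := ⟨by linarith [hx.1, ham.1], by linarith [hx.2, hbm.2]⟩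
          exact pow_le_pow_left₀ (hnn x hxm) (hanti ham hxm hx.1) m
      rw [intervalIntegral.integral_const] at h1
      simpa using h1
    have hwab : f b ^ m ≤ f a ^ m := pow_le_pow_left₀ (hnn b hbm) (hanti ham hbm hab) m
    have hΦb : 0 ≤ tailInt f m L b := tailInt_nonneg hc hnn m hbm.1 hbm.2
    have hwb : 0 ≤ f b ^ m := pow_nonneg (hnn b hbm) m
    rw [hsplit]
    nlinarith [mul_le_mul_of_nonneg_right hS hwb, mul_nonneg hΦb (sub_nonneg.2 hwab)]
  have hpt : ∀ s' ∈ Icc s L, ∀ t ∈ Icc s L,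
      0 ≤ (-1 : ℝ) * ((t - s') * (tailInt f m L s' * f t ^ m - tailInt f m L t * f s' ^ m))
        - (-1) * ((t - s') ^ 2 * (f s' ^ m * f t ^ m)) := by
    intro s' hs' t ht
    rcases le_total s' t with hst | hts
    · have h := key s' hs' t ht hst
      have h1 := mul_le_mul_of_nonneg_left h (sub_nonneg.2 hst)
      nlinarith
    · have h := key t ht s' hs' hts
      have h1 := mul_le_mul_of_nonneg_left h (sub_nonneg.2 hts)
      nlinarith
  have h := cheb_gen (fun t => f t ^ m) (tailInt f m L) (-1) (-1) hwc hΦc hsL hpt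
  obtain ⟨e1, e2, e3, e4, e5⟩ := tail_cheb_ids (L := L) hc m s
  simp only [e1, e2, e3, e4, e5] at h
  nlinarith

end

end Vale.Agent.Helper22
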