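import Vale.Agent.Helper22.RevMain

/-!
Volume, first and second moments of the standard corner simplex in `Fin n → ℝ` (P254).
-/

namespace Vale.Agent.Helper22

open MeasureTheory Set

noncomputable section

lemma isCompact_stdSimp (n : ℕ) : IsCompact (stdSimp (Fin n)) := by
  apply Metric.isCompact_of_isClosed_isBounded _ isBounded_stdSimp
  have h1 : IsClosed {y : Fin n → ℝ | ∀ i, 0 ≤ y i} := by
    have : {y : Fin n → ℝ | ∀ i, 0 ≤ y i} = ⋂ i, {y : Fin n → ℝ | 0 ≤ y i} := by
      ext y; simp
    rw [this]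
    exact isClosed_iInter fun i => isClosed_le continuous_const (continuous_apply i)
  have h2 : IsClosed {y : Fin n → ℝ | ∑ i, y i ≤ 1} :=
    isClosed_le (continuous_finsetSum _ fun i _ => continuous_apply i) continuous_const
  exact h1.inter h2

/-- Volume and moments of the standard simplex: `1/n!`, `1/(n+1)!`, `(1 + δ_ij)/(n+2)!`. -/
theorem stdSimp_moments : ∀ n : ℕ, vol (stdSimp (Fin n)) = 1 / (n.factorial : ℝ) ∧
    (∀ i, mom1 (stdSimp (Fin n)) i = 1 / ((n + 1).factorial : ℝ)) ∧
    (∀ i j, mom2 (stdSimp (Fin n)) i j = (if i = j then 2 else 1) / ((n + 2).factorial : ℝ))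
  | 0 => ⟨by rw [vol_stdSimp_zero]; simp, fun i => i.elim0, fun i => i.elim0⟩
  | n + 1 => by
    obtain ⟨hv, h1, h2⟩ := stdSimp_moments n
    have hM : MeasurableSet (stdSimp (Fin n)) := measurableSet_stdSimp
    have hb : Bornology.IsBounded (stdSimp (Fin n)) := isBounded_stdSimp
    have hf0 : ((n.factorial : ℕ) : ℝ) ≠ 0 := by positivity
    have hn1 : ((n : ℝ) + 1) ≠ 0 := by positivity
    have hn2 : ((n : ℝ) + 2) ≠ 0 := by positivity
    have hn3 : ((n : ℝ) + 3) ≠ 0 := by positivity
    have f1 : (((n + 1).factorial : ℕ) : ℝ) = ((n : ℝ) + 1) * (n.factorial : ℝ) := by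
      rw [Nat.factorial_succ]; push_cast; ring
    have f2 : (((n + 2).factorial : ℕ) : ℝ) = ((n : ℝ) + 2) * (((n : ℝ) + 1) * (n.factorial : ℝ)) := by
      rw [Nat.factorial_succ, Nat.factorial_succ]; push_cast; ring
    have f3 : (((n + 3).factorial : ℕ) : ℝ) =
        ((n : ℝ) + 3) * (((n : ℝ) + 2) * (((n : ℝ) + 1) * (n.factorial : ℝ))) := by
      rw [Nat.factorial_succ, Nat.factorial_succ, Nat.factorial_succ]; push_cast; ring
    refine ⟨?_, fun i => ?_, fun i j => ?_⟩
    · rw [vol_stdSimp_relabel (lastEquiv n), ← pyr_stdSimp, vol_pyr hM hb, hv, Fintype.card_fin, f1]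
      field_simp
    · rw [mom1_stdSimp_relabel (lastEquiv n), ← pyr_stdSimp]
      have e2 : n + 1 + 1 = n + 2 := rfl
      rw [e2, f2]
      refine Fin.lastCases ?_ (fun k => ?_) i
      · rw [lastEquiv_symm_last, mom1_pyr_inr hM hb, hv, Fintype.card_fin]
        field_simp
      · rw [lastEquiv_symm_castSucc, mom1_pyr_inl hM hb, h1 k, Fintype.card_fin, f1]
        field_simp
    · rw [mom2_stdSimp_relabel (lastEquiv n), ← pyr_stdSimp]
      have e3 : n + 1 + 2 = n + 3 := rfl
      rw [e3, f3]
      refine Fin.lastCases ?_ (fun k => ?_) i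
      · refine Fin.lastCases ?_ (fun l => ?_) j
        · rw [lastEquiv_symm_last, mom2_pyr_inr_inr hM hb, hv, Fintype.card_fin, if_pos rfl]
          field_simp
        · rw [lastEquiv_symm_last, lastEquiv_symm_castSucc, mom2_pyr_inr_inl hM hb, h1 l,
            Fintype.card_fin, f1, if_neg (Fin.castSucc_lt_last l).ne']
          field_simp
      · refine Fin.lastCases ?_ (fun l => ?_) j
        · rw [lastEquiv_symm_last, lastEquiv_symm_castSucc, mom2_pyr_inl_inr hM hb, h1 k,
            Fintype.card_fin, f1, if_neg (Fin.castSucc_lt_last k).ne]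
          field_simp
        · rw [lastEquiv_symm_castSucc, lastEquiv_symm_castSucc, mom2_pyr_inl_inl hM hb, h2 k l,
            Fintype.card_fin, f2]
          by_cases hkl : k = l
          · rw [if_pos hkl, if_pos (by rw [hkl])]
            field_simp
          · rw [if_neg hkl, if_neg (fun h => hkl (Fin.castSucc_injective _ h))]
            field_simp

end

end Vale.Agent.Helper22
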