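import Mathlib

/-!
One-dimensional inequalities for a continuous, concave, nonincreasing, nonnegative profile `f`
on `[0, L]` and the weight `f ^ m`: a strong increasing-hazard-rate inequality for the tail
integral, and the resulting moment inequalities.
-/

namespace Vale.Agent.Helper22

open MeasureTheory Set

noncomputable section

lemma integral_affine_pow (p q : ℝ) (hq : q ≠ 0) (m : ℕ) (a b : ℝ) :
    ∫ x in a..b, (p + q * x) ^ m =
      ((p + q * b) ^ (m + 1) - (p + q * a) ^ (m + 1)) / (q * ((m : ℝ) + 1)) := by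
  have h := intervalIntegral.integral_comp_add_mul (fun y : ℝ => y ^ m) hq p (a := a) (b := b)
  rw [h, integral_pow]
  simp only [smul_eq_mul]
  have hm : ((m : ℝ) + 1) ≠ 0 := by positivity
  field_simp

variable {f : ℝ → ℝ} {L : ℝ}

lemma chord_le (hconc : ConcaveOn ℝ (Icc 0 L) f) {s t x : ℝ} (hs : 0 ≤ s) (hst : s < t)
    (htL : t ≤ L) (hx : x ∈ Icc s t) :
    f s + (f t - f s) / (t - s) * (x - s) ≤ f x := by
  have hd : 0 < t - s := by linarith
  have hsm : s ∈ Icc 0 L := ⟨hs, by linarith⟩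
  have htm : t ∈ Icc 0 L := ⟨by linarith, htL⟩
  have ha : 0 ≤ (t - x) / (t - s) := div_nonneg (by linarith [hx.2]) hd.le
  have hb : 0 ≤ (x - s) / (t - s) := div_nonneg (by linarith [hx.1]) hd.le
  have hab : (t - x) / (t - s) + (x - s) / (t - s) = 1 := by field_simp; ring
  have h := hconc.2 hsm htm ha hb hab
  simp only [smul_eq_mul] at h
  have hxe : (t - x) / (t - s) * s + (x - s) / (t - s) * t = x := by field_simp; ring
  rw [hxe] at h
  have he : f s + (f t - f s) / (t - s) * (x - s) =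
      (t - x) / (t - s) * f s + (x - s) / (t - s) * f t := by field_simp; ring
  rw [he]; exact h

lemma le_chord (hconc : ConcaveOn ℝ (Icc 0 L) f) {s t x : ℝ} (hs : 0 ≤ s) (hst : s < t)
    (hx : x ∈ Icc t L) :
    f x ≤ f s + (f t - f s) / (t - s) * (x - s) := by
  have hd : 0 < t - s := by linarith
  have hd2 : 0 < x - s := by linarith [hx.1]
  have hsm : s ∈ Icc 0 L := ⟨hs, by linarith [hx.1, hx.2]⟩
  have hxm : x ∈ Icc 0 L := ⟨by linarith [hx.1], hx.2⟩
  have ha : 0 ≤ (x - t) / (x - s) := div_nonneg (by linarith [hx.1]) hd2.le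
  have hb : 0 ≤ (t - s) / (x - s) := div_nonneg hd.le hd2.le
  have hab : (x - t) / (x - s) + (t - s) / (x - s) = 1 := by field_simp; ring
  have h := hconc.2 hsm hxm ha hb hab
  simp only [smul_eq_mul] at h
  have hte : (x - t) / (x - s) * s + (t - s) / (x - s) * x = t := by field_simp; ring
  rw [hte] at h
  have h2 : (x - t) * f s + (t - s) * f x ≤ (x - s) * f t := by
    have := mul_le_mul_of_nonneg_left h hd2.le
    have e1 : (x - s) * ((x - t) / (x - s) * f s + (t - s) / (x - s) * f x) =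
        (x - t) * f s + (t - s) * f x := by field_simp
    linarith
  have he : f s + (f t - f s) / (t - s) * (x - s) =
      ((x - s) * f t - (x - t) * f s) / (t - s) := by field_simp; ring
  rw [he, le_div_iff₀ hd]
  linarith

lemma lb_int (hc : Continuous f) (hconc : ConcaveOn ℝ (Icc 0 L) f)
    (hnn : ∀ x ∈ Icc 0 L, 0 ≤ f x) (m : ℕ) {s t : ℝ} (hs : 0 ≤ s) (hst : s < t) (htL : t ≤ L)
    (huv : f t < f s) :
    (t - s) * (f s ^ (m + 1) - f t ^ (m + 1)) ≤
      (f s - f t) * ((m : ℝ) + 1) * ∫ x in s..t, f x ^ m := by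
  set q : ℝ := (f t - f s) / (t - s) with hq
  have hd : 0 < t - s := by linarith
  have hqneg : q < 0 := div_neg_of_neg_of_pos (by linarith) hd
  have hqd : q * (t - s) = f t - f s := by rw [hq]; field_simp
  have hm : (0:ℝ) < (m : ℝ) + 1 := by positivity
  have hint : ∫ x in s..t, ((f s - q * s) + q * x) ^ m =
      (f t ^ (m + 1) - f s ^ (m + 1)) / (q * ((m : ℝ) + 1)) := by
    rw [integral_affine_pow _ _ hqneg.ne]
    have e1 : f s - q * s + q * t = f t := by linarith
    have e2 : f s - q * s + q * s = f s := by ring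
    rw [e1, e2]
  have hmono : ∫ x in s..t, ((f s - q * s) + q * x) ^ m ≤ ∫ x in s..t, f x ^ m := by
    apply intervalIntegral.integral_mono_on hst.le
    · exact Continuous.intervalIntegrable (by fun_prop) _ _
    · exact Continuous.intervalIntegrable (by fun_prop) _ _
    · intro x hx
      have h1 : f s + q * (x - s) ≤ f x := chord_le hconc hs hst htL hx
      have h0 : 0 ≤ (f s - q * s) + q * x := by
        have e : (f s - q * s) + q * x = f t + q * (x - t) := by linarith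
        rw [e]
        have h2 := hnn t ⟨by linarith, htL⟩
        nlinarith [hx.2]
      apply pow_le_pow_left₀ h0
      linarith
  rw [hint] at hmono
  have h3 := (div_le_iff_of_neg (mul_neg_of_neg_of_pos hqneg hm)).1 hmono
  have h4 := mul_le_mul_of_nonneg_left h3 hd.le
  have e : (t - s) * ((∫ x in s..t, f x ^ m) * (q * ((m:ℝ) + 1))) =
      (∫ x in s..t, f x ^ m) * ((m:ℝ) + 1) * (f t - f s) := by rw [← hqd]; ring
  rw [e] at h4
  linarith

lemma ub_int (hc : Continuous f) (hconc : ConcaveOn ℝ (Icc 0 L) f)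
    (hnn : ∀ x ∈ Icc 0 L, 0 ≤ f x) (m : ℕ) {s t : ℝ} (hs : 0 ≤ s) (hst : s < t) (htL : t ≤ L)
    (huv : f t < f s) :
    (f s - f t) * ((m : ℝ) + 1) * (∫ x in t..L, f x ^ m) ≤ (t - s) * f t ^ (m + 1) := by
  set q : ℝ := (f t - f s) / (t - s) with hq
  have hd : 0 < t - s := by linarith
  have hqneg : q < 0 := div_neg_of_neg_of_pos (by linarith) hd
  have hqd : q * (t - s) = f t - f s := by rw [hq]; field_simp
  have hm : (0:ℝ) < (m : ℝ) + 1 := by positivity
  have hint : ∫ x in t..L, ((f s - q * s) + q * x) ^ m =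
      ((f s - q * s + q * L) ^ (m + 1) - f t ^ (m + 1)) / (q * ((m : ℝ) + 1)) := by
    rw [integral_affine_pow _ _ hqneg.ne]
    have e1 : f s - q * s + q * t = f t := by linarith
    rw [e1]
  have hmono : ∫ x in t..L, f x ^ m ≤ ∫ x in t..L, ((f s - q * s) + q * x) ^ m := by
    apply intervalIntegral.integral_mono_on htL
    · exact Continuous.intervalIntegrable (by fun_prop) _ _
    · exact Continuous.intervalIntegrable (by fun_prop) _ _
    · intro x hx
      have h1 : f x ≤ f s + q * (x - s) := le_chord hconc hs hst hx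
      have h0 : 0 ≤ f x := hnn x ⟨by linarith [hx.1], hx.2⟩
      apply pow_le_pow_left₀ h0
      linarith
  rw [hint] at hmono
  have h3 := (le_div_iff_of_neg (mul_neg_of_neg_of_pos hqneg hm)).1 hmono
  have hL0 : 0 ≤ f s - q * s + q * L := by
    have h1 : f L ≤ f s + q * (L - s) := le_chord hconc hs hst ⟨htL, le_refl L⟩
    have h0 : 0 ≤ f L := hnn L ⟨by linarith, le_refl L⟩
    linarith
  have hLp : 0 ≤ (f s - q * s + q * L) ^ (m + 1) := pow_nonneg hL0 _
  have h4 := mul_le_mul_of_nonneg_left h3 hd.le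
  have e : (t - s) * ((∫ x in t..L, f x ^ m) * (q * ((m:ℝ) + 1))) =
      (∫ x in t..L, f x ^ m) * ((m:ℝ) + 1) * (f t - f s) := by rw [← hqd]; ring
  rw [e] at h4
  nlinarith

/-- Tail integral of the weight `f ^ m`. -/
def tailInt (f : ℝ → ℝ) (m : ℕ) (L t : ℝ) : ℝ := ∫ x in t..L, f x ^ m

/-- Strong increasing-hazard-rate inequality for the weight `f ^ m`. -/
lemma sifr (hc : Continuous f) (hconc : ConcaveOn ℝ (Icc 0 L) f)
    (hanti : AntitoneOn f (Icc 0 L)) (hnn : ∀ x ∈ Icc 0 L, 0 ≤ f x) (m : ℕ) {s t : ℝ}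
    (hs : 0 ≤ s) (hst : s ≤ t) (htL : t ≤ L) :
    (t - s) * (f s ^ m * f t ^ m) ≤
      ((m : ℝ) + 1) * (tailInt f m L s * f t ^ m - tailInt f m L t * f s ^ m) := by
  rcases hst.eq_or_lt with rfl | hlt
  · simp
  have hsm : s ∈ Icc 0 L := ⟨hs, by linarith⟩
  have htm : t ∈ Icc 0 L := ⟨by linarith, htL⟩
  have huv : f t ≤ f s := hanti hsm htm hst
  have hv0 : 0 ≤ f t := hnn t htm
  have hu0 : 0 ≤ f s := hnn s hsm
  have hsplit : tailInt f m L s = (∫ x in s..t, f x ^ m) + tailInt f m L t := by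
    unfold tailInt
    rw [intervalIntegral.integral_add_adjacent_intervals]
    · exact Continuous.intervalIntegrable (by fun_prop) _ _
    · exact Continuous.intervalIntegrable (by fun_prop) _ _
  have hP : 0 ≤ tailInt f m L t := by
    unfold tailInt
    apply intervalIntegral.integral_nonneg htL
    intro x hx
    exact pow_nonneg (hnn x ⟨by linarith [hx.1], hx.2⟩) _
  have hm : (0:ℝ) < (m : ℝ) + 1 := by positivity
  have hm1 : (1:ℝ) ≤ (m : ℝ) + 1 := by
    have : (0:ℝ) ≤ (m:ℝ) := Nat.cast_nonneg m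
    linarith
  have hd : 0 < t - s := by linarith
  set S : ℝ := ∫ x in s..t, f x ^ m with hS
  set P : ℝ := tailInt f m L t with hPdef
  have ha0 : 0 ≤ f s ^ m := pow_nonneg hu0 m
  have hb0 : 0 ≤ f t ^ m := pow_nonneg hv0 m
  rw [hsplit]
  rcases huv.eq_or_lt with heq | hlt2
  · have hSge : (t - s) * f t ^ m ≤ S := by
      have h1 : ∫ _x in s..t, f t ^ m ≤ ∫ x in s..t, f x ^ m := by
        apply intervalIntegral.integral_mono_on hlt.le
        · exact Continuous.intervalIntegrable (by fun_prop) _ _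
        · exact Continuous.intervalIntegrable (by fun_prop) _ _
        · intro x hx
          have hxm : x ∈ Icc 0 L := ⟨by linarith [hx.1], by linarith [hx.2]⟩
          exact pow_le_pow_left₀ hv0 (hanti hxm htm hx.2) m
      rw [intervalIntegral.integral_const] at h1
      simpa using h1
    rw [← heq]
    have h5 : (t - s) * f t ^ m * f t ^ m ≤ S * f t ^ m := mul_le_mul_of_nonneg_right hSge hb0
    have h6 : S * f t ^ m ≤ ((m:ℝ) + 1) * (S * f t ^ m) := by
      have : 0 ≤ S * f t ^ m := le_trans (by positivity) h5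
      nlinarith
    nlinarith
  · have hLB := lb_int hc hconc hnn m hs hlt htL hlt2
    have hUB := ub_int hc hconc hnn m hs hlt htL hlt2
    rw [← hS] at hLB
    have hUB' : (f s - f t) * ((m : ℝ) + 1) * P ≤ (t - s) * f t ^ (m + 1) := hUB
    have hdd : 0 < f s - f t := by linarith
    have hab : f t ^ m ≤ f s ^ m := pow_le_pow_left₀ hv0 huv m
    have h1 := mul_le_mul_of_nonneg_left hLB hb0
    have h2 := mul_le_mul_of_nonneg_left hUB' (sub_nonneg.2 hab)
    rw [pow_succ, pow_succ] at h1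
    rw [pow_succ] at h2
    have key : (f s - f t) * ((t - s) * (f s ^ m * f t ^ m)) ≤
        (f s - f t) * (((m : ℝ) + 1) * ((S + P) * f t ^ m - P * f s ^ m)) := by
      nlinarith
    exact le_of_mul_le_mul_left key hdd

lemma hasDerivAt_tailInt (hc : Continuous f) (m : ℕ) (t : ℝ) :
    HasDerivAt (tailInt f m L) (-(f t ^ m)) t := by
  have hcm : Continuous fun x => f x ^ m := by fun_prop
  exact intervalIntegral.integral_hasDerivAt_left (hcm.intervalIntegrable _ _)
    (hcm.stronglyMeasurableAtFilter _ _) hcm.continuousAt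

lemma continuous_tailInt (hc : Continuous f) (m : ℕ) : Continuous (tailInt f m L) :=
  continuous_iff_continuousAt.2 fun t => (hasDerivAt_tailInt hc m t).continuousAt

lemma tailInt_self (m : ℕ) : tailInt f m L L = 0 := by
  unfold tailInt
  exact intervalIntegral.integral_same

/-- `∫ w Φ = (∫ w)^2 / 2`. -/
lemma int_w_tail (hc : Continuous f) (m : ℕ) :
    ∫ t in (0:ℝ)..L, f t ^ m * tailInt f m L t = (∫ t in (0:ℝ)..L, f t ^ m) ^ 2 / 2 := by
  have hΦc := continuous_tailInt (L := L) hc m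
  have hd : ∀ t ∈ uIcc (0:ℝ) L, HasDerivAt (fun t => -(tailInt f m L t ^ 2) / 2)
      (f t ^ m * tailInt f m L t) t := by
    intro t _
    have h := (((hasDerivAt_tailInt (L := L) hc m t).pow 2).neg).div_const 2
    have h2 : HasDerivAt (fun t => -(tailInt f m L t ^ 2) / 2) _ t := h
    refine h2.congr_deriv ?_
    have e21 : (2 - 1 : ℕ) = 1 := rfl
    rw [e21]
    push_cast
    ring
  have h := intervalIntegral.integral_eq_sub_of_hasDerivAt hd
    (Continuous.intervalIntegrable (by fun_prop) _ _)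
  rw [h, tailInt_self]
  unfold tailInt
  ring

/-- `∫ Φ = ∫ t w`. -/
lemma int_tail (hc : Continuous f) (m : ℕ) :
    ∫ t in (0:ℝ)..L, tailInt f m L t = ∫ t in (0:ℝ)..L, t * f t ^ m := by
  have hΦc := continuous_tailInt (L := L) hc m
  have hd : ∀ t ∈ uIcc (0:ℝ) L, HasDerivAt (fun t => t * tailInt f m L t)
      (tailInt f m L t - t * f t ^ m) t := by
    intro t _
    have h := (hasDerivAt_id t).mul (hasDerivAt_tailInt (L := L) hc m t)
    have h2 : HasDerivAt (fun t => t * tailInt f m L t) _ t := h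
    refine h2.congr_deriv ?_
    simp only [id]
    ring
  have h := intervalIntegral.integral_eq_sub_of_hasDerivAt hd
    (Continuous.intervalIntegrable (by fun_prop) _ _)
  rw [intervalIntegral.integral_sub, tailInt_self] at h
  · linarith
  · exact Continuous.intervalIntegrable (by fun_prop) _ _
  · exact Continuous.intervalIntegrable (by fun_prop) _ _

/-- `∫ t Φ = (∫ t^2 w) / 2`. -/
lemma int_t_tail (hc : Continuous f) (m : ℕ) :
    ∫ t in (0:ℝ)..L, t * tailInt f m L t = (∫ t in (0:ℝ)..L, t ^ 2 * f t ^ m) / 2 := by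
  have hΦc := continuous_tailInt (L := L) hc m
  have hd : ∀ t ∈ uIcc (0:ℝ) L, HasDerivAt (fun t => t ^ 2 / 2 * tailInt f m L t)
      (t * tailInt f m L t - t ^ 2 / 2 * f t ^ m) t := by
    intro t _
    have h := (((hasDerivAt_id t).pow 2).div_const 2).mul (hasDerivAt_tailInt (L := L) hc m t)
    have h2 : HasDerivAt (fun t => t ^ 2 / 2 * tailInt f m L t) _ t := h
    refine h2.congr_deriv ?_
    have e21 : (2 - 1 : ℕ) = 1 := rfl
    simp only [id, e21, Pi.pow_apply]
    push_cast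
    ring
  have h := intervalIntegral.integral_eq_sub_of_hasDerivAt hd
    (Continuous.intervalIntegrable (by fun_prop) _ _)
  rw [intervalIntegral.integral_sub, tailInt_self] at h
  · have e : ∫ t in (0:ℝ)..L, t ^ 2 / 2 * f t ^ m = (∫ t in (0:ℝ)..L, t ^ 2 * f t ^ m) / 2 := by
      rw [← intervalIntegral.integral_div]
      congr 1
      funext t
      ring
    rw [e] at h
    linarith
  · exact Continuous.intervalIntegrable (by fun_prop) _ _
  · exact Continuous.intervalIntegrable (by fun_prop) _ _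

lemma cheb1 (w Φ : ℝ → ℝ) (hw : Continuous w) (hΦ : Continuous Φ) (hL : 0 ≤ L)
    (hpt : ∀ s ∈ Icc 0 L, ∀ t ∈ Icc 0 L, 0 ≤ (w t - w s) * (Φ t * w s - Φ s * w t)) :
    (∫ t in (0:ℝ)..L, Φ t) * (∫ t in (0:ℝ)..L, w t * w t) ≤
      (∫ t in (0:ℝ)..L, w t) * (∫ t in (0:ℝ)..L, w t * Φ t) := by
  set I : ℝ := ∫ t in (0:ℝ)..L, w t with hI
  set P1 : ℝ := ∫ t in (0:ℝ)..L, Φ t with hP1
  set W2 : ℝ := ∫ t in (0:ℝ)..L, w t * w t with hW2
  set P3 : ℝ := ∫ t in (0:ℝ)..L, w t * Φ t with hP3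
  have inner : ∀ s, ∫ t in (0:ℝ)..L, (w t - w s) * (Φ t * w s - Φ s * w t) =
      w s * P3 - Φ s * W2 - (w s * w s) * P1 + (w s * Φ s) * I := by
    intro s
    have e : ∀ t, (w t - w s) * (Φ t * w s - Φ s * w t) =
        w s * (w t * Φ t) - Φ s * (w t * w t) - (w s * w s) * Φ t + (w s * Φ s) * w t := by
      intro t; ring
    simp_rw [e]
    rw [intervalIntegral.integral_add, intervalIntegral.integral_sub,
      intervalIntegral.integral_sub, intervalIntegral.integral_const_mul,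
      intervalIntegral.integral_const_mul, intervalIntegral.integral_const_mul,
      intervalIntegral.integral_const_mul]
    all_goals exact Continuous.intervalIntegrable (by fun_prop) _ _
  have outer : ∫ s in (0:ℝ)..L, (w s * P3 - Φ s * W2 - (w s * w s) * P1 + (w s * Φ s) * I) =
      I * P3 - P1 * W2 - W2 * P1 + P3 * I := by
    rw [intervalIntegral.integral_add, intervalIntegral.integral_sub,
      intervalIntegral.integral_sub, intervalIntegral.integral_mul_const,
      intervalIntegral.integral_mul_const, intervalIntegral.integral_mul_const,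
      intervalIntegral.integral_mul_const]
    all_goals exact Continuous.intervalIntegrable (by fun_prop) _ _
  have hnn : 0 ≤ ∫ s in (0:ℝ)..L, ∫ t in (0:ℝ)..L, (w t - w s) * (Φ t * w s - Φ s * w t) :=
    intervalIntegral.integral_nonneg hL fun s hs =>
      intervalIntegral.integral_nonneg hL fun t ht => hpt s hs t ht
  simp_rw [inner] at hnn
  rw [outer] at hnn
  linarith

lemma cheb2 (w Φ : ℝ → ℝ) (c : ℝ) (hw : Continuous w) (hΦ : Continuous Φ) (hL : 0 ≤ L)
    (hpt : ∀ s ∈ Icc 0 L, ∀ t ∈ Icc 0 L,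
      0 ≤ c * ((t - s) * (Φ s * w t - Φ t * w s)) - (t - s) ^ 2 * (w s * w t)) :
    0 ≤ c * (2 * (∫ t in (0:ℝ)..L, t * w t) * (∫ t in (0:ℝ)..L, Φ t) -
        2 * (∫ t in (0:ℝ)..L, w t) * (∫ t in (0:ℝ)..L, t * Φ t)) -
      (2 * (∫ t in (0:ℝ)..L, w t) * (∫ t in (0:ℝ)..L, t ^ 2 * w t) -
        2 * (∫ t in (0:ℝ)..L, t * w t) ^ 2) := by
  set I : ℝ := ∫ t in (0:ℝ)..L, w t with hI
  set T1 : ℝ := ∫ t in (0:ℝ)..L, t * w t with hT1
  set T2 : ℝ := ∫ t in (0:ℝ)..L, t ^ 2 * w t with hT2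
  set P1 : ℝ := ∫ t in (0:ℝ)..L, Φ t with hP1
  set TP : ℝ := ∫ t in (0:ℝ)..L, t * Φ t with hTP
  have inner : ∀ s, ∫ t in (0:ℝ)..L,
      (c * ((t - s) * (Φ s * w t - Φ t * w s)) - (t - s) ^ 2 * (w s * w t)) =
      (c * Φ s) * T1 - (c * (s * Φ s)) * I - (c * w s) * TP + (c * (s * w s)) * P1
        - w s * T2 + (2 * (s * w s)) * T1 - (s ^ 2 * w s) * I := by
    intro s
    have e : ∀ t, c * ((t - s) * (Φ s * w t - Φ t * w s)) - (t - s) ^ 2 * (w s * w t) =
        (c * Φ s) * (t * w t) - (c * (s * Φ s)) * w t - (c * w s) * (t * Φ t)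
          + (c * (s * w s)) * Φ t - w s * (t ^ 2 * w t) + (2 * (s * w s)) * (t * w t)
          - (s ^ 2 * w s) * w t := by
      intro t; ring
    simp_rw [e]
    rw [intervalIntegral.integral_sub, intervalIntegral.integral_add,
      intervalIntegral.integral_sub, intervalIntegral.integral_add,
      intervalIntegral.integral_sub, intervalIntegral.integral_sub,
      intervalIntegral.integral_const_mul, intervalIntegral.integral_const_mul,
      intervalIntegral.integral_const_mul, intervalIntegral.integral_const_mul,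
      intervalIntegral.integral_const_mul, intervalIntegral.integral_const_mul,
      intervalIntegral.integral_const_mul]
    all_goals exact Continuous.intervalIntegrable (by fun_prop) _ _
  have outer : ∫ s in (0:ℝ)..L, ((c * Φ s) * T1 - (c * (s * Φ s)) * I - (c * w s) * TP
        + (c * (s * w s)) * P1 - w s * T2 + (2 * (s * w s)) * T1 - (s ^ 2 * w s) * I) =
      c * P1 * T1 - c * TP * I - c * I * TP + c * T1 * P1 - I * T2 + 2 * T1 * T1 - T2 * I := by
    rw [intervalIntegral.integral_sub, intervalIntegral.integral_add,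
      intervalIntegral.integral_sub, intervalIntegral.integral_add,
      intervalIntegral.integral_sub, intervalIntegral.integral_sub,
      intervalIntegral.integral_mul_const, intervalIntegral.integral_mul_const,
      intervalIntegral.integral_mul_const, intervalIntegral.integral_mul_const,
      intervalIntegral.integral_mul_const, intervalIntegral.integral_mul_const,
      intervalIntegral.integral_mul_const,
      intervalIntegral.integral_const_mul, intervalIntegral.integral_const_mul,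
      intervalIntegral.integral_const_mul, intervalIntegral.integral_const_mul,
      intervalIntegral.integral_const_mul]
    all_goals exact Continuous.intervalIntegrable (by fun_prop) _ _
  have hnn : 0 ≤ ∫ s in (0:ℝ)..L, ∫ t in (0:ℝ)..L,
      (c * ((t - s) * (Φ s * w t - Φ t * w s)) - (t - s) ^ 2 * (w s * w t)) :=
    intervalIntegral.integral_nonneg hL fun s hs =>
      intervalIntegral.integral_nonneg hL fun t ht => hpt s hs t ht
  simp_rw [inner] at hnn
  rw [outer] at hnn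
  nlinarith

/-- `2 ∫ t f^m · ∫ f^(2m) ≤ (∫ f^m)^3`. -/
lemma ineq1 (hc : Continuous f) (hconc : ConcaveOn ℝ (Icc 0 L) f)
    (hanti : AntitoneOn f (Icc 0 L)) (hnn : ∀ x ∈ Icc 0 L, 0 ≤ f x) (hL : 0 ≤ L) (m : ℕ) :
    2 * (∫ t in (0:ℝ)..L, t * f t ^ m) * (∫ t in (0:ℝ)..L, f t ^ (m + m)) ≤
      (∫ t in (0:ℝ)..L, f t ^ m) ^ 3 := by
  have hm : (0:ℝ) < (m : ℝ) + 1 := by positivity
  have hwc : Continuous fun t => f t ^ m := by fun_prop
  have hΦc := continuous_tailInt (L := L) hc m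
  have hpt : ∀ s ∈ Icc 0 L, ∀ t ∈ Icc 0 L,
      0 ≤ (f t ^ m - f s ^ m) * (tailInt f m L t * f s ^ m - tailInt f m L s * f t ^ m) := by
    intro s hs t ht
    rcases le_total s t with hst | hts
    · have h := sifr hc hconc hanti hnn m hs.1 hst ht.2
      have h0 : 0 ≤ (t - s) * (f s ^ m * f t ^ m) :=
        mul_nonneg (by linarith) (mul_nonneg (pow_nonneg (hnn s hs) m) (pow_nonneg (hnn t ht) m))
      have h1 : 0 ≤ tailInt f m L s * f t ^ m - tailInt f m L t * f s ^ m := by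
        by_contra hneg
        have hneg' := lt_of_not_ge hneg
        nlinarith
      have h2 : f t ^ m ≤ f s ^ m := pow_le_pow_left₀ (hnn t ht) (hanti hs ht hst) m
      exact mul_nonneg_of_nonpos_of_nonpos (by linarith) (by linarith)
    · have h := sifr hc hconc hanti hnn m ht.1 hts hs.2
      have h0 : 0 ≤ (s - t) * (f t ^ m * f s ^ m) :=
        mul_nonneg (by linarith) (mul_nonneg (pow_nonneg (hnn t ht) m) (pow_nonneg (hnn s hs) m))
      have h1 : 0 ≤ tailInt f m L t * f s ^ m - tailInt f m L s * f t ^ m := by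
        by_contra hneg
        have hneg' := lt_of_not_ge hneg
        nlinarith
      have h2 : f s ^ m ≤ f t ^ m := pow_le_pow_left₀ (hnn s hs) (hanti ht hs hts) m
      exact mul_nonneg (by linarith) h1
  have h := cheb1 (fun t => f t ^ m) (tailInt f m L) hwc hΦc hL hpt
  rw [int_tail hc m, int_w_tail hc m] at h
  have e : ∫ t in (0:ℝ)..L, f t ^ (m + m) = ∫ t in (0:ℝ)..L, f t ^ m * f t ^ m := by
    congr 1
    funext t
    rw [pow_add]
  rw [e]
  nlinarith

/-- `(m + 3) ∫ f^m · ∫ t^2 f^m ≤ 2 (m + 2) (∫ t f^m)^2`. -/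
lemma ineq2 (hc : Continuous f) (hconc : ConcaveOn ℝ (Icc 0 L) f)
    (hanti : AntitoneOn f (Icc 0 L)) (hnn : ∀ x ∈ Icc 0 L, 0 ≤ f x) (hL : 0 ≤ L) (m : ℕ) :
    ((m : ℝ) + 3) * (∫ t in (0:ℝ)..L, f t ^ m) * (∫ t in (0:ℝ)..L, t ^ 2 * f t ^ m) ≤
      2 * ((m : ℝ) + 2) * (∫ t in (0:ℝ)..L, t * f t ^ m) ^ 2 := by
  have hm : (0:ℝ) < (m : ℝ) + 1 := by positivity
  have hwc : Continuous fun t => f t ^ m := by fun_prop
  have hΦc := continuous_tailInt (L := L) hc m
  have hpt : ∀ s ∈ Icc 0 L, ∀ t ∈ Icc 0 L,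
      0 ≤ ((m : ℝ) + 1) * ((t - s) * (tailInt f m L s * f t ^ m - tailInt f m L t * f s ^ m))
        - (t - s) ^ 2 * (f s ^ m * f t ^ m) := by
    intro s hs t ht
    rcases le_total s t with hst | hts
    · have h := sifr hc hconc hanti hnn m hs.1 hst ht.2
      have h1 := mul_le_mul_of_nonneg_left h (sub_nonneg.2 hst)
      nlinarith
    · have h := sifr hc hconc hanti hnn m ht.1 hts hs.2
      have h1 := mul_le_mul_of_nonneg_left h (sub_nonneg.2 hts)
      nlinarith
  have h := cheb2 (fun t => f t ^ m) (tailInt f m L) ((m : ℝ) + 1) hwc hΦc hL hpt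
  rw [int_tail hc m, int_t_tail hc m] at h
  nlinarith

lemma seq_pm1 (b : ℕ → ℝ) (hb0 : b 0 = 1) (hnn : ∀ k, 0 ≤ b k)
    (hlc : ∀ k, b (k + 1) ^ 2 ≤ b k * b (k + 2)) :
    ∀ k, b k ^ (k + 1) ≤ b (k + 1) ^ k
  | 0 => by simp [hb0]
  | k + 1 => by
    have ih := seq_pm1 b hb0 hnn hlc k
    rcases (hnn (k + 1)).eq_or_lt with h0 | hpos
    · rw [← h0]
      have : (0:ℝ) ^ (k + 1 + 1) = 0 := by simp
      rw [this]
      exact pow_nonneg (hnn _) _
    · have h1 : (b (k + 1) ^ 2) ^ (k + 1) ≤ (b k * b (k + 2)) ^ (k + 1) :=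
        pow_le_pow_left₀ (sq_nonneg _) (hlc k) _
      have h2 : (b k * b (k + 2)) ^ (k + 1) ≤ b (k + 1) ^ k * b (k + 2) ^ (k + 1) := by
        rw [mul_pow]
        exact mul_le_mul_of_nonneg_right ih (pow_nonneg (hnn _) _)
      have h3 : b (k + 1) ^ k * b (k + 1) ^ (k + 1 + 1) ≤
          b (k + 1) ^ k * b (k + 1 + 1) ^ (k + 1) := by
        calc b (k + 1) ^ k * b (k + 1) ^ (k + 1 + 1) = (b (k + 1) ^ 2) ^ (k + 1) := by ring
          _ ≤ _ := h1.trans h2
      exact le_of_mul_le_mul_left h3 (pow_pos hpos k)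

lemma seq_pm2 (b : ℕ → ℝ) (hb0 : b 0 = 1) (hnn : ∀ k, 0 ≤ b k)
    (hlc : ∀ k, b (k + 1) ^ 2 ≤ b k * b (k + 2)) (n : ℕ) (hn : 2 ≤ n) :
    b 2 ^ n ≤ b n ^ 2 := by
  induction n, hn using Nat.le_induction with
  | base => exact le_refl _
  | succ n hn ih =>
    have hP := seq_pm1 b hb0 hnn hlc n
    have h1 : (b 2 ^ (n + 1)) ^ n ≤ (b (n + 1) ^ 2) ^ n := by
      calc (b 2 ^ (n + 1)) ^ n = (b 2 ^ n) ^ (n + 1) := by ring
        _ ≤ (b n ^ 2) ^ (n + 1) := pow_le_pow_left₀ (pow_nonneg (hnn 2) n) ih _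
        _ = (b n ^ (n + 1)) ^ 2 := by ring
        _ ≤ (b (n + 1) ^ n) ^ 2 := pow_le_pow_left₀ (pow_nonneg (hnn n) _) hP 2
        _ = (b (n + 1) ^ 2) ^ n := by ring
    exact (pow_le_pow_iff_left₀ (pow_nonneg (hnn 2) _) (sq_nonneg _) (by omega)).1 h1

lemma seq_pm (a : ℕ → ℝ) (ha0 : 0 < a 0) (hnn : ∀ k, 0 ≤ a k)
    (hlc : ∀ k, a (k + 1) ^ 2 ≤ a k * a (k + 2)) (n : ℕ) (hn : 2 ≤ n) :
    a 2 ^ n * a 0 ^ 2 ≤ a n ^ 2 * a 0 ^ n := by
  have h := seq_pm2 (fun k => a k / a 0) (by simp [ha0.ne']) (fun k => div_nonneg (hnn k) ha0.le)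
    (by
      intro k
      rw [div_pow, div_mul_div_comm, ← sq]
      exact div_le_div_of_nonneg_right (hlc k) (sq_nonneg _)) n hn
  simp only [div_pow] at h
  rw [div_le_div_iff₀ (pow_pos ha0 n) (pow_pos ha0 2)] at h
  exact h

lemma pos_of_concave (hconc : ConcaveOn ℝ (Icc 0 L) f) (hnn : ∀ x ∈ Icc 0 L, 0 ≤ f x)
    (hf0 : 0 < f 0) {t : ℝ} (ht : t ∈ Ico 0 L) : 0 < f t := by
  have hL : 0 < L := lt_of_le_of_lt ht.1 ht.2
  have h0m : (0:ℝ) ∈ Icc 0 L := ⟨le_refl _, hL.le⟩
  have hLm : L ∈ Icc 0 L := ⟨hL.le, le_refl _⟩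
  have ha : 0 ≤ 1 - t / L := by
    have : t / L ≤ 1 := (div_le_one hL).2 ht.2.le
    linarith
  have hb : 0 ≤ t / L := div_nonneg ht.1 hL.le
  have h := hconc.2 h0m hLm ha hb (by ring)
  simp only [smul_eq_mul, mul_zero, zero_add] at h
  have e : t / L * L = t := by field_simp
  rw [e] at h
  have h1 : 0 < 1 - t / L := by
    have : t / L < 1 := (div_lt_one hL).2 ht.2
    linarith
  have h2 : 0 ≤ t / L * f L := mul_nonneg hb (hnn L hLm)
  have h3 : 0 < (1 - t / L) * f 0 := mul_pos h1 hf0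
  linarith

lemma int_pow_pos (hc : Continuous f) (hconc : ConcaveOn ℝ (Icc 0 L) f)
    (hnn : ∀ x ∈ Icc 0 L, 0 ≤ f x) (hf0 : 0 < f 0) (hL : 0 < L) (k : ℕ) :
    0 < ∫ t in (0:ℝ)..L, f t ^ k := by
  apply intervalIntegral.intervalIntegral_pos_of_pos_on
  · exact Continuous.intervalIntegrable (by fun_prop) _ _
  · intro x hx
    exact pow_pos (pos_of_concave hconc hnn hf0 ⟨hx.1.le, hx.2⟩) k
  · exact hL

lemma int_pow_lc (hc : Continuous f) (hnn : ∀ x ∈ Icc 0 L, 0 ≤ f x) (hL : 0 ≤ L) (j : ℕ) :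
    (∫ t in (0:ℝ)..L, f t ^ (j + 1)) ^ 2 ≤
      (∫ t in (0:ℝ)..L, f t ^ j) * (∫ t in (0:ℝ)..L, f t ^ (j + 2)) := by
  have hq : ∀ x : ℝ, 0 ≤ (∫ t in (0:ℝ)..L, f t ^ j) * (x * x) +
      (-2 * ∫ t in (0:ℝ)..L, f t ^ (j + 1)) * x + ∫ t in (0:ℝ)..L, f t ^ (j + 2) := by
    intro x
    have h0 : 0 ≤ ∫ t in (0:ℝ)..L, f t ^ j * (x - f t) ^ 2 := by
      apply intervalIntegral.integral_nonneg hL
      intro t ht
      exact mul_nonneg (pow_nonneg (hnn t ht) j) (sq_nonneg _)
    have e : ∀ t, f t ^ j * (x - f t) ^ 2 =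
        (x * x) * f t ^ j - (2 * x) * f t ^ (j + 1) + f t ^ (j + 2) := by
      intro t; ring
    simp_rw [e] at h0
    rw [intervalIntegral.integral_add, intervalIntegral.integral_sub,
      intervalIntegral.integral_const_mul, intervalIntegral.integral_const_mul] at h0
    · linarith
    all_goals exact Continuous.intervalIntegrable (by fun_prop) _ _
  have hd := discrim_le_zero hq
  unfold discrim at hd
  nlinarith

/-- The one-dimensional inequality behind the tower theorem. -/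
lemma psi_bound (hc : Continuous f) (hconc : ConcaveOn ℝ (Icc 0 L) f)
    (hanti : AntitoneOn f (Icc 0 L)) (hnn : ∀ x ∈ Icc 0 L, 0 ≤ f x) (hf0 : 0 < f 0)
    (hL : 0 < L) (m : ℕ) (hm : 2 ≤ m) :
    (∫ t in (0:ℝ)..L, t ^ 2 * f t ^ m) * (∫ t in (0:ℝ)..L, f t ^ (m + 2)) ^ m /
        (4 * (∫ t in (0:ℝ)..L, f t ^ m) ^ (m + 3)) ≤ ((m : ℝ) + 2) / (8 * ((m : ℝ) + 3)) := by
  set I : ℝ := ∫ t in (0:ℝ)..L, f t ^ m with hI
  set T1 : ℝ := ∫ t in (0:ℝ)..L, t * f t ^ m with hT1
  set T2 : ℝ := ∫ t in (0:ℝ)..L, t ^ 2 * f t ^ m with hT2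
  set S2 : ℝ := ∫ t in (0:ℝ)..L, f t ^ (m + 2) with hS2
  set Sm : ℝ := ∫ t in (0:ℝ)..L, f t ^ (m + m) with hSm
  have hIpos : 0 < I := int_pow_pos hc hconc hnn hf0 hL m
  have hT1nn : 0 ≤ T1 := by
    apply intervalIntegral.integral_nonneg hL.le
    intro t ht
    exact mul_nonneg ht.1 (pow_nonneg (hnn t ht) m)
  have hT2nn : 0 ≤ T2 := by
    apply intervalIntegral.integral_nonneg hL.le
    intro t ht
    exact mul_nonneg (sq_nonneg t) (pow_nonneg (hnn t ht) m)
  have hS2nn : 0 ≤ S2 := (int_pow_pos hc hconc hnn hf0 hL (m + 2)).le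
  have hSmnn : 0 ≤ Sm := (int_pow_pos hc hconc hnn hf0 hL (m + m)).le
  have h1 : 2 * T1 * Sm ≤ I ^ 3 := ineq1 hc hconc hanti hnn hL.le m
  have h2 : ((m : ℝ) + 3) * I * T2 ≤ 2 * ((m : ℝ) + 2) * T1 ^ 2 :=
    ineq2 hc hconc hanti hnn hL.le m
  have h3 : S2 ^ m * I ^ 2 ≤ Sm ^ 2 * I ^ m := by
    have := seq_pm (fun k => ∫ t in (0:ℝ)..L, f t ^ (m + k)) hIpos
      (fun k => (int_pow_pos hc hconc hnn hf0 hL (m + k)).le)
      (fun k => int_pow_lc hc hnn hL.le (m + k)) m hm
    exact this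
  have hm3 : (0:ℝ) < (m : ℝ) + 3 := by positivity
  have hm2 : (0:ℝ) < (m : ℝ) + 2 := by positivity
  have hI3 : 0 < I ^ 3 := pow_pos hIpos 3
  have hprod : (((m : ℝ) + 3) * I * T2) * (S2 ^ m * I ^ 2) ≤
      (2 * ((m : ℝ) + 2) * T1 ^ 2) * (Sm ^ 2 * I ^ m) :=
    mul_le_mul h2 h3 (mul_nonneg (pow_nonneg hS2nn m) (sq_nonneg I))
      (mul_nonneg (mul_nonneg (by norm_num) hm2.le) (sq_nonneg T1))
  have hsq : (2 * T1 * Sm) ^ 2 ≤ (I ^ 3) ^ 2 :=
    pow_le_pow_left₀ (mul_nonneg (mul_nonneg (by norm_num) hT1nn) hSmnn) h1 2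
  have hIm : 0 ≤ I ^ m := pow_nonneg hIpos.le m
  have hfin : (((m : ℝ) + 3) * T2 * S2 ^ m) * I ^ 3 ≤ (((m : ℝ) + 2) / 2 * I ^ (m + 3)) * I ^ 3 := by
    have hA : (((m : ℝ) + 3) * T2 * S2 ^ m) * I ^ 3 = (((m : ℝ) + 3) * I * T2) * (S2 ^ m * I ^ 2) := by
      ring
    have hB : (2 * ((m : ℝ) + 2) * T1 ^ 2) * (Sm ^ 2 * I ^ m) =
        ((m : ℝ) + 2) / 2 * ((2 * T1 * Sm) ^ 2 * I ^ m) := by ring
    have hC : (((m : ℝ) + 2) / 2 * I ^ (m + 3)) * I ^ 3 = ((m : ℝ) + 2) / 2 * ((I ^ 3) ^ 2 * I ^ m) := by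
      ring
    rw [hA, hC]
    refine le_trans hprod ?_
    rw [hB]
    exact mul_le_mul_of_nonneg_left (mul_le_mul_of_nonneg_right hsq hIm) (by positivity)
  have hfin2 : ((m : ℝ) + 3) * T2 * S2 ^ m ≤ ((m : ℝ) + 2) / 2 * I ^ (m + 3) :=
    le_of_mul_le_mul_right hfin hI3
  rw [div_le_div_iff₀ (by positivity) (by positivity)]
  nlinarith

end

end Vale.Agent.Helper22
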