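import Mathlib

/-!
Polynomial identities and positivity certificates for the truncated tetrahedron (P254): the
corner of the standard tetrahedron cut off by the plane through the points `a e_0`, `b e_1`,
`c e_2`.
-/

namespace Vale.Agent.Helper22

/-- The deficit polynomial of the truncated tetrahedron. -/
def truncW (a b c : ℝ) : ℝ :=
    10 - 10 * c + 4 * c ^ 2 - 10 * b + 2 * b * c + 4 * b ^ 2 - 10 * a + 2 * a * c + 2 * a * b +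
    15 * a * b * c - 9 * a * b * c ^ 3 - 2 * a * b ^ 2 * c ^ 2 + 10 * a * b ^ 2 * c ^ 3 - 9 * a
    * b ^ 3 * c + 10 * a * b ^ 3 * c ^ 2 - 9 * a * b ^ 3 * c ^ 3 + 4 * a ^ 2 - 2 * a ^ 2 * b *
    c ^ 2 + 10 * a ^ 2 * b * c ^ 3 - 2 * a ^ 2 * b ^ 2 * c - 20 * a ^ 2 * b ^ 2 * c ^ 2 - 2 * a
    ^ 2 * b ^ 2 * c ^ 3 + 10 * a ^ 2 * b ^ 3 * c - 2 * a ^ 2 * b ^ 3 * c ^ 2 + 4 * a ^ 2 * b ^
    4 * c ^ 4 - 9 * a ^ 3 * b * c + 10 * a ^ 3 * b * c ^ 2 - 9 * a ^ 3 * b * c ^ 3 + 10 * a ^ 3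
    * b ^ 2 * c - 2 * a ^ 3 * b ^ 2 * c ^ 2 - 9 * a ^ 3 * b ^ 3 * c + 15 * a ^ 3 * b ^ 3 * c ^
    3 + 2 * a ^ 3 * b ^ 3 * c ^ 4 + 2 * a ^ 3 * b ^ 4 * c ^ 3 - 10 * a ^ 3 * b ^ 4 * c ^ 4 + 4
    * a ^ 4 * b ^ 2 * c ^ 4 + 2 * a ^ 4 * b ^ 3 * c ^ 3 - 10 * a ^ 4 * b ^ 3 * c ^ 4 + 4 * a ^
    4 * b ^ 4 * c ^ 2 - 10 * a ^ 4 * b ^ 4 * c ^ 3 + 10 * a ^ 4 * b ^ 4 * c ^ 4

/-- Part `0` of the Bernstein expansion of `truncW`. -/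
def truncQ0 (b v c w : ℝ) : ℝ :=
    10 * v ^ 4 * w ^ 4 + 30 * v ^ 4 * c * w ^ 3 + 34 * v ^ 4 * c ^ 2 * w ^ 2 + 18 * v ^ 4 * c ^
    3 * w + 30 * b * v ^ 3 * w ^ 4 + 82 * b * v ^ 3 * c * w ^ 3 + 82 * b * v ^ 3 * c ^ 2 * w ^
    2 + 38 * b * v ^ 3 * c ^ 3 * w + 8 * b * v ^ 3 * c ^ 4 + 34 * b ^ 2 * v ^ 2 * w ^ 4 + 82 *
    b ^ 2 * v ^ 2 * c * w ^ 3 + 66 * b ^ 2 * v ^ 2 * c ^ 2 * w ^ 2 + 22 * b ^ 2 * v ^ 2 * c ^ 3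
    * w + 4 * b ^ 2 * v ^ 2 * c ^ 4 + 18 * b ^ 3 * v * w ^ 4 + 38 * b ^ 3 * v * c * w ^ 3 + 22
    * b ^ 3 * v * c ^ 2 * w ^ 2 + 2 * b ^ 3 * v * c ^ 3 * w + 8 * b ^ 4 * c * w ^ 3 + 4 * b ^ 4
    * c ^ 2 * w ^ 2

lemma truncQ0_nonneg (b v c w : ℝ) (hb : 0 ≤ b) (hv : 0 ≤ v) (hc : 0 ≤ c) (hw : 0 ≤ w) :
    0 ≤ truncQ0 b v c w := by
  unfold truncQ0
  positivity

/-- Part `1` of the Bernstein expansion of `truncW`. -/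
def truncQ1 (b v c w : ℝ) : ℝ :=
    30 * v ^ 4 * w ^ 4 + 82 * v ^ 4 * c * w ^ 3 + 82 * v ^ 4 * c ^ 2 * w ^ 2 + 38 * v ^ 4 * c ^
    3 * w + 8 * v ^ 4 * c ^ 4 + 82 * b * v ^ 3 * w ^ 4 + 199 * b * v ^ 3 * c * w ^ 3 + 169 * b
    * v ^ 3 * c ^ 2 * w ^ 2 + 60 * b * v ^ 3 * c ^ 3 * w + 8 * b * v ^ 3 * c ^ 4 + 82 * b ^ 2 *
    v ^ 2 * w ^ 4 + 169 * b ^ 2 * v ^ 2 * c * w ^ 3 + 109 * b ^ 2 * v ^ 2 * c ^ 2 * w ^ 2 + 22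
    * b ^ 2 * v ^ 2 * c ^ 3 * w + 38 * b ^ 3 * v * w ^ 4 + 60 * b ^ 3 * v * c * w ^ 3 + 22 * b
    ^ 3 * v * c ^ 2 * w ^ 2 + 8 * b ^ 4 * w ^ 4 + 8 * b ^ 4 * c * w ^ 3

lemma truncQ1_nonneg (b v c w : ℝ) (hb : 0 ≤ b) (hv : 0 ≤ v) (hc : 0 ≤ c) (hw : 0 ≤ w) :
    0 ≤ truncQ1 b v c w := by
  unfold truncQ1
  positivity

/-- Part `2` of the Bernstein expansion of `truncW`. -/
def truncQ2 (b v c w : ℝ) : ℝ :=
    34 * v ^ 4 * w ^ 4 + 82 * v ^ 4 * c * w ^ 3 + 66 * v ^ 4 * c ^ 2 * w ^ 2 + 22 * v ^ 4 * c ^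
    3 * w + 4 * v ^ 4 * c ^ 4 + 82 * b * v ^ 3 * w ^ 4 + 169 * b * v ^ 3 * c * w ^ 3 + 109 * b
    * v ^ 3 * c ^ 2 * w ^ 2 + 22 * b * v ^ 3 * c ^ 3 * w + 66 * b ^ 2 * v ^ 2 * w ^ 4 + 109 * b
    ^ 2 * v ^ 2 * c * w ^ 3 + 43 * b ^ 2 * v ^ 2 * c ^ 2 * w ^ 2 + 22 * b ^ 3 * v * w ^ 4 + 22
    * b ^ 3 * v * c * w ^ 3 + 4 * b ^ 4 * w ^ 4

lemma truncQ2_nonneg (b v c w : ℝ) (hb : 0 ≤ b) (hv : 0 ≤ v) (hc : 0 ≤ c) (hw : 0 ≤ w) :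
    0 ≤ truncQ2 b v c w := by
  unfold truncQ2
  positivity

/-- Part `3` of the Bernstein expansion of `truncW`. -/
def truncQ3 (b v c w : ℝ) : ℝ :=
    18 * v ^ 4 * w ^ 4 + 38 * v ^ 4 * c * w ^ 3 + 22 * v ^ 4 * c ^ 2 * w ^ 2 + 2 * v ^ 4 * c ^
    3 * w + 38 * b * v ^ 3 * w ^ 4 + 60 * b * v ^ 3 * c * w ^ 3 + 22 * b * v ^ 3 * c ^ 2 * w ^
    2 + 22 * b ^ 2 * v ^ 2 * w ^ 4 + 22 * b ^ 2 * v ^ 2 * c * w ^ 3 + 2 * b ^ 3 * v * w ^ 4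

lemma truncQ3_nonneg (b v c w : ℝ) (hb : 0 ≤ b) (hv : 0 ≤ v) (hc : 0 ≤ c) (hw : 0 ≤ w) :
    0 ≤ truncQ3 b v c w := by
  unfold truncQ3
  positivity

/-- Part `4` of the Bernstein expansion of `truncW`. -/
def truncQ4 (b v c w : ℝ) : ℝ :=
    8 * v ^ 4 * c * w ^ 3 + 4 * v ^ 4 * c ^ 2 * w ^ 2 + 8 * b * v ^ 3 * w ^ 4 + 8 * b * v ^ 3 *
    c * w ^ 3 + 4 * b ^ 2 * v ^ 2 * w ^ 4

lemma truncQ4_nonneg (b v c w : ℝ) (hb : 0 ≤ b) (hv : 0 ≤ v) (hc : 0 ≤ c) (hw : 0 ≤ w) :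
    0 ≤ truncQ4 b v c w := by
  unfold truncQ4
  positivity

lemma truncW_cert (a b c u v w : ℝ) (hu : u = 1 - a) (hv : v = 1 - b) (hw : w = 1 - c) :
    truncW a b c = u ^ 4 * truncQ0 b v c w + a * u ^ 3 * truncQ1 b v c w +
      a ^ 2 * u ^ 2 * truncQ2 b v c w + a ^ 3 * u * truncQ3 b v c w + a ^ 4 * truncQ4 b v c w +
      (4 * u ^ 4 * v ^ 4 * c ^ 4 + 4 * u ^ 4 * b ^ 4 * w ^ 4 + 4 * a ^ 4 * v ^ 4 * w ^ 4) := by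
  subst hu hv hw
  unfold truncW truncQ0 truncQ1 truncQ2 truncQ3 truncQ4
  ring

lemma truncW_lower (a b c : ℝ) (ha : 0 ≤ a) (ha1 : a ≤ 1) (hb : 0 ≤ b) (hb1 : b ≤ 1)
    (hc : 0 ≤ c) (hc1 : c ≤ 1) :
    4 * (1 - a) ^ 4 * (1 - b) ^ 4 * c ^ 4 + 4 * (1 - a) ^ 4 * b ^ 4 * (1 - c) ^ 4 +
      4 * a ^ 4 * (1 - b) ^ 4 * (1 - c) ^ 4 ≤ truncW a b c := by
  have hu : 0 ≤ 1 - a := by linarith
  have hv : 0 ≤ 1 - b := by linarith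
  have hw : 0 ≤ 1 - c := by linarith
  rw [truncW_cert a b c (1 - a) (1 - b) (1 - c) rfl rfl rfl]
  have h0 := truncQ0_nonneg b (1 - b) c (1 - c) hb hv hc hw
  have h1 := truncQ1_nonneg b (1 - b) c (1 - c) hb hv hc hw
  have h2 := truncQ2_nonneg b (1 - b) c (1 - c) hb hv hc hw
  have h3 := truncQ3_nonneg b (1 - b) c (1 - c) hb hv hc hw
  have h4 := truncQ4_nonneg b (1 - b) c (1 - c) hb hv hc hw
  have e0 : 0 ≤ (1 - a) ^ 4 * truncQ0 b (1 - b) c (1 - c) := by positivity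
  have e1 : 0 ≤ a * (1 - a) ^ 3 * truncQ1 b (1 - b) c (1 - c) := by positivity
  have e2 : 0 ≤ a ^ 2 * (1 - a) ^ 2 * truncQ2 b (1 - b) c (1 - c) := by positivity
  have e3 : 0 ≤ a ^ 3 * (1 - a) * truncQ3 b (1 - b) c (1 - c) := by positivity
  have e4 : 0 ≤ a ^ 4 * truncQ4 b (1 - b) c (1 - c) := by positivity
  linarith

lemma truncW_one_one_right (c : ℝ) : truncW 1 1 c = 0 := by
  unfold truncW
  ring

lemma truncW_one_one_mid (b : ℝ) : truncW 1 b 1 = 0 := by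
  unfold truncW
  ring

lemma truncW_one_one_left (a : ℝ) : truncW a 1 1 = 0 := by
  unfold truncW
  ring

/-- The determinant identity behind the truncated tetrahedron: with `p = a b c`, the scaled
covariance matrix `n` satisfies `16 (1 - p)^8 - det n = 16 (1 - p)^2 p W`. -/
lemma trunc_det (a b c p : ℝ) (hp : p = a * b * c) :
    16 * (1 - p) ^ 8 -
      ((8 * (1 - p) * (1 - p * a * a) - 5 * (1 - p * a) * (1 - p * a)) * (8 * (1 - p) * (1 - p * b * b) - 5 * (1 - p * b) * (1 - p * b)) * (8 * (1 - p) * (1 - p * c * c) - 5 * (1 - p * c) * (1 - p * c)) -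
      (8 * (1 - p) * (1 - p * a * a) - 5 * (1 - p * a) * (1 - p * a)) * (4 * (1 - p) * (1 - p * b * c) - 5 * (1 - p * b) * (1 - p * c)) * (4 * (1 - p) * (1 - p * c * b) - 5 * (1 - p * c) * (1 - p * b)) -
      (4 * (1 - p) * (1 - p * a * b) - 5 * (1 - p * a) * (1 - p * b)) * (4 * (1 - p) * (1 - p * b * a) - 5 * (1 - p * b) * (1 - p * a)) * (8 * (1 - p) * (1 - p * c * c) - 5 * (1 - p * c) * (1 - p * c)) +
      (4 * (1 - p) * (1 - p * a * b) - 5 * (1 - p * a) * (1 - p * b)) * (4 * (1 - p) * (1 - p * b * c) - 5 * (1 - p * b) * (1 - p * c)) * (4 * (1 - p) * (1 - p * c * a) - 5 * (1 - p * c) * (1 - p * a)) +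
      (4 * (1 - p) * (1 - p * a * c) - 5 * (1 - p * a) * (1 - p * c)) * (4 * (1 - p) * (1 - p * b * a) - 5 * (1 - p * b) * (1 - p * a)) * (4 * (1 - p) * (1 - p * c * b) - 5 * (1 - p * c) * (1 - p * b)) -
      (4 * (1 - p) * (1 - p * a * c) - 5 * (1 - p * a) * (1 - p * c)) * (8 * (1 - p) * (1 - p * b * b) - 5 * (1 - p * b) * (1 - p * b)) * (4 * (1 - p) * (1 - p * c * a) - 5 * (1 - p * c) * (1 - p * a))) =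
      16 * (1 - p) ^ 2 * p * truncW a b c := by
  subst hp
  unfold truncW
  ring

/-- From the determinant identity to the value of `det Σ / vol^2`. -/
lemma trunc_ratio (n00 n01 n02 n10 n11 n12 n20 n21 n22 q p W : ℝ) (hq : q ≠ 0)
    (h : 16 * q ^ 8 - (n00 * n11 * n22 - n00 * n12 * n21 - n01 * n10 * n22 + n01 * n12 * n20 + n02 * n10 * n21 -
      n02 * n11 * n20) = 16 * q ^ 2 * p * W) :
    (n00 / (80 * q ^ 2) * (n11 / (80 * q ^ 2)) * (n22 / (80 * q ^ 2)) -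
        n00 / (80 * q ^ 2) * (n12 / (80 * q ^ 2)) * (n21 / (80 * q ^ 2)) -
        n01 / (80 * q ^ 2) * (n10 / (80 * q ^ 2)) * (n22 / (80 * q ^ 2)) +
        n01 / (80 * q ^ 2) * (n12 / (80 * q ^ 2)) * (n20 / (80 * q ^ 2)) +
        n02 / (80 * q ^ 2) * (n10 / (80 * q ^ 2)) * (n21 / (80 * q ^ 2)) -
        n02 / (80 * q ^ 2) * (n11 / (80 * q ^ 2)) * (n20 / (80 * q ^ 2))) / (q / 6) ^ 2 = 9 / 8000 * (1 - p * W / q ^ 6) := by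
  have e : n00 * n11 * n22 - n00 * n12 * n21 - n01 * n10 * n22 + n01 * n12 * n20 + n02 * n10 * n21 -
      n02 * n11 * n20 = 16 * q ^ 8 - 16 * q ^ 2 * p * W := by linarith
  have e2 : (n00 / (80 * q ^ 2) * (n11 / (80 * q ^ 2)) * (n22 / (80 * q ^ 2)) -
        n00 / (80 * q ^ 2) * (n12 / (80 * q ^ 2)) * (n21 / (80 * q ^ 2)) -
        n01 / (80 * q ^ 2) * (n10 / (80 * q ^ 2)) * (n22 / (80 * q ^ 2)) +
        n01 / (80 * q ^ 2) * (n12 / (80 * q ^ 2)) * (n20 / (80 * q ^ 2)) +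
        n02 / (80 * q ^ 2) * (n10 / (80 * q ^ 2)) * (n21 / (80 * q ^ 2)) -
        n02 / (80 * q ^ 2) * (n11 / (80 * q ^ 2)) * (n20 / (80 * q ^ 2))) / (q / 6) ^ 2 = 36 * (n00 * n11 * n22 - n00 * n12 * n21 - n01 * n10 * n22 + n01 * n12 * n20 + n02 * n10 * n21 -
      n02 * n11 * n20) / (512000 * q ^ 8) := by
    field_simp
    ring
  rw [e2, e]
  field_simp
  ring

end Vale.Agent.Helper22
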