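import Mathlib

/-!
The truncated tetrahedron (P254).
-/

namespace Vale.Agent.Helper22

/-- The standard tetrahedron `{x ≥ 0, x_0 + x_1 + x_2 ≤ 1}` with the corner at the origin cut off
by the plane `x_0 / a_0 + x_1 / a_1 + x_2 / a_2 = 1`. -/
def truncTet (a : Fin 3 → ℝ) : Set (Fin 3 → ℝ) :=
  {x | (∀ i, 0 ≤ x i) ∧ ∑ i, x i ≤ 1 ∧ 1 ≤ ∑ i, x i / a i}

end Vale.Agent.Helper22
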