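import Mathlib

/-!
P254: the algebraic inequality behind the bound for simplices with one vertex cut off, in every
dimension.  For positive numbers `x_i ≤ 1` with product `p < 1` the quantity `wPsi` (which is
`(1 - p)^3 · D(K) / D(simplex)` for the truncated simplex `K` with parameters `x`) is at most
`(1 - p)^3`.  The proof merges the two smallest variables `(u, v) ↦ (u v, 1)`; the merging step
rests on one inequality for the remaining variables, which enters as the hypothesis `StarW`.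
-/

namespace Vale.Agent.Helper22

open Finset

noncomputable section

variable {ι : Type*} [DecidableEq ι]

/-- `(1 - p)^3 · D(K) / D(simplex)` for the truncated simplex with parameters `x i`, `i ∈ s`,
as a function of `p` (which will be the product of the `x i`). -/
def wPsi (s : Finset ι) (x : ι → ℝ) (p : ℝ) : ℝ :=
  (∏ i ∈ s, (1 - p * x i ^ 2) / (1 - p)) *
    ((1 - p) - 2 * p * (∑ i ∈ s, (1 - x i) ^ 2 / (1 - p * x i ^ 2)) -
      p * ((∑ i ∈ s, (1 - x i) / (1 - p * x i ^ 2)) ^ 2 -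
        p * (∑ i ∈ s, x i * (1 - x i) / (1 - p * x i ^ 2)) ^ 2))

/-- The inequality for the variables that are not merged. -/
def StarW (ι : Type*) : Prop :=
  ∀ (R : Finset ι) (a : ι → ℝ) (c p U0 U1 L : ℝ), 0 < c → c < 1 →
    (∀ k ∈ R, c ≤ a k ^ 2 ∧ 0 < a k ∧ a k ≤ 1) → p = c * ∏ k ∈ R, a k →
    U0 = ∑ k ∈ R, (1 - a k) / (1 - p * a k ^ 2) →
    U1 = ∑ k ∈ R, a k * (1 - a k) / (1 - p * a k ^ 2) →
    L = ∑ k ∈ R, (1 - a k) ^ 2 / (1 - p * a k ^ 2) →
    4 * (c - p) ≤ (1 - p * c) * (U0 + p * U1) + (1 + c) * p * (4 * L + U0 ^ 2 - p * U1 ^ 2)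

/-- `wPsi` with two variables `u`, `v` split off. -/
def wE1 (u v p Γ L U0 U1 : ℝ) : ℝ :=
  ((1 - p * u ^ 2) / (1 - p) * ((1 - p * v ^ 2) / (1 - p) * Γ)) *
    ((1 - p) - 2 * p * ((1 - u) ^ 2 / (1 - p * u ^ 2) + ((1 - v) ^ 2 / (1 - p * v ^ 2) + L)) -
      p * (((1 - u) / (1 - p * u ^ 2) + ((1 - v) / (1 - p * v ^ 2) + U0)) ^ 2 -
        p * (u * (1 - u) / (1 - p * u ^ 2) + (v * (1 - v) / (1 - p * v ^ 2) + U1)) ^ 2))

/-- `wPsi` with one variable `c` split off. -/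
def wE2 (c p Γ L U0 U1 : ℝ) : ℝ :=
  ((1 - p * c ^ 2) / (1 - p) * Γ) *
    ((1 - p) - 2 * p * ((1 - c) ^ 2 / (1 - p * c ^ 2) + L) -
      p * (((1 - c) / (1 - p * c ^ 2) + U0) ^ 2 -
        p * (c * (1 - c) / (1 - p * c ^ 2) + U1) ^ 2))

/-- The bracket of the merging identity. -/
def wBr (u v p L U0 U1 : ℝ) : ℝ :=
  2 * (1 - p * (u * v)) * (4 + (U0 + p * U1)) -
    (1 + u) * (1 + v) * (4 * (1 - p) - p * (4 * L + U0 ^ 2 - p * U1 ^ 2))

/-- Numerator of `wE1` over the denominator `(1 - p)^2 g_u g_v`. -/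
def wN1 (u v p L U0 U1 : ℝ) : ℝ :=
  (1 - p * u ^ 2) ^ 2 * (1 - p * v ^ 2) ^ 2 * ((1 - p) - 2 * p * L) -
    2 * p * ((1 - p * u ^ 2) * (1 - p * v ^ 2)) *
      ((1 - u) ^ 2 * (1 - p * v ^ 2) + (1 - v) ^ 2 * (1 - p * u ^ 2)) -
    p * (((1 - u) * (1 - p * v ^ 2) + (1 - v) * (1 - p * u ^ 2) +
          U0 * ((1 - p * u ^ 2) * (1 - p * v ^ 2))) ^ 2 -
      p * (u * (1 - u) * (1 - p * v ^ 2) + v * (1 - v) * (1 - p * u ^ 2) +
          U1 * ((1 - p * u ^ 2) * (1 - p * v ^ 2))) ^ 2)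

/-- Numerator of `wE2` over the denominator `(1 - p) g_c`. -/
def wN2 (c p L U0 U1 : ℝ) : ℝ :=
  (1 - p * c ^ 2) ^ 2 * ((1 - p) - 2 * p * L) - 2 * p * (1 - p * c ^ 2) * (1 - c) ^ 2 -
    p * (((1 - c) + U0 * (1 - p * c ^ 2)) ^ 2 - p * (c * (1 - c) + U1 * (1 - p * c ^ 2)) ^ 2)

lemma wE1_eq (u v p Γ L U0 U1 : ℝ) (hp : 1 - p ≠ 0) (hu : 1 - p * u ^ 2 ≠ 0)
    (hv : 1 - p * v ^ 2 ≠ 0) :
    wE1 u v p Γ L U0 U1 =
      Γ * wN1 u v p L U0 U1 / ((1 - p) ^ 2 * ((1 - p * u ^ 2) * (1 - p * v ^ 2))) := by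
  unfold wE1 wN1
  field_simp
  ring

lemma wE2_eq (c p Γ L U0 U1 : ℝ) (hp : 1 - p ≠ 0) (hc : 1 - p * c ^ 2 ≠ 0) :
    wE2 c p Γ L U0 U1 = Γ * wN2 c p L U0 U1 / ((1 - p) * (1 - p * c ^ 2)) := by
  unfold wE2 wN2
  field_simp
  ring

lemma wN_identity (u v p L U0 U1 : ℝ) (hL : L = U0 - U1) :
    (1 - p * (u * v) ^ 2) * wN1 u v p L U0 U1 -
        (1 - p) * ((1 - p * u ^ 2) * (1 - p * v ^ 2)) * wN2 (u * v) p L U0 U1 =
      -(p * (1 - u) * (1 - v) * wBr u v p L U0 U1) *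
        ((1 - p * u ^ 2) * (1 - p * v ^ 2) * (1 - p * (u * v) ^ 2)) := by
  subst hL
  unfold wN1 wN2 wBr
  ring

lemma merge_identity (u v p Γ L U0 U1 : ℝ) (hL : L = U0 - U1) (hp : 1 - p ≠ 0)
    (hu : 1 - p * u ^ 2 ≠ 0) (hv : 1 - p * v ^ 2 ≠ 0) (hc : 1 - p * (u * v) ^ 2 ≠ 0) :
    wE1 u v p Γ L U0 U1 - wE2 (u * v) p Γ L U0 U1 =
      -(p * (1 - u) * (1 - v) * Γ * wBr u v p L U0 U1) / (1 - p) ^ 2 := by
  rw [wE1_eq u v p Γ L U0 U1 hp hu hv, wE2_eq (u * v) p Γ L U0 U1 hp hc]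
  have h := wN_identity u v p L U0 U1 hL
  rw [div_sub_div _ _ (mul_ne_zero (pow_ne_zero 2 hp) (mul_ne_zero hu hv)) (mul_ne_zero hp hc),
    div_eq_div_iff (mul_ne_zero (mul_ne_zero (pow_ne_zero 2 hp) (mul_ne_zero hu hv))
      (mul_ne_zero hp hc)) (pow_ne_zero 2 hp)]
  linear_combination (Γ * (1 - p) ^ 3) * h

lemma wBr_nonneg (u v p L U0 U1 : ℝ) (hp0 : 0 < p) (hp1 : p < 1) (hu0 : 0 < u) (hu1 : u ≤ 1)
    (hv0 : 0 < v) (hv1 : v ≤ 1) (hΔ : 0 ≤ U0 + p * U1)
    (hstar : 4 * (u * v - p) ≤ (1 - p * (u * v)) * (U0 + p * U1) +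
      (1 + u * v) * p * (4 * L + U0 ^ 2 - p * U1 ^ 2)) :
    0 ≤ wBr u v p L U0 U1 ∧ (u < 1 → v < 1 → 0 < wBr u v p L U0 U1) := by
  unfold wBr
  obtain ⟨T, hT⟩ : ∃ T, T = 4 * (1 - p) - p * (4 * L + U0 ^ 2 - p * U1 ^ 2) := ⟨_, rfl⟩
  rw [← hT]
  have hc1 : u * v ≤ 1 := by nlinarith
  have hc0 : 0 < u * v := mul_pos hu0 hv0
  have hpc : 0 < 1 - p * (u * v) := by nlinarith
  have hid : 2 * (1 - p * (u * v)) * (4 + (U0 + p * U1)) - (1 + u) * (1 + v) * T =
      2 * ((1 - p * (u * v)) * (U0 + p * U1) +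
        (1 + u * v) * p * (4 * L + U0 ^ 2 - p * U1 ^ 2) - 4 * (u * v - p)) +
        (1 - u) * (1 - v) * T := by
    rw [hT]; ring
  rcases lt_or_ge 0 T with hT0 | hT0
  · constructor
    · rw [hid]
      have := mul_nonneg (mul_nonneg (sub_nonneg.2 hu1) (sub_nonneg.2 hv1)) hT0.le
      linarith
    · intro hu hv
      rw [hid]
      have := mul_pos (mul_pos (sub_pos.2 hu) (sub_pos.2 hv)) hT0
      linarith
  · have h1 : 0 < 2 * (1 - p * (u * v)) * (4 + (U0 + p * U1)) := by positivity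
    have h2 : 0 ≤ (1 + u) * (1 + v) * (-T) :=
      mul_nonneg (by positivity) (by linarith)
    have h3 : 0 < 2 * (1 - p * (u * v)) * (4 + (U0 + p * U1)) - (1 + u) * (1 + v) * T := by
      nlinarith
    exact ⟨h3.le, fun _ _ => h3⟩

lemma merge_le (u v p Γ L U0 U1 : ℝ) (hL : L = U0 - U1) (hp0 : 0 < p) (hp1 : p < 1)
    (hu0 : 0 < u) (hu1 : u ≤ 1) (hv0 : 0 < v) (hv1 : v ≤ 1) (hΓ : 0 < Γ)
    (hΔ : 0 ≤ U0 + p * U1)
    (hstar : 4 * (u * v - p) ≤ (1 - p * (u * v)) * (U0 + p * U1) +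
      (1 + u * v) * p * (4 * L + U0 ^ 2 - p * U1 ^ 2)) :
    wE1 u v p Γ L U0 U1 ≤ wE2 (u * v) p Γ L U0 U1 ∧
      (u < 1 → v < 1 → wE1 u v p Γ L U0 U1 < wE2 (u * v) p Γ L U0 U1) := by
  have hq : 0 < 1 - p := by linarith
  have hu2 : u ^ 2 ≤ 1 := pow_le_one₀ hu0.le hu1
  have hv2 : v ^ 2 ≤ 1 := pow_le_one₀ hv0.le hv1
  have hc2 : (u * v) ^ 2 ≤ 1 := pow_le_one₀ (mul_pos hu0 hv0).le (by nlinarith)
  have hgu : 0 < 1 - p * u ^ 2 := by nlinarith
  have hgv : 0 < 1 - p * v ^ 2 := by nlinarith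
  have hgc : 0 < 1 - p * (u * v) ^ 2 := by nlinarith
  have hid := merge_identity u v p Γ L U0 U1 hL hq.ne' hgu.ne' hgv.ne' hgc.ne'
  obtain ⟨hb, hbs⟩ := wBr_nonneg u v p L U0 U1 hp0 hp1 hu0 hu1 hv0 hv1 hΔ hstar
  have hq2 : 0 < (1 - p) ^ 2 := by positivity
  constructor
  · have h : -(p * (1 - u) * (1 - v) * Γ * wBr u v p L U0 U1) / (1 - p) ^ 2 ≤ 0 := by
      apply div_nonpos_of_nonpos_of_nonneg _ hq2.le
      have := mul_nonneg (mul_nonneg (mul_nonneg (mul_nonneg hp0.le (sub_nonneg.2 hu1))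
        (sub_nonneg.2 hv1)) hΓ.le) hb
      linarith
    linarith
  · intro hu hv
    have h : -(p * (1 - u) * (1 - v) * Γ * wBr u v p L U0 U1) / (1 - p) ^ 2 < 0 := by
      apply div_neg_of_neg_of_pos _ hq2
      have := mul_pos (mul_pos (mul_pos (mul_pos hp0 (sub_pos.2 hu)) (sub_pos.2 hv)) hΓ)
        (hbs hu hv)
      linarith
    linarith

lemma wPsi_insert {i : ι} {s : Finset ι} (hi : i ∉ s) (x : ι → ℝ) (p : ℝ) :
    wPsi (insert i s) x p =
      ((1 - p * x i ^ 2) / (1 - p) * ∏ k ∈ s, (1 - p * x k ^ 2) / (1 - p)) *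
        ((1 - p) - 2 * p * ((1 - x i) ^ 2 / (1 - p * x i ^ 2) +
            ∑ k ∈ s, (1 - x k) ^ 2 / (1 - p * x k ^ 2)) -
          p * (((1 - x i) / (1 - p * x i ^ 2) + ∑ k ∈ s, (1 - x k) / (1 - p * x k ^ 2)) ^ 2 -
            p * (x i * (1 - x i) / (1 - p * x i ^ 2) +
              ∑ k ∈ s, x k * (1 - x k) / (1 - p * x k ^ 2)) ^ 2)) := by
  unfold wPsi
  rw [Finset.prod_insert hi, Finset.sum_insert hi, Finset.sum_insert hi, Finset.sum_insert hi]

lemma wPsi_two {i j : ι} {R : Finset ι} (hi : i ∉ insert j R) (hj : j ∉ R) (x : ι → ℝ)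
    (p : ℝ) :
    wPsi (insert i (insert j R)) x p =
      wE1 (x i) (x j) p (∏ k ∈ R, (1 - p * x k ^ 2) / (1 - p))
        (∑ k ∈ R, (1 - x k) ^ 2 / (1 - p * x k ^ 2))
        (∑ k ∈ R, (1 - x k) / (1 - p * x k ^ 2))
        (∑ k ∈ R, x k * (1 - x k) / (1 - p * x k ^ 2)) := by
  rw [wPsi_insert hi, Finset.prod_insert hj, Finset.sum_insert hj, Finset.sum_insert hj,
    Finset.sum_insert hj]
  rfl

lemma wPsi_one {i : ι} {R : Finset ι} (hi : i ∉ R) (x : ι → ℝ) (p : ℝ) :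
    wPsi (insert i R) x p =
      wE2 (x i) p (∏ k ∈ R, (1 - p * x k ^ 2) / (1 - p))
        (∑ k ∈ R, (1 - x k) ^ 2 / (1 - p * x k ^ 2))
        (∑ k ∈ R, (1 - x k) / (1 - p * x k ^ 2))
        (∑ k ∈ R, x k * (1 - x k) / (1 - p * x k ^ 2)) := by
  rw [wPsi_insert hi]
  rfl

omit [DecidableEq ι] in
lemma wPsi_singleton (i : ι) (x : ι → ℝ) (h0 : 0 < x i) (h1 : x i < 1) :
    wPsi {i} x (x i) = (1 - x i) ^ 3 := by
  unfold wPsi
  rw [Finset.prod_singleton, Finset.sum_singleton, Finset.sum_singleton, Finset.sum_singleton]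
  have hq : 1 - x i ≠ 0 := (sub_pos.2 h1).ne'
  have h2 : x i ^ 2 ≤ 1 := pow_le_one₀ h0.le h1.le
  have hg : 1 - x i ^ 3 ≠ 0 := by
    have : 0 < 1 - x i ^ 3 := by nlinarith
    exact this.ne'
  have hg' : 1 - x i * x i ^ 2 = 1 - x i ^ 3 := by ring
  rw [hg']
  field_simp
  ring

/-- The main inequality: `wPsi ≤ (1 - p)^3`, strictly as soon as two of the variables are
smaller than `1`. -/
theorem wn_main (hstar : StarW ι) : ∀ (m : ℕ) (s : Finset ι) (x : ι → ℝ), s.card = m →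
    (∀ i ∈ s, 0 < x i ∧ x i ≤ 1) → ∏ i ∈ s, x i < 1 →
    wPsi s x (∏ i ∈ s, x i) ≤ (1 - ∏ i ∈ s, x i) ^ 3 ∧
      (∀ a ∈ s, ∀ b ∈ s, a ≠ b → x a < 1 → x b < 1 →
        wPsi s x (∏ i ∈ s, x i) < (1 - ∏ i ∈ s, x i) ^ 3) := by
  intro m
  induction m with
  | zero =>
    intro s x hs hx hp
    rw [Finset.card_eq_zero] at hs
    subst hs
    simp at hp
  | succ m ih =>
    intro s x hs hx hp
    rcases Nat.eq_zero_or_pos m with hm | hm
    · subst hm
      obtain ⟨i, rfl⟩ := Finset.card_eq_one.1 hs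
      rw [Finset.prod_singleton] at hp ⊢
      refine ⟨le_of_eq (wPsi_singleton i x (hx i (Finset.mem_singleton_self i)).1 hp), ?_⟩
      intro a ha b hb hab
      rw [Finset.mem_singleton] at ha hb
      exact absurd (ha.trans hb.symm) hab
    · have hne : s.Nonempty := Finset.card_pos.1 (by omega)
      obtain ⟨i, hi, himin⟩ := Finset.exists_min_image s x hne
      have hne2 : (s.erase i).Nonempty := by
        rw [← Finset.card_pos, Finset.card_erase_of_mem hi]; omega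
      obtain ⟨j, hj, hjmin⟩ := Finset.exists_min_image (s.erase i) x hne2
      have hji : j ≠ i := (Finset.mem_erase.1 hj).1
      have hjs : j ∈ s := (Finset.mem_erase.1 hj).2
      have hui := hx i hi
      have hvj := hx j hjs
      have huv : x i ≤ x j := himin j hjs
      obtain ⟨R, hiJR, hjR, hsplit, hRf⟩ : ∃ R : Finset ι, i ∉ insert j R ∧ j ∉ R ∧
          s = insert i (insert j R) ∧ ∀ k ∈ R, x j ≤ x k ∧ 0 < x k ∧ x k ≤ 1 := by
        refine ⟨(s.erase i).erase j, ?_, Finset.notMem_erase j _, ?_, ?_⟩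
        · rw [Finset.mem_insert]
          rintro (h | h)
          · exact hji h.symm
          · exact (Finset.mem_erase.1 (Finset.mem_of_mem_erase h)).1 rfl
        · rw [Finset.insert_erase hj, Finset.insert_erase hi]
        · intro k hk
          have hk1 := Finset.mem_of_mem_erase hk
          exact ⟨hjmin k hk1, hx k (Finset.mem_of_mem_erase hk1)⟩
      clear himin hjmin hj hne2 hne hi hjs
      subst hsplit
      have hiR : i ∉ R := fun h => hiJR (Finset.mem_insert_of_mem h)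
      have hcard : (insert i R).card = m := by
        rw [Finset.card_insert_of_notMem hiJR, Finset.card_insert_of_notMem hjR] at hs
        rw [Finset.card_insert_of_notMem hiR]
        omega
      have hp_eq : ∏ k ∈ insert i (insert j R), x k = x i * x j * ∏ k ∈ R, x k := by
        rw [Finset.prod_insert hiJR, Finset.prod_insert hjR, mul_assoc]
      have hPpos : 0 < ∏ k ∈ R, x k := Finset.prod_pos fun k hk => (hRf k hk).2.1
      have hP1 : ∏ k ∈ R, x k ≤ 1 :=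
        Finset.prod_le_one (fun k hk => (hRf k hk).2.1.le) fun k hk => (hRf k hk).2.2
      have hu_lt : x i < 1 := by
        by_contra h
        have hu1 : x i = 1 := le_antisymm hui.2 (not_lt.1 h)
        have hv1 : x j = 1 := le_antisymm hvj.2 (hu1 ▸ huv)
        have hP : ∏ k ∈ R, x k = 1 :=
          Finset.prod_eq_one fun k hk => le_antisymm (hRf k hk).2.2 (hv1 ▸ (hRf k hk).1)
        rw [hp_eq, hu1, hv1, hP] at hp
        norm_num at hp
      have hc0 : 0 < x i * x j := mul_pos hui.1 hvj.1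
      have hc1 : x i * x j < 1 := lt_of_le_of_lt (mul_le_of_le_one_right hui.1.le hvj.2) hu_lt
      -- the modified family
      obtain ⟨x', hx'i, hx'R⟩ : ∃ x' : ι → ℝ, x' i = x i * x j ∧ ∀ k ∈ R, x' k = x k := by
        refine ⟨Function.update x i (x i * x j), Function.update_self .., fun k hk => ?_⟩
        have hki : k ≠ i := fun h => hiR (by rw [← h]; exact hk)
        exact Function.update_of_ne hki _ _
      have hp' : ∏ k ∈ insert i R, x' k = ∏ k ∈ insert i (insert j R), x k := by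
        rw [Finset.prod_insert hiR, hx'i, Finset.prod_congr rfl hx'R, hp_eq]
      have hx'' : ∀ k ∈ insert i R, 0 < x' k ∧ x' k ≤ 1 := by
        intro k hk
        rcases Finset.mem_insert.1 hk with rfl | hk
        · rw [hx'i]; exact ⟨hc0, hc1.le⟩
        · rw [hx'R k hk]; exact (hRf k hk).2
      have hIH := ih (insert i R) x' hcard hx'' (by rw [hp']; exact hp)
      rw [hp'] at hIH
      -- abbreviations
      obtain ⟨p, hpdef⟩ : ∃ p, p = ∏ k ∈ insert i (insert j R), x k := ⟨_, rfl⟩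
      rw [← hpdef] at hp hIH ⊢
      rw [← hpdef] at hp_eq
      have hp0 : 0 < p := by rw [hp_eq]; exact mul_pos hc0 hPpos
      have hq : 0 < 1 - p := by linarith
      have hg : ∀ k ∈ R, 0 < 1 - p * x k ^ 2 := by
        intro k hk
        have h2 : x k ^ 2 ≤ 1 := pow_le_one₀ (hRf k hk).2.1.le (hRf k hk).2.2
        nlinarith
      have hΓ : 0 < ∏ k ∈ R, (1 - p * x k ^ 2) / (1 - p) :=
        Finset.prod_pos fun k hk => div_pos (hg k hk) hq
      have hU0 : 0 ≤ ∑ k ∈ R, (1 - x k) / (1 - p * x k ^ 2) :=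
        Finset.sum_nonneg fun k hk => div_nonneg (sub_nonneg.2 (hRf k hk).2.2) (hg k hk).le
      have hU1 : 0 ≤ ∑ k ∈ R, x k * (1 - x k) / (1 - p * x k ^ 2) :=
        Finset.sum_nonneg fun k hk => div_nonneg
          (mul_nonneg (hRf k hk).2.1.le (sub_nonneg.2 (hRf k hk).2.2)) (hg k hk).le
      have hLeq : ∑ k ∈ R, (1 - x k) ^ 2 / (1 - p * x k ^ 2) =
          ∑ k ∈ R, (1 - x k) / (1 - p * x k ^ 2) -
            ∑ k ∈ R, x k * (1 - x k) / (1 - p * x k ^ 2) := by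
        rw [← Finset.sum_sub_distrib]
        refine Finset.sum_congr rfl fun k hk => ?_
        have := (hg k hk).ne'
        field_simp
      have hst := hstar R x (x i * x j) p _ _ _ hc0 hc1
        (fun k hk => ⟨by
          nlinarith [mul_nonneg (hRf k hk).2.1.le (sub_nonneg.2 (hRf k hk).1),
            mul_nonneg hvj.1.le (sub_nonneg.2 (le_trans huv (hRf k hk).1))],
          (hRf k hk).2.1, (hRf k hk).2.2⟩) hp_eq rfl rfl rfl
      have hΔ : 0 ≤ ∑ k ∈ R, (1 - x k) / (1 - p * x k ^ 2) +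
          p * ∑ k ∈ R, x k * (1 - x k) / (1 - p * x k ^ 2) :=
        add_nonneg hU0 (mul_nonneg hp0.le hU1)
      obtain ⟨hm1, hm2⟩ := merge_le (x i) (x j) p _ _ _ _ hLeq hp0 hp hui.1 hui.2 hvj.1 hvj.2
        hΓ hΔ hst
      have e1 := wPsi_two hiJR hjR x p
      have e2 : wPsi (insert i R) x' p =
          wE2 (x i * x j) p (∏ k ∈ R, (1 - p * x k ^ 2) / (1 - p))
            (∑ k ∈ R, (1 - x k) ^ 2 / (1 - p * x k ^ 2))
            (∑ k ∈ R, (1 - x k) / (1 - p * x k ^ 2))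
            (∑ k ∈ R, x k * (1 - x k) / (1 - p * x k ^ 2)) := by
        have c1 : ∏ k ∈ R, (1 - p * x' k ^ 2) / (1 - p) =
            ∏ k ∈ R, (1 - p * x k ^ 2) / (1 - p) :=
          Finset.prod_congr rfl fun k hk => by rw [hx'R k hk]
        have c2 : ∑ k ∈ R, (1 - x' k) ^ 2 / (1 - p * x' k ^ 2) =
            ∑ k ∈ R, (1 - x k) ^ 2 / (1 - p * x k ^ 2) :=
          Finset.sum_congr rfl fun k hk => by rw [hx'R k hk]
        have c3 : ∑ k ∈ R, (1 - x' k) / (1 - p * x' k ^ 2) =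
            ∑ k ∈ R, (1 - x k) / (1 - p * x k ^ 2) :=
          Finset.sum_congr rfl fun k hk => by rw [hx'R k hk]
        have c4 : ∑ k ∈ R, x' k * (1 - x' k) / (1 - p * x' k ^ 2) =
            ∑ k ∈ R, x k * (1 - x k) / (1 - p * x k ^ 2) :=
          Finset.sum_congr rfl fun k hk => by rw [hx'R k hk]
        rw [wPsi_one hiR, hx'i, c1, c2, c3, c4]
      rw [e1]
      rw [e2] at hIH
      refine ⟨le_trans hm1 hIH.1, ?_⟩
      intro a ha b hb hab hxa hxb
      have hv_lt : x j < 1 := by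
        have key : ∀ d ∈ insert i (insert j R), d ≠ i → x d < 1 → x j < 1 := by
          intro d hd hdi hxd
          rcases Finset.mem_insert.1 hd with h | h
          · exact absurd h hdi
          · rcases Finset.mem_insert.1 h with h | h
            · rw [← h]; exact hxd
            · exact lt_of_le_of_lt (hRf d h).1 hxd
        by_cases hai : a = i
        · exact key b hb (fun h => hab (hai.trans h.symm)) hxb
        · exact key a ha hai hxa
      exact lt_of_lt_of_le (hm2 hu_lt hv_lt) hIH.1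

end

end Vale.Agent.Helper22
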