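import Vale.Agent.Helper22.TruncSimpDefs
import Vale.Agent.Helper22.FsKLS
import Vale.Agent.Helper22.AffImage
import Vale.Agent.Helper22.RevMain
import Vale.Agent.Helper22.WnInd

/-!
The simplex with one vertex cut off (P254), in every dimension: volume, moments, covariance
(a diagonal matrix plus a matrix of rank two) and the exact value of `det Σ / vol^2`.
-/

namespace Vale.Agent.Helper22

open MeasureTheory Set Matrix

noncomputable section

variable {n : ℕ}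

/-- The corner that is cut off. -/
def cornerSimp (a : Fin n → ℝ) : Set (Fin n → ℝ) :=
  {x | (∀ i, 0 ≤ x i) ∧ ∑ i, x i / a i ≤ 1}

lemma affMap_diagN (a t : Fin n → ℝ) (i : Fin n) :
    affMap 0 (Matrix.diagonal a) t i = a i * t i := by
  rw [affMap_apply]
  simp [Matrix.diagonal_apply]

lemma cornerSimp_eq_image {a : Fin n → ℝ} (ha : ∀ i, 0 < a i) :
    cornerSimp a = affMap 0 (Matrix.diagonal a) '' stdSimp (Fin n) := by
  ext x
  constructor
  · rintro ⟨h0, h1⟩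
    refine ⟨fun i => x i / a i, ⟨fun i => div_nonneg (h0 i) (ha i).le, h1⟩, ?_⟩
    funext i
    rw [affMap_diagN]
    field_simp [(ha i).ne']
  · rintro ⟨t, ⟨h0, h1⟩, rfl⟩
    refine ⟨fun i => ?_, ?_⟩
    · rw [affMap_diagN]
      exact mul_nonneg (ha i).le (h0 i)
    · have e : ∀ i, affMap 0 (Matrix.diagonal a) t i / a i = t i := by
        intro i
        rw [affMap_diagN]
        field_simp [(ha i).ne']
      simp only [e]
      exact h1

lemma truncSimp_union {a : Fin n → ℝ} (ha : ∀ i, 0 < a i) (ha1 : ∀ i, a i ≤ 1) :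
    truncSimp a ∪ cornerSimp a = stdSimp (Fin n) := by
  ext x
  constructor
  · rintro (⟨h0, h1, -⟩ | ⟨h0, h1⟩)
    · exact ⟨h0, h1⟩
    · refine ⟨h0, le_trans (Finset.sum_le_sum fun i _ => ?_) h1⟩
      rw [le_div_iff₀ (ha i)]
      exact mul_le_of_le_one_right (h0 i) (ha1 i)
  · rintro ⟨h0, h1⟩
    rcases le_total (∑ i, x i / a i) 1 with h | h
    · exact Or.inr ⟨h0, h⟩
    · exact Or.inl ⟨h0, h1, h⟩

lemma truncSimp_inter_null {a : Fin n → ℝ} (ha : ∀ i, 0 < a i) (i₀ : Fin n) :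
    (volume : Measure (Fin n → ℝ)) (truncSimp a ∩ cornerSimp a) = 0 := by
  have hv : (fun i => (a i)⁻¹) ≠ (0 : Fin n → ℝ) := by
    intro h
    have := congrFun h i₀
    simp only [Pi.zero_apply, inv_eq_zero] at this
    exact (ha i₀).ne' this
  refine measure_mono_null ?_ (hyperplane_null hv 1)
  rintro x ⟨⟨-, -, h1⟩, ⟨-, h2⟩⟩
  show (fun i => (a i)⁻¹) ⬝ᵥ x = 1
  have e : (fun i => (a i)⁻¹) ⬝ᵥ x = ∑ i, x i / a i := by
    unfold dotProduct
    refine Finset.sum_congr rfl fun i _ => ?_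
    rw [div_eq_mul_inv, mul_comm]
  rw [e]
  exact le_antisymm h2 h1

lemma truncSimp_eq_inter (a : Fin n → ℝ) :
    truncSimp a = stdSimp (Fin n) ∩ {x | 1 ≤ ∑ i, x i / a i} := by
  ext x
  constructor
  · rintro ⟨h0, h1, h2⟩
    exact ⟨⟨h0, h1⟩, h2⟩
  · rintro ⟨⟨h0, h1⟩, h2⟩
    exact ⟨h0, h1, h2⟩

lemma isCompact_truncSimp (a : Fin n → ℝ) : IsCompact (truncSimp a) := by
  rw [truncSimp_eq_inter]
  refine (isCompact_stdSimp n).inter_right ?_
  exact isClosed_le continuous_const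
    (continuous_finsetSum _ fun i _ => (continuous_apply i).div_const _)

lemma convex_truncSimp (a : Fin n → ℝ) : Convex ℝ (truncSimp a) := by
  intro x hx y hy s t hs ht hst
  obtain ⟨hx0, hx1, hx2⟩ := hx
  obtain ⟨hy0, hy1, hy2⟩ := hy
  refine ⟨fun i => ?_, ?_, ?_⟩
  · simp only [Pi.add_apply, Pi.smul_apply, smul_eq_mul]
    exact add_nonneg (mul_nonneg hs (hx0 i)) (mul_nonneg ht (hy0 i))
  · have e : ∑ i, (s • x + t • y) i = s * ∑ i, x i + t * ∑ i, y i := by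
      simp only [Pi.add_apply, Pi.smul_apply, smul_eq_mul, Finset.sum_add_distrib,
        Finset.mul_sum]
    rw [e]
    nlinarith
  · have e : ∑ i, (s • x + t • y) i / a i = s * ∑ i, x i / a i + t * ∑ i, y i / a i := by
      simp only [Pi.add_apply, Pi.smul_apply, smul_eq_mul, Finset.mul_sum,
        ← Finset.sum_add_distrib]
      refine Finset.sum_congr rfl fun i _ => ?_
      ring
    rw [e]
    nlinarith

lemma isCompact_cornerSimp {a : Fin n → ℝ} (ha : ∀ i, 0 < a i) : IsCompact (cornerSimp a) := by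
  rw [cornerSimp_eq_image ha]
  exact (isCompact_stdSimp n).image (continuous_affMap _ _)

/-- Integrals over the simplex split into the truncated part and the corner. -/
lemma integral_truncSimp {a : Fin n → ℝ} (ha : ∀ i, 0 < a i) (ha1 : ∀ i, a i ≤ 1) (i₀ : Fin n)
    {f : (Fin n → ℝ) → ℝ} (hf : Continuous f) :
    ∫ x in truncSimp a, f x = (∫ x in stdSimp (Fin n), f x) - ∫ x in cornerSimp a, f x := by
  have h := setIntegral_union₀ (μ := (volume : Measure (Fin n → ℝ))) (f := f)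
    (truncSimp_inter_null ha i₀) (isCompact_cornerSimp ha).measurableSet.nullMeasurableSet
    (intOn (isCompact_truncSimp a) hf) (intOn (isCompact_cornerSimp ha) hf)
  rw [truncSimp_union ha ha1] at h
  linarith

lemma det_diagN {a : Fin n → ℝ} (ha : ∀ i, 0 < a i) :
    |(Matrix.diagonal a).det| = ∏ i, a i ∧ (Matrix.diagonal a).det ≠ 0 := by
  rw [Matrix.det_diagonal]
  have h : 0 < ∏ i, a i := Finset.prod_pos fun i _ => ha i
  exact ⟨abs_of_pos h, h.ne'⟩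

lemma vol_truncSimp {a : Fin n → ℝ} (ha : ∀ i, 0 < a i) (ha1 : ∀ i, a i ≤ 1) (i₀ : Fin n) :
    vol (truncSimp a) = (1 - ∏ i, a i) / (n.factorial : ℝ) := by
  obtain ⟨hv, -, -⟩ := stdSimp_moments n
  obtain ⟨hd, hd0⟩ := det_diagN ha
  have hs := integral_truncSimp ha ha1 i₀ (f := fun _ : Fin n → ℝ => (1:ℝ)) continuous_const
  rw [← vol_eq_integral, ← vol_eq_integral, ← vol_eq_integral] at hs
  rw [hs, cornerSimp_eq_image ha, vol_affImage 0 _ hd0 measurableSet_stdSimp, hv, hd]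
  ring

lemma mom1_truncSimp {a : Fin n → ℝ} (ha : ∀ i, 0 < a i) (ha1 : ∀ i, a i ≤ 1) (i : Fin n) :
    mom1 (truncSimp a) i = (1 - (∏ k, a k) * a i) / ((n + 1).factorial : ℝ) := by
  obtain ⟨hv, h1, -⟩ := stdSimp_moments n
  obtain ⟨hd, hd0⟩ := det_diagN ha
  have hc : mom1 (cornerSimp a) i = (∏ k, a k) * (a i * (1 / ((n + 1).factorial : ℝ))) := by
    rw [cornerSimp_eq_image ha, mom1_affImage 0 _ hd0 (isCompact_stdSimp n), hd]
    simp [Matrix.diagonal_apply, h1]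
  have hs := integral_truncSimp ha ha1 i (f := fun x : Fin n → ℝ => x i) (continuous_apply i)
  have e1 : mom1 (truncSimp a) i = mom1 (stdSimp (Fin n)) i - mom1 (cornerSimp a) i := hs
  rw [e1, h1, hc]
  ring

lemma mom2_truncSimp {a : Fin n → ℝ} (ha : ∀ i, 0 < a i) (ha1 : ∀ i, a i ≤ 1) (i j : Fin n) :
    mom2 (truncSimp a) i j =
      (if i = j then 2 else 1) * (1 - (∏ k, a k) * a i * a j) / ((n + 2).factorial : ℝ) := by
  obtain ⟨hv, -, h2⟩ := stdSimp_moments n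
  obtain ⟨hd, hd0⟩ := det_diagN ha
  have hc : mom2 (cornerSimp a) i j =
      (∏ k, a k) * (a i * a j * ((if i = j then 2 else 1) / ((n + 2).factorial : ℝ))) := by
    rw [cornerSimp_eq_image ha, mom2_affImage 0 _ hd0 (isCompact_stdSimp n), hd]
    simp [Matrix.diagonal_apply, h2]
  have hs := integral_truncSimp ha ha1 i (f := fun x : Fin n → ℝ => x i * x j)
    ((continuous_apply i).mul (continuous_apply j))
  have e1 : mom2 (truncSimp a) i j = mom2 (stdSimp (Fin n)) i j - mom2 (cornerSimp a) i j := hs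
  rw [e1, h2, hc]
  ring

/-- Determinant of a diagonal matrix plus a matrix of rank at most two. -/
lemma det_diag_add_rank2 (d : Fin n → ℝ) (hd : ∀ i, d i ≠ 0) (U : Matrix (Fin n) (Fin 2) ℝ)
    (V : Matrix (Fin 2) (Fin n) ℝ) :
    (Matrix.diagonal d + U * V).det =
      (∏ i, d i) * (1 + V * (Matrix.diagonal (fun i => (d i)⁻¹) * U)).det := by
  have e : Matrix.diagonal d + U * V =
      Matrix.diagonal d * (1 + Matrix.diagonal (fun i => (d i)⁻¹) * U * V) := by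
    rw [Matrix.mul_add, Matrix.mul_one, ← Matrix.mul_assoc, ← Matrix.mul_assoc,
      Matrix.diagonal_mul_diagonal]
    have h1 : (Matrix.diagonal fun i => d i * (d i)⁻¹) = (1 : Matrix (Fin n) (Fin n) ℝ) := by
      rw [← Matrix.diagonal_one]
      congr 1
      funext i
      exact mul_inv_cancel₀ (hd i)
    rw [h1, Matrix.one_mul]
  rw [e, Matrix.det_mul, Matrix.det_diagonal, Matrix.det_one_add_mul_comm]

/-- Determinant of `diag d + α 11ᵀ + β (1 aᵀ + a 1ᵀ) + γ a aᵀ`. -/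
lemma det_cov_form (a d : Fin n → ℝ) (hd : ∀ i, d i ≠ 0) (α β γ : ℝ)
    (M : Matrix (Fin n) (Fin n) ℝ)
    (hM : ∀ i j, M i j = (if i = j then d i else 0) +
      (α + β * (a i + a j) + γ * (a i * a j))) :
    M.det = (∏ i, d i) *
      ((1 + α * (∑ i, (d i)⁻¹) + β * (∑ i, a i * (d i)⁻¹)) *
          (1 + β * (∑ i, a i * (d i)⁻¹) + γ * (∑ i, a i ^ 2 * (d i)⁻¹)) -
        (α * (∑ i, a i * (d i)⁻¹) + β * (∑ i, a i ^ 2 * (d i)⁻¹)) *
          (β * (∑ i, (d i)⁻¹) + γ * (∑ i, a i * (d i)⁻¹))) := by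
  obtain ⟨U, hU⟩ : ∃ U : Matrix (Fin n) (Fin 2) ℝ, ∀ i, U i 0 = 1 ∧ U i 1 = a i :=
    ⟨Matrix.of fun i l => if l = 0 then 1 else a i, fun i => ⟨by simp, by simp⟩⟩
  obtain ⟨V, hV⟩ : ∃ V : Matrix (Fin 2) (Fin n) ℝ,
      ∀ i, V 0 i = α + β * a i ∧ V 1 i = β + γ * a i :=
    ⟨Matrix.of fun k i => if k = 0 then α + β * a i else β + γ * a i,
      fun i => ⟨by simp, by simp⟩⟩
  have hMeq : M = Matrix.diagonal d + U * V := by
    ext i j
    rw [hM, Matrix.add_apply, Matrix.diagonal_apply, Matrix.mul_apply, Fin.sum_univ_two,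
      (hU i).1, (hU i).2, (hV j).1, (hV j).2]
    ring
  have hent : ∀ k l : Fin 2, (V * (Matrix.diagonal (fun i => (d i)⁻¹) * U)) k l =
      ∑ i, V k i * ((d i)⁻¹ * U i l) := by
    intro k l
    rw [Matrix.mul_apply]
    refine Finset.sum_congr rfl fun i _ => ?_
    rw [Matrix.diagonal_mul]
  have h00 : (V * (Matrix.diagonal (fun i => (d i)⁻¹) * U)) 0 0 =
      α * (∑ i, (d i)⁻¹) + β * (∑ i, a i * (d i)⁻¹) := by
    rw [hent, Finset.mul_sum, Finset.mul_sum, ← Finset.sum_add_distrib]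
    refine Finset.sum_congr rfl fun i _ => ?_
    rw [(hV i).1, (hU i).1]; ring
  have h01 : (V * (Matrix.diagonal (fun i => (d i)⁻¹) * U)) 0 1 =
      α * (∑ i, a i * (d i)⁻¹) + β * (∑ i, a i ^ 2 * (d i)⁻¹) := by
    rw [hent, Finset.mul_sum, Finset.mul_sum, ← Finset.sum_add_distrib]
    refine Finset.sum_congr rfl fun i _ => ?_
    rw [(hV i).1, (hU i).2]; ring
  have h10 : (V * (Matrix.diagonal (fun i => (d i)⁻¹) * U)) 1 0 =
      β * (∑ i, (d i)⁻¹) + γ * (∑ i, a i * (d i)⁻¹) := by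
    rw [hent, Finset.mul_sum, Finset.mul_sum, ← Finset.sum_add_distrib]
    refine Finset.sum_congr rfl fun i _ => ?_
    rw [(hV i).2, (hU i).1]; ring
  have h11 : (V * (Matrix.diagonal (fun i => (d i)⁻¹) * U)) 1 1 =
      β * (∑ i, a i * (d i)⁻¹) + γ * (∑ i, a i ^ 2 * (d i)⁻¹) := by
    rw [hent, Finset.mul_sum, Finset.mul_sum, ← Finset.sum_add_distrib]
    refine Finset.sum_congr rfl fun i _ => ?_
    rw [(hV i).2, (hU i).2]; ring
  rw [hMeq, det_diag_add_rank2 d hd, Matrix.det_fin_two]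
  simp only [Matrix.add_apply, h00, h01, h10, h11, Matrix.one_apply_eq]
  have e01 : (1 : Matrix (Fin 2) (Fin 2) ℝ) 0 1 = 0 := Matrix.one_apply_ne (by decide)
  have e10 : (1 : Matrix (Fin 2) (Fin 2) ℝ) 1 0 = 0 := Matrix.one_apply_ne (by decide)
  rw [e01, e10]
  ring

lemma cov_truncSimp {a : Fin n → ℝ} (ha : ∀ i, 0 < a i) (ha1 : ∀ i, a i ≤ 1) (π : ℝ)
    (hπ : π = ∏ k, a k) (hp : π < 1) (i j : Fin n) :
    cov (truncSimp a) i j = (1 / (((n:ℝ) + 1) ^ 2 * ((n:ℝ) + 2) * (1 - π) ^ 2)) *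
      ((if i = j then ((n:ℝ) + 1) * (1 - π) * (1 - π * a i ^ 2) else 0) +
        ((((n:ℝ) + 1) * (1 - π) - ((n:ℝ) + 2)) + ((n:ℝ) + 2) * π * (a i + a j) +
          (-(((n:ℝ) + 1) * (1 - π) * π + ((n:ℝ) + 2) * π ^ 2)) * (a i * a j))) := by
  have f1 : (((n + 1).factorial : ℕ) : ℝ) = ((n : ℝ) + 1) * (n.factorial : ℝ) := by
    rw [Nat.factorial_succ]; push_cast; ring
  have f2 : (((n + 2).factorial : ℕ) : ℝ) =
      ((n : ℝ) + 2) * (((n : ℝ) + 1) * (n.factorial : ℝ)) := by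
    rw [Nat.factorial_succ, Nat.factorial_succ]; push_cast; ring
  have hf0 : ((n.factorial : ℕ) : ℝ) ≠ 0 := by positivity
  have hq : (1 - π) ≠ 0 := (sub_pos.2 hp).ne'
  have hn1 : ((n:ℝ) + 1) ≠ 0 := by positivity
  have hn2 : ((n:ℝ) + 2) ≠ 0 := by positivity
  unfold cov centroid
  rw [vol_truncSimp ha ha1 i, mom1_truncSimp ha ha1, mom1_truncSimp ha ha1,
    mom2_truncSimp ha ha1, ← hπ, f1, f2]
  split_ifs with h
  · subst h
    field_simp
    ring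
  · field_simp
    ring

/-- The algebra behind the exact value of `det Σ / vol^2`. -/
lemma trunc_final (n : ℕ) (N π G F σ0 σ1 σ2 : ℝ) (hN1 : N + 1 ≠ 0) (hN2 : N + 2 ≠ 0)
    (hq0 : 1 - π ≠ 0) (hσ : σ0 = N + π * σ2) (hF : F ≠ 0) :
    (1 / ((N + 1) ^ 2 * (N + 2) * (1 - π) ^ 2)) ^ n *
        ((((N + 1) * (1 - π)) ^ n * G) *
          ((1 + ((N + 1) * (1 - π) - (N + 2)) * (((N + 1) * (1 - π))⁻¹ * σ0) +
                (N + 2) * π * (((N + 1) * (1 - π))⁻¹ * σ1)) *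
              (1 + (N + 2) * π * (((N + 1) * (1 - π))⁻¹ * σ1) +
                (-((N + 1) * (1 - π) * π + (N + 2) * π ^ 2)) *
                  (((N + 1) * (1 - π))⁻¹ * σ2)) -
            (((N + 1) * (1 - π) - (N + 2)) * (((N + 1) * (1 - π))⁻¹ * σ1) +
                (N + 2) * π * (((N + 1) * (1 - π))⁻¹ * σ2)) *
              ((N + 2) * π * (((N + 1) * (1 - π))⁻¹ * σ0) +
                (-((N + 1) * (1 - π) * π + (N + 2) * π ^ 2)) *
                  (((N + 1) * (1 - π))⁻¹ * σ1)))) / ((1 - π) / F) ^ 2 =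
      F ^ 2 / ((N + 1) ^ (n + 1) * (N + 2) ^ n) *
        ((G / (1 - π) ^ n) * ((1 - π) - 2 * π * (σ0 - 2 * σ1 + σ2) -
          π * ((σ0 - σ1) ^ 2 - π * (σ1 - σ2) ^ 2)) / (1 - π) ^ 3) := by
  subst hσ
  have e1 : (1 / ((N + 1) ^ 2 * (N + 2) * (1 - π) ^ 2)) ^ n * ((N + 1) * (1 - π)) ^ n =
      1 / ((N + 1) ^ n * (N + 2) ^ n * (1 - π) ^ n) := by
    rw [← mul_pow, ← mul_pow, ← mul_pow, one_div, one_div, ← inv_pow]
    congr 1
    field_simp
  rw [← mul_assoc, ← mul_assoc, e1]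
  field_simp
  ring

/-- The exact value of `det Σ / vol^2` for the truncated simplex. -/
theorem isoRatio_truncSimp {a : Fin n → ℝ} (ha : ∀ i, 0 < a i) (ha1 : ∀ i, a i ≤ 1)
    (hp : ∏ k, a k < 1) (i₀ : Fin n) :
    isoRatio (truncSimp a) = isoRatio (stdSimp (Fin n)) *
      (wPsi Finset.univ a (∏ k, a k) / (1 - ∏ k, a k) ^ 3) := by
  obtain ⟨π, hπ⟩ : ∃ π, π = ∏ k, a k := ⟨_, rfl⟩
  rw [← hπ] at hp ⊢
  have hπ0 : 0 < π := by rw [hπ]; exact Finset.prod_pos fun i _ => ha i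
  have hq : 0 < 1 - π := sub_pos.2 hp
  have hN1 : (0:ℝ) < (n:ℝ) + 1 := by positivity
  have hN2 : (0:ℝ) < (n:ℝ) + 2 := by positivity
  have hg : ∀ i, 0 < 1 - π * a i ^ 2 := by
    intro i
    have h2 : a i ^ 2 ≤ 1 := pow_le_one₀ (ha i).le (ha1 i)
    nlinarith
  have hcov : cov (truncSimp a) = (1 / (((n:ℝ) + 1) ^ 2 * ((n:ℝ) + 2) * (1 - π) ^ 2)) •
      (Matrix.of fun i j : Fin n =>
        (if i = j then ((n:ℝ) + 1) * (1 - π) * (1 - π * a i ^ 2) else 0) +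
          ((((n:ℝ) + 1) * (1 - π) - ((n:ℝ) + 2)) + ((n:ℝ) + 2) * π * (a i + a j) +
            (-(((n:ℝ) + 1) * (1 - π) * π + ((n:ℝ) + 2) * π ^ 2)) * (a i * a j))) := by
    ext i j
    rw [cov_truncSimp ha ha1 π hπ hp i j, Matrix.smul_apply, Matrix.of_apply, smul_eq_mul]
  have hd : ∀ i, ((n:ℝ) + 1) * (1 - π) * (1 - π * a i ^ 2) ≠ 0 :=
    fun i => (mul_pos (mul_pos hN1 hq) (hg i)).ne'
  have hinv : ∀ i, (((n:ℝ) + 1) * (1 - π) * (1 - π * a i ^ 2))⁻¹ =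
      (((n:ℝ) + 1) * (1 - π))⁻¹ * (1 - π * a i ^ 2)⁻¹ := fun i => mul_inv _ _
  have s0 : ∑ i, (((n:ℝ) + 1) * (1 - π) * (1 - π * a i ^ 2))⁻¹ =
      (((n:ℝ) + 1) * (1 - π))⁻¹ * ∑ i, (1 - π * a i ^ 2)⁻¹ := by
    rw [Finset.mul_sum]
    exact Finset.sum_congr rfl fun i _ => hinv i
  have s1 : ∑ i, a i * (((n:ℝ) + 1) * (1 - π) * (1 - π * a i ^ 2))⁻¹ =
      (((n:ℝ) + 1) * (1 - π))⁻¹ * ∑ i, a i * (1 - π * a i ^ 2)⁻¹ := by
    rw [Finset.mul_sum]
    exact Finset.sum_congr rfl fun i _ => by rw [hinv i]; ring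
  have s2 : ∑ i, a i ^ 2 * (((n:ℝ) + 1) * (1 - π) * (1 - π * a i ^ 2))⁻¹ =
      (((n:ℝ) + 1) * (1 - π))⁻¹ * ∑ i, a i ^ 2 * (1 - π * a i ^ 2)⁻¹ := by
    rw [Finset.mul_sum]
    exact Finset.sum_congr rfl fun i _ => by rw [hinv i]; ring
  have hprod : ∏ i, ((n:ℝ) + 1) * (1 - π) * (1 - π * a i ^ 2) =
      (((n:ℝ) + 1) * (1 - π)) ^ n * ∏ i, (1 - π * a i ^ 2) := by
    rw [Finset.prod_mul_distrib, Finset.prod_const, Finset.card_univ, Fintype.card_fin]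
  have hP : ∏ i, (1 - π * a i ^ 2) / (1 - π) = (∏ i, (1 - π * a i ^ 2)) / (1 - π) ^ n := by
    rw [Finset.prod_div_distrib, Finset.prod_const, Finset.card_univ, Fintype.card_fin]
  have hΛ : ∑ i, (1 - a i) ^ 2 / (1 - π * a i ^ 2) =
      (∑ i, (1 - π * a i ^ 2)⁻¹) - 2 * (∑ i, a i * (1 - π * a i ^ 2)⁻¹) +
        ∑ i, a i ^ 2 * (1 - π * a i ^ 2)⁻¹ := by
    rw [Finset.mul_sum, ← Finset.sum_sub_distrib, ← Finset.sum_add_distrib]
    exact Finset.sum_congr rfl fun i _ => by ring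
  have hU0 : ∑ i, (1 - a i) / (1 - π * a i ^ 2) =
      (∑ i, (1 - π * a i ^ 2)⁻¹) - ∑ i, a i * (1 - π * a i ^ 2)⁻¹ := by
    rw [← Finset.sum_sub_distrib]
    exact Finset.sum_congr rfl fun i _ => by ring
  have hU1 : ∑ i, a i * (1 - a i) / (1 - π * a i ^ 2) =
      (∑ i, a i * (1 - π * a i ^ 2)⁻¹) - ∑ i, a i ^ 2 * (1 - π * a i ^ 2)⁻¹ := by
    rw [← Finset.sum_sub_distrib]
    exact Finset.sum_congr rfl fun i _ => by ring
  have hσ : ∑ i, (1 - π * a i ^ 2)⁻¹ = (n:ℝ) + π * ∑ i, a i ^ 2 * (1 - π * a i ^ 2)⁻¹ := by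
    have h1 : ∀ i, (1 - π * a i ^ 2)⁻¹ = 1 + π * (a i ^ 2 * (1 - π * a i ^ 2)⁻¹) := by
      intro i
      have := (hg i).ne'
      field_simp
      ring
    rw [Finset.mul_sum, Finset.sum_congr rfl fun i _ => h1 i, Finset.sum_add_distrib]
    simp
  have hF : ((n.factorial : ℕ) : ℝ) ≠ 0 := by positivity
  have hdet := det_cov_form a (fun i => ((n:ℝ) + 1) * (1 - π) * (1 - π * a i ^ 2)) hd
    (((n:ℝ) + 1) * (1 - π) - ((n:ℝ) + 2)) (((n:ℝ) + 2) * π)
    (-(((n:ℝ) + 1) * (1 - π) * π + ((n:ℝ) + 2) * π ^ 2))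
    (Matrix.of fun i j : Fin n =>
        (if i = j then ((n:ℝ) + 1) * (1 - π) * (1 - π * a i ^ 2) else 0) +
          ((((n:ℝ) + 1) * (1 - π) - ((n:ℝ) + 2)) + ((n:ℝ) + 2) * π * (a i + a j) +
            (-(((n:ℝ) + 1) * (1 - π) * π + ((n:ℝ) + 2) * π ^ 2)) * (a i * a j)))
    (fun i j => rfl)
  have hL : isoRatio (truncSimp a) = (cov (truncSimp a)).det / vol (truncSimp a) ^ 2 := rfl
  rw [isoRatio_stdSimp_fin, hL, hcov, Matrix.det_smul, Fintype.card_fin, hdet,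
    vol_truncSimp ha ha1 i₀, ← hπ, s0, s1, s2, hprod]
  unfold wPsi
  rw [hP, hΛ, hU0, hU1]
  exact trunc_final n n π _ _ _ _ _ hN1.ne' hN2.ne' hq.ne' hσ hF

end

end Vale.Agent.Helper22
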