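import Mathlib

/-!
Simplices with one vertex cut off (P254), in every dimension.
-/

namespace Vale.Agent.Helper22

/-- The standard simplex `{x ≥ 0, ∑ x_i ≤ 1}` of `ℝ^n` with the corner at the origin cut off by
the hyperplane `∑ x_i / a_i = 1`. -/
def truncSimp {n : ℕ} (a : Fin n → ℝ) : Set (Fin n → ℝ) :=
  {x | (∀ i, 0 ≤ x i) ∧ ∑ i, x i ≤ 1 ∧ 1 ≤ ∑ i, x i / a i}

end Vale.Agent.Helper22
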