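import Vale.Agent.Helper22.TruncSimpFinal
import Vale.Agent.Helper22.PlaceFin

/-!
P254: a simplex with one vertex cut off has the simplex value of `det Σ / vol^2` exactly when it
is itself a simplex.
-/

namespace Vale.Agent.Helper22

open MeasureTheory Set

noncomputable section

variable {n : ℕ}

/-- The points `e_i` (`i : Fin n`) and `a_j e_j`. -/
def tsPts (a : Fin n → ℝ) (j : Fin n) : Option (Fin n) → (Fin n → ℝ) :=
  fun o => Option.elim o (a j • Pi.single j (1:ℝ)) (fun i => Pi.single i (1:ℝ))

lemma tsPts_mem {a : Fin n → ℝ} (ha : ∀ i, 0 < a i ∧ a i ≤ 1) (j : Fin n)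
    (o : Option (Fin n)) : tsPts a j o ∈ truncSimp a := by
  cases o with
  | none =>
    refine ⟨fun k => ?_, ?_, ?_⟩
    · simp only [tsPts, Option.elim, Pi.smul_apply, smul_eq_mul, Pi.single_apply]
      split_ifs
      · simpa using (ha j).1.le
      · simp
    · have e : ∑ k, tsPts a j none k = a j := by
        simp [tsPts, Pi.single_apply]
      rw [e]
      exact (ha j).2
    · have e : ∑ k, tsPts a j none k / a k = 1 := by
        have e1 : ∀ k, tsPts a j none k / a k = if k = j then 1 else 0 := by
          intro k
          simp only [tsPts, Option.elim, Pi.smul_apply, smul_eq_mul, Pi.single_apply]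
          split_ifs with h
          · subst h
            rw [mul_one]
            exact div_self (ha k).1.ne'
          · simp
        simp only [e1]
        simp
      rw [e]
  | some i =>
    refine ⟨fun k => ?_, ?_, ?_⟩
    · simp only [tsPts, Option.elim, Pi.single_apply]
      split_ifs <;> norm_num
    · have e : ∑ k, tsPts a j (some i) k = 1 := by
        simp [tsPts, Pi.single_apply]
      rw [e]
    · have e : ∑ k, tsPts a j (some i) k / a k = 1 / a i := by
        have e1 : ∀ k, tsPts a j (some i) k / a k = if k = i then 1 / a i else 0 := by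
          intro k
          simp only [tsPts, Option.elim, Pi.single_apply]
          split_ifs with h
          · subst h
            rfl
          · simp
        simp only [e1]
        simp
      rw [e, le_div_iff₀ (ha i).1, one_mul]
      exact (ha i).2

/-- If all `a i` but `a j` equal one, the truncated simplex is the convex hull of the `n + 1`
points `e_i` and `a_j e_j`. -/
lemma truncSimp_eq_hull {a : Fin n → ℝ} (ha : ∀ i, 0 < a i ∧ a i ≤ 1) (j : Fin n)
    (hj : ∀ i, i ≠ j → a i = 1) (haj : a j < 1) :
    truncSimp a = convexHull ℝ (Set.range (tsPts a j)) := by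
  apply Set.Subset.antisymm
  · intro x hx
    obtain ⟨hx0, hx1, hx2⟩ := hx
    have hq : 0 < 1 - a j := sub_pos.2 haj
    have haj0 : 0 < a j := (ha j).1
    obtain ⟨S, hS⟩ : ∃ S, S = ∑ i ∈ Finset.univ.erase j, x i := ⟨_, rfl⟩
    have hsum : ∑ i, x i = x j + S := by
      rw [hS, Finset.add_sum_erase _ _ (Finset.mem_univ j)]
    have hsum2 : ∑ i, x i / a i = x j / a j + S := by
      rw [hS, ← Finset.add_sum_erase _ _ (Finset.mem_univ j)]
      congr 1
      refine Finset.sum_congr rfl fun i hi => ?_
      rw [hj i (Finset.ne_of_mem_erase hi), div_one]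
    rw [hsum] at hx1
    rw [hsum2] at hx2
    have hxj : (1 - S) * a j ≤ x j := by
      have := (le_div_iff₀ haj0).1 (by linarith : 1 - S ≤ x j / a j)
      exact this
    let w : Option (Fin n) → ℝ := fun o =>
      Option.elim o ((1 - S - x j) / (1 - a j))
        (fun i => if i = j then (x j - a j * (1 - S)) / (1 - a j) else x i)
    have hw0 : ∀ o, 0 ≤ w o := by
      intro o
      cases o with
      | none =>
        exact div_nonneg (by linarith) hq.le
      | some i =>
        simp only [w, Option.elim]
        split_ifs
        · exact div_nonneg (by linarith) hq.le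
        · exact hx0 i
    have hwsome : ∑ i, w (some i) = (x j - a j * (1 - S)) / (1 - a j) + S := by
      have e2 : ∑ i ∈ Finset.univ.erase j, w (some i) = S := by
        rw [hS]
        refine Finset.sum_congr rfl fun i hi => ?_
        simp [w, Finset.ne_of_mem_erase hi]
      rw [← Finset.add_sum_erase _ _ (Finset.mem_univ j), e2]
      simp [w]
    have hw1 : ∑ o, w o = 1 := by
      rw [Fintype.sum_option, hwsome]
      simp only [w, Option.elim]
      field_simp
      ring
    have hmem : ∑ o, w o • tsPts a j o ∈ convexHull ℝ (Set.range (tsPts a j)) :=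
      (convex_convexHull ℝ _).sum_mem (fun o _ => hw0 o) hw1
        (fun o _ => subset_convexHull ℝ _ (Set.mem_range_self o))
    have hx : x = ∑ o, w o • tsPts a j o := by
      funext k
      rw [Fintype.sum_option, Pi.add_apply, Finset.sum_apply]
      have e1 : ∀ i, (w (some i) • tsPts a j (some i)) k = if i = k then w (some k) else 0 := by
        intro i
        simp only [tsPts, Option.elim, Pi.smul_apply, smul_eq_mul, Pi.single_apply]
        split_ifs with h1 h2 h2
        · subst h1; simp
        · exact absurd h1.symm h2
        · exact absurd h2.symm h1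
        · simp
      simp only [e1]
      rw [Finset.sum_ite_eq' Finset.univ k, if_pos (Finset.mem_univ k)]
      simp only [w, tsPts, Option.elim, Pi.smul_apply, smul_eq_mul, Pi.single_apply]
      split_ifs with h
      · subst h
        field_simp
        ring
      · simp
    rw [hx]
    exact hmem
  · exact convexHull_min (Set.range_subset_iff.2 fun o => tsPts_mem ha j o) (convex_truncSimp a)

/-- `affMap` as an affine map. -/
def affMapA (b : Fin n → ℝ) (U : Matrix (Fin n) (Fin n) ℝ) :
    (Fin n → ℝ) →ᵃ[ℝ] (Fin n → ℝ) where
  toFun := affMap b U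
  linear := U.mulVecLin
  map_vadd' p v := by
    simp only [affMap, vadd_eq_add, Matrix.mulVecLin_apply, Matrix.mulVec_add]
    abel

lemma affMap_image_convexHull (b : Fin n → ℝ) (U : Matrix (Fin n) (Fin n) ℝ)
    (s : Set (Fin n → ℝ)) :
    affMap b U '' convexHull ℝ s = convexHull ℝ (affMap b U '' s) :=
  (affMapA b U).image_convexHull s

/-- The equality case, geometrically: equality holds exactly when the truncated simplex is a
simplex. -/
theorem truncSimp_affine_simplex (a : Fin n → ℝ) (ha : ∀ i, 0 < a i ∧ a i ≤ 1)
    (hp : ∏ i, a i < 1) (b : Fin n → ℝ) (U : Matrix (Fin n) (Fin n) ℝ) (hU : U.det ≠ 0) :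
    isoRatio (affMap b U '' truncSimp a) = isoRatio (stdSimp (Fin n)) ↔
      ∃ q : Fin (n + 1) → Fin n → ℝ, AffineIndependent ℝ q ∧
        convexHull ℝ (Set.range q) = affMap b U '' truncSimp a := by
  classical
  constructor
  · intro h
    obtain ⟨j, hj⟩ := (truncSimp_affine a ha hp b U hU).2.2.2.2.1 h
    have hπ : ∏ i, a i = a j :=
      Finset.prod_eq_single j (fun i _ hi => hj i hi) (fun h => absurd (Finset.mem_univ j) h)
    rw [hπ] at hp
    let V : Finset (Fin n → ℝ) := Finset.univ.image (fun o => affMap b U (tsPts a j o))
    have hV : V.card ≤ n + 2 := by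
      refine (Finset.card_image_le).trans ?_
      rw [Finset.card_univ, Fintype.card_option, Fintype.card_fin]
      omega
    have hK : affMap b U '' truncSimp a = convexHull ℝ (V : Set (Fin n → ℝ)) := by
      rw [truncSimp_eq_hull ha j hj hp, affMap_image_convexHull]
      congr 1
      ext y
      simp [V]
    rw [hK] at h ⊢
    exact (few_vertices n V hV).2.1 h
  · rintro ⟨q, hq, hqK⟩
    let V : Finset (Fin n → ℝ) := Finset.univ.image q
    have hV : V.card ≤ n + 2 := by
      refine (Finset.card_image_le).trans ?_
      rw [Finset.card_univ, Fintype.card_fin]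
      omega
    have hVq : (V : Set (Fin n → ℝ)) = Set.range q := by
      ext y
      simp [V]
    have h := (few_vertices n V hV).2.2 ⟨q, hq, by rw [hVq]⟩
    rw [hVq, hqK] at h
    exact h

end

end Vale.Agent.Helper22
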