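import Vale.Agent.Helper22.TruncSimpMain
import Vale.Agent.Helper3.StarWMain

/-!
P254: the simplex bound for simplices with one vertex cut off, in every dimension, with its
equality case (unconditional: the inequality `StarW` is `Vale.Agent.Helper3.StarW.starW`).
-/

namespace Vale.Agent.Helper22

open MeasureTheory Set

noncomputable section

theorem starW_all (ι : Type*) : StarW ι :=
  fun R a c p U0 U1 L hc0 hc1 ha hp hU0 hU1 hL =>
    Vale.Agent.Helper3.StarW.starW R a c p U0 U1 L hc0 hc1 ha hp hU0 hU1 hL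

variable {n : ℕ}

theorem truncSimp_main (a : Fin n → ℝ) (ha : ∀ i, 0 < a i ∧ a i ≤ 1) (hp : ∏ i, a i < 1) :
    IsCompact (truncSimp a) ∧ Convex ℝ (truncSimp a) ∧ 0 < vol (truncSimp a) ∧
      isoRatio (truncSimp a) ≤ isoRatio (stdSimp (Fin n)) ∧
      (isoRatio (truncSimp a) = isoRatio (stdSimp (Fin n)) ↔ ∃ j, ∀ i, i ≠ j → a i = 1) :=
  truncSimp_main_of (starW_all (Fin n)) a ha hp

theorem truncSimp_affine (a : Fin n → ℝ) (ha : ∀ i, 0 < a i ∧ a i ≤ 1) (hp : ∏ i, a i < 1)
    (b : Fin n → ℝ) (U : Matrix (Fin n) (Fin n) ℝ) (hU : U.det ≠ 0) :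
    IsCompact (affMap b U '' truncSimp a) ∧ Convex ℝ (affMap b U '' truncSimp a) ∧
      0 < vol (affMap b U '' truncSimp a) ∧
      isoRatio (affMap b U '' truncSimp a) ≤ isoRatio (stdSimp (Fin n)) ∧
      (isoRatio (affMap b U '' truncSimp a) = isoRatio (stdSimp (Fin n)) ↔
        ∃ j, ∀ i, i ≠ j → a i = 1) :=
  truncSimp_affine_of (starW_all (Fin n)) a ha hp b U hU

end

end Vale.Agent.Helper22
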