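import Vale.Agent.Helper22.TruncSimpEq

/-!
P254: the simplex bound for a simplex cut by a half-space that misses exactly one vertex
(geometric form of the bound for truncated simplices).
-/

namespace Vale.Agent.Helper22

open MeasureTheory Set

noncomputable section

variable {n : ℕ}

lemma convex_stdSimpFin (n : ℕ) : Convex ℝ (stdSimp (Fin n)) := by
  intro x hx y hy s t hs ht hst
  obtain ⟨hx0, hx1⟩ := hx
  obtain ⟨hy0, hy1⟩ := hy
  refine ⟨fun i => ?_, ?_⟩
  · simp only [Pi.add_apply, Pi.smul_apply, smul_eq_mul]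
    exact add_nonneg (mul_nonneg hs (hx0 i)) (mul_nonneg ht (hy0 i))
  · have e : ∑ i, (s • x + t • y) i = s * ∑ i, x i + t * ∑ i, y i := by
      simp only [Pi.add_apply, Pi.smul_apply, smul_eq_mul, Finset.sum_add_distrib,
        Finset.mul_sum]
    rw [e]
    nlinarith

/-- Every simplex is an affine image of the standard simplex. -/
lemma simplex_eq_image (q : Fin (n + 1) → Fin n → ℝ) (j : Fin (n + 1)) :
    convexHull ℝ (Set.range q) = affMap (q j) (edgeMat q j) '' stdSimp (Fin n) := by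
  apply Subset.antisymm
  · apply convexHull_min _ (convex_affImage _ _ (convex_stdSimpFin n))
    rintro x ⟨i, rfl⟩
    rcases Fin.eq_self_or_eq_succAbove j i with rfl | ⟨k, rfl⟩
    · refine ⟨0, ⟨fun _ => le_refl _, by simp⟩, ?_⟩
      rw [affMap_edge]
      simp
    · refine ⟨Pi.single k 1, ⟨fun i => ?_, by simp⟩, ?_⟩
      · by_cases hik : i = k
        · simp [hik]
        · simp [hik]
      · rw [affMap_edge]
        simp [Pi.single_apply]
  · rintro x ⟨t, ⟨ht0, ht1⟩, rfl⟩
    rw [affMap_edge]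
    have e : (1 - ∑ k, t k) • q j + ∑ k, t k • q (j.succAbove k) =
        ∑ o : Option (Fin n), (Option.elim o (1 - ∑ k, t k) t) •
          (Option.elim o (q j) (fun k => q (j.succAbove k))) := by
      rw [Fintype.sum_option]
      rfl
    rw [e]
    refine (convex_convexHull ℝ _).sum_mem (fun o _ => ?_) ?_ (fun o _ => ?_)
    · cases o with
      | none => exact sub_nonneg.2 ht1
      | some k => exact ht0 k
    · rw [Fintype.sum_option]
      simp
    · cases o with
      | none => exact subset_convexHull ℝ _ (Set.mem_range_self j)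
      | some k => exact subset_convexHull ℝ _ (Set.mem_range_self (j.succAbove k))

/-- The value of an affine function at a point of the affine image. -/
lemma aff_functional (q : Fin (n + 1) → Fin n → ℝ) (j : Fin (n + 1)) (c : Fin n → ℝ) (d : ℝ)
    (t : Fin n → ℝ) :
    ∑ i, c i * affMap (q j) (edgeMat q j) t i + d =
      (∑ i, c i * q j i + d) +
        ∑ k, t k * ((∑ i, c i * q (j.succAbove k) i + d) - (∑ i, c i * q j i + d)) := by
  have e1 : ∀ i, c i * affMap (q j) (edgeMat q j) t i =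
      c i * q j i + ∑ k, t k * (c i * q (j.succAbove k) i - c i * q j i) := by
    intro i
    rw [affMap_apply, mul_add, Finset.mul_sum]
    congr 1
    refine Finset.sum_congr rfl fun k _ => ?_
    simp only [edgeMat, Matrix.of_apply]
    ring
  have e2 : ∀ k, ∑ i, t k * (c i * q (j.succAbove k) i - c i * q j i) =
      t k * ((∑ i, c i * q (j.succAbove k) i + d) - (∑ i, c i * q j i + d)) := by
    intro k
    rw [← Finset.mul_sum, Finset.sum_sub_distrib]
    ring
  simp only [e1, Finset.sum_add_distrib]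
  rw [Finset.sum_comm]
  simp only [e2]
  ring

/-- A simplex cut by a half-space that misses the vertex `q j` is an affine image of a truncated
standard simplex (with parameters in `(0, 1]` when the half-space contains the other vertices). -/
lemma cut_eq_image (q : Fin (n + 1) → Fin n → ℝ) (j : Fin (n + 1)) (c : Fin n → ℝ) (d : ℝ)
    (h0 : ∑ i, c i * q j i + d < 0) :
    convexHull ℝ (Set.range q) ∩ {y | 0 ≤ ∑ i, c i * y i + d} =
      affMap (q j) (edgeMat q j) '' truncSimp (fun k =>
        (-(∑ i, c i * q j i + d)) /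
          ((∑ i, c i * q (j.succAbove k) i + d) - (∑ i, c i * q j i + d))) := by
  rw [simplex_eq_image q j, truncSimp_eq_inter]
  obtain ⟨φ0, hφ0⟩ : ∃ φ0, φ0 = ∑ i, c i * q j i + d := ⟨_, rfl⟩
  obtain ⟨φ, hφ⟩ : ∃ φ : Fin n → ℝ, φ = fun k => ∑ i, c i * q (j.succAbove k) i + d := ⟨_, rfl⟩
  have hφk : ∀ k, ∑ i, c i * q (j.succAbove k) i + d = φ k := fun k => by rw [hφ]
  simp only [← hφ0, hφk] at h0 ⊢
  have hval : ∀ t : Fin n → ℝ, ∑ i, c i * affMap (q j) (edgeMat q j) t i + d =
      φ0 + ∑ k, t k * (φ k - φ0) := by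
    intro t
    rw [aff_functional, ← hφ0]
    simp only [hφk]
  have hdiv : ∀ t : Fin n → ℝ, ∑ k, t k / (-φ0 / (φ k - φ0)) = (∑ k, t k * (φ k - φ0)) / (-φ0) := by
    intro t
    rw [Finset.sum_div]
    refine Finset.sum_congr rfl fun k _ => ?_
    rw [div_div_eq_mul_div]
  have hneg : 0 < -φ0 := by linarith
  ext y
  constructor
  · rintro ⟨⟨t, ht, rfl⟩, hy⟩
    refine ⟨t, ⟨ht, ?_⟩, rfl⟩
    simp only [Set.mem_ofPred_eq] at hy ⊢
    rw [hval] at hy
    rw [hdiv, le_div_iff₀ hneg]
    linarith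
  · rintro ⟨t, ⟨ht, ht2⟩, rfl⟩
    refine ⟨⟨t, ht, rfl⟩, ?_⟩
    simp only [Set.mem_ofPred_eq] at ht2 ⊢
    rw [hdiv, le_div_iff₀ hneg] at ht2
    rw [hval]
    linarith

/-- The simplex bound, with its equality case, for a simplex cut by a half-space that misses
exactly one vertex. -/
theorem cut_simplex_main (q : Fin (n + 1) → Fin n → ℝ) (hq : AffineIndependent ℝ q)
    (c : Fin n → ℝ) (d : ℝ) (j : Fin (n + 1))
    (h0 : ∑ i, c i * q j i + d < 0) (h1 : ∀ k, k ≠ j → 0 ≤ ∑ i, c i * q k i + d)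
    (h2 : ∃ k, 0 < ∑ i, c i * q k i + d) :
    IsCompact (convexHull ℝ (Set.range q) ∩ {y | 0 ≤ ∑ i, c i * y i + d}) ∧
      Convex ℝ (convexHull ℝ (Set.range q) ∩ {y | 0 ≤ ∑ i, c i * y i + d}) ∧
      0 < vol (convexHull ℝ (Set.range q) ∩ {y | 0 ≤ ∑ i, c i * y i + d}) ∧
      isoRatio (convexHull ℝ (Set.range q) ∩ {y | 0 ≤ ∑ i, c i * y i + d}) ≤
        isoRatio (stdSimp (Fin n)) ∧
      (isoRatio (convexHull ℝ (Set.range q) ∩ {y | 0 ≤ ∑ i, c i * y i + d}) =
          isoRatio (stdSimp (Fin n)) ↔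
        ∃ r : Fin (n + 1) → Fin n → ℝ, AffineIndependent ℝ r ∧
          convexHull ℝ (Set.range r) =
            convexHull ℝ (Set.range q) ∩ {y | 0 ≤ ∑ i, c i * y i + d}) := by
  have h1' : ∀ k : Fin n, 0 ≤ ∑ i, c i * q (j.succAbove k) i + d :=
    fun k => h1 _ (Fin.succAbove_ne j k)
  rw [cut_eq_image q j c d h0]
  obtain ⟨a, hadef⟩ : ∃ a : Fin n → ℝ, a = fun k =>
      (-(∑ i, c i * q j i + d)) /
        ((∑ i, c i * q (j.succAbove k) i + d) - (∑ i, c i * q j i + d)) := ⟨_, rfl⟩
  rw [← hadef]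
  have ha : ∀ k, 0 < a k ∧ a k ≤ 1 := by
    intro k
    rw [hadef]
    have hk := h1' k
    have hden : 0 < (∑ i, c i * q (j.succAbove k) i + d) - (∑ i, c i * q j i + d) := by linarith
    refine ⟨div_pos (by linarith) hden, ?_⟩
    rw [div_le_one hden]
    linarith
  have hp : ∏ k, a k < 1 := by
    obtain ⟨k0, hk0⟩ := h2
    have hne : k0 ≠ j := by
      rintro rfl
      linarith
    obtain ⟨k, rfl⟩ := Fin.exists_succAbove_eq hne
    have hak : a k < 1 := by
      rw [hadef]
      have hden : 0 < (∑ i, c i * q (j.succAbove k) i + d) - (∑ i, c i * q j i + d) := by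
        linarith
      show (-(∑ i, c i * q j i + d)) /
        ((∑ i, c i * q (j.succAbove k) i + d) - (∑ i, c i * q j i + d)) < 1
      rw [div_lt_one hden]
      linarith
    have := Finset.prod_lt_prod (s := Finset.univ) (f := a) (g := fun _ => (1:ℝ))
      (fun i _ => (ha i).1) (fun i _ => (ha i).2) ⟨k, Finset.mem_univ k, hak⟩
    simpa using this
  have hU := det_edgeMat_ne_zero q hq j
  obtain ⟨g1, g2, g3, g4, -⟩ := truncSimp_affine a ha hp (q j) (edgeMat q j) hU
  exact ⟨g1, g2, g3, g4, truncSimp_affine_simplex a ha hp (q j) (edgeMat q j) hU⟩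

end

end Vale.Agent.Helper22
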