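import Vale.Agent.Helper22.TruncAlg
import Vale.Agent.Helper22.TruncDefs
import Vale.Agent.Helper22.FsKLS
import Vale.Agent.Helper22.AffImage
import Vale.Agent.Helper22.RevMain

/-!
The truncated tetrahedron (P254): the standard tetrahedron with the corner at the origin cut off
by a plane. Volume, moments, the exact value of `det Σ / vol^2` and the simplex bound with its
equality case.
-/

namespace Vale.Agent.Helper22

open MeasureTheory Set Matrix

noncomputable section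

/-- The corner that is cut off. -/
def cornerTet (a : Fin 3 → ℝ) : Set (Fin 3 → ℝ) :=
  {x | (∀ i, 0 ≤ x i) ∧ ∑ i, x i / a i ≤ 1}

lemma affMap_diag (a t : Fin 3 → ℝ) (i : Fin 3) :
    affMap 0 (Matrix.diagonal a) t i = a i * t i := by
  rw [affMap_apply]
  simp [Matrix.diagonal_apply]

lemma cornerTet_eq_image {a : Fin 3 → ℝ} (ha : ∀ i, 0 < a i) :
    cornerTet a = affMap 0 (Matrix.diagonal a) '' stdSimp (Fin 3) := by
  ext x
  constructor
  · rintro ⟨h0, h1⟩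
    refine ⟨fun i => x i / a i, ⟨fun i => div_nonneg (h0 i) (ha i).le, h1⟩, ?_⟩
    funext i
    rw [affMap_diag]
    field_simp [(ha i).ne']
  · rintro ⟨t, ⟨h0, h1⟩, rfl⟩
    refine ⟨fun i => ?_, ?_⟩
    · rw [affMap_diag]
      exact mul_nonneg (ha i).le (h0 i)
    · have e : ∀ i, affMap 0 (Matrix.diagonal a) t i / a i = t i := by
        intro i
        rw [affMap_diag]
        field_simp [(ha i).ne']
      simp only [e]
      exact h1

lemma truncTet_union {a : Fin 3 → ℝ} (ha : ∀ i, 0 < a i) (ha1 : ∀ i, a i ≤ 1) :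
    truncTet a ∪ cornerTet a = stdSimp (Fin 3) := by
  ext x
  constructor
  · rintro (⟨h0, h1, -⟩ | ⟨h0, h1⟩)
    · exact ⟨h0, h1⟩
    · refine ⟨h0, le_trans (Finset.sum_le_sum fun i _ => ?_) h1⟩
      rw [le_div_iff₀ (ha i)]
      exact mul_le_of_le_one_right (h0 i) (ha1 i)
  · rintro ⟨h0, h1⟩
    rcases le_total (∑ i, x i / a i) 1 with h | h
    · exact Or.inr ⟨h0, h⟩
    · exact Or.inl ⟨h0, h1, h⟩

lemma truncTet_inter_null {a : Fin 3 → ℝ} (ha : ∀ i, 0 < a i) :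
    (volume : Measure (Fin 3 → ℝ)) (truncTet a ∩ cornerTet a) = 0 := by
  have hv : (fun i => (a i)⁻¹) ≠ (0 : Fin 3 → ℝ) := by
    intro h
    have := congrFun h 0
    simp only [Pi.zero_apply, inv_eq_zero] at this
    exact (ha 0).ne' this
  refine measure_mono_null ?_ (hyperplane_null hv 1)
  rintro x ⟨⟨-, -, h1⟩, ⟨-, h2⟩⟩
  show (fun i => (a i)⁻¹) ⬝ᵥ x = 1
  have e : (fun i => (a i)⁻¹) ⬝ᵥ x = ∑ i, x i / a i := by
    unfold dotProduct
    refine Finset.sum_congr rfl fun i _ => ?_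
    rw [div_eq_mul_inv, mul_comm]
  rw [e]
  exact le_antisymm h2 h1

lemma truncTet_eq_inter (a : Fin 3 → ℝ) :
    truncTet a = stdSimp (Fin 3) ∩ {x | 1 ≤ ∑ i, x i / a i} := by
  ext x
  constructor
  · rintro ⟨h0, h1, h2⟩
    exact ⟨⟨h0, h1⟩, h2⟩
  · rintro ⟨⟨h0, h1⟩, h2⟩
    exact ⟨h0, h1, h2⟩

lemma isCompact_truncTet (a : Fin 3 → ℝ) : IsCompact (truncTet a) := by
  rw [truncTet_eq_inter]
  refine (isCompact_stdSimp 3).inter_right ?_
  exact isClosed_le continuous_const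
    (continuous_finsetSum _ fun i _ => (continuous_apply i).div_const _)

lemma convex_truncTet (a : Fin 3 → ℝ) : Convex ℝ (truncTet a) := by
  intro x hx y hy s t hs ht hst
  obtain ⟨hx0, hx1, hx2⟩ := hx
  obtain ⟨hy0, hy1, hy2⟩ := hy
  refine ⟨fun i => ?_, ?_, ?_⟩
  · simp only [Pi.add_apply, Pi.smul_apply, smul_eq_mul]
    exact add_nonneg (mul_nonneg hs (hx0 i)) (mul_nonneg ht (hy0 i))
  · have e : ∑ i, (s • x + t • y) i = s * ∑ i, x i + t * ∑ i, y i := by
      simp only [Pi.add_apply, Pi.smul_apply, smul_eq_mul, Finset.sum_add_distrib,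
        Finset.mul_sum]
    rw [e]
    nlinarith
  · have e : ∑ i, (s • x + t • y) i / a i = s * ∑ i, x i / a i + t * ∑ i, y i / a i := by
      simp only [Pi.add_apply, Pi.smul_apply, smul_eq_mul, Finset.mul_sum,
        ← Finset.sum_add_distrib]
      refine Finset.sum_congr rfl fun i _ => ?_
      ring
    rw [e]
    nlinarith

lemma isCompact_cornerTet {a : Fin 3 → ℝ} (ha : ∀ i, 0 < a i) : IsCompact (cornerTet a) := by
  rw [cornerTet_eq_image ha]
  exact (isCompact_stdSimp 3).image (continuous_affMap _ _)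

/-- Integrals over the tetrahedron split into the truncated part and the corner. -/
lemma integral_truncTet {a : Fin 3 → ℝ} (ha : ∀ i, 0 < a i) (ha1 : ∀ i, a i ≤ 1)
    {f : (Fin 3 → ℝ) → ℝ} (hf : Continuous f) :
    ∫ x in truncTet a, f x = (∫ x in stdSimp (Fin 3), f x) - ∫ x in cornerTet a, f x := by
  have h := setIntegral_union₀ (μ := (volume : Measure (Fin 3 → ℝ))) (f := f)
    (truncTet_inter_null ha) (isCompact_cornerTet ha).measurableSet.nullMeasurableSet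
    (intOn (isCompact_truncTet a) hf) (intOn (isCompact_cornerTet ha) hf)
  rw [truncTet_union ha ha1] at h
  linarith

lemma det_diag3 {a : Fin 3 → ℝ} (ha : ∀ i, 0 < a i) :
    |(Matrix.diagonal a).det| = a 0 * a 1 * a 2 ∧ (Matrix.diagonal a).det ≠ 0 := by
  rw [Matrix.det_diagonal, Fin.prod_univ_three]
  have h : 0 < a 0 * a 1 * a 2 := mul_pos (mul_pos (ha 0) (ha 1)) (ha 2)
  exact ⟨abs_of_pos h, h.ne'⟩

lemma fact3 : ((Nat.factorial 3 : ℕ) : ℝ) = 6 ∧ ((Nat.factorial (3 + 1) : ℕ) : ℝ) = 24 ∧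
    ((Nat.factorial (3 + 2) : ℕ) : ℝ) = 120 := by
  refine ⟨?_, ?_, ?_⟩ <;> norm_num [Nat.factorial]

lemma vol_truncTet {a : Fin 3 → ℝ} (ha : ∀ i, 0 < a i) (ha1 : ∀ i, a i ≤ 1) :
    vol (truncTet a) = (1 - a 0 * a 1 * a 2) / 6 := by
  obtain ⟨hv, -, -⟩ := stdSimp_moments 3
  obtain ⟨hd, hd0⟩ := det_diag3 ha
  have hs := integral_truncTet ha ha1 (f := fun _ : Fin 3 → ℝ => (1:ℝ)) continuous_const
  rw [← vol_eq_integral, ← vol_eq_integral, ← vol_eq_integral] at hs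
  rw [hs, cornerTet_eq_image ha, vol_affImage 0 _ hd0 measurableSet_stdSimp, hv, hd, fact3.1]
  ring

lemma mom1_truncTet {a : Fin 3 → ℝ} (ha : ∀ i, 0 < a i) (ha1 : ∀ i, a i ≤ 1) (i : Fin 3) :
    mom1 (truncTet a) i = (1 - a 0 * a 1 * a 2 * a i) / 24 := by
  obtain ⟨hv, h1, -⟩ := stdSimp_moments 3
  obtain ⟨hd, hd0⟩ := det_diag3 ha
  have hc : mom1 (cornerTet a) i = a 0 * a 1 * a 2 * (a i * (1 / 24)) := by
    rw [cornerTet_eq_image ha, mom1_affImage 0 _ hd0 (isCompact_stdSimp 3), hd]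
    simp [Matrix.diagonal_apply, h1, fact3.2.1]
  have hs := integral_truncTet ha ha1 (f := fun x : Fin 3 → ℝ => x i) (continuous_apply i)
  have e1 : mom1 (truncTet a) i = mom1 (stdSimp (Fin 3)) i - mom1 (cornerTet a) i := hs
  rw [e1, h1, hc, fact3.2.1]
  ring

lemma mom2_truncTet {a : Fin 3 → ℝ} (ha : ∀ i, 0 < a i) (ha1 : ∀ i, a i ≤ 1) (i j : Fin 3) :
    mom2 (truncTet a) i j =
      (if i = j then 2 else 1) * (1 - a 0 * a 1 * a 2 * a i * a j) / 120 := by
  obtain ⟨hv, -, h2⟩ := stdSimp_moments 3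
  obtain ⟨hd, hd0⟩ := det_diag3 ha
  have hc : mom2 (cornerTet a) i j =
      a 0 * a 1 * a 2 * (a i * a j * ((if i = j then 2 else 1) / 120)) := by
    rw [cornerTet_eq_image ha, mom2_affImage 0 _ hd0 (isCompact_stdSimp 3), hd]
    simp [Matrix.diagonal_apply, h2, fact3.2.2]
  have hs := integral_truncTet ha ha1 (f := fun x : Fin 3 → ℝ => x i * x j)
    ((continuous_apply i).mul (continuous_apply j))
  have e1 : mom2 (truncTet a) i j = mom2 (stdSimp (Fin 3)) i j - mom2 (cornerTet a) i j := hs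
  rw [e1, h2, hc, fact3.2.2]
  ring

lemma cov_truncTet {a : Fin 3 → ℝ} (ha : ∀ i, 0 < a i) (ha1 : ∀ i, a i ≤ 1)
    (hp : a 0 * a 1 * a 2 < 1) (i j : Fin 3) :
    cov (truncTet a) i j =
      ((if i = j then 8 else 4) * (1 - a 0 * a 1 * a 2) * (1 - a 0 * a 1 * a 2 * a i * a j) -
        5 * (1 - a 0 * a 1 * a 2 * a i) * (1 - a 0 * a 1 * a 2 * a j)) /
        (80 * (1 - a 0 * a 1 * a 2) ^ 2) := by
  have hq : (1 - a 0 * a 1 * a 2) ≠ 0 := (sub_pos.2 hp).ne'
  unfold cov centroid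
  rw [vol_truncTet ha ha1, mom1_truncTet ha ha1, mom1_truncTet ha ha1, mom2_truncTet ha ha1]
  split_ifs <;> field_simp <;> ring

/-- The exact value of `det Σ / vol^2` for the truncated tetrahedron. -/
theorem isoRatio_truncTet {a : Fin 3 → ℝ} (ha : ∀ i, 0 < a i) (ha1 : ∀ i, a i ≤ 1)
    (hp : a 0 * a 1 * a 2 < 1) :
    isoRatio (truncTet a) = 9 / 8000 *
      (1 - a 0 * a 1 * a 2 * truncW (a 0) (a 1) (a 2) / (1 - a 0 * a 1 * a 2) ^ 6) := by
  have hq : (1 - a 0 * a 1 * a 2) ≠ 0 := (sub_pos.2 hp).ne'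
  have hdet := trunc_det (a 0) (a 1) (a 2) (a 0 * a 1 * a 2) rfl
  have h00 := cov_truncTet ha ha1 hp 0 0
  have h11 := cov_truncTet ha ha1 hp 1 1
  have h22 := cov_truncTet ha ha1 hp 2 2
  have h01 := cov_truncTet ha ha1 hp 0 1
  have h02 := cov_truncTet ha ha1 hp 0 2
  have h10 := cov_truncTet ha ha1 hp 1 0
  have h12 := cov_truncTet ha ha1 hp 1 2
  have h20 := cov_truncTet ha ha1 hp 2 0
  have h21 := cov_truncTet ha ha1 hp 2 1
  rw [if_pos rfl] at h00 h11 h22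
  rw [if_neg (by decide)] at h01 h02 h10 h12 h20 h21
  unfold isoRatio
  rw [Matrix.det_fin_three, vol_truncTet ha ha1, h00, h11, h22, h01, h02, h10, h12, h20, h21]
  exact trunc_ratio _ _ _ _ _ _ _ _ _ _ _ _ hq hdet

lemma isoRatio_stdSimp_three : isoRatio (stdSimp (Fin 3)) = 9 / 8000 := by
  rw [isoRatio_stdSimp_fin]
  norm_num [Nat.factorial]

/-- The simplex bound for the truncated tetrahedron, with its equality case. -/
theorem truncTet_main (a : Fin 3 → ℝ) (ha : ∀ i, 0 < a i ∧ a i ≤ 1) (hp : a 0 * a 1 * a 2 < 1) :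
    IsCompact (truncTet a) ∧ Convex ℝ (truncTet a) ∧ 0 < vol (truncTet a) ∧
      isoRatio (truncTet a) ≤ isoRatio (stdSimp (Fin 3)) ∧
      (isoRatio (truncTet a) = isoRatio (stdSimp (Fin 3)) ↔
        (a 0 = 1 ∧ a 1 = 1) ∨ (a 0 = 1 ∧ a 2 = 1) ∨ (a 1 = 1 ∧ a 2 = 1)) := by
  have ha0 : ∀ i, 0 < a i := fun i => (ha i).1
  have ha1 : ∀ i, a i ≤ 1 := fun i => (ha i).2
  have hq : 0 < 1 - a 0 * a 1 * a 2 := sub_pos.2 hp
  have hpp : 0 < a 0 * a 1 * a 2 := mul_pos (mul_pos (ha0 0) (ha0 1)) (ha0 2)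
  have hlow := truncW_lower (a 0) (a 1) (a 2) (ha0 0).le (ha1 0) (ha0 1).le (ha1 1) (ha0 2).le
    (ha1 2)
  have hu : 0 ≤ 1 - a 0 := sub_nonneg.2 (ha1 0)
  have hv : 0 ≤ 1 - a 1 := sub_nonneg.2 (ha1 1)
  have hw : 0 ≤ 1 - a 2 := sub_nonneg.2 (ha1 2)
  have t1 : 0 ≤ 4 * (1 - a 0) ^ 4 * (1 - a 1) ^ 4 * a 2 ^ 4 := by positivity
  have t2 : 0 ≤ 4 * (1 - a 0) ^ 4 * a 1 ^ 4 * (1 - a 2) ^ 4 := by positivity
  have t3 : 0 ≤ 4 * a 0 ^ 4 * (1 - a 1) ^ 4 * (1 - a 2) ^ 4 := by positivity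
  have hW : 0 ≤ truncW (a 0) (a 1) (a 2) := by linarith
  have hfrac : 0 ≤ a 0 * a 1 * a 2 * truncW (a 0) (a 1) (a 2) / (1 - a 0 * a 1 * a 2) ^ 6 :=
    div_nonneg (mul_nonneg hpp.le hW) (pow_nonneg hq.le 6)
  refine ⟨isCompact_truncTet a, convex_truncTet a, ?_, ?_, ?_⟩
  · rw [vol_truncTet ha0 ha1]
    linarith
  · rw [isoRatio_truncTet ha0 ha1 hp, isoRatio_stdSimp_three]
    nlinarith
  · rw [isoRatio_truncTet ha0 ha1 hp, isoRatio_stdSimp_three]
    constructor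
    · intro h
      have h1 : a 0 * a 1 * a 2 * truncW (a 0) (a 1) (a 2) / (1 - a 0 * a 1 * a 2) ^ 6 = 0 := by
        linarith
      have h2 : truncW (a 0) (a 1) (a 2) = 0 := by
        rcases div_eq_zero_iff.1 h1 with h3 | h3
        · rcases mul_eq_zero.1 h3 with h4 | h4
          · exact absurd h4 hpp.ne'
          · exact h4
        · exact absurd h3 (pow_ne_zero 6 hq.ne')
      have e1 : 4 * (1 - a 0) ^ 4 * (1 - a 1) ^ 4 * a 2 ^ 4 = 0 := by linarith
      have e2 : 4 * (1 - a 0) ^ 4 * a 1 ^ 4 * (1 - a 2) ^ 4 = 0 := by linarith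
      have e3 : 4 * a 0 ^ 4 * (1 - a 1) ^ 4 * (1 - a 2) ^ 4 = 0 := by linarith
      have c2 : a 2 ^ 4 ≠ 0 := pow_ne_zero 4 (ha0 2).ne'
      have c1 : a 1 ^ 4 ≠ 0 := pow_ne_zero 4 (ha0 1).ne'
      have c0 : a 0 ^ 4 ≠ 0 := pow_ne_zero 4 (ha0 0).ne'
      have f1 : 1 - a 0 = 0 ∨ 1 - a 1 = 0 := by
        rcases mul_eq_zero.1 e1 with h3 | h3
        · rcases mul_eq_zero.1 h3 with h4 | h4
          · rcases mul_eq_zero.1 h4 with h5 | h5
            · norm_num at h5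
            · exact Or.inl (pow_eq_zero_iff (by norm_num) |>.1 h5)
          · exact Or.inr (pow_eq_zero_iff (by norm_num) |>.1 h4)
        · exact absurd h3 c2
      have f2 : 1 - a 0 = 0 ∨ 1 - a 2 = 0 := by
        rcases mul_eq_zero.1 e2 with h3 | h3
        · rcases mul_eq_zero.1 h3 with h4 | h4
          · rcases mul_eq_zero.1 h4 with h5 | h5
            · norm_num at h5
            · exact Or.inl (pow_eq_zero_iff (by norm_num) |>.1 h5)
          · exact absurd h4 c1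
        · exact Or.inr (pow_eq_zero_iff (by norm_num) |>.1 h3)
      have f3 : 1 - a 1 = 0 ∨ 1 - a 2 = 0 := by
        rcases mul_eq_zero.1 e3 with h3 | h3
        · rcases mul_eq_zero.1 h3 with h4 | h4
          · rcases mul_eq_zero.1 h4 with h5 | h5
            · norm_num at h5
            · exact absurd h5 c0
          · exact Or.inl (pow_eq_zero_iff (by norm_num) |>.1 h4)
        · exact Or.inr (pow_eq_zero_iff (by norm_num) |>.1 h3)
      rcases f1 with g1 | g1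
      · rcases f3 with g3 | g3
        · exact Or.inl ⟨by linarith, by linarith⟩
        · exact Or.inr (Or.inl ⟨by linarith, by linarith⟩)
      · rcases f2 with g2 | g2
        · exact Or.inl ⟨by linarith, by linarith⟩
        · exact Or.inr (Or.inr ⟨by linarith, by linarith⟩)
    · rintro (⟨e0, e1⟩ | ⟨e0, e2⟩ | ⟨e1, e2⟩)
      · rw [e0, e1, truncW_one_one_right]
        simp
      · rw [e0, e2, truncW_one_one_mid]
        simp
      · rw [e1, e2, truncW_one_one_left]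
        simp

lemma convex_affImage {n : ℕ} (b : Fin n → ℝ) (U : Matrix (Fin n) (Fin n) ℝ)
    {S : Set (Fin n → ℝ)} (hS : Convex ℝ S) : Convex ℝ (affMap b U '' S) := by
  rintro _ ⟨t, ht, rfl⟩ _ ⟨t', ht', rfl⟩ s r hs hr hsr
  refine ⟨s • t + r • t', hS ht ht' hs hr hsr, ?_⟩
  have hr' : r = 1 - s := by linarith
  subst hr'
  funext i
  simp only [affMap, Pi.add_apply, Pi.smul_apply, smul_eq_mul, Matrix.mulVec_add,
    Matrix.mulVec_smul]
  ring

/-- Every tetrahedron with one corner cut off by a plane (an invertible affine image of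
`truncTet a`) satisfies the simplex bound, with equality exactly when it is a tetrahedron. -/
theorem truncTet_affine (a : Fin 3 → ℝ) (ha : ∀ i, 0 < a i ∧ a i ≤ 1)
    (hp : a 0 * a 1 * a 2 < 1) (b : Fin 3 → ℝ) (U : Matrix (Fin 3) (Fin 3) ℝ)
    (hU : U.det ≠ 0) :
    IsCompact (affMap b U '' truncTet a) ∧ Convex ℝ (affMap b U '' truncTet a) ∧
      0 < vol (affMap b U '' truncTet a) ∧
      isoRatio (affMap b U '' truncTet a) ≤ isoRatio (stdSimp (Fin 3)) ∧
      (isoRatio (affMap b U '' truncTet a) = isoRatio (stdSimp (Fin 3)) ↔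
        (a 0 = 1 ∧ a 1 = 1) ∨ (a 0 = 1 ∧ a 2 = 1) ∨ (a 1 = 1 ∧ a 2 = 1)) := by
  obtain ⟨hc, hcv, hV, hle, heq⟩ := truncTet_main a ha hp
  refine ⟨hc.image (continuous_affMap b U), convex_affImage b U hcv, ?_, ?_, ?_⟩
  · rw [vol_affImage b U hU hc.measurableSet]
    exact mul_pos (abs_pos.2 hU) hV
  · rw [isoRatio_affImage b U hU hc]
    exact hle
  · rw [isoRatio_affImage b U hU hc]
    exact heq

end

end Vale.Agent.Helper22
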