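import Vale.Agent.Helper22.TruncSimp
import Vale.Agent.Helper22.TruncTet

/-!
P254: the simplex bound for simplices with one vertex cut off, in every dimension, with its
equality case, from the inequality `StarW` for the variables that are not merged.
-/

namespace Vale.Agent.Helper22

open MeasureTheory Set

noncomputable section

variable {n : ℕ}

lemma wPsi_all_but_one {a : Fin n → ℝ} (ha : ∀ i, 0 < a i ∧ a i ≤ 1) (hp : ∏ i, a i < 1)
    (j : Fin n) (hj : ∀ i, i ≠ j → a i = 1) :
    wPsi Finset.univ a (∏ i, a i) = (1 - ∏ i, a i) ^ 3 := by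
  have hπ : ∏ i, a i = a j :=
    Finset.prod_eq_single j (fun i _ hi => hj i hi) (fun h => absurd (Finset.mem_univ j) h)
  rw [hπ] at hp ⊢
  have hq : 1 - a j ≠ 0 := (sub_pos.2 hp).ne'
  have e : wPsi Finset.univ a (a j) = wPsi {j} a (a j) := by
    unfold wPsi
    rw [Finset.prod_singleton, Finset.sum_singleton, Finset.sum_singleton, Finset.sum_singleton]
    have e1 : ∏ i, (1 - a j * a i ^ 2) / (1 - a j) = (1 - a j * a j ^ 2) / (1 - a j) := by
      refine Finset.prod_eq_single j (fun i _ hi => ?_) (fun h => absurd (Finset.mem_univ j) h)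
      rw [hj i hi]
      simp only [one_pow, mul_one]
      exact div_self hq
    have e2 : ∑ i, (1 - a i) ^ 2 / (1 - a j * a i ^ 2) = (1 - a j) ^ 2 / (1 - a j * a j ^ 2) := by
      refine Finset.sum_eq_single j (fun i _ hi => ?_) (fun h => absurd (Finset.mem_univ j) h)
      rw [hj i hi]; simp
    have e3 : ∑ i, (1 - a i) / (1 - a j * a i ^ 2) = (1 - a j) / (1 - a j * a j ^ 2) := by
      refine Finset.sum_eq_single j (fun i _ hi => ?_) (fun h => absurd (Finset.mem_univ j) h)
      rw [hj i hi]; simp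
    have e4 : ∑ i, a i * (1 - a i) / (1 - a j * a i ^ 2) =
        a j * (1 - a j) / (1 - a j * a j ^ 2) := by
      refine Finset.sum_eq_single j (fun i _ hi => ?_) (fun h => absurd (Finset.mem_univ j) h)
      rw [hj i hi]; simp
    rw [e1, e2, e3, e4]
  rw [e, wPsi_singleton j a (ha j).1 hp]

/-- Simplices with one vertex cut off satisfy the simplex bound, with equality exactly when the
cut leaves a simplex (all but at most one parameter equal to `1`). -/
theorem truncSimp_main_of (hstar : StarW (Fin n)) (a : Fin n → ℝ)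
    (ha : ∀ i, 0 < a i ∧ a i ≤ 1) (hp : ∏ i, a i < 1) :
    IsCompact (truncSimp a) ∧ Convex ℝ (truncSimp a) ∧ 0 < vol (truncSimp a) ∧
      isoRatio (truncSimp a) ≤ isoRatio (stdSimp (Fin n)) ∧
      (isoRatio (truncSimp a) = isoRatio (stdSimp (Fin n)) ↔ ∃ j, ∀ i, i ≠ j → a i = 1) := by
  have ha0 : ∀ i, 0 < a i := fun i => (ha i).1
  have ha1 : ∀ i, a i ≤ 1 := fun i => (ha i).2
  have hn : 0 < n := by
    rcases Nat.eq_zero_or_pos n with h | h
    · subst h
      simp at hp
    · exact h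
  have hq : 0 < 1 - ∏ i, a i := sub_pos.2 hp
  have hS : 0 < isoRatio (stdSimp (Fin n)) := isoRatio_stdSimp_pos
  have hW := wn_main hstar n Finset.univ a (Finset.card_fin n) (fun i _ => ha i) hp
  have hform := isoRatio_truncSimp ha0 ha1 hp ⟨0, hn⟩
  have hq3 : 0 < (1 - ∏ i, a i) ^ 3 := pow_pos hq 3
  refine ⟨isCompact_truncSimp a, convex_truncSimp a, ?_, ?_, ?_⟩
  · rw [vol_truncSimp ha0 ha1 ⟨0, hn⟩]
    exact div_pos hq (by positivity)
  · rw [hform]
    have h1 : wPsi Finset.univ a (∏ i, a i) / (1 - ∏ i, a i) ^ 3 ≤ 1 :=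
      (div_le_one hq3).2 hW.1
    nlinarith
  · rw [hform]
    constructor
    · intro h
      by_contra hne
      push_neg at hne
      have h1 : ∃ i₁, a i₁ < 1 := by
        by_contra hall
        push_neg at hall
        have : ∏ i, a i = 1 :=
          Finset.prod_eq_one fun i _ => le_antisymm (ha1 i) (hall i)
        linarith
      obtain ⟨i₁, hi₁⟩ := h1
      obtain ⟨i₂, hi₂, hai₂⟩ := hne i₁
      have hi₂' : a i₂ < 1 := lt_of_le_of_ne (ha1 i₂) hai₂
      have hlt := hW.2 i₁ (Finset.mem_univ _) i₂ (Finset.mem_univ _) (Ne.symm hi₂) hi₁ hi₂'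
      have h2 : wPsi Finset.univ a (∏ i, a i) / (1 - ∏ i, a i) ^ 3 < 1 := (div_lt_one hq3).2 hlt
      nlinarith
    · rintro ⟨j, hj⟩
      rw [wPsi_all_but_one ha hp j hj, div_self hq3.ne', mul_one]

/-- The same for every invertible affine image. -/
theorem truncSimp_affine_of (hstar : StarW (Fin n)) (a : Fin n → ℝ)
    (ha : ∀ i, 0 < a i ∧ a i ≤ 1) (hp : ∏ i, a i < 1) (b : Fin n → ℝ)
    (U : Matrix (Fin n) (Fin n) ℝ) (hU : U.det ≠ 0) :
    IsCompact (affMap b U '' truncSimp a) ∧ Convex ℝ (affMap b U '' truncSimp a) ∧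
      0 < vol (affMap b U '' truncSimp a) ∧
      isoRatio (affMap b U '' truncSimp a) ≤ isoRatio (stdSimp (Fin n)) ∧
      (isoRatio (affMap b U '' truncSimp a) = isoRatio (stdSimp (Fin n)) ↔
        ∃ j, ∀ i, i ≠ j → a i = 1) := by
  obtain ⟨hc, hcv, hV, hle, heq⟩ := truncSimp_main_of hstar a ha hp
  refine ⟨hc.image (continuous_affMap b U), convex_affImage b U hcv, ?_, ?_, ?_⟩
  · rw [vol_affImage b U hU hc.measurableSet]
    exact mul_pos (abs_pos.2 hU) hV
  · rw [isoRatio_affImage b U hU hc]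
    exact hle
  · rw [isoRatio_affImage b U hU hc]
    exact heq

end

end Vale.Agent.Helper22
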