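import Mathlib

/-!
Wedges (P254): prisms over a simplex with parallel lateral edges, below an affine roof.
-/

namespace Vale.Agent.Helper22

/-- The wedge over the standard simplex (in the coordinates `i.succ`) below the affine roof with
height `h 0` over the origin and `h i.succ` over the `i`-th unit vector, in direction of the
coordinate `0`. -/
def wedge {m : ℕ} (h : Fin (m + 1) → ℝ) : Set (Fin (m + 1) → ℝ) :=
  {z | (∀ i : Fin m, 0 ≤ z i.succ) ∧ ∑ i : Fin m, z i.succ ≤ 1 ∧ 0 ≤ z 0 ∧
    z 0 ≤ h 0 * (1 - ∑ i : Fin m, z i.succ) + ∑ i : Fin m, h i.succ * z i.succ}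

end Vale.Agent.Helper22
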