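import Vale.Agent.Helper22.TruncSimpFinal
import Vale.Agent.Helper22.IsoLimit
import Vale.Agent.Helper22.WedgeDefs

/-!
P254: the simplex bound for wedges (prisms over a simplex with parallel lateral edges and an
affine roof), as limits of simplices with one vertex cut off.
-/

namespace Vale.Agent.Helper22

open MeasureTheory Set Filter Topology

noncomputable section

variable {m : ℕ}

/-- Truncated simplices that exhaust the wedge as `ε → 0`. -/
def wedgeApprox (h : Fin (m + 1) → ℝ) (ε : ℝ) : Set (Fin (m + 1) → ℝ) :=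
  {z | (∀ i : Fin m, 0 ≤ z i.succ) ∧ 0 ≤ z 0 ∧ 0 ≤ 1 - ε * z 0 - ∑ i : Fin m, z i.succ ∧
    z 0 ≤ h 0 * (1 - ε * z 0 - ∑ i : Fin m, z i.succ) + ∑ i : Fin m, h i.succ * z i.succ}

/-- The matrix of the affine map from the truncated simplex to `wedgeApprox`. -/
def wedgeMat (m : ℕ) (ε : ℝ) : Matrix (Fin (m + 1)) (Fin (m + 1)) ℝ :=
  Matrix.of fun i k => if i = 0 then -(1 / ε) else if i = k then 1 else 0

lemma wedge_affMap_zero (ε : ℝ) (x : Fin (m + 1) → ℝ) :
    affMap (Pi.single 0 (1 / ε)) (wedgeMat m ε) x 0 = (1 - ∑ k, x k) / ε := by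
  rw [affMap_apply]
  simp only [wedgeMat, Matrix.of_apply, if_true, Pi.single_eq_same, ← Finset.mul_sum]
  ring

lemma wedge_affMap_succ (ε : ℝ) (x : Fin (m + 1) → ℝ) (i : Fin m) :
    affMap (Pi.single 0 (1 / ε)) (wedgeMat m ε) x i.succ = x i.succ := by
  rw [affMap_apply]
  simp [wedgeMat, Fin.succ_ne_zero]

lemma det_wedgeMat_ne_zero {ε : ℝ} (hε : ε ≠ 0) : (wedgeMat m ε).det ≠ 0 := by
  have hinj : Function.Injective (wedgeMat m ε).mulVec := by
    intro x y hxy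
    have hxy' : affMap (Pi.single 0 (1 / ε)) (wedgeMat m ε) x =
        affMap (Pi.single 0 (1 / ε)) (wedgeMat m ε) y := by
      unfold affMap
      rw [hxy]
    have hs : ∀ i : Fin m, x i.succ = y i.succ := by
      intro i
      have := congrFun hxy' i.succ
      rwa [wedge_affMap_succ, wedge_affMap_succ] at this
    have h0 := congrFun hxy' 0
    rw [wedge_affMap_zero, wedge_affMap_zero, div_left_inj' hε, Fin.sum_univ_succ,
      Fin.sum_univ_succ] at h0
    simp only [hs] at h0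
    funext k
    rcases Fin.eq_zero_or_eq_succ k with rfl | ⟨i, rfl⟩
    · linarith
    · exact hs i
  exact ((Matrix.isUnit_iff_isUnit_det _).1 (Matrix.mulVec_injective_iff_isUnit.1 hinj)).ne_zero

lemma wedgeApprox_eq_image (h : Fin (m + 1) → ℝ) {ε : ℝ} (hε : 0 < ε) :
    wedgeApprox h ε = affMap (Pi.single 0 (1 / ε)) (wedgeMat m ε) ''
      truncSimp (fun k => 1 / (1 + ε * h k)) := by
  have e : ∀ (x : Fin (m + 1) → ℝ) (k : Fin (m + 1)),
      x k / (1 / (1 + ε * h k)) = x k + ε * (h k * x k) := by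
    intro x k
    rw [div_div_eq_mul_div, div_one]
    ring
  ext z
  constructor
  · rintro ⟨hz1, hz0, hz2, hz3⟩
    obtain ⟨x, hx⟩ : ∃ x : Fin (m + 1) → ℝ,
        x = Function.update z 0 (1 - ε * z 0 - ∑ i : Fin m, z i.succ) := ⟨_, rfl⟩
    have hx0 : x 0 = 1 - ε * z 0 - ∑ i : Fin m, z i.succ := by
      rw [hx, Function.update_self]
    have hxs : ∀ i : Fin m, x i.succ = z i.succ := fun i => by
      rw [hx, Function.update_of_ne (Fin.succ_ne_zero i)]
    have hsum : ∑ k, x k = 1 - ε * z 0 := by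
      rw [Fin.sum_univ_succ, hx0]
      simp only [hxs]
      ring
    have hsum2 : ∑ k, h k * x k =
        h 0 * (1 - ε * z 0 - ∑ i : Fin m, z i.succ) + ∑ i : Fin m, h i.succ * z i.succ := by
      rw [Fin.sum_univ_succ, hx0]
      simp only [hxs]
    refine ⟨x, ⟨?_, ?_, ?_⟩, ?_⟩
    · intro k
      rcases Fin.eq_zero_or_eq_succ k with rfl | ⟨i, rfl⟩
      · rw [hx0]
        exact hz2
      · rw [hxs]
        exact hz1 i
    · rw [hsum]
      nlinarith [mul_nonneg hε.le hz0]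
    · simp only [e]
      rw [Finset.sum_add_distrib, ← Finset.mul_sum, hsum, hsum2]
      nlinarith [mul_le_mul_of_nonneg_left hz3 hε.le]
    · funext k
      rcases Fin.eq_zero_or_eq_succ k with rfl | ⟨i, rfl⟩
      · rw [wedge_affMap_zero, hsum]
        field_simp
        ring
      · rw [wedge_affMap_succ, hxs]
  · rintro ⟨x, ⟨hx0, hx1, hx2⟩, rfl⟩
    simp only [e] at hx2
    rw [Finset.sum_add_distrib, ← Finset.mul_sum] at hx2
    have hs := Fin.sum_univ_succ x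
    have hs2 : ∑ k, h k * x k = h 0 * x 0 + ∑ i : Fin m, h i.succ * x i.succ :=
      Fin.sum_univ_succ (fun k => h k * x k)
    have he : ε * ((1 - ∑ k, x k) / ε) = 1 - ∑ k, x k := by
      field_simp
    refine ⟨fun i => ?_, ?_, ?_, ?_⟩
    · rw [wedge_affMap_succ]
      exact hx0 _
    · rw [wedge_affMap_zero]
      exact div_nonneg (by linarith) hε.le
    · rw [wedge_affMap_zero]
      simp only [wedge_affMap_succ]
      rw [he, hs]
      linarith [hx0 0]
    · rw [wedge_affMap_zero]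
      simp only [wedge_affMap_succ]
      rw [he, div_le_iff₀ hε]
      have e3 : 1 - (1 - ∑ k, x k) - ∑ i : Fin m, x i.succ = x 0 := by
        rw [hs]
        ring
      rw [e3]
      nlinarith

lemma wedgeApprox_facts (h : Fin (m + 1) → ℝ) (hh : ∀ k, 0 ≤ h k) (hpos : ∃ k, 0 < h k)
    {ε : ℝ} (hε : 0 < ε) :
    IsCompact (wedgeApprox h ε) ∧ 0 < vol (wedgeApprox h ε) ∧
      isoRatio (wedgeApprox h ε) ≤ isoRatio (stdSimp (Fin (m + 1))) := by
  rw [wedgeApprox_eq_image h hε]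
  have ha : ∀ k, 0 < 1 / (1 + ε * h k) ∧ 1 / (1 + ε * h k) ≤ 1 := by
    intro k
    have h1 : 0 ≤ ε * h k := mul_nonneg hε.le (hh k)
    refine ⟨by positivity, ?_⟩
    rw [div_le_one (by linarith)]
    linarith
  have hp : ∏ k, 1 / (1 + ε * h k) < 1 := by
    obtain ⟨k, hk⟩ := hpos
    have hak : 1 / (1 + ε * h k) < 1 := by
      have h1 : 0 < ε * h k := mul_pos hε hk
      rw [div_lt_one (by linarith)]
      linarith
    have := Finset.prod_lt_prod (s := Finset.univ) (f := fun k => 1 / (1 + ε * h k))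
      (g := fun _ => (1:ℝ)) (fun i _ => (ha i).1) (fun i _ => (ha i).2)
      ⟨k, Finset.mem_univ k, hak⟩
    simpa using this
  obtain ⟨g1, -, g3, g4, -⟩ := truncSimp_affine (fun k => 1 / (1 + ε * h k)) ha hp
    (Pi.single 0 (1 / ε)) (wedgeMat m ε) (det_wedgeMat_ne_zero hε.ne')
  exact ⟨g1, g3, g4⟩

lemma wedgeApprox_mono (h : Fin (m + 1) → ℝ) (h0 : 0 ≤ h 0) {ε ε' : ℝ} (hle : ε' ≤ ε) :
    wedgeApprox h ε ⊆ wedgeApprox h ε' := by
  rintro z ⟨hz1, hz0, hz2, hz3⟩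
  have e1 : ε' * z 0 ≤ ε * z 0 := mul_le_mul_of_nonneg_right hle hz0
  refine ⟨hz1, hz0, by linarith, ?_⟩
  have e2 : h 0 * (1 - ε * z 0 - ∑ i : Fin m, z i.succ) ≤
      h 0 * (1 - ε' * z 0 - ∑ i : Fin m, z i.succ) :=
    mul_le_mul_of_nonneg_left (by linarith) h0
  linarith

lemma wedgeApprox_subset_wedge (h : Fin (m + 1) → ℝ) (h0 : 0 ≤ h 0) {ε : ℝ} (hε : 0 ≤ ε) :
    wedgeApprox h ε ⊆ wedge h := by
  rintro z ⟨hz1, hz0, hz2, hz3⟩
  have e1 : 0 ≤ ε * z 0 := mul_nonneg hε hz0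
  refine ⟨hz1, by linarith, hz0, ?_⟩
  have e2 : h 0 * (1 - ε * z 0 - ∑ i : Fin m, z i.succ) ≤
      h 0 * (1 - ∑ i : Fin m, z i.succ) :=
    mul_le_mul_of_nonneg_left (by linarith) h0
  linarith

/-- The exhausting sequence. -/
def wedgeSeq (h : Fin (m + 1) → ℝ) (j : ℕ) : Set (Fin (m + 1) → ℝ) :=
  wedgeApprox h (1 / ((j : ℝ) + 1))

lemma wedgeSeq_mono (h : Fin (m + 1) → ℝ) (h0 : 0 ≤ h 0) : Monotone (wedgeSeq h) := by
  intro i j hij
  apply wedgeApprox_mono h h0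
  apply one_div_le_one_div_of_le (by positivity)
  have : (i : ℝ) ≤ j := by exact_mod_cast hij
  linarith

lemma wedge_diff_subset (h : Fin (m + 1) → ℝ) (h0 : 0 ≤ h 0) :
    wedge h \ (⋃ j : ℕ, wedgeSeq h j) ⊆
      {z | ∑ i : Fin m, z i.succ = 1} ∪
        {z | z 0 = h 0 * (1 - ∑ i : Fin m, z i.succ) + ∑ i : Fin m, h i.succ * z i.succ} := by
  rintro z ⟨⟨hz1, hz2, hz0, hz3⟩, hnot⟩
  by_contra hcon
  have hc1 : ¬ (∑ i : Fin m, z i.succ = 1) := fun hc => hcon (Or.inl hc)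
  have hc2 : ¬ (z 0 = h 0 * (1 - ∑ i : Fin m, z i.succ) + ∑ i : Fin m, h i.succ * z i.succ) :=
    fun hc => hcon (Or.inr hc)
  have hlt1 : ∑ i : Fin m, z i.succ < 1 := lt_of_le_of_ne hz2 hc1
  have hlt2 : z 0 < h 0 * (1 - ∑ i : Fin m, z i.succ) + ∑ i : Fin m, h i.succ * z i.succ :=
    lt_of_le_of_ne hz3 hc2
  apply hnot
  obtain ⟨δ, hδ⟩ : ∃ δ, δ = min (1 - ∑ i : Fin m, z i.succ)
      (h 0 * (1 - ∑ i : Fin m, z i.succ) + ∑ i : Fin m, h i.succ * z i.succ - z 0) := ⟨_, rfl⟩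
  have hδ0 : 0 < δ := by
    rw [hδ]
    exact lt_min (by linarith) (by linarith)
  have hδ1 : δ ≤ 1 - ∑ i : Fin m, z i.succ := by
    rw [hδ]
    exact min_le_left _ _
  have hδ2 : δ ≤ h 0 * (1 - ∑ i : Fin m, z i.succ) + ∑ i : Fin m, h i.succ * z i.succ - z 0 := by
    rw [hδ]
    exact min_le_right _ _
  have hD : 0 < z 0 * (1 + h 0) + 1 := by
    have : 0 ≤ z 0 * (1 + h 0) := mul_nonneg hz0 (by linarith)
    linarith
  obtain ⟨j, hj⟩ := exists_nat_one_div_lt (div_pos hδ0 hD)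
  rw [lt_div_iff₀ hD] at hj
  have hεpos : (0:ℝ) < 1 / ((j : ℝ) + 1) := by positivity
  have e1 : 1 / ((j : ℝ) + 1) * z 0 ≤ δ := by nlinarith [mul_nonneg hz0 h0]
  have e2 : h 0 * (1 / ((j : ℝ) + 1) * z 0) ≤ δ := by
    have : h 0 * (1 / ((j : ℝ) + 1) * z 0) = 1 / ((j : ℝ) + 1) * (z 0 * h 0) := by ring
    rw [this]
    nlinarith [mul_nonneg hz0 h0]
  refine mem_iUnion.2 ⟨j, hz1, hz0, by linarith, ?_⟩
  have e3 : h 0 * (1 - 1 / ((j : ℝ) + 1) * z 0 - ∑ i : Fin m, z i.succ) =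
      h 0 * (1 - ∑ i : Fin m, z i.succ) - h 0 * (1 / ((j : ℝ) + 1) * z 0) := by ring
  rw [e3]
  linarith

lemma wedge_null1 :
    volume {z : Fin (m + 1) → ℝ | ∑ i : Fin m, z i.succ = 1} = 0 := by
  rcases Nat.eq_zero_or_pos m with hm | hm
  · subst hm
    have e : {z : Fin (0 + 1) → ℝ | ∑ i : Fin 0, z i.succ = 1} = ∅ := by
      ext z
      simp
    rw [e]
    exact measure_empty
  · have hv : (Fin.cons 0 (fun _ => 1) : Fin (m + 1) → ℝ) ≠ 0 := by
      intro h0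
      have := congrFun h0 (Fin.succ ⟨0, hm⟩)
      simp only [Fin.cons_succ, Pi.zero_apply] at this
      exact one_ne_zero this
    refine measure_mono_null ?_ (hyperplane_null hv 1)
    intro z hz
    show (Fin.cons 0 (fun _ => 1) : Fin (m + 1) → ℝ) ⬝ᵥ z = 1
    rw [dotProduct, Fin.sum_univ_succ]
    simp only [Fin.cons_zero, Fin.cons_succ, zero_mul, zero_add, one_mul]
    exact hz

lemma wedge_null2 (h : Fin (m + 1) → ℝ) :
    volume {z : Fin (m + 1) → ℝ |
      z 0 = h 0 * (1 - ∑ i : Fin m, z i.succ) + ∑ i : Fin m, h i.succ * z i.succ} = 0 := by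
  have hv : (Fin.cons 1 (fun i : Fin m => h 0 - h i.succ) : Fin (m + 1) → ℝ) ≠ 0 := by
    intro h0
    have := congrFun h0 0
    simp at this
  refine measure_mono_null ?_ (hyperplane_null hv (h 0))
  intro z hz
  show (Fin.cons 1 (fun i : Fin m => h 0 - h i.succ) : Fin (m + 1) → ℝ) ⬝ᵥ z = h 0
  rw [dotProduct, Fin.sum_univ_succ]
  simp only [Fin.cons_zero, Fin.cons_succ, one_mul]
  have hz' : z 0 = h 0 * (1 - ∑ i : Fin m, z i.succ) + ∑ i : Fin m, h i.succ * z i.succ := hz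
  have e : ∑ i : Fin m, (h 0 - h i.succ) * z i.succ =
      h 0 * ∑ i : Fin m, z i.succ - ∑ i : Fin m, h i.succ * z i.succ := by
    rw [Finset.mul_sum, ← Finset.sum_sub_distrib]
    exact Finset.sum_congr rfl fun i _ => by ring
  rw [e, hz']
  ring

lemma wedge_eq_inter (h : Fin (m + 1) → ℝ) :
    wedge h = ((⋂ i : Fin m, {z : Fin (m + 1) → ℝ | 0 ≤ z i.succ}) ∩
        {z | ∑ i : Fin m, z i.succ ≤ 1}) ∩
      ({z | 0 ≤ z 0} ∩
        {z | z 0 ≤ h 0 * (1 - ∑ i : Fin m, z i.succ) + ∑ i : Fin m, h i.succ * z i.succ}) := by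
  ext z
  constructor
  · rintro ⟨h1, h2, h3, h4⟩
    exact ⟨⟨mem_iInter.2 h1, h2⟩, h3, h4⟩
  · rintro ⟨⟨h1, h2⟩, h3, h4⟩
    exact ⟨mem_iInter.1 h1, h2, h3, h4⟩

lemma isClosed_wedge (h : Fin (m + 1) → ℝ) : IsClosed (wedge h) := by
  rw [wedge_eq_inter]
  have c1 : Continuous (fun z : Fin (m + 1) → ℝ =>
      h 0 * (1 - ∑ i : Fin m, z i.succ) + ∑ i : Fin m, h i.succ * z i.succ) := by fun_prop
  have c2 : Continuous (fun z : Fin (m + 1) → ℝ => ∑ i : Fin m, z i.succ) := by fun_prop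
  exact ((isClosed_iInter fun i => isClosed_le continuous_const (continuous_apply _)).inter
    (isClosed_le c2 continuous_const)).inter
    ((isClosed_le continuous_const (continuous_apply 0)).inter
      (isClosed_le (continuous_apply 0) c1))

lemma isCompact_wedge (h : Fin (m + 1) → ℝ) (hh : ∀ k, 0 ≤ h k) : IsCompact (wedge h) := by
  refine (isCompact_Icc (a := (0 : Fin (m + 1) → ℝ))
    (b := Fin.cons (h 0 + ∑ i : Fin m, h i.succ) (fun _ => 1))).of_isClosed_subset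
    (isClosed_wedge h) ?_
  rintro z ⟨hz1, hz2, hz0, hz3⟩
  have hzs : ∀ i : Fin m, z i.succ ≤ 1 := fun i =>
    (Finset.single_le_sum (fun j _ => hz1 j) (Finset.mem_univ i)).trans hz2
  have hS : 0 ≤ ∑ i : Fin m, z i.succ := Finset.sum_nonneg fun i _ => hz1 i
  constructor
  · intro k
    rcases Fin.eq_zero_or_eq_succ k with rfl | ⟨i, rfl⟩
    · exact hz0
    · exact hz1 i
  · intro k
    rcases Fin.eq_zero_or_eq_succ k with rfl | ⟨i, rfl⟩
    · rw [Fin.cons_zero]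
      have e1 : h 0 * (1 - ∑ i : Fin m, z i.succ) ≤ h 0 := by
        nlinarith [hh 0]
      have e2 : ∑ i : Fin m, h i.succ * z i.succ ≤ ∑ i : Fin m, h i.succ :=
        Finset.sum_le_sum fun i _ => by nlinarith [hh i.succ, hzs i, hz1 i]
      linarith
    · rw [Fin.cons_succ]
      exact hzs i

lemma convex_wedge (h : Fin (m + 1) → ℝ) : Convex ℝ (wedge h) := by
  intro x hx y hy s t hs ht hst
  obtain ⟨hx1, hx2, hx0, hx3⟩ := hx
  obtain ⟨hy1, hy2, hy0, hy3⟩ := hy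
  obtain rfl : t = 1 - s := by linarith
  have e1 : ∑ i : Fin m, (s • x + (1 - s) • y) i.succ =
      s * ∑ i : Fin m, x i.succ + (1 - s) * ∑ i : Fin m, y i.succ := by
    simp only [Pi.add_apply, Pi.smul_apply, smul_eq_mul, Finset.sum_add_distrib,
      Finset.mul_sum]
  have e2 : ∑ i : Fin m, h i.succ * (s • x + (1 - s) • y) i.succ =
      s * ∑ i : Fin m, h i.succ * x i.succ + (1 - s) * ∑ i : Fin m, h i.succ * y i.succ := by
    simp only [Pi.add_apply, Pi.smul_apply, smul_eq_mul, Finset.mul_sum,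
      ← Finset.sum_add_distrib]
    refine Finset.sum_congr rfl fun i _ => ?_
    ring
  refine ⟨fun i => ?_, ?_, ?_, ?_⟩
  · simp only [Pi.add_apply, Pi.smul_apply, smul_eq_mul]
    exact add_nonneg (mul_nonneg hs (hx1 i)) (mul_nonneg ht (hy1 i))
  · rw [e1]
    nlinarith
  · simp only [Pi.add_apply, Pi.smul_apply, smul_eq_mul]
    exact add_nonneg (mul_nonneg hs hx0) (mul_nonneg ht hy0)
  · rw [e1, e2]
    simp only [Pi.add_apply, Pi.smul_apply, smul_eq_mul]
    nlinarith [mul_le_mul_of_nonneg_left hx3 hs, mul_le_mul_of_nonneg_left hy3 ht]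

/-- The simplex bound for wedges. -/
theorem wedge_main (h : Fin (m + 1) → ℝ) (hh : ∀ k, 0 ≤ h k) (hpos : ∃ k, 0 < h k) :
    IsCompact (wedge h) ∧ Convex ℝ (wedge h) ∧ 0 < vol (wedge h) ∧
      isoRatio (wedge h) ≤ isoRatio (stdSimp (Fin (m + 1))) := by
  have hcomp := isCompact_wedge h hh
  have hεpos : ∀ j : ℕ, (0:ℝ) < 1 / ((j : ℝ) + 1) := fun j => by positivity
  have hfacts : ∀ j, IsCompact (wedgeSeq h j) ∧ 0 < vol (wedgeSeq h j) ∧
      isoRatio (wedgeSeq h j) ≤ isoRatio (stdSimp (Fin (m + 1))) :=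
    fun j => wedgeApprox_facts h hh hpos (hεpos j)
  have hKm : ∀ j, MeasurableSet (wedgeSeq h j) := fun j => (hfacts j).1.measurableSet
  have hmono := wedgeSeq_mono h (hh 0)
  have hsub : (⋃ j, wedgeSeq h j) ⊆ wedge h :=
    iUnion_subset fun j => wedgeApprox_subset_wedge h (hh 0) (hεpos j).le
  have hae : (⋃ j, wedgeSeq h j) =ᵐ[volume] wedge h := by
    rw [ae_eq_set]
    refine ⟨?_, ?_⟩
    · rw [Set.sdiff_eq_empty.2 hsub]
      exact measure_empty
    · exact measure_mono_null (wedge_diff_subset h (hh 0))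
        (measure_union_null wedge_null1 (wedge_null2 h))
  have hU := isoRatio_congr_ae hae
  have hvU : vol (⋃ j, wedgeSeq h j) = vol (wedge h) := by
    unfold vol
    rw [measure_congr hae]
  have hvpos : 0 < vol (⋃ j, wedgeSeq h j) := by
    have hle : vol (wedgeSeq h 0) ≤ vol (⋃ j, wedgeSeq h j) := by
      unfold vol
      exact ENNReal.toReal_mono (((measure_mono hsub).trans_lt hcomp.measure_lt_top).ne)
        (measure_mono (subset_iUnion (wedgeSeq h) 0))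
    exact lt_of_lt_of_le (hfacts 0).2.1 hle
  have hlim := isoRatio_tendsto_of_monotone (wedgeSeq h) hKm hmono hcomp hsub hvpos
  have hle : isoRatio (⋃ j, wedgeSeq h j) ≤ isoRatio (stdSimp (Fin (m + 1))) :=
    le_of_tendsto' hlim fun j => (hfacts j).2.2
  refine ⟨hcomp, convex_wedge h, ?_, ?_⟩
  · rw [← hvU]
    exact hvpos
  · rw [← hU]
    exact hle

/-- The simplex bound for affine images of wedges. -/
theorem wedge_affine (h : Fin (m + 1) → ℝ) (hh : ∀ k, 0 ≤ h k) (hpos : ∃ k, 0 < h k)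
    (b : Fin (m + 1) → ℝ) (U : Matrix (Fin (m + 1)) (Fin (m + 1)) ℝ) (hU : U.det ≠ 0) :
    IsCompact (affMap b U '' wedge h) ∧ Convex ℝ (affMap b U '' wedge h) ∧
      0 < vol (affMap b U '' wedge h) ∧
      isoRatio (affMap b U '' wedge h) ≤ isoRatio (stdSimp (Fin (m + 1))) := by
  obtain ⟨hc, hcv, hV, hle⟩ := wedge_main h hh hpos
  refine ⟨hc.image (continuous_affMap b U), convex_affImage b U hcv, ?_, ?_⟩
  · rw [vol_affImage b U hU hc.measurableSet]
    exact mul_pos (abs_pos.2 hU) hV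
  · rw [isoRatio_affImage b U hU hc]
    exact hle

end

end Vale.Agent.Helper22
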